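import Vale.Agent.Lib.P150.Defs
import Vale.Agent.Lib.P335.Spec

/-!
P150, module ABS: from `|Lf|^2 ≥ k <f, Lf>` to the Poincare inequality, for every positive weight.
-/

open Finset

namespace Vale.Agent.P150

variable {n : ℕ}

theorem ABS_pair_sum (i : Fin n) (F : Cfg n → ℝ) :
    ∑ x, F x = ∑ x, (F (st x i true) + F (st x i false)) / 2 := by
  have hinv : Function.Involutive fun x : Cfg n => st x i (!x i) := by
    intro x
    simp only [st, Function.update_self, Bool.not_not, Function.update_idem,
      Function.update_eq_self]
  have h1 : ∑ x, F (st x i (!x i)) = ∑ x, F x :=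
    Equiv.sum_comp (hinv.toPerm (fun x : Cfg n => st x i (!x i))) F
  have h2 : ∀ x : Cfg n, F (st x i true) + F (st x i false) = F x + F (st x i (!x i)) := by
    intro x
    have e : st x i (x i) = x := Function.update_eq_self i x
    rcases hx : x i with _ | _
    · rw [hx] at e
      rw [e, Bool.not_false, add_comm]
    · rw [hx] at e
      rw [e, Bool.not_true]
  rw [← sum_div, sum_congr rfl fun x _ => h2 x, sum_add_distrib, h1]
  ring

theorem ABS_st_st (x : Cfg n) (i : Fin n) (b c : Bool) : st (st x i b) i c = st x i c := by
  simp [st]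

theorem ABS_hb_st (w : Cfg n → ℝ) (i : Fin n) (f : Cfg n → ℝ) (x : Cfg n) (b : Bool) :
    hb w i f (st x i b) = hb w i f x := by
  unfold hb
  simp only [ABS_st_st]

theorem ABS_symm (w : Cfg n → ℝ) (i : Fin n) (f g : Cfg n → ℝ) :
    ∑ x, w x * (hb w i f x * g x) = ∑ x, w x * (f x * hb w i g x) := by
  rw [ABS_pair_sum i (fun x => w x * (hb w i f x * g x)),
    ABS_pair_sum i (fun x => w x * (f x * hb w i g x))]
  refine sum_congr rfl fun x _ => ?_
  simp only [ABS_hb_st]
  unfold hb
  ring

theorem ABS_proj (w : Cfg n → ℝ) (hw : ∀ x, 0 < w x) (i : Fin n) (f : Cfg n → ℝ) :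
    ∑ x, w x * ((f x - hb w i f x) * f x) = ∑ x, w x * (f x - hb w i f x) ^ 2 := by
  rw [ABS_pair_sum i (fun x => w x * ((f x - hb w i f x) * f x)),
    ABS_pair_sum i (fun x => w x * (f x - hb w i f x) ^ 2)]
  refine sum_congr rfl fun x _ => ?_
  simp only [ABS_hb_st]
  have h1 := hw (st x i true)
  have h2 := hw (st x i false)
  have h3 : (w (st x i true) + w (st x i false)) * hb w i f x =
      w (st x i true) * f (st x i true) + w (st x i false) * f (st x i false) := by
    unfold hb
    field_simp
  have h4 : hb w i f x * ((w (st x i true) + w (st x i false)) * hb w i f x) =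
      hb w i f x * (w (st x i true) * f (st x i true) + w (st x i false) * f (st x i false)) := by
    rw [h3]
  linarith [h4]

theorem ABS_const (f : Cfg n → ℝ) (h : ∀ x i, f (st x i true) = f (st x i false)) (x y : Cfg n) :
    f x = f y := by
  have h1 : ∀ (x : Cfg n) i b, f (st x i b) = f x := by
    intro x i b
    have e : st x i (x i) = x := Function.update_eq_self i x
    rcases hx : x i with _ | _ <;> rcases b with _ | _ <;> rw [hx] at e
    · rw [e]
    · rw [h x i, e]
    · rw [← h x i, e]
    · rw [e]
  have h2 : ∀ S : Finset (Fin n), f (S.piecewise y x) = f x := by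
    intro S
    induction S using Finset.induction_on with
    | empty => rw [Finset.piecewise_empty]
    | insert j S _ ih =>
      rw [Finset.piecewise_insert]
      exact (h1 _ j (y j)).trans ih
  have h3 := h2 univ
  rw [Finset.piecewise_univ] at h3
  exact h3.symm

theorem poincare_of_bochner {n : ℕ} (w : Cfg n → ℝ) (hw : ∀ x, 0 < w x) (k : ℝ) (hk : 0 < k)
    (hb' : ∀ f : Cfg n → ℝ, k * dir w f ≤ ∑ x, w x * (∑ i, (f x - hb w i f x)) ^ 2)
    (f : Cfg n → ℝ) : k * uvar w f ≤ dir w f := by
  set s : Cfg n → ℝ := fun x => Real.sqrt (w x) with hs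
  have hs0 : ∀ x, 0 < s x := fun x => Real.sqrt_pos.mpr (hw x)
  have hss : ∀ x, s x * s x = w x := fun x => Real.mul_self_sqrt (hw x).le
  -- the generator as a linear map
  let B : (Cfg n → ℝ) →ₗ[ℝ] (Cfg n → ℝ) :=
    { toFun := fun f x => ∑ i, (f x - hb w i f x)
      map_add' := by
        intro f g
        funext x
        simp only [Pi.add_apply]
        rw [← sum_add_distrib]
        refine sum_congr rfl fun i _ => ?_
        unfold hb
        simp only [Pi.add_apply]
        ring
      map_smul' := by
        intro c f
        funext x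
        simp only [Pi.smul_apply, smul_eq_mul, RingHom.id_apply, mul_sum]
        refine sum_congr rfl fun i _ => ?_
        unfold hb
        simp only [Pi.smul_apply, smul_eq_mul]
        ring }
  have hB : ∀ f x, B f x = ∑ i, (f x - hb w i f x) := fun f x => rfl
  let A : (Cfg n → ℝ) →ₗ[ℝ] (Cfg n → ℝ) :=
    { toFun := fun g x => s x * B (fun y => g y / s y) x
      map_add' := by
        intro f g
        funext x
        have e : (fun y => (f + g) y / s y) = (fun y => f y / s y) + fun y => g y / s y := by
          funext y
          simp only [Pi.add_apply]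
          ring
        rw [e, map_add]
        simp only [Pi.add_apply]
        ring
      map_smul' := by
        intro c f
        funext x
        have e : (fun y => (c • f) y / s y) = c • fun y => f y / s y := by
          funext y
          simp only [Pi.smul_apply, smul_eq_mul]
          ring
        rw [e, map_smul]
        simp only [Pi.smul_apply, smul_eq_mul, RingHom.id_apply]
        ring }
  have hA : ∀ g x, A g x = s x * B (fun y => g y / s y) x := fun g x => rfl
  have hBsymm : ∀ f g, ∑ x, w x * (B f x * g x) = ∑ x, w x * (f x * B g x) := by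
    intro f g
    simp only [hB, sum_mul, mul_sum]
    rw [sum_comm]
    conv_rhs => rw [sum_comm]
    refine sum_congr rfl fun i _ => ?_
    have e1 : ∀ x, w x * ((f x - hb w i f x) * g x) =
        w x * (f x * g x) - w x * (hb w i f x * g x) := fun x => by ring
    have e2 : ∀ x, w x * (f x * (g x - hb w i g x)) =
        w x * (f x * g x) - w x * (f x * hb w i g x) := fun x => by ring
    rw [sum_congr rfl fun x _ => e1 x, sum_congr rfl fun x _ => e2 x, sum_sub_distrib,
      sum_sub_distrib, ABS_symm]
  have hdir : ∀ f, ∑ x, w x * (B f x * f x) = dir w f := by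
    intro f
    simp only [hB, sum_mul, mul_sum]
    rw [sum_comm]
    unfold dir
    exact sum_congr rfl fun i _ => ABS_proj w hw i f
  have hAsymm : ∀ f g, ∑ x, A f x * g x = ∑ x, f x * A g x := by
    intro f g
    have h1 := hBsymm (fun y => f y / s y) (fun y => g y / s y)
    have e1 : ∀ x, A f x * g x = w x * (B (fun y => f y / s y) x * (g x / s x)) := by
      intro x
      have := (hs0 x).ne'
      rw [hA, ← hss x]
      field_simp
    have e2 : ∀ x, f x * A g x = w x * (f x / s x * B (fun y => g y / s y) x) := by
      intro x
      have := (hs0 x).ne'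
      rw [hA, ← hss x]
      field_simp
    rw [sum_congr rfl fun x _ => e1 x, sum_congr rfl fun x _ => e2 x]
    exact h1
  have hAdir : ∀ g, ∑ x, A g x * g x = dir w (fun y => g y / s y) := by
    intro g
    rw [← hdir]
    refine sum_congr rfl fun x _ => ?_
    have := (hs0 x).ne'
    rw [hA, ← hss x]
    field_simp
  have hdir0 : ∀ f, 0 ≤ dir w f := fun f =>
    sum_nonneg fun i _ => sum_nonneg fun x _ => mul_nonneg (hw x).le (sq_nonneg _)
  have hAsq : ∀ g, ∑ x, (A g x) ^ 2 = ∑ x, w x * (∑ i, (g x / s x - hb w i (fun y => g y / s y) x)) ^ 2 := by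
    intro g
    refine sum_congr rfl fun x _ => ?_
    rw [hA, mul_pow, sq (s x), hss x, hB]
  have hS : 0 < ∑ x, w x := sum_pos (fun x _ => hw x) univ_nonempty
  have key := Lib.P335.spec_gap A hAsymm k hk (fun g => by rw [hAdir]; exact hdir0 _)
    (fun g => by
      rw [hAdir, hAsq]
      exact hb' _)
    (fun x => s x * (f x - mean w f)) ?_
  · have e1 : ∑ x, (s x * (f x - mean w f)) ^ 2 = uvar w f := by
      unfold uvar
      refine sum_congr rfl fun x _ => ?_
      rw [mul_pow, sq (s x), hss x]
    have e2 : (fun y => s y * (f y - mean w f) / s y) = fun y => f y - mean w f := by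
      funext y
      have := (hs0 y).ne'
      field_simp
    rw [e1, hAdir, e2] at key
    refine key.trans (le_of_eq ?_)
    unfold dir
    refine sum_congr rfl fun i _ => sum_congr rfl fun x _ => ?_
    have e3 : hb w i (fun y => f y - mean w f) x = hb w i f x - mean w f := by
      have h1 := hw (st x i true)
      have h2 := hw (st x i false)
      unfold hb
      field_simp
      ring
    rw [e3]
    ring
  · intro g hg
    have h1 : dir w (fun y => g y / s y) = 0 := by
      rw [← hAdir, hg]
      simp
    have h2 : ∀ i x, g x / s x = hb w i (fun y => g y / s y) x := by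
      intro i x
      unfold dir at h1
      have h3 := (sum_eq_zero_iff_of_nonneg (fun i _ => sum_nonneg fun x _ =>
        mul_nonneg (hw x).le (sq_nonneg _))).mp h1 i (mem_univ i)
      have h4 := (sum_eq_zero_iff_of_nonneg (fun x _ =>
        mul_nonneg (hw x).le (sq_nonneg _))).mp h3 x (mem_univ x)
      have h5 := (mul_eq_zero.mp h4).resolve_left (hw x).ne'
      have h6 := pow_eq_zero_iff (two_ne_zero) |>.mp h5
      linarith
    have h3 : ∀ x y : Cfg n, g x / s x = g y / s y := by
      apply ABS_const (fun y => g y / s y)
      intro x i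
      rw [h2 i (st x i true), h2 i (st x i false), ABS_hb_st, ABS_hb_st]
    set x0 : Cfg n := fun _ => true
    have h4 : ∀ x, g x = (g x0 / s x0) * s x := by
      intro x
      rw [h3 x0 x]
      have := (hs0 x).ne'
      field_simp
    have h5 : ∀ x, s x * (f x - mean w f) * g x =
        (g x0 / s x0) * (w x * f x - mean w f * w x) := by
      intro x
      rw [h4 x, ← hss x]
      ring
    rw [sum_congr rfl fun x _ => h5 x, ← mul_sum, sum_sub_distrib, ← mul_sum]
    have h6 : mean w f * ∑ x, w x = ∑ x, w x * f x := by
      unfold mean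
      field_simp
    rw [h6]
    ring

end Vale.Agent.P150
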