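import Vale.Agent.Lib.P150.Defs

/-!
# P150, module CHAIN: chain rule for the entropy, superadditivity of the local entropies,
homogeneity
-/

namespace Vale.Agent.P150

open Finset MeasureTheory ProbabilityTheory

/-- flip of the spin at `i` -/
theorem CHAIN_st_cases {n : ℕ} (φ : Cfg n → ℝ) (i : Fin n) (x : Cfg n) :
    φ (st x i true) + φ (st x i false) = φ x + φ (st x i (!x i)) := by
  have h : st x i (x i) = x := by unfold st; exact Function.update_eq_self i x
  cases hx : x i
  · rw [hx] at h
    rw [h]
    simp [add_comm]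
  · rw [hx] at h
    rw [h]
    simp

theorem CHAIN_flip_invol {n : ℕ} (i : Fin n) (x : Cfg n) :
    st (st x i (!x i)) i (!(st x i (!x i)) i) = x := by
  unfold st
  simp

/-- symmetrisation over the pairs -/
theorem CHAIN_sym {n : ℕ} (φ : Cfg n → ℝ) (i : Fin n) :
    ∑ x, φ x = (1 / 2) * ∑ x, (φ (st x i true) + φ (st x i false)) := by
  have h1 : ∑ x : Cfg n, φ (st x i (!x i)) = ∑ x, φ x := by
    let e : Cfg n ≃ Cfg n :=
      { toFun := fun x => st x i (!x i)
        invFun := fun x => st x i (!x i)
        left_inv := fun x => CHAIN_flip_invol i x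
        right_inv := fun x => CHAIN_flip_invol i x }
    exact Equiv.sum_comp e φ
  have h2 : ∑ x : Cfg n, (φ (st x i true) + φ (st x i false)) =
      ∑ x : Cfg n, (φ x + φ (st x i (!x i))) :=
    Finset.sum_congr rfl fun x _ => CHAIN_st_cases φ i x
  rw [h2, Finset.sum_add_distrib, h1]
  ring

theorem CHAIN_st_st {n : ℕ} (x : Cfg n) (i : Fin n) (b c : Bool) : st (st x i b) i c = st x i c := by
  unfold st
  exact Function.update_idem b c x

theorem CHAIN_hb_st {n : ℕ} (w f : Cfg n → ℝ) (i : Fin n) (x : Cfg n) (b : Bool) :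
    hb w i f (st x i b) = hb w i f x := by
  unfold hb
  simp only [CHAIN_st_st]

theorem CHAIN_hb_pos {n : ℕ} (w f : Cfg n → ℝ) (hw : ∀ x, 0 < w x) (hf : ∀ x, 0 < f x)
    (i : Fin n) (x : Cfg n) : 0 < hb w i f x := by
  unfold hb
  have h1 := hw (st x i true)
  have h2 := hw (st x i false)
  have h3 := hf (st x i true)
  have h4 := hf (st x i false)
  positivity

/-- the heat-bath average is the conditional expectation -/
theorem CHAIN_cond {n : ℕ} (w f G : Cfg n → ℝ) (hw : ∀ x, 0 < w x) (i : Fin n)
    (hG : ∀ x b, G (st x i b) = G x) :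
    ∑ x, w x * f x * G x = ∑ x, w x * hb w i f x * G x := by
  rw [CHAIN_sym (fun x => w x * f x * G x) i, CHAIN_sym (fun x => w x * hb w i f x * G x) i]
  congr 1
  apply Finset.sum_congr rfl
  intro x _
  simp only [CHAIN_hb_st, hG]
  have h1 := hw (st x i true)
  have h2 := hw (st x i false)
  have h3 : w (st x i true) * hb w i f x * G x + w (st x i false) * hb w i f x * G x =
      ((w (st x i true) + w (st x i false)) * hb w i f x) * G x := by ring
  have h4 : (w (st x i true) + w (st x i false)) * hb w i f x =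
      w (st x i true) * f (st x i true) + w (st x i false) * f (st x i false) := by
    unfold hb
    rw [mul_div_cancel₀]
    positivity
  rw [h3, h4]
  ring

/-- CHAIN: chain rule. -/
theorem chain_rule {n : ℕ} (w f : Cfg n → ℝ) (_hw : ∀ x, 0 < w x) (_hf : ∀ x, 0 < f x)
    (q : Cfg n → Cfg n → ℝ) (_hq : ∀ xi x, 0 < q xi x) (hq1 : ∀ x, ∑ xi, q xi x = 1) :
    Ent w f = ∑ xi, Ent (fun x => w x * q xi x) f + brk w f q := by
  unfold Ent brk
  rw [Finset.sum_sub_distrib]
  have h1 : ∑ xi, ∑ x, w x * q xi x * (f x * Real.log (f x)) =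
      ∑ x, w x * (f x * Real.log (f x)) := by
    rw [Finset.sum_comm]
    apply Finset.sum_congr rfl
    intro x _
    have h2 : ∀ xi, w x * q xi x * (f x * Real.log (f x)) =
        (w x * (f x * Real.log (f x))) * q xi x := fun xi => by ring
    simp only [h2]
    rw [← Finset.mul_sum, hq1, mul_one]
  rw [h1]
  ring

/-- CONC: local entropies are superadditive in the weight. -/
theorem EntI_super {n : ℕ} (w f : Cfg n → ℝ) (hw : ∀ x, 0 < w x) (hf : ∀ x, 0 < f x)
    (q : Cfg n → Cfg n → ℝ) (hq : ∀ xi x, 0 < q xi x) (hq1 : ∀ x, ∑ xi, q xi x = 1) (i : Fin n) :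
    ∑ xi, EntI (fun x => w x * q xi x) i f ≤ EntI w i f := by
  have hwq : ∀ xi x, 0 < w x * q xi x := fun xi x => mul_pos (hw x) (hq xi x)
  -- resummation over the channel
  have hres : ∀ φ : Cfg n → ℝ, ∑ x, w x * φ x = ∑ xi, ∑ x, (w x * q xi x) * φ x := by
    intro φ
    rw [Finset.sum_comm]
    apply Finset.sum_congr rfl
    intro x _
    have h2 : ∀ xi, (w x * q xi x) * φ x = (w x * φ x) * q xi x := fun xi => by ring
    simp only [h2]
    rw [← Finset.mul_sum, hq1, mul_one]
  unfold EntI
  rw [hres (fun x => f x * Real.log (f x / hb w i f x)), ← sub_nonneg, ← Finset.sum_sub_distrib]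
  -- termwise lower bound
  have hterm : ∀ xi x, (w x * q xi x) * (f x - f x * (hb w i f x /
      hb (fun x => w x * q xi x) i f x)) ≤
      (w x * q xi x) * (f x * Real.log (f x / hb w i f x)) -
      (w x * q xi x) * (f x * Real.log (f x / hb (fun x => w x * q xi x) i f x)) := by
    intro xi x
    rw [← mul_sub, ← mul_sub]
    apply mul_le_mul_of_nonneg_left _ (hwq xi x).le
    set A := hb w i f x with hA
    set B := hb (fun x => w x * q xi x) i f x with hB
    have hA0 : 0 < A := CHAIN_hb_pos w f hw hf i x
    have hB0 : 0 < B := CHAIN_hb_pos _ f (hwq xi) hf i x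
    have hfx := hf x
    rw [Real.log_div hfx.ne' hA0.ne', Real.log_div hfx.ne' hB0.ne']
    have hl : Real.log (A / B) ≤ A / B - 1 := Real.log_le_sub_one_of_pos (by positivity)
    rw [Real.log_div hA0.ne' hB0.ne'] at hl
    have h3 : f x * (1 - A / B) ≤ f x * (Real.log B - Real.log A) :=
      mul_le_mul_of_nonneg_left (by linarith) hfx.le
    have h4 : f x - f x * (A / B) = f x * (1 - A / B) := by ring
    have h5 : f x * (Real.log (f x) - Real.log A - (Real.log (f x) - Real.log B)) =
        f x * (Real.log B - Real.log A) := by ring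
    have h6 : (Real.log (f x) - Real.log A) - (Real.log (f x) - Real.log B) =
        Real.log B - Real.log A := by ring
    rw [h4, h6]
    exact h3
  have hsum : ∑ xi, ∑ x, (w x * q xi x) * (f x - f x * (hb w i f x /
      hb (fun x => w x * q xi x) i f x)) = 0 := by
    have h1 : ∀ xi, ∑ x, (w x * q xi x) * (f x - f x * (hb w i f x /
        hb (fun x => w x * q xi x) i f x)) =
        ∑ x, (w x * q xi x) * f x - ∑ x, (w x * q xi x) * hb w i f x := by
      intro xi
      have h2 := CHAIN_cond (fun x => w x * q xi x) f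
        (fun x => hb w i f x / hb (fun x => w x * q xi x) i f x) (hwq xi) i
        (fun x b => by simp only [CHAIN_hb_st])
      have h3 : ∑ x, (w x * q xi x) * hb (fun x => w x * q xi x) i f x *
          (hb w i f x / hb (fun x => w x * q xi x) i f x) =
          ∑ x, (w x * q xi x) * hb w i f x := by
        apply Finset.sum_congr rfl
        intro x _
        have hB0 : 0 < hb (fun x => w x * q xi x) i f x := CHAIN_hb_pos _ f (hwq xi) hf i x
        rw [mul_assoc, mul_div_cancel₀ _ hB0.ne']
      simp only [mul_sub]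
      rw [Finset.sum_sub_distrib, ← h3, ← h2]
      congr 1
      apply Finset.sum_congr rfl
      intro x _
      ring
    simp only [h1]
    rw [Finset.sum_sub_distrib, ← hres f, ← hres (fun x => hb w i f x)]
    have h4 := CHAIN_cond w f (fun _ => 1) hw i (fun _ _ => rfl)
    simp only [mul_one] at h4
    linarith
  rw [← hsum]
  apply Finset.sum_le_sum
  intro xi _
  rw [← Finset.sum_sub_distrib]
  exact Finset.sum_le_sum fun x _ => hterm xi x

/-- SCALE: homogeneity of `Ent`, `EntI`. -/
theorem Ent_smul {n : ℕ} (c : ℝ) (hc : 0 < c) (w f : Cfg n → ℝ) :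
    Ent (fun x => c * w x) f = c * Ent w f ∧ ∀ i, EntI (fun x => c * w x) i f = c * EntI w i f := by
  constructor
  · unfold Ent
    have h1 : ∑ x, c * w x * (f x * Real.log (f x)) = c * ∑ x, w x * (f x * Real.log (f x)) := by
      rw [Finset.mul_sum]
      exact Finset.sum_congr rfl fun x _ => by ring
    have h2 : ∑ x, c * w x * f x = c * ∑ x, w x * f x := by
      rw [Finset.mul_sum]
      exact Finset.sum_congr rfl fun x _ => by ring
    have h3 : ∑ x, c * w x = c * ∑ x, w x := by rw [Finset.mul_sum]
    rw [h1, h2, h3, mul_div_mul_left _ _ hc.ne']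
    ring
  · intro i
    unfold EntI
    have h1 : ∀ x, hb (fun x => c * w x) i f x = hb w i f x := by
      intro x
      unfold hb
      have h2 : c * w (st x i true) * f (st x i true) + c * w (st x i false) * f (st x i false) =
          c * (w (st x i true) * f (st x i true) + w (st x i false) * f (st x i false)) := by ring
      rw [h2, ← mul_add, mul_div_mul_left _ _ hc.ne']
    simp only [h1]
    rw [Finset.mul_sum]
    exact Finset.sum_congr rfl fun x _ => by ring

end Vale.Agent.P150
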