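import Vale.Agent.Lib.P150.Fam0
import Vale.Agent.Lib.P150.Chain

/-!
# One step of the recursion for approximate tensorisation  (module FAM of P150, second part)
-/

namespace Vale.Agent.P150

open Finset MeasureTheory ProbabilityTheory

/-- RECUR: the recursion for approximate tensorisation. -/
theorem at_step {n : ℕ} (a : Fin n → Fin n → ℝ) (e d C : ℝ) (r : ℕ) (hd : d < 1) (hC : 0 ≤ C)
    (hAT : ∀ h, AT (fam a e r h) C)
    (hbr : ∀ h f, (∀ x, 0 < f x) →
      brk (fam a e (r+1) h) f (qx (lin a) e) ≤ d * Ent (fam a e (r+1) h) f) :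
    ∀ h, AT (fam a e (r+1) h) (C / (1 - d)) := by
  intro h f hf
  obtain ⟨hq, hq1⟩ := qx_pos_sum (lin a) e
  have hw : ∀ x, 0 < fam a e (r+1) h x := fam_pos a e (r+1) h
  have hch := chain_rule (fam a e (r+1) h) f hw hf (qx (lin a) e) hq hq1
  have hb := hbr h f hf
  have hpow : (0:ℝ) < (1/2)^n := by positivity
  have h1 : ∀ xi, Ent (fun x => fam a e (r+1) h x * qx (lin a) e xi x) f ≤
      C * ∑ i, EntI (fun x => fam a e (r+1) h x * qx (lin a) e xi x) i f := by
    intro xi
    have e1 : (fun x => fam a e (r+1) h x * qx (lin a) e xi x) = fun x =>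
        (1/2)^n * fam a e r (fun i => h i + e * ∑ k, sp (xi k) * a k i) x := by
      funext x
      exact fam_step a e r h xi x
    obtain ⟨s1, s2⟩ := Ent_smul ((1/2)^n) hpow
      (fam a e r (fun i => h i + e * ∑ k, sp (xi k) * a k i)) f
    rw [e1, s1, Finset.sum_congr rfl fun i _ => s2 i, ← Finset.mul_sum]
    have h2 := mul_le_mul_of_nonneg_left
      (hAT (fun i => h i + e * ∑ k, sp (xi k) * a k i) f hf) hpow.le
    refine h2.trans (le_of_eq ?_)
    ring
  have h3 : ∑ xi, Ent (fun x => fam a e (r+1) h x * qx (lin a) e xi x) f ≤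
      C * ∑ i, EntI (fam a e (r+1) h) i f := by
    refine (Finset.sum_le_sum fun xi _ => h1 xi).trans ?_
    rw [← Finset.mul_sum, Finset.sum_comm]
    exact mul_le_mul_of_nonneg_left
      (Finset.sum_le_sum fun i _ => EntI_super (fam a e (r+1) h) f hw hf _ hq hq1 i) hC
  have h4 : (1 - d) * Ent (fam a e (r+1) h) f ≤ C * ∑ i, EntI (fam a e (r+1) h) i f := by
    linarith
  have hd' : 0 < 1 - d := by linarith
  rw [div_mul_eq_mul_div, le_div_iff₀ hd']
  linarith

end Vale.Agent.P150
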