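import Vale.Agent.Lib.P150.Defs

set_option autoImplicit false

namespace Vale.Agent.P150

open Finset MeasureTheory ProbabilityTheory Filter Topology

theorem Lim_one_add_le_cosh (z : ℝ) : 1 + z ^ 2 / 2 ≤ Real.cosh z := by
  have h1 : Real.cosh z = Real.cosh (2 * (z / 2)) := by congr 1; ring
  rw [h1, Real.cosh_two_mul]
  have h2 := Real.cosh_sq (z / 2)
  have h3 : (z / 2) ^ 2 ≤ Real.sinh (z / 2) ^ 2 := by
    rcases le_total 0 (z / 2) with h | h
    · exact pow_le_pow_left₀ h (Real.self_le_sinh_iff.2 h) 2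
    · have h4 : 0 ≤ -(z / 2) := by linarith
      have h5 := Real.self_le_sinh_iff.2 h4
      rw [Real.sinh_neg] at h5
      nlinarith
  nlinarith

theorem Lim_cosh_pow (y : ℝ) :
    Tendsto (fun R : ℕ => Real.cosh (1 / Real.sqrt R * y) ^ R) atTop (𝓝 (Real.exp (y ^ 2 / 2))) := by
  have h1 := Real.tendsto_one_add_div_pow_exp (y ^ 2 / 2)
  refine tendsto_of_tendsto_of_tendsto_of_le_of_le' h1 tendsto_const_nhds ?_ ?_
  · filter_upwards [eventually_gt_atTop 0] with R hR
    have hR' : (0 : ℝ) < R := by exact_mod_cast hR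
    have hs : (1 / Real.sqrt R * y) ^ 2 = y ^ 2 / R := by
      rw [mul_pow, div_pow, Real.sq_sqrt hR'.le]; ring
    have h2 := Lim_one_add_le_cosh (1 / Real.sqrt R * y)
    rw [hs] at h2
    refine pow_le_pow_left₀ (by positivity) ?_ R
    calc 1 + y ^ 2 / 2 / R = 1 + y ^ 2 / R / 2 := by ring
      _ ≤ _ := h2
  · filter_upwards [eventually_gt_atTop 0] with R hR
    have hR' : (0 : ℝ) < R := by exact_mod_cast hR
    have hs : (1 / Real.sqrt R * y) ^ 2 = y ^ 2 / R := by
      rw [mul_pow, div_pow, Real.sq_sqrt hR'.le]; ring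
    have h2 := Real.cosh_le_exp_half_sq (1 / Real.sqrt R * y)
    rw [hs] at h2
    calc Real.cosh (1 / Real.sqrt R * y) ^ R ≤ (Real.exp (y ^ 2 / R / 2)) ^ R :=
          pow_le_pow_left₀ (Real.cosh_pos _).le h2 R
      _ = Real.exp (y ^ 2 / 2) := by
          rw [← Real.exp_nat_mul]
          congr 1
          field_simp

theorem Lim_fam {n : ℕ} (J a : Fin n → Fin n → ℝ) (d : ℝ)
    (ha : ∀ i j, ∑ k, a k i * a k j = J i j + if i = j then d else 0) (h : Fin n → ℝ)
    (x : Cfg n) :
    Tendsto (fun R : ℕ => fam a (1 / Real.sqrt R) R h x) atTop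
      (𝓝 (Real.exp (n * d / 2) * wt J h x)) := by
  have h1 : Tendsto (fun R : ℕ => fam a (1 / Real.sqrt R) R h x) atTop
      (𝓝 (Real.exp (∑ i, h i * sp (x i)) * ∏ k, Real.exp (lin a k x ^ 2 / 2))) := by
    unfold fam
    exact tendsto_const_nhds.mul (tendsto_finsetProd _ fun k _ => Lim_cosh_pow _)
  have h2 : Real.exp (∑ i, h i * sp (x i)) * ∏ k, Real.exp (lin a k x ^ 2 / 2) =
      Real.exp (n * d / 2) * wt J h x := by
    rw [← Real.exp_sum, ← Real.exp_add, wt, ← Real.exp_add]
    congr 1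
    have h3 : ∑ k, lin a k x ^ 2 / 2 = (1 / 2) * ∑ i, ∑ j, J i j * sp (x i) * sp (x j) + n * d / 2 := by
      have h4 : ∀ k, lin a k x ^ 2 / 2 = (1 / 2) * ∑ i, ∑ j, (a k i * a k j) * sp (x i) * sp (x j) := by
        intro k
        rw [sq, lin, Finset.sum_mul_sum, div_eq_inv_mul, one_div]
        congr 1
        refine Finset.sum_congr rfl fun i _ => Finset.sum_congr rfl fun j _ => by ring
      rw [Finset.sum_congr rfl fun k _ => h4 k, ← Finset.mul_sum, Finset.sum_comm]
      have h5 : ∀ i, ∑ k, ∑ j, (a k i * a k j) * sp (x i) * sp (x j) =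
          ∑ j, J i j * sp (x i) * sp (x j) + d := by
        intro i
        rw [Finset.sum_comm]
        have h6 : ∀ j, ∑ k, (a k i * a k j) * sp (x i) * sp (x j) =
            J i j * sp (x i) * sp (x j) + if i = j then d else 0 := by
          intro j
          rw [← Finset.sum_mul, ← Finset.sum_mul, ha]
          by_cases hij : i = j
          · subst hij
            have h7 : sp (x i) * sp (x i) = 1 := by unfold sp; split_ifs <;> norm_num
            simp only [if_true]
            linear_combination d * h7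
          · simp [hij]
        rw [Finset.sum_congr rfl fun j _ => h6 j, Finset.sum_add_distrib]
        simp
      rw [Finset.sum_congr rfl fun i _ => h5 i, Finset.sum_add_distrib, Finset.sum_const,
        Finset.card_univ, Fintype.card_fin, nsmul_eq_mul]
      ring
    rw [h3, Ham]
    ring
  rw [← h2]
  exact h1

/-- LIM: passage to the limit. -/
theorem at_limit {n : ℕ} (J a : Fin n → Fin n → ℝ) (d : ℝ)
    (ha : ∀ i j, ∑ k, a k i * a k j = J i j + if i = j then d else 0) (h : Fin n → ℝ) (C : ℝ)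
    (hC : 0 ≤ C)
    (H : ∀ᶠ R : ℕ in atTop, AT (fam a (1 / Real.sqrt R) R h) C) : AT (wt J h) C := by
  intro f hf
  set c := Real.exp (n * d / 2) with hc
  have hc0 : 0 < c := Real.exp_pos _
  set W : Cfg n → ℝ := fun x => c * wt J h x with hW
  have hWpos : ∀ x, 0 < W x := fun x => mul_pos hc0 (Real.exp_pos _)
  have hw : ∀ x, Tendsto (fun R : ℕ => fam a (1 / Real.sqrt R) R h x) atTop (𝓝 (W x)) :=
    fun x => Lim_fam J a d ha h x
  have hS : ∀ g : Cfg n → ℝ, Tendsto (fun R : ℕ => ∑ x, fam a (1 / Real.sqrt R) R h x * g x) atTop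
      (𝓝 (∑ x, W x * g x)) := fun g => tendsto_finsetSum _ fun x _ => (hw x).mul_const _
  have hS0 : Tendsto (fun R : ℕ => ∑ x, fam a (1 / Real.sqrt R) R h x) atTop
      (𝓝 (∑ x, W x)) := tendsto_finsetSum _ fun x _ => hw x
  have hne : (Finset.univ : Finset (Cfg n)).Nonempty := ⟨fun _ => true, Finset.mem_univ _⟩
  have hW1 : 0 < ∑ x, W x := Finset.sum_pos (fun x _ => hWpos x) hne
  have hWf : 0 < ∑ x, W x * f x := Finset.sum_pos (fun x _ => mul_pos (hWpos x) (hf x)) hne
  have hEnt : Tendsto (fun R : ℕ => Ent (fam a (1 / Real.sqrt R) R h) f) atTop (𝓝 (Ent W f)) := by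
    unfold Ent
    refine (hS _).sub ((hS f).mul ?_)
    refine Tendsto.log ((hS f).div hS0 hW1.ne') (div_pos hWf hW1).ne'
  have hhb : ∀ i x, Tendsto (fun R : ℕ => hb (fam a (1 / Real.sqrt R) R h) i f x) atTop
      (𝓝 (hb W i f x)) := by
    intro i x
    unfold hb
    exact (((hw _).mul_const _).add ((hw _).mul_const _)).div ((hw _).add (hw _))
      (add_pos (hWpos _) (hWpos _)).ne'
  have hhb0 : ∀ i x, 0 < hb W i f x := fun i x =>
    div_pos (add_pos (mul_pos (hWpos _) (hf _)) (mul_pos (hWpos _) (hf _)))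
      (add_pos (hWpos _) (hWpos _))
  have hEntI : ∀ i, Tendsto (fun R : ℕ => EntI (fam a (1 / Real.sqrt R) R h) i f) atTop
      (𝓝 (EntI W i f)) := by
    intro i
    unfold EntI
    refine tendsto_finsetSum _ fun x _ => (hw x).mul (Tendsto.const_mul _ ?_)
    exact Tendsto.log (tendsto_const_nhds.div (hhb i x) (hhb0 i x).ne')
      (div_pos (hf x) (hhb0 i x)).ne'
  have hlim : Ent W f ≤ C * ∑ i, EntI W i f :=
    le_of_tendsto_of_tendsto hEnt (Tendsto.const_mul C (tendsto_finsetSum _ fun i _ => hEntI i))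
      (H.mono fun R hR => hR f hf)
  -- scaling
  have e1 : Ent W f = c * Ent (wt J h) f := by
    unfold Ent
    simp only [hW]
    have h1 : ∀ g : Cfg n → ℝ, ∑ x, c * wt J h x * g x = c * ∑ x, wt J h x * g x := by
      intro g
      rw [Finset.mul_sum]
      exact Finset.sum_congr rfl fun x _ => by ring
    rw [h1, h1, ← Finset.mul_sum, mul_div_mul_left _ _ hc0.ne']
    ring
  have e2 : ∀ i, EntI W i f = c * EntI (wt J h) i f := by
    intro i
    unfold EntI
    rw [Finset.mul_sum]
    refine Finset.sum_congr rfl fun x _ => ?_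
    have h3 : hb W i f x = hb (wt J h) i f x := by
      unfold hb
      simp only [hW]
      rw [mul_assoc, mul_assoc, ← mul_add, ← mul_add, mul_div_mul_left _ _ hc0.ne']
    rw [h3]
    simp only [hW]
    ring
  rw [e1, Finset.sum_congr rfl fun i _ => e2 i, ← Finset.mul_sum, mul_left_comm] at hlim
  exact le_of_mul_le_mul_left hlim hc0

end Vale.Agent.P150
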