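import Vale.Agent.Lib.P150.Defs

/-! P150 MODULE PROD: tensorisation of entropy for product weights. -/

namespace Vale.Agent.P150

open Finset

theorem prod_st_comm {n : ℕ} (x : Cfg n) (i j : Fin n) (hij : i ≠ j) (b c : Bool) :
    st (st x i b) j c = st (st x j c) i b := by
  unfold st
  exact Function.update_comm hij b c x

theorem prod_st_same {n : ℕ} (x : Cfg n) (i : Fin n) (b c : Bool) :
    st (st x i b) i c = st x i c := by
  unfold st
  exact Function.update_idem ..

theorem prod_st_self {n : ℕ} (x : Cfg n) (i : Fin n) : st x i (x i) = x := by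
  unfold st
  exact Function.update_eq_self ..

/-- pairing of the configurations along the coordinate i -/
theorem prod_pairing {n : ℕ} (i : Fin n) (F : Cfg n → ℝ) :
    ∑ x, (F (st x i true) + F (st x i false)) = 2 * ∑ x, F x := by
  have hinv : Function.Involutive (fun x : Cfg n => st x i (!x i)) := by
    intro x
    simp only
    rw [prod_st_same]
    have : (st x i (!x i)) i = !x i := by unfold st; simp
    rw [this, Bool.not_not, prod_st_self]
  have h1 : ∑ x : Cfg n, F (st x i (!x i)) = ∑ x, F x := Equiv.sum_comp hinv.toPerm F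
  have h2 : ∀ x : Cfg n, F (st x i true) + F (st x i false) = F x + F (st x i (!x i)) := by
    intro x
    cases hx : x i
    · have : st x i false = x := by rw [← hx]; exact prod_st_self x i
      rw [this, Bool.not_false]; ring
    · have : st x i true = x := by rw [← hx]; exact prod_st_self x i
      rw [this, Bool.not_true]
  rw [sum_congr rfl fun x _ => h2 x, sum_add_distrib, h1]
  ring

/-- the product weight -/
noncomputable def prodW {n : ℕ} (h : Fin n → ℝ) (x : Cfg n) : ℝ := Real.exp (∑ i, h i * sp (x i))

theorem prodW_pos {n : ℕ} (h : Fin n → ℝ) (x : Cfg n) : 0 < prodW h x := Real.exp_pos _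

theorem prodW_st {n : ℕ} (h : Fin n → ℝ) (x : Cfg n) (i : Fin n) (b : Bool) :
    prodW h (st x i b) = Real.exp (h i * sp b) *
      Real.exp (∑ j ∈ univ.erase i, h j * sp (x j)) := by
  unfold prodW
  rw [← Real.exp_add, ← add_sum_erase univ _ (mem_univ i)]
  congr 2
  · unfold st; simp
  · refine sum_congr rfl fun j hj => ?_
    rw [mem_erase] at hj
    unfold st
    rw [Function.update_of_ne hj.1]

theorem prod_hb {n : ℕ} (h : Fin n → ℝ) (i : Fin n) (f : Cfg n → ℝ) (x : Cfg n) :
    hb (prodW h) i f x = (Real.exp (h i * sp true) * f (st x i true) +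
      Real.exp (h i * sp false) * f (st x i false)) /
      (Real.exp (h i * sp true) + Real.exp (h i * sp false)) := by
  unfold hb
  rw [prodW_st, prodW_st]
  set r := Real.exp (∑ j ∈ univ.erase i, h j * sp (x j)) with hr
  have hr0 : 0 < r := Real.exp_pos _
  have h1 := Real.exp_pos (h i * sp true)
  have h2 := Real.exp_pos (h i * sp false)
  rw [div_eq_div_iff (by positivity) (by positivity)]
  ring

theorem prod_hb_pos {n : ℕ} (h : Fin n → ℝ) (i : Fin n) (f : Cfg n → ℝ) (hf : ∀ x, 0 < f x)
    (x : Cfg n) : 0 < hb (prodW h) i f x := by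
  rw [prod_hb]
  have h1 := Real.exp_pos (h i * sp true)
  have h2 := Real.exp_pos (h i * sp false)
  have h3 := hf (st x i true)
  have h4 := hf (st x i false)
  positivity

/-- mass conservation against functions that do not depend on the coordinate i -/
theorem prod_mass {n : ℕ} (h : Fin n → ℝ) (i : Fin n) (f G : Cfg n → ℝ)
    (hG : ∀ x b, G (st x i b) = G x) :
    ∑ x, prodW h x * (hb (prodW h) i f x * G x) = ∑ x, prodW h x * (f x * G x) := by
  have e1 := prod_pairing i (fun x => prodW h x * (hb (prodW h) i f x * G x))
  have e2 := prod_pairing i (fun x => prodW h x * (f x * G x))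
  have e3 : ∀ x : Cfg n,
      prodW h (st x i true) * (hb (prodW h) i f (st x i true) * G (st x i true)) +
      prodW h (st x i false) * (hb (prodW h) i f (st x i false) * G (st x i false)) =
      prodW h (st x i true) * (f (st x i true) * G (st x i true)) +
      prodW h (st x i false) * (f (st x i false) * G (st x i false)) := by
    intro x
    have hh : ∀ b, hb (prodW h) i f (st x i b) = hb (prodW h) i f x := by
      intro b
      unfold hb
      rw [prod_st_same, prod_st_same]
    rw [hh, hh, hG, hG]
    unfold hb
    have h1 := prodW_pos h (st x i true)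
    have h2 := prodW_pos h (st x i false)
    field_simp
  have e4 : ∑ x, (prodW h (st x i true) * (hb (prodW h) i f (st x i true) * G (st x i true)) +
      prodW h (st x i false) * (hb (prodW h) i f (st x i false) * G (st x i false))) =
      ∑ x, (prodW h (st x i true) * (f (st x i true) * G (st x i true)) +
      prodW h (st x i false) * (f (st x i false) * G (st x i false))) :=
    sum_congr rfl fun x _ => e3 x
  linarith

theorem prod_hb_indep {n : ℕ} (h : Fin n → ℝ) (i j : Fin n) (f : Cfg n → ℝ)
    (hf : j ≠ i → ∀ x b, f (st x j b) = f x) (x : Cfg n) (b : Bool) :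
    hb (prodW h) i f (st x j b) = hb (prodW h) i f x := by
  by_cases hij : j = i
  · subst hij
    unfold hb
    rw [prod_st_same, prod_st_same]
  · rw [prod_hb, prod_hb, prod_st_comm x j i hij b true, prod_st_comm x j i hij b false,
      hf hij, hf hij]

/-- successive averages -/
noncomputable def prodF {n : ℕ} (h : Fin n → ℝ) (f : Cfg n → ℝ) : ℕ → Cfg n → ℝ
  | 0 => f
  | k + 1 => if hk : k < n then hb (prodW h) ⟨k, hk⟩ (prodF h f k) else prodF h f k

theorem prodF_pos {n : ℕ} (h : Fin n → ℝ) (f : Cfg n → ℝ) (hf : ∀ x, 0 < f x) (k : ℕ) :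
    ∀ x, 0 < prodF h f k x := by
  induction k with
  | zero => exact hf
  | succ k ih =>
    intro x
    unfold prodF
    split_ifs with hk
    · exact prod_hb_pos h _ _ ih x
    · exact ih x

theorem prodF_indep {n : ℕ} (h : Fin n → ℝ) (f : Cfg n → ℝ) (k : ℕ) :
    ∀ j : Fin n, (j : ℕ) < k → ∀ x b, prodF h f k (st x j b) = prodF h f k x := by
  induction k with
  | zero => intro j hj; omega
  | succ k ih =>
    intro j hj x b
    unfold prodF
    split_ifs with hk
    · refine prod_hb_indep h _ j _ ?_ x b
      intro hne
      refine ih j ?_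
      have : (j : ℕ) ≠ k := fun hc => hne (Fin.ext hc)
      omega
    · exact ih j (by have := j.2; omega) x b

theorem prodF_mass {n : ℕ} (h : Fin n → ℝ) (f : Cfg n → ℝ) (k : ℕ) :
    ∑ x, prodW h x * prodF h f k x = ∑ x, prodW h x * f x := by
  induction k with
  | zero => rfl
  | succ k ih =>
    rw [← ih]
    have e : prodF h f (k + 1) =
        if hk : k < n then hb (prodW h) ⟨k, hk⟩ (prodF h f k) else prodF h f k := rfl
    rw [e]
    by_cases hk : k < n
    · rw [dif_pos hk]
      have := prod_mass h ⟨k, hk⟩ (prodF h f k) (fun _ => 1) (fun _ _ => rfl)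
      simpa using this
    · rw [dif_neg hk]

theorem prod_const_of_indep {n : ℕ} (F : Cfg n → ℝ) (hF : ∀ (j : Fin n) x b, F (st x j b) = F x)
    (x y : Cfg n) : F x = F y := by
  classical
  have key : ∀ s : Finset (Fin n), F (fun i => if i ∈ s then y i else x i) = F x := by
    intro s
    induction s using Finset.induction_on with
    | empty => simp
    | insert j s hj ih =>
      rw [← ih]
      have : (fun i => if i ∈ insert j s then y i else x i) =
          st (fun i => if i ∈ s then y i else x i) j (y j) := by
        funext i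
        unfold st
        by_cases hi : i = j
        · subst hi; simp
        · rw [Function.update_of_ne hi]; simp [hi]
      rw [this, hF]
  have := key univ
  simp only [mem_univ, if_true] at this
  exact this.symm

/-- one step -/
theorem prod_step {n : ℕ} (h : Fin n → ℝ) (f : Cfg n → ℝ) (hf : ∀ x, 0 < f x) (k : ℕ)
    (hk : k < n) :
    ∑ x, prodW h x * (f x * (Real.log (prodF h f k x) - Real.log (prodF h f (k + 1) x))) ≤
      EntI (prodW h) ⟨k, hk⟩ f := by
  set i : Fin n := ⟨k, hk⟩ with hi
  have e1 : prodF h f (k + 1) = hb (prodW h) i (prodF h f k) := by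
    show (if hk : k < n then hb (prodW h) ⟨k, hk⟩ (prodF h f k) else prodF h f k) = _
    rw [dif_pos hk]
  have hA := prodF_pos h f hf k
  have hB := prodF_pos h f hf (k + 1)
  have hQ := prod_hb_pos h i f hf
  have hG : ∀ x b, (fun x => hb (prodW h) i f x / prodF h f (k + 1) x) (st x i b) =
      (fun x => hb (prodW h) i f x / prodF h f (k + 1) x) x := by
    intro x b
    simp only
    rw [prod_hb_indep h i i f (fun hc => absurd rfl hc) x b, prodF_indep h f (k + 1) i (by
      rw [hi]; exact Nat.lt_succ_self k) x b]
  have hm := prod_mass h i (prodF h f k) (fun x => hb (prodW h) i f x / prodF h f (k + 1) x) hG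
  rw [← e1] at hm
  have hm1 : ∑ x, prodW h x * (prodF h f (k + 1) x *
      (hb (prodW h) i f x / prodF h f (k + 1) x)) = ∑ x, prodW h x * f x := by
    have : ∀ x, prodW h x * (prodF h f (k + 1) x *
        (hb (prodW h) i f x / prodF h f (k + 1) x)) = prodW h x * (hb (prodW h) i f x * 1) := by
      intro x
      have := (hB x).ne'
      field_simp
    rw [sum_congr rfl fun x _ => this x]
    have h2 := prod_mass h i f (fun _ => 1) (fun _ _ => rfl)
    rw [h2]
    exact sum_congr rfl fun x _ => by ring
  have hpt : ∀ x, prodW h x * f x - prodW h x * (prodF h f k x *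
      (hb (prodW h) i f x / prodF h f (k + 1) x)) ≤
      prodW h x * (f x * Real.log (f x / hb (prodW h) i f x)) -
      prodW h x * (f x * (Real.log (prodF h f k x) - Real.log (prodF h f (k + 1) x))) := by
    intro x
    have hw := prodW_pos h x
    have h1 := hf x
    have h2 := hQ x
    have h3 := hA x
    have h4 := hB x
    have hz : Real.log ((prodF h f k x * hb (prodW h) i f x) / (prodF h f (k + 1) x * f x)) ≤
        (prodF h f k x * hb (prodW h) i f x) / (prodF h f (k + 1) x * f x) - 1 :=
      Real.log_le_sub_one_of_pos (by positivity)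
    rw [Real.log_div (by positivity) (by positivity), Real.log_mul h3.ne' h2.ne',
      Real.log_mul h4.ne' h1.ne'] at hz
    rw [Real.log_div h1.ne' h2.ne']
    have h5 : f x * ((prodF h f k x * hb (prodW h) i f x) / (prodF h f (k + 1) x * f x)) =
        prodF h f k x * (hb (prodW h) i f x / prodF h f (k + 1) x) := by
      field_simp
    have h6 := mul_le_mul_of_nonneg_left hz h1.le
    have h8 : f x * ((prodF h f k x * hb (prodW h) i f x) / (prodF h f (k + 1) x * f x) - 1) =
        prodF h f k x * (hb (prodW h) i f x / prodF h f (k + 1) x) - f x := by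
      rw [mul_sub, h5, mul_one]
    rw [h8] at h6
    have h7 := mul_le_mul_of_nonneg_left h6 hw.le
    linarith [h7, mul_sub (prodW h x) (prodF h f k x *
      (hb (prodW h) i f x / prodF h f (k + 1) x)) (f x)]
  have hs := sum_le_sum fun x (_ : x ∈ (univ : Finset (Cfg n))) => hpt x
  rw [sum_sub_distrib, sum_sub_distrib, ← hm, hm1] at hs
  unfold EntI
  linarith

/-- PROD: product weights tensorise. -/
theorem at_product {n : ℕ} (h : Fin n → ℝ) :
    AT (fun x : Cfg n => Real.exp (∑ i, h i * sp (x i))) 1 := by
  intro f hf
  change Ent (prodW h) f ≤ 1 * ∑ i, EntI (prodW h) i f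
  rw [one_mul]
  have hconst : ∀ x, prodF h f n x = (∑ x, prodW h x * f x) / ∑ x, prodW h x := by
    intro x
    have h1 : ∀ y, prodF h f n y = prodF h f n x := fun y =>
      prod_const_of_indep _ (fun j z b => prodF_indep h f n j j.2 z b) y x
    have h2 := prodF_mass h f n
    simp_rw [h1] at h2
    rw [← sum_mul] at h2
    have hp : 0 < ∑ x, prodW h x := sum_pos (fun x _ => prodW_pos h x) ⟨x, mem_univ x⟩
    rw [← h2]
    field_simp
  have htel : ∀ x, Real.log (f x) - Real.log ((∑ x, prodW h x * f x) / ∑ x, prodW h x) =
      ∑ k ∈ range n, (Real.log (prodF h f k x) - Real.log (prodF h f (k + 1) x)) := by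
    intro x
    rw [sum_range_sub', hconst x]
    rfl
  have e1 : Ent (prodW h) f = ∑ k ∈ range n, ∑ x, prodW h x *
      (f x * (Real.log (prodF h f k x) - Real.log (prodF h f (k + 1) x))) := by
    unfold Ent
    rw [sum_mul, ← sum_sub_distrib, sum_comm]
    refine sum_congr rfl fun x _ => ?_
    rw [← mul_sum, ← mul_sum, ← htel x]
    ring
  rw [e1, ← Fin.sum_univ_eq_sum_range (fun k => ∑ x, prodW h x *
      (f x * (Real.log (prodF h f k x) - Real.log (prodF h f (k + 1) x)))) n]
  exact sum_le_sum fun i _ => prod_step h f hf i i.2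

end Vale.Agent.P150
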