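import Mathlib

/-!
P150 SQRT: square root of a shifted symmetric matrix.
-/

namespace Vale.Agent.P150

open Finset

open scoped MatrixOrder in
/-- SQRT: existence of `a`. -/
theorem exists_sqrt {n : ℕ} (J : Fin n → Fin n → ℝ) (hs : ∀ i j, J i j = J j i) (ρ : ℝ)
    (hρ : ∀ v : Fin n → ℝ, |∑ i, ∑ j, J i j * v i * v j| ≤ ρ * ∑ i, v i ^ 2) :
    ∃ a : Fin n → Fin n → ℝ,
      (∀ i j, ∑ k, a k i * a k j = J i j + if i = j then ρ else 0) ∧
      ∀ v : Fin n → ℝ, ∑ i, (∑ k, v k * a k i) ^ 2 ≤ 2 * ρ * ∑ k, v k ^ 2 := by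
  classical
  set M : Matrix (Fin n) (Fin n) ℝ := Matrix.of fun i j => J i j + if i = j then ρ else 0 with hM
  have hherm : M.IsHermitian := by
    ext i j
    simp only [hM, Matrix.conjTranspose_apply, Matrix.of_apply, star_trivial]
    rw [hs j i]
    by_cases h : i = j
    · simp [h]
    · simp [h, Ne.symm h]
  have hquad : ∀ v : Fin n → ℝ, ∑ i, ∑ j, M i j * v i * v j
      = (∑ i, ∑ j, J i j * v i * v j) + ρ * ∑ i, v i ^ 2 := by
    intro v
    simp only [hM, Matrix.of_apply, add_mul, Finset.sum_add_distrib, ite_mul, zero_mul,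
      Finset.sum_ite_eq, Finset.mem_univ, if_true, Finset.mul_sum]
    congr 1
    exact Finset.sum_congr rfl fun i _ => by ring
  have hpsd : M.PosSemidef := by
    refine Matrix.PosSemidef.of_dotProduct_mulVec_nonneg hherm fun v => ?_
    have h1 : star v ⬝ᵥ (M.mulVec v) = ∑ i, ∑ j, M i j * v i * v j := by
      simp only [dotProduct, Matrix.mulVec, Pi.star_apply, star_trivial, Finset.mul_sum]
      exact Finset.sum_congr rfl fun i _ => Finset.sum_congr rfl fun j _ => by ring
    rw [h1, hquad]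
    have := (abs_le.1 (hρ v)).1
    linarith
  obtain ⟨B, hB'⟩ := CStarAlgebra.nonneg_iff_eq_star_mul_self.mp hpsd.nonneg
  have hB : M = B.conjTranspose * B := hB'
  have h1 : ∀ i j, ∑ k, B k i * B k j = J i j + if i = j then ρ else 0 := by
    intro i j
    have := congrFun (congrFun hB i) j
    simp only [hM, Matrix.of_apply, Matrix.mul_apply, Matrix.conjTranspose_apply,
      star_trivial] at this
    exact this.symm
  refine ⟨fun k i => B k i, h1, fun v => ?_⟩
  set w : Fin n → ℝ := fun i => ∑ k, v k * B k i with hw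
  set T : Fin n → ℝ := fun k => ∑ i, B k i * w i with hT
  have e1 : ∑ k, v k * T k = ∑ i, w i ^ 2 := by
    simp only [hT, Finset.mul_sum]
    rw [Finset.sum_comm]
    refine Finset.sum_congr rfl fun i _ => ?_
    have : ∑ k, v k * (B k i * w i) = (∑ k, v k * B k i) * w i := by
      rw [Finset.sum_mul]
      exact Finset.sum_congr rfl fun k _ => by ring
    rw [this]
    simp only [hw]
    ring
  have e2 : ∑ k, T k ^ 2 ≤ 2 * ρ * ∑ i, w i ^ 2 := by
    have e3 : ∑ k, T k ^ 2 = ∑ i, ∑ j, M i j * w i * w j := by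
      have : ∀ k, T k ^ 2 = ∑ i, ∑ j, (B k i * B k j) * (w i * w j) := by
        intro k
        simp only [hT]
        rw [sq, Finset.sum_mul_sum]
        exact Finset.sum_congr rfl fun i _ => Finset.sum_congr rfl fun j _ => by ring
      simp only [this]
      rw [Finset.sum_comm]
      refine Finset.sum_congr rfl fun i _ => ?_
      rw [Finset.sum_comm]
      refine Finset.sum_congr rfl fun j _ => ?_
      rw [← Finset.sum_mul, h1]
      simp only [hM, Matrix.of_apply]
      ring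
    rw [e3, hquad]
    have := (abs_le.1 (hρ w)).2
    linarith
  have e4 : (∑ i, w i ^ 2) ^ 2 ≤ (∑ k, v k ^ 2) * ∑ k, T k ^ 2 := by
    rw [← e1]
    exact Finset.sum_mul_sq_le_sq_mul_sq _ _ _
  have h0 : 0 ≤ ∑ i, w i ^ 2 := Finset.sum_nonneg fun _ _ => sq_nonneg _
  have hv0 : 0 ≤ ∑ k, v k ^ 2 := Finset.sum_nonneg fun _ _ => sq_nonneg _
  change ∑ i, w i ^ 2 ≤ 2 * ρ * ∑ k, v k ^ 2
  rcases h0.eq_or_lt with hz | hpos
  · rw [← hz]
    have := (abs_nonneg _).trans (hρ v)
    linarith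
  · have e5 : (∑ i, w i ^ 2) ^ 2 ≤ (∑ k, v k ^ 2) * (2 * ρ * ∑ i, w i ^ 2) :=
      e4.trans (mul_le_mul_of_nonneg_left e2 hv0)
    have e6 : (∑ i, w i ^ 2) * (∑ i, w i ^ 2) ≤ (2 * ρ * ∑ k, v k ^ 2) * ∑ i, w i ^ 2 := by
      nlinarith
    exact le_of_mul_le_mul_right e6 hpos

end Vale.Agent.P150
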