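import Vale.Agent.Lib.P150.Defs

/-!
# P150: module VAR (var_lin, uvar_comp, fam_comp)
-/

namespace Vale.Agent.P150

open Finset

/-! ## Pairing the cube in direction `i` -/

theorem var_st_flip {n : ℕ} (x : Cfg n) (i : Fin n) (b : Bool) :
    st (st x i (!(x i))) i b = st x i b := by
  unfold st; rw [Function.update_idem]

/-- Flip of the spin at site `i`. -/
def varFlip {n : ℕ} (i : Fin n) (x : Cfg n) : Cfg n := st x i (!(x i))

theorem varFlip_invol {n : ℕ} (i : Fin n) (x : Cfg n) : varFlip i (varFlip i x) = x := by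
  unfold varFlip st
  simp

theorem var_sum_flip {n : ℕ} (i : Fin n) (G : Cfg n → ℝ) :
    ∑ x, G (varFlip i x) = ∑ x, G x :=
  Equiv.sum_comp (Function.Involutive.toPerm (varFlip i) (varFlip_invol i)) G

theorem var_pair {n : ℕ} (i : Fin n) (G : Cfg n → ℝ) (x : Cfg n) :
    G x + G (varFlip i x) = G (st x i true) + G (st x i false) := by
  unfold varFlip st
  cases hx : x i
  · have : Function.update x i false = x := by
      rw [← hx]; exact Function.update_eq_self i x
    rw [this]; simp [add_comm]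
  · have : Function.update x i true = x := by
      rw [← hx]; exact Function.update_eq_self i x
    rw [this]; simp

theorem var_sum_pair {n : ℕ} (i : Fin n) (G : Cfg n → ℝ) :
    ∑ x, G x = (1 / 2) * ∑ x, (G (st x i true) + G (st x i false)) := by
  have h1 : ∑ x, (G (st x i true) + G (st x i false)) = ∑ x, G x + ∑ x, G x := by
    rw [← var_sum_flip i G]
    nth_rewrite 1 [var_sum_flip i G]
    rw [← Finset.sum_add_distrib]
    exact Finset.sum_congr rfl fun x _ => (var_pair i G x).symm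
  rw [h1]; ring

theorem var_hb_st {n : ℕ} (w : Cfg n → ℝ) (i : Fin n) (f : Cfg n → ℝ) (x : Cfg n) (b : Bool) :
    hb w i f (st x i b) = hb w i f x := by
  unfold hb st
  simp [Function.update_idem]

/-- Dirichlet form in direction `i` of a function whose increment at `i` is `2 c`. -/
theorem var_dir_site {n : ℕ} (w : Cfg n → ℝ) (hw : ∀ x, 0 < w x) (f : Cfg n → ℝ) (i : Fin n)
    (c : ℝ) (hf : ∀ x, f (st x i true) - f (st x i false) = 2 * c) :
    ∑ x, w x * (f x - hb w i f x) ^ 2 ≤ c ^ 2 * ∑ x, w x := by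
  rw [var_sum_pair i (fun x => w x * (f x - hb w i f x) ^ 2), var_sum_pair i w]
  rw [Finset.mul_sum, Finset.mul_sum, Finset.mul_sum]
  refine Finset.sum_le_sum fun x _ => ?_
  rw [var_hb_st, var_hb_st]
  have hp : 0 < w (st x i true) := hw _
  have hm : 0 < w (st x i false) := hw _
  have hs : 0 < w (st x i true) + w (st x i false) := by linarith
  have e1 : f (st x i true) - hb w i f x
      = w (st x i false) * (2 * c) / (w (st x i true) + w (st x i false)) := by
    unfold hb
    rw [← hf x]; field_simp; ring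
  have e2 : f (st x i false) - hb w i f x
      = - (w (st x i true) * (2 * c)) / (w (st x i true) + w (st x i false)) := by
    unfold hb
    rw [← hf x]; field_simp; ring
  rw [e1, e2]
  have e3 : 1 / 2 * (w (st x i true) *
        (w (st x i false) * (2 * c) / (w (st x i true) + w (st x i false))) ^ 2 +
      w (st x i false) *
        (-(w (st x i true) * (2 * c)) / (w (st x i true) + w (st x i false))) ^ 2)
      = 2 * c ^ 2 * (w (st x i true) * w (st x i false))
        / (w (st x i true) + w (st x i false)) := by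
    field_simp; ring
  rw [e3, div_le_iff₀ hs]
  nlinarith [mul_nonneg (sq_nonneg c) (sq_nonneg (w (st x i true) - w (st x i false)))]

theorem var_lin_incr {n : ℕ} (c : Fin n → ℝ) (i : Fin n) (x : Cfg n) :
    (∑ j, c j * sp (st x i true j)) - (∑ j, c j * sp (st x i false j)) = 2 * c i := by
  rw [← Finset.sum_sub_distrib, Finset.sum_eq_single i]
  · unfold st sp; simp; ring
  · intro j _ hj
    unfold st; simp [Function.update_of_ne hj]
  · intro h; exact absurd (Finset.mem_univ i) h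

/-- VAR1: variance of a linear function from the Poincare inequality. -/
theorem var_lin {n : ℕ} (J : Fin n → Fin n → ℝ) (h : Fin n → ℝ) (hs : ∀ i j, J i j = J j i)
    (hd : ∀ i, J i i = 0) (κ : ℝ) (hκ : 0 < κ)
    (hP : ∀ f : Cfg n → ℝ, κ * uvar (wt J h) f ≤ dir (wt J h) f) (c : Fin n → ℝ) :
    uvar (wt J h) (fun x => ∑ i, c i * sp (x i)) ≤ (1/κ) * (∑ i, c i ^ 2) * ∑ x, wt J h x := by
  have h1 := hP (fun x => ∑ i, c i * sp (x i))
  have h2 : dir (wt J h) (fun x => ∑ i, c i * sp (x i)) ≤ (∑ i, c i ^ 2) * ∑ x, wt J h x := by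
    unfold dir
    rw [Finset.sum_mul]
    exact Finset.sum_le_sum fun i _ =>
      var_dir_site (wt J h) (fun x => Real.exp_pos _) _ i (c i) (fun x => var_lin_incr c i x)
  have h3 : (1/κ) * (∑ i, c i ^ 2) * ∑ x, wt J h x
      = ((∑ i, c i ^ 2) * ∑ x, wt J h x) / κ := by ring
  rw [h3, le_div_iff₀ hκ]
  linarith [mul_comm κ (uvar (wt J h) (fun x => ∑ i, c i * sp (x i)))]

/-- The mean minimises the quadratic deviation. -/
theorem var_min {n : ℕ} (w F : Cfg n → ℝ) (hw : 0 < ∑ x, w x) (c : ℝ) :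
    uvar w F ≤ ∑ x, w x * (F x - c) ^ 2 := by
  have hm : ∑ x, w x * F x = mean w F * ∑ x, w x := by
    unfold mean; field_simp
  have h1 : ∑ x, w x * (F x - c) ^ 2
      = ∑ x, w x * (F x - mean w F) ^ 2 + (mean w F - c) ^ 2 * ∑ x, w x
        + 2 * (mean w F - c) * (∑ x, w x * F x - mean w F * ∑ x, w x) := by
    rw [Finset.mul_sum, Finset.mul_sum, ← Finset.sum_sub_distrib, Finset.mul_sum,
      ← Finset.sum_add_distrib, ← Finset.sum_add_distrib]
    exact Finset.sum_congr rfl fun x _ => by ring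
  rw [hm, sub_self, mul_zero, add_zero] at h1
  rw [h1]
  unfold uvar
  have : 0 ≤ (mean w F - c) ^ 2 * ∑ x, w x := mul_nonneg (sq_nonneg _) hw.le
  linarith

/-- VAR2: variance comparison for weights with ratio in `[m, 1]`. -/
theorem uvar_comp {n : ℕ} (w w' : Cfg n → ℝ) (hw : ∀ x, 0 < w x) (m A : ℝ) (hm : 0 < m)
    (h1 : ∀ x, m * w x ≤ w' x) (h2 : ∀ x, w' x ≤ w x) (F : Cfg n → ℝ) (hA : 0 ≤ A)
    (hv : uvar w F ≤ A * ∑ x, w x) : uvar w' F ≤ (A / m) * ∑ x, w' x := by
  have hw' : ∀ x, 0 < w' x := fun x => lt_of_lt_of_le (mul_pos hm (hw x)) (h1 x)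
  have hs' : 0 < ∑ x, w' x := Finset.sum_pos (fun x _ => hw' x) Finset.univ_nonempty
  have e1 : uvar w' F ≤ ∑ x, w' x * (F x - mean w F) ^ 2 := var_min w' F hs' _
  have e2 : ∑ x, w' x * (F x - mean w F) ^ 2 ≤ uvar w F := by
    unfold uvar
    exact Finset.sum_le_sum fun x _ => mul_le_mul_of_nonneg_right (h2 x) (sq_nonneg _)
  have e3 : ∑ x, w x ≤ (∑ x, w' x) / m := by
    rw [Finset.sum_div]
    refine Finset.sum_le_sum fun x _ => ?_
    rw [le_div_iff₀ hm]
    linarith [h1 x, mul_comm m (w x)]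
  calc uvar w' F ≤ A * ∑ x, w x := e1.trans (e2.trans hv)
    _ ≤ A * ((∑ x, w' x) / m) := mul_le_mul_of_nonneg_left e3 hA
    _ = (A / m) * ∑ x, w' x := by ring

/-! ## Comparison of `cosh` with the Gaussian -/

theorem var_cosh_lower (z : ℝ) : 1 + z ^ 2 / 2 ≤ Real.cosh z := by
  have h1 : Real.cosh z = 1 + 2 * Real.sinh (z / 2) ^ 2 := by
    have h := Real.cosh_two_mul (z / 2)
    have h' := Real.cosh_sq (z / 2)
    rw [show 2 * (z / 2) = z by ring] at h
    linarith
  have h2 : (z / 2) ^ 2 ≤ Real.sinh (z / 2) ^ 2 := by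
    rcases le_total 0 (z / 2) with h0 | h0
    · exact pow_le_pow_left₀ h0 (Real.self_le_sinh_iff.2 h0) 2
    · have h3 : 0 ≤ -(z / 2) := by linarith
      have h4 := pow_le_pow_left₀ h3 (Real.self_le_sinh_iff.2 h3) 2
      rw [Real.sinh_neg] at h4
      nlinarith
  rw [h1]; nlinarith

theorem var_exp_le_one_add (u : ℝ) (hu : 0 ≤ u) : Real.exp (u - u ^ 2 / 2) ≤ 1 + u := by
  have h1 := Real.le_log_one_add_of_nonneg hu
  have h2 : u - u ^ 2 / 2 ≤ 2 * u / (u + 2) := by
    rw [le_div_iff₀ (by linarith)]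
    nlinarith [pow_nonneg hu 3]
  have h3 : (0 : ℝ) < 1 + u := by linarith
  calc Real.exp (u - u ^ 2 / 2) ≤ Real.exp (Real.log (1 + u)) := Real.exp_le_exp.2 (h2.trans h1)
    _ = 1 + u := Real.exp_log h3

theorem var_cosh_ge_exp (z : ℝ) : Real.exp (z ^ 2 / 2 - z ^ 4 / 8) ≤ Real.cosh z := by
  have h := var_exp_le_one_add (z ^ 2 / 2) (by positivity)
  have e : z ^ 2 / 2 - (z ^ 2 / 2) ^ 2 / 2 = z ^ 2 / 2 - z ^ 4 / 8 := by ring
  rw [e] at h
  exact h.trans (var_cosh_lower z)

theorem var_sp_sq (b : Bool) : sp b * sp b = 1 := by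
  unfold sp; cases b <;> simp

/-- Sum of the squares of the linear forms. -/
theorem var_sum_lin_sq {n : ℕ} (J a : Fin n → Fin n → ℝ) (d : ℝ)
    (ha : ∀ i j, ∑ k, a k i * a k j = J i j + if i = j then d else 0) (x : Cfg n) :
    ∑ k, lin a k x ^ 2 = ∑ i, ∑ j, J i j * sp (x i) * sp (x j) + d * n := by
  have h1 : ∑ k, lin a k x ^ 2 = ∑ i, ∑ j, (∑ k, a k i * a k j) * (sp (x i) * sp (x j)) := by
    have : ∀ k, lin a k x ^ 2 = ∑ i, ∑ j, (a k i * a k j) * (sp (x i) * sp (x j)) := by
      intro k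
      unfold lin
      rw [sq, Finset.sum_mul_sum]
      exact Finset.sum_congr rfl fun i _ => Finset.sum_congr rfl fun j _ => by ring
    simp_rw [this]
    rw [Finset.sum_comm]
    refine Finset.sum_congr rfl fun i _ => ?_
    rw [Finset.sum_comm]
    exact Finset.sum_congr rfl fun j _ => by rw [Finset.sum_mul]
  rw [h1]
  simp_rw [ha, add_mul, Finset.sum_add_distrib]
  congr 1
  · exact Finset.sum_congr rfl fun i _ => Finset.sum_congr rfl fun j _ => by ring
  · have : ∀ i : Fin n, ∑ j, (if i = j then d else 0) * (sp (x i) * sp (x j)) = d := by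
      intro i
      rw [Finset.sum_eq_single i]
      · rw [if_pos rfl, var_sp_sq, mul_one]
      · intro j _ hj
        rw [if_neg (Ne.symm hj), zero_mul]
      · intro h; exact absurd (Finset.mem_univ i) h
    simp_rw [this]
    simp [mul_comm]

/-- COSH: comparison of the family with the Ising weight. `a` is a square root of `J + d`. -/
theorem fam_comp {n : ℕ} (J a : Fin n → Fin n → ℝ) (d : ℝ)
    (ha : ∀ i j, ∑ k, a k i * a k j = J i j + if i = j then d else 0) (Y : ℝ)
    (hY : ∀ k (x : Cfg n), |lin a k x| ≤ Y) (e : ℝ) (r : ℕ) (he : 0 ≤ e) (hr : (r : ℝ) * e^2 ≤ 1)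
    (h : Fin n → ℝ) (x : Cfg n) :
    fam a e r h x ≤ Real.exp (r * e^2 * d * n / 2) * wt (fun i j => r * e^2 * J i j) h x ∧
    Real.exp (- (n * Y^4 * e^2)) * (Real.exp (r * e^2 * d * n / 2) *
      wt (fun i j => r * e^2 * J i j) h x) ≤ fam a e r h x := by
  have key : Real.exp (r * e^2 * d * n / 2) * wt (fun i j => r * e^2 * J i j) h x
      = Real.exp (∑ i, h i * sp (x i)) * ∏ k, Real.exp (r * ((e * lin a k x) ^ 2 / 2)) := by
    unfold wt Ham
    rw [← Real.exp_sum, ← Real.exp_add, ← Real.exp_add]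
    congr 1
    have h1 : ∑ k, (r : ℝ) * ((e * lin a k x) ^ 2 / 2) = r * e ^ 2 / 2 * ∑ k, lin a k x ^ 2 := by
      rw [Finset.mul_sum]
      exact Finset.sum_congr rfl fun k _ => by ring
    have h2 : ∑ i, ∑ j, (r : ℝ) * e ^ 2 * J i j * sp (x i) * sp (x j)
        = r * e ^ 2 * ∑ i, ∑ j, J i j * sp (x i) * sp (x j) := by
      rw [Finset.mul_sum]
      refine Finset.sum_congr rfl fun i _ => ?_
      rw [Finset.mul_sum]
      exact Finset.sum_congr rfl fun j _ => by ring
    rw [h1, h2, var_sum_lin_sq J a d ha x]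
    ring
  rw [key]
  unfold fam
  have hE : 0 < Real.exp (∑ i, h i * sp (x i)) := Real.exp_pos _
  constructor
  · refine mul_le_mul_of_nonneg_left ?_ hE.le
    refine Finset.prod_le_prod (fun k _ => pow_nonneg (Real.cosh_pos _).le _) fun k _ => ?_
    rw [Real.exp_nat_mul]
    exact pow_le_pow_left₀ (Real.cosh_pos _).le (Real.cosh_le_exp_half_sq _) _
  · have hfac : Real.exp (-(n * Y^4 * e^2)) = ∏ _k : Fin n, Real.exp (-(Y^4 * e^2)) := by
      rw [Finset.prod_const, Finset.card_univ, Fintype.card_fin, ← Real.exp_nat_mul]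
      congr 1; ring
    rw [hfac, mul_left_comm, ← Finset.prod_mul_distrib]
    refine mul_le_mul_of_nonneg_left ?_ hE.le
    refine Finset.prod_le_prod (fun k _ => (mul_pos (Real.exp_pos _) (Real.exp_pos _)).le)
      fun k _ => ?_
    have hc := pow_le_pow_left₀ (Real.exp_pos _).le (var_cosh_ge_exp (e * lin a k x)) r
    refine le_trans ?_ hc
    rw [← Real.exp_nat_mul, ← Real.exp_add]
    refine Real.exp_le_exp.2 ?_
    have hl := hY k x
    have hY0 : 0 ≤ Y := (abs_nonneg _).trans hl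
    have hl4 : lin a k x ^ 4 ≤ Y ^ 4 := by
      have := pow_le_pow_left₀ (abs_nonneg _) hl 4
      rwa [show |lin a k x| ^ 4 = lin a k x ^ 4 by
        rw [← abs_pow, abs_of_nonneg (by positivity)]] at this
    have hr0 : (0 : ℝ) ≤ (r : ℝ) := Nat.cast_nonneg r
    have h5 : (r : ℝ) * e ^ 2 * (e ^ 2 * lin a k x ^ 4) ≤ 1 * (e ^ 2 * Y ^ 4) := by
      apply mul_le_mul hr _ (by positivity) zero_le_one
      exact mul_le_mul_of_nonneg_left hl4 (sq_nonneg e)
    have h6 : 0 ≤ e ^ 2 * Y ^ 4 := by positivity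
    nlinarith

end Vale.Agent.P150
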