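import Vale.Agent.Lib.P150.Chan
import Vale.Agent.Lib.P150.Prod
import Vale.Agent.Lib.P150.Fam
import Vale.Agent.Lib.P150.Var
import Vale.Agent.Lib.P150.Sqrt
import Vale.Agent.Lib.P150.Lim

namespace Vale.Agent.P150

open Finset MeasureTheory ProbabilityTheory Filter Topology

/-! proofs -/

/-- Sums over the cube, grouped by the spin at `i`. -/
theorem ati_sum_pair {n : ℕ} (i : Fin n) (g : Cfg n → ℝ) :
    ∑ x, g x = (1/2) * ∑ x, (g (st x i true) + g (st x i false)) := by
  have hinv : Function.Involutive (fun x : Cfg n => st x i (!(x i))) := by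
    intro x
    funext j
    by_cases hj : j = i
    · subst hj; simp [st]
    · simp [st, hj]
  have h1 : ∑ x, g x = ∑ x : Cfg n, g (st x i (!(x i))) :=
    (Equiv.sum_comp hinv.toPerm g).symm
  have h2 : ∀ x : Cfg n, g (st x i true) + g (st x i false) = g x + g (st x i (!(x i))) := by
    intro x
    rcases hx : x i with _ | _
    · have : st x i false = x := by
        funext j; by_cases hj : j = i
        · subst hj; simp [st, hx]
        · simp [st, hj]
      rw [this]; simp [add_comm]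
    · have : st x i true = x := by
        funext j; by_cases hj : j = i
        · subst hj; simp [st, hx]
        · simp [st, hj]
      rw [this]; simp
  have h3 : ∑ x, (g (st x i true) + g (st x i false)) = ∑ x, g x + ∑ x, g (st x i (!(x i))) := by
    rw [← Finset.sum_add_distrib]
    exact Finset.sum_congr rfl fun x _ => h2 x
  rw [h3, ← h1]; ring

theorem ati_st_st {n : ℕ} (i : Fin n) (x : Cfg n) (b c : Bool) : st (st x i b) i c = st x i c := by
  simp [st]

theorem ati_sum_hb {n : ℕ} (w : Cfg n → ℝ) (hw : ∀ x, 0 < w x) (i : Fin n) (f : Cfg n → ℝ) :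
    ∑ x, w x * hb w i f x = ∑ x, w x * f x := by
  rw [ati_sum_pair i, ati_sum_pair i (fun x => w x * f x)]
  congr 1
  refine Finset.sum_congr rfl fun x _ => ?_
  unfold hb
  simp only [ati_st_st]
  have h1 := hw (st x i true)
  have h2 := hw (st x i false)
  field_simp

theorem ati_hb_pos {n : ℕ} (w : Cfg n → ℝ) (hw : ∀ x, 0 < w x) (i : Fin n) (f : Cfg n → ℝ)
    (hf : ∀ x, 0 < f x) (x : Cfg n) : 0 < hb w i f x := by
  unfold hb
  have h1 := hw (st x i true)
  have h2 := hw (st x i false)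
  have h3 := hf (st x i true)
  have h4 := hf (st x i false)
  positivity

theorem ati_EntI_nonneg {n : ℕ} (w : Cfg n → ℝ) (hw : ∀ x, 0 < w x) (i : Fin n) (f : Cfg n → ℝ)
    (hf : ∀ x, 0 < f x) : 0 ≤ EntI w i f := by
  have h1 : ∑ x, w x * (f x - hb w i f x) = 0 := by
    have := ati_sum_hb w hw i f
    simp only [mul_sub, Finset.sum_sub_distrib]
    linarith
  rw [← h1]
  unfold EntI
  refine Finset.sum_le_sum fun x _ => mul_le_mul_of_nonneg_left ?_ (hw x).le
  have hp := ati_hb_pos w hw i f hf x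
  have h2 := Real.one_sub_inv_le_log_of_pos (div_pos (hf x) hp)
  have h3 : f x * (1 - (f x / hb w i f x)⁻¹) ≤ f x * Real.log (f x / hb w i f x) :=
    mul_le_mul_of_nonneg_left h2 (hf x).le
  have h4 : f x * (1 - (f x / hb w i f x)⁻¹) = f x - hb w i f x := by
    have := (hf x).ne'
    field_simp
  linarith

theorem ati_AT_mono {n : ℕ} (w : Cfg n → ℝ) (hw : ∀ x, 0 < w x) (C C' : ℝ) (h : C ≤ C')
    (hAT : AT w C) : AT w C' := by
  intro f hf
  refine le_trans (hAT f hf) (mul_le_mul_of_nonneg_right h ?_)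
  exact Finset.sum_nonneg fun i _ => ati_EntI_nonneg w hw i f hf

theorem ati_fam_pos {n : ℕ} (a : Fin n → Fin n → ℝ) (e : ℝ) (r : ℕ) (h : Fin n → ℝ) (x : Cfg n) :
    0 < fam a e r h x := by
  unfold fam
  refine mul_pos (Real.exp_pos _) (Finset.prod_pos fun k _ => pow_pos (Real.cosh_pos _) _)

theorem ati_uvar_smul {n : ℕ} (c : ℝ) (hc : 0 < c) (w F : Cfg n → ℝ) :
    uvar (fun x => c * w x) F = c * uvar w F := by
  have hm : mean (fun x => c * w x) F = mean w F := by
    unfold mean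
    have h1 : ∑ x, c * w x * F x = c * ∑ x, w x * F x := by
      rw [Finset.mul_sum]; exact Finset.sum_congr rfl fun x _ => by ring
    rw [h1, ← Finset.mul_sum]
    rw [mul_div_mul_left _ _ hc.ne']
  unfold uvar
  rw [hm, Finset.mul_sum]
  exact Finset.sum_congr rfl fun x _ => by ring

theorem ati_fam_tilt {n : ℕ} (a : Fin n → Fin n → ℝ) (e : ℝ) (r : ℕ) (h c : Fin n → ℝ) (x : Cfg n) :
    fam a e r h x * Real.exp (∑ k, c k * lin a k x)
      = fam a e r (fun i => h i + ∑ k, c k * a k i) x := by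
  unfold fam
  have h1 : ∑ k, c k * lin a k x = ∑ i, (∑ k, c k * a k i) * sp (x i) := by
    unfold lin
    simp only [Finset.mul_sum, Finset.sum_mul]
    rw [Finset.sum_comm]
    exact Finset.sum_congr rfl fun i _ => Finset.sum_congr rfl fun k _ => by ring
  rw [h1]
  have h2 : ∑ i, (h i + ∑ k, c k * a k i) * sp (x i)
      = ∑ i, h i * sp (x i) + ∑ i, (∑ k, c k * a k i) * sp (x i) := by
    rw [← Finset.sum_add_distrib]
    exact Finset.sum_congr rfl fun i _ => by ring
  rw [h2, Real.exp_add]; ring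

/-- Variance bound for the family. -/
theorem ati_var {n : ℕ} (J a : Fin n → Fin n → ℝ) (hs : ∀ i j, J i j = J j i)
    (hd : ∀ i, J i i = 0) (ρ κ : ℝ) (hρ0 : 0 < ρ) (hκ : 0 < κ)
    (ha : ∀ i j, ∑ k, a k i * a k j = J i j + if i = j then ρ else 0)
    (ha2 : ∀ v : Fin n → ℝ, ∑ i, (∑ k, v k * a k i) ^ 2 ≤ 2 * ρ * ∑ k, v k ^ 2)
    (hP : ∀ θ : ℝ, 0 ≤ θ → θ ≤ 1 → ∀ h : Fin n → ℝ, ∀ f : Cfg n → ℝ,
      κ * uvar (wt (fun i j => θ * J i j) h) f ≤ dir (wt (fun i j => θ * J i j) h) f)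
    (Y : ℝ) (hY : ∀ k (x : Cfg n), |lin a k x| ≤ Y) (e : ℝ) (r : ℕ) (he : 0 ≤ e)
    (hr : (r : ℝ) * e^2 ≤ 1) (hm : n * Y^4 * e^2 ≤ 1/2) (h c v : Fin n → ℝ) :
    uvar (fun x => fam a e r h x * Real.exp (∑ k, c k * lin a k x))
      (fun x => ∑ k, v k * lin a k x)
      ≤ (4 * ρ / κ) * (∑ k, v k ^ 2) * ∑ x, fam a e r h x * Real.exp (∑ k, c k * lin a k x) := by
  have h1 : (fun x => fam a e r h x * Real.exp (∑ k, c k * lin a k x))
      = fam a e r (fun i => h i + ∑ k, c k * a k i) := by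
    funext x; exact ati_fam_tilt a e r h c x
  have h1' : ∀ x, fam a e r h x * Real.exp (∑ k, c k * lin a k x)
      = fam a e r (fun i => h i + ∑ k, c k * a k i) x := fun x => ati_fam_tilt a e r h c x
  set h' : Fin n → ℝ := fun i => h i + ∑ k, c k * a k i with hh'
  rw [h1]
  have h2 : (fun x : Cfg n => ∑ k, v k * lin a k x) = fun x => ∑ i, (∑ k, v k * a k i) * sp (x i) := by
    funext x
    unfold lin
    simp only [Finset.mul_sum, Finset.sum_mul]
    rw [Finset.sum_comm]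
    exact Finset.sum_congr rfl fun i _ => Finset.sum_congr rfl fun k _ => by ring
  rw [h2]
  set q : ℝ := Real.exp (r * e^2 * ρ * n / 2) with hq
  have hq0 : 0 < q := Real.exp_pos _
  have hθ0 : 0 ≤ (r:ℝ) * e^2 := by positivity
  have hv0 : 0 ≤ ∑ k, v k ^ 2 := Finset.sum_nonneg fun i _ => sq_nonneg _
  have hc := fam_comp J a ρ ha Y hY e r he hr h'
  have hvar := var_lin (fun i j => (r:ℝ) * e^2 * J i j) h'
    (fun i j => by simp only [hs i j]) (fun i => by simp only [hd i, mul_zero]) κ hκ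
    (hP _ hθ0 hr h') (fun i => ∑ k, v k * a k i)
  set w0 : Cfg n → ℝ := fun x => q * wt (fun i j => (r:ℝ) * e^2 * J i j) h' x with hw0
  have hA : uvar w0 (fun x => ∑ i, (∑ k, v k * a k i) * sp (x i))
      ≤ ((1/κ) * (2 * ρ * ∑ k, v k ^ 2)) * ∑ x, w0 x := by
    rw [hw0, ati_uvar_smul q hq0, ← Finset.mul_sum]
    have hW : 0 ≤ ∑ x, wt (fun i j => (r:ℝ) * e^2 * J i j) h' x :=
      Finset.sum_nonneg fun x _ => (Real.exp_pos _).le
    calc q * uvar (wt (fun i j => (r:ℝ) * e^2 * J i j) h') _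
        ≤ q * ((1/κ) * (∑ i, (∑ k, v k * a k i) ^ 2) *
            ∑ x, wt (fun i j => (r:ℝ) * e^2 * J i j) h' x) :=
          mul_le_mul_of_nonneg_left hvar hq0.le
      _ ≤ q * ((1/κ) * (2 * ρ * ∑ k, v k ^ 2) *
            ∑ x, wt (fun i j => (r:ℝ) * e^2 * J i j) h' x) := by
          apply mul_le_mul_of_nonneg_left _ hq0.le
          apply mul_le_mul_of_nonneg_right _ hW
          exact mul_le_mul_of_nonneg_left (ha2 v) (by positivity)
      _ = _ := by ring
  have hcomp := uvar_comp w0 (fam a e r h') (fun x => mul_pos hq0 (Real.exp_pos _))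
    (Real.exp (-(n * Y^4 * e^2))) ((1/κ) * (2 * ρ * ∑ k, v k ^ 2)) (Real.exp_pos _)
    (fun x => (hc x).2) (fun x => (hc x).1) _ (by positivity) hA
  refine le_trans hcomp ?_
  have hF : 0 ≤ ∑ x, fam a e r h' x := Finset.sum_nonneg fun x _ => (ati_fam_pos a e r h' x).le
  apply mul_le_mul_of_nonneg_right _ hF
  have hexp : 1/2 ≤ Real.exp (-(n * Y^4 * e^2)) := by
    have := Real.add_one_le_exp (-(n * Y^4 * e^2))
    linarith
  rw [div_le_iff₀ (Real.exp_pos _)]
  have : (1/κ) * (2 * ρ * ∑ k, v k ^ 2) = (4 * ρ / κ * ∑ k, v k ^ 2) * (1/2) := by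
    field_simp; ring
  rw [this]
  exact mul_le_mul_of_nonneg_left hexp (by positivity)

/-- ATI: approximate tensorisation for Ising models. -/
theorem at_ising {n : ℕ} (J : Fin n → Fin n → ℝ) (h : Fin n → ℝ) (hs : ∀ i j, J i j = J j i)
    (hd : ∀ i, J i i = 0) (ρ κ : ℝ) (hρ0 : 0 < ρ)
    (hρ : ∀ v : Fin n → ℝ, |∑ i, ∑ j, J i j * v i * v j| ≤ ρ * ∑ i, v i ^ 2) (hκ : 0 < κ)
    (hP : ∀ θ : ℝ, 0 ≤ θ → θ ≤ 1 → ∀ h : Fin n → ℝ, ∀ f : Cfg n → ℝ,
      κ * uvar (wt (fun i j => θ * J i j) h) f ≤ dir (wt (fun i j => θ * J i j) h) f) :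
    AT (wt J h) (Real.exp (16 * ρ / κ)) := by
  obtain ⟨a, ha, ha2⟩ := exists_sqrt J hs ρ hρ
  set Y : ℝ := ∑ k, ∑ i, |a k i| with hYdef
  have hY0 : 0 ≤ Y := Finset.sum_nonneg fun k _ => Finset.sum_nonneg fun i _ => abs_nonneg _
  have hY : ∀ k (x : Cfg n), |lin a k x| ≤ Y := by
    intro k x
    have h1 : |lin a k x| ≤ ∑ i, |a k i| := by
      unfold lin
      refine le_trans (Finset.abs_sum_le_sum_abs _ _) (le_of_eq ?_)
      refine Finset.sum_congr rfl fun i _ => ?_
      rw [abs_mul]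
      have : |sp (x i)| = 1 := by cases x i <;> simp [sp]
      rw [this, mul_one]
    refine le_trans h1 ?_
    exact Finset.single_le_sum (f := fun k => ∑ i, |a k i|)
      (fun k _ => Finset.sum_nonneg fun i _ => abs_nonneg _) (Finset.mem_univ k)
  set V : ℝ := 4 * ρ / κ with hV
  have hV0 : 0 < V := by positivity
  obtain ⟨K, e0, hK0, he0, hch⟩ := channel n Y V hY0 hV0.le
  apply at_limit J a ρ ha h _ (Real.exp_pos _).le
  -- eventually in R
  have hlim : Tendsto (fun R : ℕ => 1 / Real.sqrt (R:ℝ)) atTop (𝓝 0) := by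
    have h1 : Tendsto (fun R : ℕ => Real.sqrt (R:ℝ)) atTop atTop :=
      Real.tendsto_sqrt_atTop.comp tendsto_natCast_atTop_atTop
    have h2 := tendsto_inv_atTop_zero.comp h1
    simp only [one_div]
    exact h2
  have E1 : ∀ᶠ R : ℕ in atTop, 1 / Real.sqrt (R:ℝ) < e0 := hlim.eventually_lt_const he0
  have E2 : ∀ᶠ R : ℕ in atTop, n * Y^4 * (1 / Real.sqrt (R:ℝ))^2 < 1/2 := by
    have h1 : Tendsto (fun R : ℕ => n * Y^4 * (1 / Real.sqrt (R:ℝ))^2) atTop (𝓝 (n * Y^4 * 0^2)) :=
      (hlim.pow 2).const_mul _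
    simp only [ne_eq, OfNat.ofNat_ne_zero, not_false_eq_true, zero_pow, mul_zero] at h1
    exact h1.eventually_lt_const (by norm_num)
  have E3 : ∀ᶠ R : ℕ in atTop, K * (1 / Real.sqrt (R:ℝ)) < V := by
    have h1 : Tendsto (fun R : ℕ => K * (1 / Real.sqrt (R:ℝ))) atTop (𝓝 (K * 0)) :=
      hlim.const_mul _
    rw [mul_zero] at h1
    exact h1.eventually_lt_const hV0
  have E4 : ∀ᶠ R : ℕ in atTop,
      2 * V * (1 / Real.sqrt (R:ℝ))^2 + K * (1 / Real.sqrt (R:ℝ))^3 < 1/4 := by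
    have h1 : Tendsto (fun R : ℕ => 2 * V * (1 / Real.sqrt (R:ℝ))^2 + K * (1 / Real.sqrt (R:ℝ))^3)
        atTop (𝓝 (2 * V * 0^2 + K * 0^3)) :=
      ((hlim.pow 2).const_mul _).add ((hlim.pow 3).const_mul _)
    simp only [ne_eq, OfNat.ofNat_ne_zero, not_false_eq_true, zero_pow, mul_zero, add_zero] at h1
    exact h1.eventually_lt_const (by norm_num)
  filter_upwards [E1, E2, E3, E4, eventually_gt_atTop 0] with R e1 e2 e3 e4 hR
  set e : ℝ := 1 / Real.sqrt (R:ℝ) with he
  have hRpos : (0:ℝ) < R := by exact_mod_cast hR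
  have hepos : 0 < e := by rw [he]; positivity
  have hRe : (R:ℝ) * e^2 = 1 := by
    rw [he, div_pow, Real.sq_sqrt hRpos.le]; field_simp
  set d : ℝ := 2 * V * e^2 + K * e^3 with hddef
  have hd0 : 0 ≤ d := by positivity
  have hd1 : d < 1 := by linarith
  -- induction
  have key : ∀ r : ℕ, r ≤ R → ∀ h, AT (fam a e r h) ((1/(1-d))^r) := by
    intro r
    induction r with
    | zero =>
      intro _ h
      have : fam a e 0 h = fun x : Cfg n => Real.exp (∑ i, h i * sp (x i)) := by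
        funext x; simp [fam]
      rw [this, pow_zero]
      exact at_product h
    | succ r ih =>
      intro hr h
      have ih' := ih (by omega)
      have hpos : 0 ≤ (1/(1-d))^r := by
        have : 0 < 1 - d := by linarith
        positivity
      have hst := at_step a e d ((1/(1-d))^r) r hd1 hpos ih' (by
        intro h f hf
        refine hch (fam a e (r+1) h) (ati_fam_pos a e (r+1) h) (lin a) hY ?_ f hf e hepos e1.le
        intro c v
        refine ati_var J a hs hd ρ κ hρ0 hκ ha ha2 hP Y hY e (r+1) hepos.le ?_ e2.le h c v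
        have h1 : ((r+1 : ℕ):ℝ) ≤ R := by exact_mod_cast hr
        calc ((r+1 : ℕ):ℝ) * e^2 ≤ R * e^2 := by gcongr
          _ = 1 := hRe) h
      have : (1/(1-d))^(r+1) = (1/(1-d))^r / (1-d) := by
        rw [pow_succ]; ring
      rw [this]
      exact hst
  refine ati_AT_mono _ (ati_fam_pos a e R h) _ _ ?_ (key R le_rfl h)
  -- (1/(1-d))^R ≤ exp (16 ρ/κ)
  have h1d : 0 < 1 - d := by linarith
  have hle : 1/(1-d) ≤ Real.exp (d/(1-d)) := by
    have h1 := Real.add_one_le_exp (d/(1-d))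
    have h2 : 1/(1-d) = d/(1-d) + 1 := by field_simp; ring
    linarith
  calc (1/(1-d))^R ≤ (Real.exp (d/(1-d)))^R := by
        apply pow_le_pow_left₀ (by positivity) hle
    _ = Real.exp (R * (d/(1-d))) := by rw [← Real.exp_nat_mul]
    _ ≤ Real.exp (16 * ρ / κ) := by
        apply Real.exp_le_exp.mpr
        have hRd : (R:ℝ) * d = 2 * V + K * e := by
          rw [hddef]
          have : (R:ℝ) * (2 * V * e^2 + K * e^3) = 2 * V * (R * e^2) + K * e * (R * e^2) := by ring
          rw [this, hRe]; ring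
        have h3 : (R:ℝ) * (d/(1-d)) = (2 * V + K * e)/(1-d) := by
          rw [← hRd]; ring
        rw [h3, div_le_iff₀ h1d]
        have h4 : 16 * ρ / κ = 4 * V := by rw [hV]; ring
        rw [h4]
        nlinarith

end Vale.Agent.P150
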