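import Vale.Agent.Lib.P150.Defs

/-!
# P150, module BOCH: the Bochner inequality from the pair inequality
-/

namespace Vale.Agent.P150

open Finset

theorem bochner_sg_nonneg {n : ℕ} (J : Fin n → Fin n → ℝ) (h : Fin n → ℝ) (i : Fin n)
    (x : Cfg n) : 0 ≤ sg J h i x := by
  unfold sg mg
  have h1 := Real.tanh_lt_one (fld J h i x)
  have h2 := Real.neg_one_lt_tanh (fld J h i x)
  nlinarith

/-- BOCH, from the local identity and the pair inequality. -/
theorem bochner_of {n : ℕ} (J : Fin n → Fin n → ℝ) (h : Fin n → ℝ) (hs : ∀ i j, J i j = J j i)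
    (hd : ∀ i, J i i = 0) (L B τ : ℝ)
    (hL : ∀ v : Fin n → ℝ, ∑ i, ∑ j, J i j * v i * v j ≤ L * ∑ i, v i ^ 2)
    (hB : ∀ i, ∑ j, J i j ^ 2 ≤ B) (hτ : ∀ i j, |J i j| ≤ τ) (hτ4 : τ ≤ 1/4) (f : Cfg n → ℝ)
    (hloc : ∀ i, ∑ x, wt J h x * (f x - hb (wt J h) i f x) ^ 2
      = ∑ x, wt J h x * (sg J h i x * Di f i x ^ 2))
    (hpair : ∀ i j, i ≠ j → |J i j| ≤ 1/4 →
    - J i j ^2 * ∑ x, wt J h x * (sg J h i x * mg J h i x ^2 * Di f i x ^2
          + sg J h j x * mg J h j x ^2 * Di f j x ^2)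
      - 1000 * |J i j|^3 * ∑ x, wt J h x * (sg J h i x * Di f i x ^2 + sg J h j x * Di f j x ^2)
    ≤ ∑ x, wt J h x * ((f x - hb (wt J h) i f x) * (f x - hb (wt J h) j f x))
      + J i j * ∑ x, wt J h x * ((sg J h i x * Di f i x) * (sg J h j x * Di f j x))) :
    (1 - max L (2*B) - 2000 * τ * B) * dir (wt J h) f
      ≤ ∑ x, wt J h x * (∑ i, (f x - hb (wt J h) i f x)) ^ 2 := by
  have hw : ∀ x, 0 < wt J h x := fun _ => Real.exp_pos _
  -- abbreviations
  set a : Fin n → ℝ := fun i => ∑ x, wt J h x * (sg J h i x * Di f i x ^ 2) with ha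
  set b : Fin n → ℝ := fun i => ∑ x, wt J h x * (sg J h i x * mg J h i x ^ 2 * Di f i x ^ 2)
    with hbdef
  set e : Fin n → ℝ := fun i => ∑ x, wt J h x * (sg J h i x * Di f i x) ^ 2 with he
  have ha0 : ∀ i, 0 ≤ a i := fun i => Finset.sum_nonneg fun x _ =>
    mul_nonneg (hw x).le (mul_nonneg (bochner_sg_nonneg J h i x) (sq_nonneg _))
  have hb0 : ∀ i, 0 ≤ b i := fun i => Finset.sum_nonneg fun x _ =>
    mul_nonneg (hw x).le (mul_nonneg (mul_nonneg (bochner_sg_nonneg J h i x) (sq_nonneg _))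
      (sq_nonneg _))
  have he0 : ∀ i, 0 ≤ e i := fun i => Finset.sum_nonneg fun x _ =>
    mul_nonneg (hw x).le (sq_nonneg _)
  have heb : ∀ i, e i + b i = a i := by
    intro i
    simp only [he, hbdef, ha, ← Finset.sum_add_distrib]
    refine Finset.sum_congr rfl fun x _ => ?_
    unfold sg
    ring
  have hdir : dir (wt J h) f = ∑ i, a i := by
    unfold dir
    exact Finset.sum_congr rfl fun i _ => hloc i
  have hexp : ∑ x, wt J h x * (∑ i, (f x - hb (wt J h) i f x)) ^ 2
      = ∑ i, ∑ j, ∑ x, wt J h x * ((f x - hb (wt J h) i f x) * (f x - hb (wt J h) j f x)) := by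
    have : ∀ x, wt J h x * (∑ i, (f x - hb (wt J h) i f x)) ^ 2
        = ∑ i, ∑ j, wt J h x * ((f x - hb (wt J h) i f x) * (f x - hb (wt J h) j f x)) := by
      intro x
      rw [sq, Finset.sum_mul_sum, Finset.mul_sum]
      refine Finset.sum_congr rfl fun i _ => ?_
      rw [Finset.mul_sum]
    rw [Finset.sum_congr rfl fun x _ => this x, Finset.sum_comm]
    refine Finset.sum_congr rfl fun i _ => ?_
    rw [Finset.sum_comm]
  have key : ∀ i j, (if i = j then a i else 0)
      - J i j * ∑ x, wt J h x * ((sg J h i x * Di f i x) * (sg J h j x * Di f j x))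
      - J i j ^ 2 * (b i + b j) - 1000 * |J i j| ^ 3 * (a i + a j)
      ≤ ∑ x, wt J h x * ((f x - hb (wt J h) i f x) * (f x - hb (wt J h) j f x)) := by
    intro i j
    by_cases hij : i = j
    · subst hij
      rw [if_pos rfl, hd i]
      have h1 := hloc i
      have h2 : ∑ x, wt J h x * ((f x - hb (wt J h) i f x) * (f x - hb (wt J h) i f x))
          = a i := by
        rw [ha]
        simp only
        rw [← h1]
        exact Finset.sum_congr rfl fun x _ => by ring
      rw [h2]
      simp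
    · rw [if_neg hij]
      have h1 := hpair i j hij ((hτ i j).trans hτ4)
      have h2 : ∑ x, wt J h x * (sg J h i x * mg J h i x ^2 * Di f i x ^2
          + sg J h j x * mg J h j x ^2 * Di f j x ^2) = b i + b j := by
        simp only [hbdef, ← Finset.sum_add_distrib]
        exact Finset.sum_congr rfl fun x _ => by ring
      have h3 : ∑ x, wt J h x * (sg J h i x * Di f i x ^2 + sg J h j x * Di f j x ^2)
          = a i + a j := by
        simp only [ha, ← Finset.sum_add_distrib]
        exact Finset.sum_congr rfl fun x _ => by ring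
      rw [h2, h3] at h1
      linarith
  have hsum : ∑ i, ∑ j, ((if i = j then a i else 0)
      - J i j * ∑ x, wt J h x * ((sg J h i x * Di f i x) * (sg J h j x * Di f j x))
      - J i j ^ 2 * (b i + b j) - 1000 * |J i j| ^ 3 * (a i + a j))
      ≤ ∑ x, wt J h x * (∑ i, (f x - hb (wt J h) i f x)) ^ 2 := by
    rw [hexp]
    exact Finset.sum_le_sum fun i _ => Finset.sum_le_sum fun j _ => key i j
  -- the interaction term
  have hint : ∑ i, ∑ j, J i j * ∑ x, wt J h x * ((sg J h i x * Di f i x) *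
      (sg J h j x * Di f j x)) ≤ L * ∑ i, e i := by
    have h1 : ∑ i, ∑ j, J i j * ∑ x, wt J h x * ((sg J h i x * Di f i x) *
        (sg J h j x * Di f j x))
        = ∑ x, wt J h x * ∑ i, ∑ j, J i j * (sg J h i x * Di f i x) * (sg J h j x * Di f j x) := by
      calc ∑ i, ∑ j, J i j * ∑ x, wt J h x * ((sg J h i x * Di f i x) *
            (sg J h j x * Di f j x))
          = ∑ i, ∑ j, ∑ x, J i j * (wt J h x * ((sg J h i x * Di f i x) *
            (sg J h j x * Di f j x))) :=
            Finset.sum_congr rfl fun i _ => Finset.sum_congr rfl fun j _ => Finset.mul_sum _ _ _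
        _ = ∑ i, ∑ x, ∑ j, J i j * (wt J h x * ((sg J h i x * Di f i x) *
            (sg J h j x * Di f j x))) :=
            Finset.sum_congr rfl fun i _ => Finset.sum_comm
        _ = ∑ x, ∑ i, ∑ j, J i j * (wt J h x * ((sg J h i x * Di f i x) *
            (sg J h j x * Di f j x))) := Finset.sum_comm
        _ = ∑ x, wt J h x * ∑ i, ∑ j, J i j * (sg J h i x * Di f i x) *
            (sg J h j x * Di f j x) := by
            refine Finset.sum_congr rfl fun x _ => ?_
            rw [Finset.mul_sum]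
            refine Finset.sum_congr rfl fun i _ => ?_
            rw [Finset.mul_sum]
            exact Finset.sum_congr rfl fun j _ => by ring
    rw [h1]
    have h2 : L * ∑ i, e i = ∑ x, wt J h x * (L * ∑ i, (sg J h i x * Di f i x) ^ 2) := by
      simp only [he]
      rw [Finset.sum_comm, Finset.mul_sum]
      refine Finset.sum_congr rfl fun x _ => ?_
      rw [← Finset.mul_sum]
      ring
    rw [h2]
    exact Finset.sum_le_sum fun x _ => mul_le_mul_of_nonneg_left (hL _) (hw x).le
  -- square terms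
  have hgen : ∀ (K : Fin n → Fin n → ℝ) (c : Fin n → ℝ) (M : ℝ), (∀ i j, K i j = K j i) →
      (∀ i, 0 ≤ c i) → (∀ i, ∑ j, K i j ≤ M) →
      ∑ i, ∑ j, K i j * (c i + c j) ≤ 2 * M * ∑ i, c i := by
    intro K c M hK hc hM
    have h1 : ∑ i, ∑ j, K i j * (c i + c j) = 2 * ∑ i, (∑ j, K i j) * c i := by
      have e1 : ∑ i, ∑ j, K i j * (c i + c j) = ∑ i, ∑ j, K i j * c i + ∑ i, ∑ j, K i j * c j := by
        rw [← Finset.sum_add_distrib]
        refine Finset.sum_congr rfl fun i _ => ?_
        rw [← Finset.sum_add_distrib]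
        exact Finset.sum_congr rfl fun j _ => by ring
      have e2 : ∑ i, ∑ j, K i j * c j = ∑ i, ∑ j, K i j * c i := by
        rw [Finset.sum_comm]
        refine Finset.sum_congr rfl fun i _ => Finset.sum_congr rfl fun j _ => ?_
        rw [hK]
      rw [e1, e2, ← two_mul]
      congr 1
      refine Finset.sum_congr rfl fun i _ => ?_
      rw [Finset.sum_mul]
    rw [h1, mul_assoc]
    refine mul_le_mul_of_nonneg_left ?_ (by norm_num)
    rw [Finset.mul_sum]
    exact Finset.sum_le_sum fun i _ => mul_le_mul_of_nonneg_right (hM i) (hc i)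
  have hsq : ∑ i, ∑ j, J i j ^ 2 * (b i + b j) ≤ 2 * B * ∑ i, b i :=
    hgen (fun i j => J i j ^ 2) b B (fun i j => by simp only [hs i j]) hb0 hB
  have hcu : ∑ i, ∑ j, |J i j| ^ 3 * (a i + a j) ≤ 2 * (τ * B) * ∑ i, a i := by
    refine hgen (fun i j => |J i j| ^ 3) a (τ * B) (fun i j => by simp only [hs i j]) ha0 ?_
    intro i
    have hτ0 : 0 ≤ τ := (abs_nonneg _).trans (hτ i i)
    calc ∑ j, |J i j| ^ 3 ≤ ∑ j, τ * J i j ^ 2 := by
          refine Finset.sum_le_sum fun j _ => ?_
          have h1 : |J i j| ^ 3 = |J i j| * J i j ^ 2 := by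
            rw [← sq_abs (J i j)]; ring
          rw [h1]
          exact mul_le_mul_of_nonneg_right (hτ i j) (sq_nonneg _)
      _ = τ * ∑ j, J i j ^ 2 := by rw [Finset.mul_sum]
      _ ≤ τ * B := mul_le_mul_of_nonneg_left (hB i) hτ0
  have hsplit : ∑ i, ∑ j, ((if i = j then a i else 0)
      - J i j * ∑ x, wt J h x * ((sg J h i x * Di f i x) * (sg J h j x * Di f j x))
      - J i j ^ 2 * (b i + b j) - 1000 * |J i j| ^ 3 * (a i + a j))
      = ∑ i, a i - ∑ i, ∑ j, J i j * ∑ x, wt J h x * ((sg J h i x * Di f i x) *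
      (sg J h j x * Di f j x)) - ∑ i, ∑ j, J i j ^ 2 * (b i + b j)
      - 1000 * ∑ i, ∑ j, |J i j| ^ 3 * (a i + a j) := by
    rw [Finset.mul_sum, ← Finset.sum_sub_distrib, ← Finset.sum_sub_distrib,
      ← Finset.sum_sub_distrib]
    refine Finset.sum_congr rfl fun i _ => ?_
    rw [Finset.sum_sub_distrib, Finset.sum_sub_distrib, Finset.sum_sub_distrib,
      Finset.sum_ite_eq, if_pos (Finset.mem_univ i), Finset.mul_sum]
    congr 1
    exact Finset.sum_congr rfl fun j _ => by ring
  rw [hsplit] at hsum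
  rw [hdir]
  have hfin : L * ∑ i, e i + 2 * B * ∑ i, b i ≤ max L (2 * B) * ∑ i, a i := by
    have h1 : ∑ i, a i = ∑ i, e i + ∑ i, b i := by
      rw [← Finset.sum_add_distrib]
      exact Finset.sum_congr rfl fun i _ => (heb i).symm
    rw [h1, mul_add]
    exact add_le_add
      (mul_le_mul_of_nonneg_right (le_max_left _ _) (Finset.sum_nonneg fun i _ => he0 i))
      (mul_le_mul_of_nonneg_right (le_max_right _ _) (Finset.sum_nonneg fun i _ => hb0 i))
  nlinarith [hsum, hint, hsq, hcu, hfin]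

end Vale.Agent.P150
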