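import Vale.Agent.Lib.P150.DV

/-!
# P150, module CHAN: the entropy lost in one small step of the channel
-/

namespace Vale.Agent.P150

open Finset

/-- Statement of the module DV. -/
def DVStmt : Prop := ∀ {n : ℕ} (w : Cfg n → ℝ) (_ : ∀ x, 0 < w x) (R : Cfg n → ℝ) (V : ℝ)
    (_ : 0 ≤ V) (_ : ∀ l : ℝ, uvar (fun x => w x * Real.exp (l * R x)) R
        ≤ V * ∑ x, w x * Real.exp (l * R x))
    (f : Cfg n → ℝ) (_ : ∀ x, 0 < f x),
    (∑ x, w x * f x) * ((∑ x, w x * f x * R x) / (∑ x, w x * f x) - mean w R) ^ 2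
      ≤ 2 * V * Ent w f

theorem chan_tanh {z : ℝ} (hz : |z| ≤ 1) : |Real.tanh z - z| ≤ 2 * z ^ 2 := by
  have h1 := Real.abs_exp_sub_one_sub_id_le hz
  have h2 := Real.abs_exp_sub_one_sub_id_le (x := -z) (by rwa [abs_neg])
  obtain ⟨a, ha⟩ : ∃ a, a = Real.exp z - 1 - z := ⟨_, rfl⟩
  obtain ⟨b, hb⟩ : ∃ b, b = Real.exp (-z) - 1 - -z := ⟨_, rfl⟩
  rw [← ha] at h1
  rw [← hb] at h2
  have hz2 : (-z) ^ 2 = z ^ 2 := by ring
  rw [hz2] at h2
  have hden : 2 ≤ Real.exp z + Real.exp (-z) := by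
    have := Real.one_le_cosh z
    rw [Real.cosh_eq] at this
    linarith
  have e1 : Real.tanh z - z = (a - b - z * (a + b)) / (Real.exp z + Real.exp (-z)) := by
    rw [Real.tanh_eq_sinh_div_cosh, Real.sinh_eq, Real.cosh_eq, ha, hb]
    field_simp
    ring
  have e2 : |a - b - z * (a + b)| ≤ 4 * z ^ 2 := by
    have g1 := abs_le.1 h1
    have g2 := abs_le.1 h2
    have g3 := abs_le.1 hz
    have g4 : |z * (a + b)| ≤ 1 * (2 * z ^ 2) := by
      rw [abs_mul]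
      apply mul_le_mul hz _ (abs_nonneg _) (by norm_num)
      rw [abs_le]; constructor <;> linarith
    have g5 := abs_le.1 g4
    rw [abs_le]; constructor <;> linarith
  rw [e1, abs_div, abs_of_pos (by linarith : 0 < Real.exp z + Real.exp (-z)),
    div_le_iff₀ (by linarith)]
  nlinarith [sq_nonneg z]

theorem chan_prod {ι : Type*} (t : Finset ι) (s : ι → ℝ) (δ : ℝ) (hδ0 : 0 ≤ δ) (hδ1 : δ ≤ 1)
    (hs : ∀ k, |s k| ≤ δ) :
    |∏ k ∈ t, (1 + s k) - 1 - ∑ k ∈ t, s k| ≤ 4 ^ t.card * δ ^ 2 ∧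
      |∑ k ∈ t, s k| ≤ t.card * δ := by
  classical
  induction t using Finset.induction_on with
  | empty => simp; positivity
  | insert a t ha ih =>
    obtain ⟨h1, h2⟩ := ih
    rw [Finset.prod_insert ha, Finset.sum_insert ha, Finset.card_insert_of_notMem ha]
    obtain ⟨p, hp⟩ : ∃ p, p = ∏ k ∈ t, (1 + s k) := ⟨_, rfl⟩
    obtain ⟨q, hq⟩ : ∃ q, q = ∑ k ∈ t, s k := ⟨_, rfl⟩
    rw [← hp, ← hq] at h1
    rw [← hq] at h2
    rw [← hp, ← hq]
    have h3 := hs a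
    have hm : (t.card : ℝ) ≤ 4 ^ t.card := by
      exact_mod_cast (Nat.lt_pow_self (by norm_num)).le
    constructor
    · have e1 : (1 + s a) * p - 1 - (s a + q) = (p - 1 - q) + s a * (p - 1) := by ring
      have e2 : |p - 1| ≤ t.card * δ + 4 ^ t.card * δ ^ 2 := by
        have : p - 1 = (p - 1 - q) + q := by ring
        rw [this]
        exact (abs_add_le _ _).trans (by linarith)
      have e3 : |s a * (p - 1)| ≤ δ * (t.card * δ + 4 ^ t.card * δ ^ 2) := by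
        rw [abs_mul]
        exact mul_le_mul h3 e2 (abs_nonneg _) hδ0
      have e4 : δ * (t.card * δ + 4 ^ t.card * δ ^ 2) ≤ 2 * 4 ^ t.card * δ ^ 2 := by
        have a1 : (t.card : ℝ) * δ ^ 2 ≤ 4 ^ t.card * δ ^ 2 :=
          mul_le_mul_of_nonneg_right hm (sq_nonneg _)
        have a2 : (4 : ℝ) ^ t.card * δ ^ 2 * δ ≤ 4 ^ t.card * δ ^ 2 * 1 :=
          mul_le_mul_of_nonneg_left hδ1 (by positivity)
        nlinarith
      rw [e1]
      refine (abs_add_le _ _).trans ?_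
      rw [pow_succ]
      have : (0 : ℝ) ≤ 4 ^ t.card * δ ^ 2 := by positivity
      nlinarith
    · refine (abs_add_le _ _).trans ?_
      push_cast
      linarith

/-- expansion of the channel -/
theorem chan_expand {n : ℕ} (Y e : ℝ) (hY : 1 ≤ Y) (he0 : 0 < e) (he : 3 * e * Y ≤ 1)
    (y : Fin n → Cfg n → ℝ) (hy : ∀ k x, |y k x| ≤ Y) (xi x : Cfg n) :
    |2 ^ n * qx y e xi x - 1 - e * ∑ k, sp (xi k) * y k x| ≤
      (9 * 4 ^ n + 2 * n) * Y ^ 2 * e ^ 2 := by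
  have hsp : ∀ b : Bool, |sp b| = 1 := fun b => by cases b <;> simp [sp]
  have hz : ∀ k, |e * y k x| ≤ e * Y := fun k => by
    rw [abs_mul, abs_of_pos he0]
    exact mul_le_mul_of_nonneg_left (hy k x) he0.le
  have heY : e * Y ≤ 1 := by nlinarith
  have hz1 : ∀ k, |e * y k x| ≤ 1 := fun k => (hz k).trans heY
  have ht := fun k => chan_tanh (hz1 k)
  have hzsq : ∀ k, (e * y k x) ^ 2 ≤ (e * Y) ^ 2 := fun k => by
    rw [← sq_abs (e * y k x)]
    exact pow_le_pow_left₀ (abs_nonneg _) (hz k) 2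
  have hzsq' : (e * Y) ^ 2 ≤ e * Y := by nlinarith [mul_pos he0 (show 0 < Y by linarith)]
  have hth : ∀ k, |sp (xi k) * Real.tanh (e * y k x)| ≤ 3 * e * Y := fun k => by
    rw [abs_mul, hsp, one_mul]
    have : Real.tanh (e * y k x) = (Real.tanh (e * y k x) - e * y k x) + e * y k x := by ring
    rw [this]
    refine (abs_add_le _ _).trans ?_
    have := ht k
    have := hzsq k
    have := hz k
    nlinarith
  obtain ⟨h1, -⟩ := chan_prod (Finset.univ : Finset (Fin n))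
    (fun k => sp (xi k) * Real.tanh (e * y k x)) (3 * e * Y) (by positivity) he hth
  have e1 : 2 ^ n * qx y e xi x = ∏ k, (1 + sp (xi k) * Real.tanh (e * y k x)) := by
    unfold qx
    rw [Finset.prod_div_distrib, Finset.prod_const, Finset.card_univ, Fintype.card_fin]
    field_simp
  have e2 : |∑ k, sp (xi k) * Real.tanh (e * y k x) - e * ∑ k, sp (xi k) * y k x| ≤
      n * (2 * (e * Y) ^ 2) := by
    rw [Finset.mul_sum, ← Finset.sum_sub_distrib]
    refine (Finset.abs_sum_le_sum_abs _ _).trans ?_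
    have : ∀ k ∈ (Finset.univ : Finset (Fin n)),
        |sp (xi k) * Real.tanh (e * y k x) - e * (sp (xi k) * y k x)| ≤ 2 * (e * Y) ^ 2 := by
      intro k _
      have : sp (xi k) * Real.tanh (e * y k x) - e * (sp (xi k) * y k x) =
          sp (xi k) * (Real.tanh (e * y k x) - e * y k x) := by ring
      rw [this, abs_mul, hsp, one_mul]
      have := ht k
      have := hzsq k
      linarith
    refine (Finset.sum_le_sum this).trans ?_
    simp
  rw [e1]
  have hcard : (Finset.univ : Finset (Fin n)).card = n := by simp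
  rw [hcard] at h1
  have e3 : ∏ k, (1 + sp (xi k) * Real.tanh (e * y k x)) - 1 - e * ∑ k, sp (xi k) * y k x =
      (∏ k, (1 + sp (xi k) * Real.tanh (e * y k x)) - 1 - ∑ k, sp (xi k) * Real.tanh (e * y k x)) +
      (∑ k, sp (xi k) * Real.tanh (e * y k x) - e * ∑ k, sp (xi k) * y k x) := by ring
  rw [e3]
  refine (abs_add_le _ _).trans ?_
  have e4 : (4 : ℝ) ^ n * (3 * e * Y) ^ 2 + n * (2 * (e * Y) ^ 2) =
      (9 * 4 ^ n + 2 * n) * Y ^ 2 * e ^ 2 := by ring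
  linarith

/-- orthogonality of the signs -/
theorem chan_orth {n : ℕ} (d : Fin n → ℝ) :
    ∑ xi : Cfg n, (∑ k, sp (xi k) * d k) ^ 2 = 2 ^ n * ∑ k, d k ^ 2 := by
  have hsq : ∀ b : Bool, sp b * sp b = 1 := fun b => by cases b <;> simp [sp]
  have hneg : ∀ b : Bool, sp (!b) = - sp b := fun b => by cases b <;> simp [sp]
  have h1 : ∀ k l : Fin n, ∑ xi : Cfg n, sp (xi k) * sp (xi l) = if k = l then 2 ^ n else 0 := by
    intro k l
    split_ifs with h
    · subst h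
      simp [hsq]
    · let σ : Cfg n ≃ Cfg n :=
        { toFun := fun xi => Function.update xi k (!(xi k))
          invFun := fun xi => Function.update xi k (!(xi k))
          left_inv := fun xi => by
            funext j
            by_cases hj : j = k
            · subst hj; simp
            · simp [Function.update_of_ne hj]
          right_inv := fun xi => by
            funext j
            by_cases hj : j = k
            · subst hj; simp
            · simp [Function.update_of_ne hj] }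
      have h2 : ∑ xi : Cfg n, sp (xi k) * sp (xi l) = ∑ xi : Cfg n, sp (σ xi k) * sp (σ xi l) :=
        (Equiv.sum_comp σ (fun xi => sp (xi k) * sp (xi l))).symm
      have h3 : ∀ xi : Cfg n, sp (σ xi k) * sp (σ xi l) = - (sp (xi k) * sp (xi l)) := by
        intro xi
        have a1 : σ xi k = !(xi k) := by simp [σ]
        have a2 : σ xi l = xi l := by simp [σ, Function.update_of_ne (Ne.symm h)]
        rw [a1, a2, hneg]; ring
      simp only [h3, Finset.sum_neg_distrib] at h2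
      linarith
  have h4 : ∀ xi : Cfg n, (∑ k, sp (xi k) * d k) ^ 2 =
      ∑ k, ∑ l, (d k * d l) * (sp (xi k) * sp (xi l)) := by
    intro xi
    rw [sq, Finset.sum_mul_sum]
    refine Finset.sum_congr rfl fun k _ => Finset.sum_congr rfl fun l _ => by ring
  simp only [h4]
  rw [Finset.sum_comm]
  simp only [Finset.sum_comm (s := (Finset.univ : Finset (Cfg n))), ← Finset.mul_sum, h1]
  simp only [mul_ite, mul_zero, Finset.sum_ite_eq, Finset.mem_univ, if_true]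
  rw [Finset.mul_sum]
  refine Finset.sum_congr rfl fun k _ => by ring

theorem chan_qx_pos {n : ℕ} (y : Fin n → Cfg n → ℝ) (e : ℝ) (xi x : Cfg n) : 0 < qx y e xi x := by
  unfold qx
  refine Finset.prod_pos fun k _ => ?_
  have h := abs_lt.1 (Real.abs_tanh_lt_one (e * y k x))
  cases xi k <;> simp only [sp] <;> norm_num <;> linarith [h.1, h.2]

theorem chan_qx_sum {n : ℕ} (y : Fin n → Cfg n → ℝ) (e : ℝ) (x : Cfg n) :
    ∑ xi, qx y e xi x = 1 := by
  unfold qx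
  have h := Finset.prod_univ_sum (fun _ : Fin n => (Finset.univ : Finset Bool))
    (fun k b => (1 + sp b * Real.tanh (e * y k x)) / 2)
  rw [Fintype.piFinset_univ] at h
  rw [← h]
  apply Finset.prod_eq_one
  intro k _
  rw [Fintype.sum_bool]
  simp only [sp]
  norm_num
  ring

/-- entropy is nonnegative -/
theorem chan_ent_nonneg (hDV : DVStmt) {n : ℕ} (w f : Cfg n → ℝ) (hw : ∀ x, 0 < w x)
    (hf : ∀ x, 0 < f x) : 0 ≤ Ent w f := by
  have h := hDV w hw (fun _ => 0) 1 (by norm_num) (fun l => by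
    have : 0 ≤ ∑ x, w x * Real.exp (l * 0) := Finset.sum_nonneg fun x _ => by
      have := hw x
      positivity
    simp only [uvar, mean, mul_zero, Finset.sum_const_zero, zero_div, sub_zero]
    norm_num
    simpa using this) f hf
  simp only [mean, mul_zero, Finset.sum_const_zero, zero_div, sub_zero] at h
  norm_num at h
  exact h

/-- the scalar estimate of the error terms -/
theorem chan_num (V K1 K2 e E a b : ℝ) (hV : 0 ≤ V) (hK2 : 0 ≤ K2) (he0 : 0 < e)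
    (he1 : e ≤ 1) (heK : 2 * K2 * e ≤ 1) (hE : 0 ≤ E) (ha : a ≤ 2 * V * E) (hb0 : 0 ≤ b)
    (hb : b ≤ 2 * (K1 * e ^ 2) ^ 2 * E) :
    (1 + 2 * K2 * e) * ((1 + e) * e ^ 2 * a + (1 + 1 / e) * b) ≤
      (2 * V * e ^ 2 + (2 * V * (1 + 4 * K2) + 8 * K1 ^ 2) * e ^ 3) * E := by
  have h1 : (1 + e) * e ^ 2 * a ≤ (1 + e) * e ^ 2 * (2 * V * E) :=
    mul_le_mul_of_nonneg_left ha (by positivity)
  have h2 : (1 + 1 / e) * b ≤ (2 / e) * (2 * (K1 * e ^ 2) ^ 2 * E) := by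
    apply mul_le_mul _ hb hb0 (by positivity)
    rw [show (1 : ℝ) + 1 / e = (e + 1) / e by field_simp]
    apply div_le_div_of_nonneg_right _ he0.le
    linarith
  have h3 : (2 / e) * (2 * (K1 * e ^ 2) ^ 2 * E) = 4 * K1 ^ 2 * e ^ 3 * E := by
    field_simp
    ring
  have h4 : (1 + 2 * K2 * e) * ((1 + e) * e ^ 2 * (2 * V * E)) ≤
      (2 * V * e ^ 2 + 2 * V * (1 + 4 * K2) * e ^ 3) * E := by
    have h5 : (1 + 2 * K2 * e) * (1 + e) ≤ 1 + (1 + 4 * K2) * e := by nlinarith [mul_nonneg hK2 he0.le]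
    have h6 : 0 ≤ 2 * V * e ^ 2 * E := by positivity
    have h7 := mul_le_mul_of_nonneg_right h5 h6
    calc (1 + 2 * K2 * e) * ((1 + e) * e ^ 2 * (2 * V * E))
        = (1 + 2 * K2 * e) * (1 + e) * (2 * V * e ^ 2 * E) := by ring
      _ ≤ (1 + (1 + 4 * K2) * e) * (2 * V * e ^ 2 * E) := h7
      _ = _ := by ring
  have h8 : (1 + 2 * K2 * e) * (4 * K1 ^ 2 * e ^ 3 * E) ≤ 8 * K1 ^ 2 * e ^ 3 * E := by
    have h9 : 0 ≤ 4 * K1 ^ 2 * e ^ 3 * E := by positivity
    have h10 : (1 + 2 * K2 * e) ≤ 2 := by linarith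
    have := mul_le_mul_of_nonneg_right h10 h9
    linarith
  have h11 : (1 + 2 * K2 * e) * ((1 + e) * e ^ 2 * a + (1 + 1 / e) * b) ≤
      (1 + 2 * K2 * e) * ((1 + e) * e ^ 2 * (2 * V * E) + 4 * K1 ^ 2 * e ^ 3 * E) := by
    apply mul_le_mul_of_nonneg_left _ (by positivity)
    linarith
  calc _ ≤ _ := h11
    _ = (1 + 2 * K2 * e) * ((1 + e) * e ^ 2 * (2 * V * E)) +
        (1 + 2 * K2 * e) * (4 * K1 ^ 2 * e ^ 3 * E) := by ring
    _ ≤ _ := by linarith

/-- one term of the chi-square divergence -/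
theorem chan_term (a b q c r e K2 : ℝ) (hb : 0 < b) (hq : 0 < q)
    (he0 : 0 < e) (heK : 2 * K2 * e ≤ 1) (hK2 : 0 ≤ K2) (hbq : q * (1 - K2 * e) ≤ b)
    (hab : a - b = q * (e * c + r)) :
    (a - b) ^ 2 / b ≤ (1 + 2 * K2 * e) * ((1 + e) * e ^ 2 * (q * c ^ 2) + (1 + 1 / e) * (q * r ^ 2)) := by
  have h1 : (e * c + r) ^ 2 ≤ (1 + e) * e ^ 2 * c ^ 2 + (1 + 1 / e) * r ^ 2 := by
    have : 0 ≤ (e ^ 2 * c - r) ^ 2 / e := by positivity
    have h2 : (1 + e) * e ^ 2 * c ^ 2 + (1 + 1 / e) * r ^ 2 - (e * c + r) ^ 2 =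
        (e ^ 2 * c - r) ^ 2 / e := by
      field_simp
      ring
    linarith
  have hK : 0 ≤ K2 * e := by positivity
  have h2 : q ≤ (1 + 2 * K2 * e) * b := by
    have : q ≤ (1 + 2 * K2 * e) * (q * (1 - K2 * e)) := by
      have : (1 + 2 * K2 * e) * (q * (1 - K2 * e)) = q * (1 + (K2 * e) * (1 - 2 * K2 * e)) := by ring
      rw [this]
      have h3 : 0 ≤ (K2 * e) * (1 - 2 * K2 * e) := mul_nonneg hK (by linarith)
      nlinarith
    exact this.trans (mul_le_mul_of_nonneg_left hbq (by positivity))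
  rw [div_le_iff₀ hb, hab]
  have h4 : 0 ≤ (1 + e) * e ^ 2 * c ^ 2 + (1 + 1 / e) * r ^ 2 := by positivity
  calc (q * (e * c + r)) ^ 2 = q * q * (e * c + r) ^ 2 := by ring
    _ ≤ q * q * ((1 + e) * e ^ 2 * c ^ 2 + (1 + 1 / e) * r ^ 2) :=
        mul_le_mul_of_nonneg_left h1 (by positivity)
    _ ≤ q * ((1 + 2 * K2 * e) * b) * ((1 + e) * e ^ 2 * c ^ 2 + (1 + 1 / e) * r ^ 2) := by
        apply mul_le_mul_of_nonneg_right _ h4
        exact mul_le_mul_of_nonneg_left h2 hq.le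
    _ = _ := by ring

/-- `brk` is at most the chi-square divergence -/
theorem chan_chi {n : ℕ} (w f : Cfg n → ℝ) (q : Cfg n → Cfg n → ℝ) (hw : ∀ x, 0 < w x)
    (hf : ∀ x, 0 < f x) (hq : ∀ xi x, 0 < q xi x) (hq1 : ∀ x, ∑ xi, q xi x = 1) :
    brk w f q ≤ (∑ x, w x * f x) * ∑ xi, ((∑ x, w x * f x * q xi x) / (∑ x, w x * f x) -
      mean w (q xi)) ^ 2 / mean w (q xi) := by
  obtain ⟨S, hS⟩ : ∃ S, S = ∑ x, w x * f x := ⟨_, rfl⟩
  obtain ⟨T, hT⟩ : ∃ T, T = ∑ x, w x := ⟨_, rfl⟩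
  have hS0 : 0 < S := by rw [hS]; exact Finset.sum_pos (fun x _ => mul_pos (hw x) (hf x)) univ_nonempty
  have hT0 : 0 < T := by rw [hT]; exact Finset.sum_pos (fun x _ => hw x) univ_nonempty
  have hA : ∀ xi, 0 < ∑ x, w x * f x * q xi x := fun xi =>
    Finset.sum_pos (fun x _ => mul_pos (mul_pos (hw x) (hf x)) (hq xi x)) univ_nonempty
  have hB : ∀ xi, 0 < ∑ x, w x * q xi x := fun xi =>
    Finset.sum_pos (fun x _ => mul_pos (hw x) (hq xi x)) univ_nonempty
  have hAe : ∀ xi, ∑ x, w x * q xi x * f x = ∑ x, w x * f x * q xi x := fun xi =>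
    Finset.sum_congr rfl fun x _ => by ring
  have hAs : ∑ xi, (∑ x, w x * f x * q xi x) = S := by
    rw [Finset.sum_comm, hS]
    refine Finset.sum_congr rfl fun x _ => ?_
    rw [← Finset.mul_sum, hq1, mul_one]
  have hBs : ∑ xi, (∑ x, w x * q xi x) = T := by
    rw [Finset.sum_comm, hT]
    refine Finset.sum_congr rfl fun x _ => ?_
    rw [← Finset.mul_sum, hq1, mul_one]
  unfold brk mean
  simp only [hAe]
  rw [← hS, ← hT]
  have key : ∀ xi, (∑ x, w x * f x * q xi x) *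
      Real.log ((∑ x, w x * f x * q xi x) / ∑ x, w x * q xi x) ≤
      (∑ x, w x * f x * q xi x) * Real.log (S / T) +
      S * (((∑ x, w x * f x * q xi x) / S - (∑ x, w x * q xi x) / T) ^ 2 /
        ((∑ x, w x * q xi x) / T)) + ((∑ x, w x * f x * q xi x) - S / T * (∑ x, w x * q xi x)) := by
    intro xi
    have hAx := hA xi
    have hBx := hB xi
    obtain ⟨A, hAd⟩ : ∃ A, A = ∑ x, w x * f x * q xi x := ⟨_, rfl⟩
    obtain ⟨B, hBd⟩ : ∃ B, B = ∑ x, w x * q xi x := ⟨_, rfl⟩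
    rw [← hAd] at hAx
    rw [← hBd] at hBx
    rw [← hAd, ← hBd]
    have h1 : A / B = (S / T) * ((A * T) / (S * B)) := by field_simp
    rw [h1, Real.log_mul (by positivity) (by positivity), mul_add]
    have h2 : Real.log ((A * T) / (S * B)) ≤ (A * T) / (S * B) - 1 :=
      Real.log_le_sub_one_of_pos (by positivity)
    have h3 := mul_le_mul_of_nonneg_left h2 hAx.le
    have h4 : A * ((A * T) / (S * B) - 1) = S * ((A / S - B / T) ^ 2 / (B / T)) + (A - S / T * B) := by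
      field_simp
      ring
    linarith
  have hsum := Finset.sum_le_sum (fun xi (_ : xi ∈ (Finset.univ : Finset (Cfg n))) => key xi)
  rw [Finset.sum_add_distrib, Finset.sum_add_distrib, ← Finset.sum_mul, hAs, ← Finset.mul_sum,
    Finset.sum_sub_distrib, hAs, ← Finset.mul_sum, hBs] at hsum
  have hz : S - S / T * T = 0 := by field_simp; ring
  rw [hz] at hsum
  linarith

theorem chan_uvar_le {n : ℕ} (w g : Cfg n → ℝ) (hw : ∀ x, 0 < w x) (b : ℝ)
    (hg : ∀ x, |g x| ≤ b) : uvar w g ≤ b ^ 2 * ∑ x, w x := by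
  have hT0 : 0 < ∑ x, w x := Finset.sum_pos (fun x _ => hw x) univ_nonempty
  have h1 : uvar w g = ∑ x, w x * g x ^ 2 - (∑ x, w x) * mean w g ^ 2 := by
    unfold uvar
    have e1 : ∀ x, w x * (g x - mean w g) ^ 2 =
        w x * g x ^ 2 - 2 * mean w g * (w x * g x) + mean w g ^ 2 * w x := fun x => by ring
    simp only [e1]
    rw [Finset.sum_add_distrib, Finset.sum_sub_distrib, ← Finset.mul_sum, ← Finset.mul_sum]
    have e2 : ∑ x, w x * g x = mean w g * ∑ x, w x := by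
      unfold mean
      field_simp
    rw [e2]
    ring
  rw [h1]
  have h2 : ∑ x, w x * g x ^ 2 ≤ b ^ 2 * ∑ x, w x := by
    rw [Finset.mul_sum]
    refine Finset.sum_le_sum fun x _ => ?_
    have h3 : g x ^ 2 ≤ b ^ 2 := by
      rw [← sq_abs (g x)]
      exact pow_le_pow_left₀ (abs_nonneg _) (hg x) 2
    have := mul_le_mul_of_nonneg_left h3 (hw x).le
    linarith
  have h4 : 0 ≤ (∑ x, w x) * mean w g ^ 2 := by positivity
  linarith

/-- CHAN, for one step size. -/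
theorem chan_core (hDV : DVStmt) {n : ℕ} (Y V K1 K2 e : ℝ) (hY : 1 ≤ Y) (hV0 : 0 ≤ V)
    (hK1 : K1 = (9 * 4 ^ n + 2 * n) * Y ^ 2) (hK2 : K2 = n * Y + K1) (he0 : 0 < e) (he1 : e ≤ 1)
    (he2 : 3 * e * Y ≤ 1) (he3 : 2 * K2 * e ≤ 1)
    (w : Cfg n → ℝ) (hw : ∀ x, 0 < w x) (y : Fin n → Cfg n → ℝ) (hy : ∀ k x, |y k x| ≤ Y)
    (hvar : ∀ c v : Fin n → ℝ, uvar (fun x => w x * Real.exp (∑ k, c k * y k x))
          (fun x => ∑ k, v k * y k x)
          ≤ V * (∑ k, v k ^ 2) * ∑ x, w x * Real.exp (∑ k, c k * y k x))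
    (f : Cfg n → ℝ) (hf : ∀ x, 0 < f x) :
    brk w f (qx y e) ≤ (2 * V * e ^ 2 + (2 * V * (1 + 4 * K2) + 8 * K1 ^ 2) * e ^ 3) * Ent w f := by
  have hsp : ∀ b : Bool, |sp b| = 1 := fun b => by cases b <;> simp [sp]
  have hK10 : 0 ≤ K1 := by rw [hK1]; positivity
  have hK20 : 0 ≤ K2 := by rw [hK2]; positivity
  have hE0 : 0 ≤ Ent w f := chan_ent_nonneg hDV w f hw hf
  obtain ⟨S, hS⟩ : ∃ S, S = ∑ x, w x * f x := ⟨_, rfl⟩
  obtain ⟨T, hT⟩ : ∃ T, T = ∑ x, w x := ⟨_, rfl⟩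
  have hS0 : 0 < S := by rw [hS]; exact Finset.sum_pos (fun x _ => mul_pos (hw x) (hf x)) univ_nonempty
  have hT0 : 0 < T := by rw [hT]; exact Finset.sum_pos (fun x _ => hw x) univ_nonempty
  obtain ⟨φ, hφ⟩ : ∃ φ : Cfg n → ℝ, φ = fun x => w x * f x / S - w x / T := ⟨_, rfl⟩
  have hlin : ∀ g : Cfg n → ℝ, (∑ x, w x * f x * g x) / S - mean w g = ∑ x, φ x * g x := by
    intro g
    unfold mean
    rw [← hT, Finset.sum_div, Finset.sum_div, ← Finset.sum_sub_distrib, hφ]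
    refine Finset.sum_congr rfl fun x _ => by ring
  have hφ0 : ∑ x, φ x = 0 := by
    rw [hφ]
    simp only [Finset.sum_sub_distrib, ← Finset.sum_div, ← hS, ← hT]
    rw [div_self hS0.ne', div_self hT0.ne', sub_self]
  -- the linear parts
  obtain ⟨d, hd⟩ : ∃ d : Fin n → ℝ, d = fun k => ∑ x, φ x * y k x := ⟨_, rfl⟩
  obtain ⟨ρ, hρ⟩ : ∃ ρ : Cfg n → Cfg n → ℝ,
    ρ = fun xi x => 2 ^ n * qx y e xi x - 1 - e * ∑ k, sp (xi k) * y k x := ⟨_, rfl⟩
  have hρb : ∀ xi x, |ρ xi x| ≤ K1 * e ^ 2 := fun xi x => by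
    rw [hρ, hK1]
    exact chan_expand Y e hY he0 he2 y hy xi x
  obtain ⟨q, hq⟩ : ∃ q : ℝ, q = 1 / 2 ^ n := ⟨_, rfl⟩
  have hq0 : 0 < q := by rw [hq]; positivity
  have hq2 : q * 2 ^ n = 1 := by rw [hq]; field_simp
  have hqx : ∀ xi x, qx y e xi x = q * (1 + e * ∑ k, sp (xi k) * y k x + ρ xi x) := fun xi x => by
    rw [hρ]
    have : q * (1 + e * ∑ k, sp (xi k) * y k x + (2 ^ n * qx y e xi x - 1 -
      e * ∑ k, sp (xi k) * y k x)) = (q * 2 ^ n) * qx y e xi x := by ring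
    rw [this, hq2, one_mul]
  have hsumy : ∀ v : Fin n → ℝ, ∑ x, φ x * (∑ k, v k * y k x) = ∑ k, v k * d k := by
    intro v
    rw [hd]
    simp only [Finset.mul_sum]
    rw [Finset.sum_comm]
    refine Finset.sum_congr rfl fun k _ => Finset.sum_congr rfl fun x _ => by ring
  -- DV for the linear part
  have hD : S * ∑ k, d k ^ 2 ≤ 2 * V * Ent w f := by
    obtain ⟨D, hDd⟩ : ∃ D, D = ∑ k, d k ^ 2 := ⟨_, rfl⟩
    have hD0 : 0 ≤ D := by rw [hDd]; positivity
    have h1 := hDV w hw (fun x => ∑ k, d k * y k x) (V * D) (by positivity) (fun l => by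
      have h2 := hvar (fun k => l * d k) d
      have h3 : ∀ x, ∑ k, l * d k * y k x = l * ∑ k, d k * y k x := fun x => by
        rw [Finset.mul_sum]
        refine Finset.sum_congr rfl fun k _ => by ring
      simp only [h3] at h2
      rw [hDd]
      exact h2) f hf
    rw [← hS, hlin, hsumy] at h1
    have h4 : ∑ k, d k * d k = D := by
      rw [hDd]
      refine Finset.sum_congr rfl fun k _ => by ring
    rw [h4] at h1
    rw [← hDd]
    rcases hD0.eq_or_lt with h0 | h0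
    · rw [← h0, mul_zero]; positivity
    · have h5 : (S * D) * D ≤ (2 * V * Ent w f) * D := by nlinarith
      exact le_of_mul_le_mul_right h5 h0
  -- DV for the error
  have hR : ∀ xi, S * (∑ x, φ x * ρ xi x) ^ 2 ≤ 2 * (K1 * e ^ 2) ^ 2 * Ent w f := by
    intro xi
    have h1 := hDV w hw (ρ xi) ((K1 * e ^ 2) ^ 2) (by positivity)
      (fun l => chan_uvar_le _ _ (fun x => mul_pos (hw x) (Real.exp_pos _)) _ (hρb xi)) f hf
    rw [← hS, hlin] at h1
    exact h1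
  -- lower bound of the marginal
  have hmean : ∀ xi, q * (1 - K2 * e) ≤ mean w (qx y e xi) := by
    intro xi
    unfold mean
    rw [← hT, le_div_iff₀ hT0, hT, Finset.mul_sum]
    refine Finset.sum_le_sum fun x _ => ?_
    rw [mul_comm]
    apply mul_le_mul_of_nonneg_left _ (hw x).le
    rw [hqx]
    apply mul_le_mul_of_nonneg_left _ hq0.le
    have h1 := (abs_le.1 (hρb xi x)).1
    have h2 : |∑ k, sp (xi k) * y k x| ≤ n * Y := by
      refine (Finset.abs_sum_le_sum_abs _ _).trans ?_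
      have : ∀ k ∈ (Finset.univ : Finset (Fin n)), |sp (xi k) * y k x| ≤ Y := fun k _ => by
        rw [abs_mul, hsp, one_mul]; exact hy k x
      refine (Finset.sum_le_sum this).trans ?_
      simp
    have h3 := (abs_le.1 h2).1
    have h4 : e * (-(n * Y)) ≤ e * ∑ k, sp (xi k) * y k x := mul_le_mul_of_nonneg_left h3 he0.le
    have h5 : K1 * e ^ 2 ≤ K1 * e := by nlinarith [mul_nonneg hK10 he0.le]
    rw [hK2]
    nlinarith
  -- chi square
  have hchi := chan_chi w f (qx y e) hw hf (fun xi x => chan_qx_pos y e xi x)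
    (fun x => chan_qx_sum y e x)
  rw [← hS] at hchi
  have hterm : ∀ xi, ((∑ x, w x * f x * qx y e xi x) / S - mean w (qx y e xi)) ^ 2 /
      mean w (qx y e xi) ≤ (1 + 2 * K2 * e) * ((1 + e) * e ^ 2 * (q * (∑ k, sp (xi k) * d k) ^ 2) +
        (1 + 1 / e) * (q * (∑ x, φ x * ρ xi x) ^ 2)) := by
    intro xi
    have hb : 0 < mean w (qx y e xi) := by
      unfold mean
      apply div_pos _ (by rw [← hT]; exact hT0)
      exact Finset.sum_pos (fun x _ => mul_pos (hw x) (chan_qx_pos y e xi x)) univ_nonempty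
    refine chan_term _ _ q _ _ e K2 hb hq0 he0 he3 hK20 (hmean xi) ?_
    rw [hlin]
    simp only [hqx]
    have e1 : ∀ x, φ x * (q * (1 + e * ∑ k, sp (xi k) * y k x + ρ xi x)) =
        q * (φ x + e * (φ x * ∑ k, sp (xi k) * y k x) + φ x * ρ xi x) := fun x => by ring
    simp only [e1]
    rw [← Finset.mul_sum, Finset.sum_add_distrib, Finset.sum_add_distrib, hφ0, ← Finset.mul_sum,
      hsumy (fun k => sp (xi k)), zero_add]
  have hsum := Finset.sum_le_sum (fun xi (_ : xi ∈ (Finset.univ : Finset (Cfg n))) => hterm xi)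
  have hsum2 := mul_le_mul_of_nonneg_left hsum hS0.le
  have e2 : S * ∑ xi : Cfg n, (1 + 2 * K2 * e) * ((1 + e) * e ^ 2 *
      (q * (∑ k, sp (xi k) * d k) ^ 2) + (1 + 1 / e) * (q * (∑ x, φ x * ρ xi x) ^ 2)) =
      (1 + 2 * K2 * e) * ((1 + e) * e ^ 2 * (S * (q * ∑ xi : Cfg n, (∑ k, sp (xi k) * d k) ^ 2)) +
        (1 + 1 / e) * (q * ∑ xi : Cfg n, S * (∑ x, φ x * ρ xi x) ^ 2)) := by
    simp only [Finset.mul_sum, mul_add]
    rw [← Finset.sum_add_distrib]
    refine Finset.sum_congr rfl fun xi _ => by ring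
  rw [e2, chan_orth] at hsum2
  have e3 : S * (q * (2 ^ n * ∑ k, d k ^ 2)) = S * ∑ k, d k ^ 2 := by
    calc S * (q * (2 ^ n * ∑ k, d k ^ 2)) = (q * 2 ^ n) * (S * ∑ k, d k ^ 2) := by ring
      _ = _ := by rw [hq2, one_mul]
  rw [e3] at hsum2
  have hb0 : 0 ≤ q * ∑ xi : Cfg n, S * (∑ x, φ x * ρ xi x) ^ 2 := by positivity
  have hbR : q * ∑ xi : Cfg n, S * (∑ x, φ x * ρ xi x) ^ 2 ≤ 2 * (K1 * e ^ 2) ^ 2 * Ent w f := by
    have h1 := Finset.sum_le_sum (fun xi (_ : xi ∈ (Finset.univ : Finset (Cfg n))) => hR xi)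
    have h2 : ∑ xi : Cfg n, 2 * (K1 * e ^ 2) ^ 2 * Ent w f =
        2 ^ n * (2 * (K1 * e ^ 2) ^ 2 * Ent w f) := by
      rw [Finset.sum_const, Finset.card_univ, nsmul_eq_mul]
      simp
    rw [h2] at h1
    have h3 := mul_le_mul_of_nonneg_left h1 hq0.le
    calc _ ≤ _ := h3
      _ = (q * 2 ^ n) * (2 * (K1 * e ^ 2) ^ 2 * Ent w f) := by ring
      _ = _ := by rw [hq2, one_mul]
  exact (hchi.trans hsum2).trans
    (chan_num V K1 K2 e (Ent w f) _ _ hV0 hK20 he0 he1 he3 hE0 hD hb0 hbR)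

/-- CHAN, from the statement of DV. -/
theorem chan_of_dv (hDV : DVStmt) (n : ℕ) (Y V : ℝ) (hY : 0 ≤ Y) (hV0 : 0 ≤ V) :
    ∃ K e0 : ℝ, 0 ≤ K ∧ 0 < e0 ∧
    ∀ (w : Cfg n → ℝ) (_ : ∀ x, 0 < w x) (y : Fin n → Cfg n → ℝ) (_ : ∀ k x, |y k x| ≤ Y)
      (_ : ∀ c v : Fin n → ℝ, uvar (fun x => w x * Real.exp (∑ k, c k * y k x))
          (fun x => ∑ k, v k * y k x)
          ≤ V * (∑ k, v k ^ 2) * ∑ x, w x * Real.exp (∑ k, c k * y k x))
      (f : Cfg n → ℝ) (_ : ∀ x, 0 < f x) (e : ℝ) (_ : 0 < e) (_ : e ≤ e0),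
      brk w f (qx y e) ≤ (2 * V * e ^ 2 + K * e ^ 3) * Ent w f := by
  obtain ⟨K1, hK1⟩ : ∃ K1 : ℝ, K1 = (9 * 4 ^ n + 2 * n) * (Y + 1) ^ 2 := ⟨_, rfl⟩
  obtain ⟨K2, hK2⟩ : ∃ K2 : ℝ, K2 = n * (Y + 1) + K1 := ⟨_, rfl⟩
  have hK10 : 0 ≤ K1 := by rw [hK1]; positivity
  have hK20 : 0 ≤ K2 := by rw [hK2]; positivity
  refine ⟨2 * V * (1 + 4 * K2) + 8 * K1 ^ 2, 1 / (3 * (Y + 1) + 2 * K2 + 1), by positivity,
    by positivity, fun w hw y hy hvar f hf e he0 he => ?_⟩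
  rw [le_div_iff₀ (by positivity)] at he
  have h1 : 0 ≤ e * (3 * (Y + 1)) := by positivity
  have h2 : 0 ≤ e * (2 * K2) := by positivity
  refine chan_core hDV (Y + 1) V K1 K2 e (by linarith) hV0 hK1 hK2 he0 (by nlinarith)
    (by nlinarith) (by nlinarith) w hw y (fun k x => (hy k x).trans (by linarith)) hvar f hf

/-- CHAN: the entropy of the marginal of the channel `q` is at most `(2 V eps^2 + K eps^3) Ent`. -/
theorem channel (n : ℕ) (Y V : ℝ) (hY : 0 ≤ Y) (hV0 : 0 ≤ V) : ∃ K e0 : ℝ, 0 ≤ K ∧ 0 < e0 ∧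
    ∀ (w : Cfg n → ℝ) (_ : ∀ x, 0 < w x) (y : Fin n → Cfg n → ℝ) (_ : ∀ k x, |y k x| ≤ Y)
      (_ : ∀ c v : Fin n → ℝ, uvar (fun x => w x * Real.exp (∑ k, c k * y k x))
          (fun x => ∑ k, v k * y k x)
          ≤ V * (∑ k, v k ^ 2) * ∑ x, w x * Real.exp (∑ k, c k * y k x))
      (f : Cfg n → ℝ) (_ : ∀ x, 0 < f x) (e : ℝ) (_ : 0 < e) (_ : e ≤ e0),
      brk w f (qx y e) ≤ (2 * V * e ^ 2 + K * e ^ 3) * Ent w f :=
  chan_of_dv (fun w hw R V hV0 hV f hf => dv w hw R V hV0 hV f hf) n Y V hY hV0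

end Vale.Agent.P150
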