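import Vale.Agent.Lib.P150.Defs

/-! # P150 module CHI: upper tail of chi-square -/

namespace Vale.Agent.P150

open Finset MeasureTheory ProbabilityTheory

/-- pointwise form of the density times `exp (θ x²)` -/
theorem chi_density (θ x : ℝ) :
    gaussianPDFReal 0 1 x * Real.exp (θ * x ^ 2) =
      (Real.sqrt (2 * Real.pi))⁻¹ * Real.exp (-(1 / 2 - θ) * x ^ 2) := by
  rw [gaussianPDFReal_def]
  simp only [NNReal.coe_one, mul_one, sub_zero]
  rw [mul_assoc, ← Real.exp_add]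
  congr 2
  ring

theorem chi_integrable (θ : ℝ) (hθ : θ < 1 / 2) :
    Integrable (fun x : ℝ => Real.exp (θ * x ^ 2)) (gaussianReal 0 1) := by
  rw [gaussianReal_of_var_ne_zero _ one_ne_zero]
  rw [integrable_withDensity_iff_integrable_smul' (measurable_gaussianPDF _ _)
    (ae_of_all _ fun _ => gaussianPDF_lt_top)]
  have h : (fun x : ℝ => (gaussianPDF 0 1 x).toReal • Real.exp (θ * x ^ 2)) =
      fun x : ℝ => (Real.sqrt (2 * Real.pi))⁻¹ * Real.exp (-(1 / 2 - θ) * x ^ 2) := by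
    ext x
    rw [smul_eq_mul, ← chi_density]
    congr 1
    rw [gaussianPDF, ENNReal.toReal_ofReal (gaussianPDFReal_nonneg _ _ _)]
  rw [h]
  exact (integrable_exp_neg_mul_sq (by linarith)).const_mul _

theorem chi_integral (θ : ℝ) (hθ : θ < 1 / 2) :
    ∫ x : ℝ, Real.exp (θ * x ^ 2) ∂(gaussianReal 0 1) = (Real.sqrt (1 - 2 * θ))⁻¹ := by
  rw [integral_gaussianReal_eq_integral_smul one_ne_zero]
  simp only [smul_eq_mul, chi_density]
  rw [integral_const_mul, integral_gaussian]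
  have h1 : Real.pi / (1 / 2 - θ) = 2 * Real.pi / (1 - 2 * θ) := by
    have : (1 : ℝ) / 2 - θ ≠ 0 := by linarith
    have h2 : (1 : ℝ) - 2 * θ ≠ 0 := by linarith
    field_simp
  have hpi := Real.pi_pos
  rw [h1, Real.sqrt_div (by positivity), div_eq_mul_inv, ← mul_assoc, inv_mul_cancel₀, one_mul]
  positivity

/-- CHI: upper tail of chi-square. -/
theorem chi_tail (δ : ℝ) (hδ : 0 < δ) : ∃ c : ℝ, 0 < c ∧ ∀ (ι : Type) [Fintype ι] (N : ℝ),
    (Fintype.card ι : ℝ) ≤ N →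
    (Measure.pi (fun _ : ι => gaussianReal 0 1)) {x | (1 + δ) * N ≤ ∑ i, x i ^ 2}
      ≤ ENNReal.ofReal (Real.exp (-c * N)) := by
  obtain ⟨θ, hθ⟩ : ∃ θ : ℝ, θ = δ / (4 * (1 + δ)) := ⟨_, rfl⟩
  have hθ0 : 0 < θ := by rw [hθ]; positivity
  have h12 : 1 - 2 * θ = (2 + δ) / (2 * (1 + δ)) := by
    rw [hθ]; field_simp; ring
  have hpos : 0 < 1 - 2 * θ := by rw [h12]; positivity
  have hθ2 : θ < 1 / 2 := by linarith
  obtain ⟨b, hb⟩ : ∃ b : ℝ, b = Real.log (Real.sqrt (1 - 2 * θ))⁻¹ := ⟨_, rfl⟩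
  have hsq : 0 < Real.sqrt (1 - 2 * θ) := Real.sqrt_pos.mpr hpos
  have hb' : b = -(1 / 2) * Real.log (1 - 2 * θ) := by
    rw [hb, Real.log_inv, Real.log_sqrt hpos.le]; ring
  have hb0 : 0 ≤ b := by
    rw [hb']
    have : Real.log (1 - 2 * θ) ≤ 0 := Real.log_nonpos hpos.le (by linarith)
    nlinarith
  have hb1 : b < θ * (1 + δ) := by
    have h1 : -Real.log (1 - 2 * θ) ≤ (1 - 2 * θ)⁻¹ - 1 := by
      rw [← Real.log_inv]
      exact Real.log_le_sub_one_of_pos (by positivity)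
    have h2 : (1 - 2 * θ)⁻¹ - 1 < 2 * (θ * (1 + δ)) := by
      rw [h12, inv_div, hθ, div_sub_one (by positivity)]
      have : 2 * (δ / (4 * (1 + δ)) * (1 + δ)) = δ / 2 := by field_simp; ring
      rw [this, div_lt_div_iff₀ (by positivity) (by positivity)]
      nlinarith
    rw [hb']
    linarith
  refine ⟨θ * (1 + δ) - b, by linarith, ?_⟩
  intro ι _ N hN
  set μ : Measure (ι → ℝ) := Measure.pi (fun _ : ι => gaussianReal 0 1) with hμ
  have hfun : (fun x : ι → ℝ => Real.exp (θ * ∑ i, x i ^ 2)) =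
      fun x : ι → ℝ => ∏ i, (fun y : ℝ => Real.exp (θ * y ^ 2)) (x i) := by
    ext x
    rw [Finset.mul_sum, Real.exp_sum]
  have hint : Integrable (fun x : ι → ℝ => Real.exp (θ * ∑ i, x i ^ 2)) μ := by
    rw [hfun]
    exact Integrable.fintype_prod fun _ => chi_integrable θ hθ2
  have hmgf : mgf (fun x : ι → ℝ => ∑ i, x i ^ 2) μ θ = Real.exp (b * Fintype.card ι) := by
    rw [mgf, hfun, hμ]
    rw [integral_fintype_prod_eq_pow (fun y : ℝ => Real.exp (θ * y ^ 2)), chi_integral θ hθ2, hb,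
      mul_comm (Real.log _), Real.exp_nat_mul, Real.exp_log (by positivity)]
  have hch := measure_ge_le_exp_mul_mgf (μ := μ) (X := fun x : ι → ℝ => ∑ i, x i ^ 2)
    ((1 + δ) * N) hθ0.le hint
  rw [hmgf, ← Real.exp_add] at hch
  have hle : -θ * ((1 + δ) * N) + b * Fintype.card ι ≤ -(θ * (1 + δ) - b) * N := by
    nlinarith [mul_le_mul_of_nonneg_left hN hb0]
  have h3 : μ.real {x | (1 + δ) * N ≤ ∑ i, x i ^ 2} ≤ Real.exp (-(θ * (1 + δ) - b) * N) :=
    hch.trans (Real.exp_le_exp.mpr hle)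
  rw [ENNReal.le_ofReal_iff_toReal_le (measure_ne_top _ _) (Real.exp_pos _).le]
  exact h3

end Vale.Agent.P150
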