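import Vale.Agent.Lib.P150.Defs

/-!
# P150, module DV: entropic stability in one direction
-/

namespace Vale.Agent.P150

open Finset

theorem dv_mean_eq {n : ℕ} (w R : Cfg n → ℝ) (hw : ∀ x, 0 < w x) :
    uvar w R = ∑ x, w x * R x ^ 2 - (∑ x, w x * R x) ^ 2 / ∑ x, w x := by
  have hT : (∑ x, w x) ≠ 0 := (Finset.sum_pos (fun x _ => hw x) Finset.univ_nonempty).ne'
  unfold uvar mean
  have h1 : ∀ x, w x * (R x - (∑ y, w y * R y) / ∑ y, w y) ^ 2
      = w x * R x ^ 2 - 2 * ((∑ y, w y * R y) / ∑ y, w y) * (w x * R x)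
        + ((∑ y, w y * R y) / ∑ y, w y) ^ 2 * w x := by
    intro x; ring
  rw [Finset.sum_congr rfl (fun x _ => h1 x), Finset.sum_add_distrib, Finset.sum_sub_distrib,
    ← Finset.mul_sum, ← Finset.mul_sum]
  field_simp
  ring

/-- Gibbs variational principle. -/
theorem dv_gibbs {n : ℕ} (w f g : Cfg n → ℝ) (hw : ∀ x, 0 < w x) (hf : ∀ x, 0 < f x) :
    ∑ x, w x * f x * g x ≤ Ent w f
      + (∑ x, w x * f x) * (Real.log (∑ x, w x * Real.exp (g x)) - Real.log (∑ x, w x)) := by
  have hT : 0 < ∑ x, w x := Finset.sum_pos (fun x _ => hw x) Finset.univ_nonempty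
  have hS : 0 < ∑ x, w x * f x :=
    Finset.sum_pos (fun x _ => mul_pos (hw x) (hf x)) Finset.univ_nonempty
  have hE : 0 < ∑ x, w x * Real.exp (g x) :=
    Finset.sum_pos (fun x _ => mul_pos (hw x) (Real.exp_pos _)) Finset.univ_nonempty
  set S := ∑ x, w x * f x with hSd
  set T := ∑ x, w x with hTd
  set E := ∑ x, w x * Real.exp (g x) with hEd
  -- pointwise: log z <= z - 1 with z = S e^g / (E f)
  have hpt : ∀ x, w x * f x * (g x - Real.log (f x) - Real.log (E / S))
      ≤ S / E * (w x * Real.exp (g x)) - w x * f x := by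
    intro x
    have hfx := hf x
    have hwx := hw x
    have hz : 0 < S * Real.exp (g x) / (E * f x) := by positivity
    have h1 := Real.log_le_sub_one_of_pos hz
    have h2 : Real.log (S * Real.exp (g x) / (E * f x))
        = g x - Real.log (f x) - Real.log (E / S) := by
      rw [Real.log_div (by positivity) (by positivity), Real.log_mul (by positivity) (by positivity),
        Real.log_mul (by positivity) (by positivity), Real.log_exp,
        Real.log_div (by positivity) (by positivity)]
      ring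
    rw [h2] at h1
    have h3 : w x * f x * (g x - Real.log (f x) - Real.log (E / S))
        ≤ w x * f x * (S * Real.exp (g x) / (E * f x) - 1) :=
      mul_le_mul_of_nonneg_left h1 (by positivity)
    refine h3.trans (le_of_eq ?_)
    field_simp
  have hsum := Finset.sum_le_sum (fun x (_ : x ∈ Finset.univ) => hpt x)
  have hR : ∑ x, (S / E * (w x * Real.exp (g x)) - w x * f x) = 0 := by
    rw [Finset.sum_sub_distrib, ← Finset.mul_sum, ← hEd, ← hSd]
    field_simp
    ring
  have hL : ∑ x, w x * f x * (g x - Real.log (f x) - Real.log (E / S))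
      = ∑ x, w x * f x * g x - ∑ x, w x * (f x * Real.log (f x)) - S * Real.log (E / S) := by
    have : ∀ x, w x * f x * (g x - Real.log (f x) - Real.log (E / S))
        = w x * f x * g x - w x * (f x * Real.log (f x)) - w x * f x * Real.log (E / S) := by
      intro x; ring
    rw [Finset.sum_congr rfl (fun x _ => this x), Finset.sum_sub_distrib, Finset.sum_sub_distrib,
      ← Finset.sum_mul]
  rw [hR, hL] at hsum
  unfold Ent
  rw [← hSd, ← hTd, Real.log_div hS.ne' hT.ne']
  rw [Real.log_div hE.ne' hS.ne'] at hsum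
  nlinarith [hsum]

/-- Second order bound on the log-Laplace transform. -/
theorem dv_laplace {n : ℕ} (w : Cfg n → ℝ) (hw : ∀ x, 0 < w x) (R : Cfg n → ℝ) (V : ℝ)
    (hV : ∀ l : ℝ, uvar (fun x => w x * Real.exp (l * R x)) R
        ≤ V * ∑ x, w x * Real.exp (l * R x)) (l : ℝ) :
    Real.log (∑ x, w x * Real.exp (l * R x)) - Real.log (∑ x, w x)
      ≤ l * mean w R + V * l ^ 2 / 2 := by
  set Z : ℝ → ℝ := fun l => ∑ x, w x * Real.exp (l * R x) with hZ
  set N : ℝ → ℝ := fun l => ∑ x, w x * Real.exp (l * R x) * R x with hN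
  set Q : ℝ → ℝ := fun l => ∑ x, w x * Real.exp (l * R x) * R x ^ 2 with hQ
  have hZpos : ∀ l, 0 < Z l := fun l =>
    Finset.sum_pos (fun x _ => mul_pos (hw x) (Real.exp_pos _)) Finset.univ_nonempty
  have he : ∀ (x : Cfg n) (l : ℝ), HasDerivAt (fun l : ℝ => w x * Real.exp (l * R x))
      (w x * Real.exp (l * R x) * R x) l := by
    intro x l
    have h1 : HasDerivAt (fun l : ℝ => l * R x) (R x) l := by
      simpa using (hasDerivAt_id l).mul_const (R x)
    have h2 := (h1.exp).const_mul (w x)
    refine h2.congr_deriv ?_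
    ring
  have hZ' : ∀ l, HasDerivAt Z (N l) l := by
    intro l
    exact HasDerivAt.fun_sum (fun x _ => he x l)
  have hN' : ∀ l, HasDerivAt N (Q l) l := by
    intro l
    have h1 : ∀ x ∈ (Finset.univ : Finset (Cfg n)),
        HasDerivAt (fun l : ℝ => w x * Real.exp (l * R x) * R x)
          (w x * Real.exp (l * R x) * R x ^ 2) l := by
      intro x _
      have := (he x l).mul_const (R x)
      refine this.congr_deriv ?_
      ring
    exact HasDerivAt.fun_sum h1
  set M : ℝ → ℝ := fun l => N l / Z l with hM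
  have hM' : ∀ l, HasDerivAt M ((Q l * Z l - N l * N l) / Z l ^ 2) l := fun l =>
    (hN' l).div (hZ' l) (hZpos l).ne'
  have hbd : ∀ l, (Q l * Z l - N l * N l) / Z l ^ 2 ≤ V := by
    intro l
    have h1 := hV l
    rw [dv_mean_eq _ _ (fun x => mul_pos (hw x) (Real.exp_pos _))] at h1
    have h1' : Q l - N l ^ 2 / Z l ≤ V * Z l := h1
    have hz := hZpos l
    rw [div_le_iff₀ (by positivity)]
    have h2 : (Q l - N l ^ 2 / Z l) * Z l ≤ V * Z l * Z l := mul_le_mul_of_nonneg_right h1' hz.le
    have h3 : (Q l - N l ^ 2 / Z l) * Z l = Q l * Z l - N l * N l := by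
      field_simp
    rw [h3] at h2
    linarith [h2, sq (Z l)]
  -- G l = V l - M l is monotone
  have hGmono : Monotone (fun l : ℝ => V * l - M l) := by
    have hd : ∀ l, HasDerivAt (fun l : ℝ => V * l - M l)
        (V - (Q l * Z l - N l * N l) / Z l ^ 2) l := by
      intro l
      have h1 : HasDerivAt (fun l : ℝ => V * l) V l := by
        simpa using (hasDerivAt_id l).const_mul V
      exact h1.sub (hM' l)
    apply monotone_of_deriv_nonneg (fun l => (hd l).differentiableAt)
    intro l
    rw [(hd l).deriv]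
    linarith [hbd l]
  -- F
  have hF' : ∀ l, HasDerivAt (fun l : ℝ => l * M 0 + V * l ^ 2 / 2 - (Real.log (Z l) - Real.log (Z 0)))
      (M 0 + V * l - M l) l := by
    intro l
    have h1 : HasDerivAt (fun l : ℝ => l * M 0) (M 0) l := by
      simpa using (hasDerivAt_id l).mul_const (M 0)
    have h2 : HasDerivAt (fun l : ℝ => V * l ^ 2 / 2) (V * l) l := by
      have := ((hasDerivAt_pow 2 l).const_mul V).div_const 2
      refine this.congr_deriv ?_
      simp
      ring
    have h3 : HasDerivAt (fun l : ℝ => Real.log (Z l) - Real.log (Z 0)) (M l) l :=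
      ((hZ' l).log (hZpos l).ne').sub_const _
    exact (h1.add h2).sub h3
  have hF0 : (fun l : ℝ => l * M 0 + V * l ^ 2 / 2 - (Real.log (Z l) - Real.log (Z 0))) 0 = 0 := by
    simp
  have hcont : Continuous (fun l : ℝ => l * M 0 + V * l ^ 2 / 2 - (Real.log (Z l) - Real.log (Z 0))) :=
    continuous_iff_continuousAt.2 (fun l => (hF' l).continuousAt)
  have hFnn : 0 ≤ (fun l : ℝ => l * M 0 + V * l ^ 2 / 2 - (Real.log (Z l) - Real.log (Z 0))) l := by
    rcases le_total 0 l with hl | hl
    · have hm : MonotoneOn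
          (fun l : ℝ => l * M 0 + V * l ^ 2 / 2 - (Real.log (Z l) - Real.log (Z 0))) (Set.Ici 0) := by
        apply monotoneOn_of_deriv_nonneg (convex_Ici 0) hcont.continuousOn
        · intro y _
          exact (hF' y).differentiableAt.differentiableWithinAt
        · intro y hy
          rw [(hF' y).deriv]
          rw [interior_Ici] at hy
          have h1 := hGmono (le_of_lt (show (0:ℝ) < y from hy))
          simp only [mul_zero, zero_sub] at h1
          linarith
      have h9 := hm (Set.self_mem_Ici) (Set.mem_Ici.2 hl) hl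
      rw [hF0] at h9
      exact h9
    · have hm : AntitoneOn
          (fun l : ℝ => l * M 0 + V * l ^ 2 / 2 - (Real.log (Z l) - Real.log (Z 0))) (Set.Iic 0) := by
        apply antitoneOn_of_deriv_nonpos (convex_Iic 0) hcont.continuousOn
        · intro y _
          exact (hF' y).differentiableAt.differentiableWithinAt
        · intro y hy
          rw [(hF' y).deriv]
          rw [interior_Iic] at hy
          have h1 := hGmono (le_of_lt (show y < (0:ℝ) from hy))
          simp only [mul_zero, zero_sub] at h1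
          linarith
      have h9 := hm (Set.mem_Iic.2 hl) (Set.self_mem_Iic) hl
      rw [hF0] at h9
      exact h9
  have hZ0 : Z 0 = ∑ x, w x := by simp [hZ]
  have hM0 : M 0 = mean w R := by simp [hM, hN, hZ, mean]
  simp only at hFnn
  rw [hZ0, hM0] at hFnn
  linarith

/-- DV: entropic stability in one direction. -/
theorem dv {n : ℕ} (w : Cfg n → ℝ) (hw : ∀ x, 0 < w x) (R : Cfg n → ℝ) (V : ℝ) (hV0 : 0 ≤ V)
    (hV : ∀ l : ℝ, uvar (fun x => w x * Real.exp (l * R x)) R
        ≤ V * ∑ x, w x * Real.exp (l * R x))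
    (f : Cfg n → ℝ) (hf : ∀ x, 0 < f x) :
    (∑ x, w x * f x) * ((∑ x, w x * f x * R x) / (∑ x, w x * f x) - mean w R) ^ 2
      ≤ 2 * V * Ent w f := by
  have hS : 0 < ∑ x, w x * f x :=
    Finset.sum_pos (fun x _ => mul_pos (hw x) (hf x)) Finset.univ_nonempty
  set S := ∑ x, w x * f x with hSd
  set δ := (∑ x, w x * f x * R x) / S - mean w R with hδ
  have key : ∀ l : ℝ, S * (l * δ) ≤ Ent w f + S * (V * l ^ 2 / 2) := by
    intro l
    have h1 := dv_gibbs w f (fun x => l * R x) hw hf
    have h2 := dv_laplace w hw R V hV l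
    have h3 : ∑ x, w x * f x * (l * R x) = l * ∑ x, w x * f x * R x := by
      rw [Finset.mul_sum]
      exact Finset.sum_congr rfl (fun x _ => by ring)
    rw [h3, ← hSd] at h1
    have h4 := mul_le_mul_of_nonneg_left h2 hS.le
    have h5 : S * (l * δ) = l * (∑ x, w x * f x * R x) - S * (l * mean w R) := by
      rw [hδ]
      field_simp
    rw [h5]
    nlinarith [h1, h4]
  rcases hV0.eq_or_lt with h0 | hpos
  · -- V = 0
    have hδ0 : δ = 0 := by
      by_contra hne
      have h1 := key ((Ent w f + 1) / (S * δ))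
      rw [← h0] at h1
      have h2 : S * ((Ent w f + 1) / (S * δ) * δ) = Ent w f + 1 := by
        field_simp
      rw [h2] at h1
      linarith
    rw [hδ0, ← h0]
    simp
  · have h1 := key (δ / V)
    have h2 : S * (δ / V * δ) = S * δ ^ 2 / V := by ring
    have h3 : S * (V * (δ / V) ^ 2 / 2) = S * δ ^ 2 / V / 2 := by
      field_simp
    rw [h2, h3] at h1
    have h4 : S * δ ^ 2 / V / 2 ≤ Ent w f := by linarith
    rw [div_div, div_le_iff₀ (by positivity)] at h4
    linarith

end Vale.Agent.P150
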