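import Mathlib

/-!
# P150: definitions (Glauber dynamics for Ising models, Sherrington-Kirkpatrick disorder)
-/

namespace Vale.Agent.P150

open Finset MeasureTheory ProbabilityTheory

/-- Value of a spin: `true` is `+1`, `false` is `-1`. -/
def sp (b : Bool) : ℝ := if b then 1 else -1

/-- Spin configurations on `n` sites. -/
abbrev Cfg (n : ℕ) := Fin n → Bool

/-- `x` with the spin at site `i` set to `b`. -/
def st {n : ℕ} (x : Cfg n) (i : Fin n) (b : Bool) : Cfg n := Function.update x i b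

/-- Exponent of the Gibbs weight: `(1/2) sum_{i,j} J i j x_i x_j + sum_i h_i x_i`. -/
noncomputable def Ham {n : ℕ} (J : Fin n → Fin n → ℝ) (h : Fin n → ℝ) (x : Cfg n) : ℝ :=
  (1 / 2) * ∑ i, ∑ j, J i j * sp (x i) * sp (x j) + ∑ i, h i * sp (x i)

/-- Unnormalised Gibbs weight. -/
noncomputable def wt {n : ℕ} (J : Fin n → Fin n → ℝ) (h : Fin n → ℝ) (x : Cfg n) : ℝ :=
  Real.exp (Ham J h x)

/-- Local field at `i` (when `J i i = 0` it does not depend on the spin at `i`). -/
noncomputable def fld {n : ℕ} (J : Fin n → Fin n → ℝ) (h : Fin n → ℝ) (i : Fin n) (x : Cfg n) : ℝ :=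
  h i + ∑ j, J i j * sp (x j)

/-- Conditional mean of the spin at `i`. -/
noncomputable def mg {n : ℕ} (J : Fin n → Fin n → ℝ) (h : Fin n → ℝ) (i : Fin n) (x : Cfg n) : ℝ :=
  Real.tanh (fld J h i x)

/-- Conditional variance of the spin at `i`. -/
noncomputable def sg {n : ℕ} (J : Fin n → Fin n → ℝ) (h : Fin n → ℝ) (i : Fin n) (x : Cfg n) : ℝ :=
  1 - mg J h i x ^ 2

/-- Discrete derivative. -/
noncomputable def Di {n : ℕ} (f : Cfg n → ℝ) (i : Fin n) (x : Cfg n) : ℝ :=
  (f (st x i true) - f (st x i false)) / 2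

/-- Heat-bath average at site `i` for a positive weight `w`. -/
noncomputable def hb {n : ℕ} (w : Cfg n → ℝ) (i : Fin n) (f : Cfg n → ℝ) (x : Cfg n) : ℝ :=
  (w (st x i true) * f (st x i true) + w (st x i false) * f (st x i false)) /
    (w (st x i true) + w (st x i false))

/-- Mean with respect to the normalised weight. -/
noncomputable def mean {n : ℕ} (w f : Cfg n → ℝ) : ℝ := (∑ x, w x * f x) / ∑ x, w x

/-- Unnormalised variance. -/
noncomputable def uvar {n : ℕ} (w f : Cfg n → ℝ) : ℝ := ∑ x, w x * (f x - mean w f) ^ 2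

/-- Unnormalised Dirichlet form of the heat-bath dynamics. -/
noncomputable def dir {n : ℕ} (w f : Cfg n → ℝ) : ℝ := ∑ i, ∑ x, w x * (f x - hb w i f x) ^ 2

/-- Unnormalised entropy: `sum w f log f - (sum w f) log (sum w f / sum w)`. -/
noncomputable def Ent {n : ℕ} (w f : Cfg n → ℝ) : ℝ :=
  ∑ x, w x * (f x * Real.log (f x)) - (∑ x, w x * f x) * Real.log ((∑ x, w x * f x) / ∑ x, w x)

/-- Unnormalised average of the conditional entropy at site `i`. -/
noncomputable def EntI {n : ℕ} (w : Cfg n → ℝ) (i : Fin n) (f : Cfg n → ℝ) : ℝ :=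
  ∑ x, w x * (f x * Real.log (f x / hb w i f x))

/-- Approximate tensorisation of entropy with constant `C`. -/
def AT {n : ℕ} (w : Cfg n → ℝ) (C : ℝ) : Prop :=
  ∀ f : Cfg n → ℝ, (∀ x, 0 < f x) → Ent w f ≤ C * ∑ i, EntI w i f

/-- The family used in the Hubbard-Stratonovich decomposition:
`exp (sum h_i x_i) * prod_k cosh (eps * y_k x)^r`, `y_k x = sum_i a k i x_i`. -/
noncomputable def lin {n : ℕ} (a : Fin n → Fin n → ℝ) (k : Fin n) (x : Cfg n) : ℝ :=
  ∑ i, a k i * sp (x i)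

noncomputable def fam {n : ℕ} (a : Fin n → Fin n → ℝ) (eps : ℝ) (r : ℕ) (h : Fin n → ℝ)
    (x : Cfg n) : ℝ :=
  Real.exp (∑ i, h i * sp (x i)) * ∏ k, Real.cosh (eps * lin a k x) ^ r

/-- Channel `x -> xi`: `prod_k (1 + xi_k tanh (eps y_k x)) / 2`. -/
noncomputable def qx {n : ℕ} (y : Fin n → Cfg n → ℝ) (eps : ℝ) (xi x : Cfg n) : ℝ :=
  ∏ k, (1 + sp (xi k) * Real.tanh (eps * y k x)) / 2

/-- Entropy of the `xi`-marginal (the term lost in the chain rule). -/
noncomputable def brk {n : ℕ} (w f : Cfg n → ℝ) (q : Cfg n → Cfg n → ℝ) : ℝ :=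
  ∑ xi, (∑ x, w x * q xi x * f x) *
      Real.log ((∑ x, w x * q xi x * f x) / ∑ x, w x * q xi x)
    - (∑ x, w x * f x) * Real.log ((∑ x, w x * f x) / ∑ x, w x)

/-! ## Objects of the final statement -/

/-- Gibbs measure (mass function). -/
noncomputable def gibbs {n : ℕ} (J : Fin n → Fin n → ℝ) (h : Fin n → ℝ) (x : Cfg n) : ℝ :=
  wt J h x / ∑ y, wt J h y

/-- Heat-bath kernel at site `i`: resample the spin at `i` from its conditional law. -/
noncomputable def Qker {n : ℕ} (J : Fin n → Fin n → ℝ) (h : Fin n → ℝ) (i : Fin n) :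
    Matrix (Cfg n) (Cfg n) ℝ :=
  Matrix.of fun x y => ∑ b : Bool,
    if y = st x i b then wt J h (st x i b) / (wt J h (st x i true) + wt J h (st x i false)) else 0

/-- Generator of the continuous-time heat-bath dynamics (rate one at every site). -/
noncomputable def gen {n : ℕ} (J : Fin n → Fin n → ℝ) (h : Fin n → ℝ) :
    Matrix (Cfg n) (Cfg n) ℝ :=
  ∑ i, (Qker J h i - 1)

/-- The semigroup `P_t = exp (t L)`. -/
noncomputable def semi {n : ℕ} (J : Fin n → Fin n → ℝ) (h : Fin n → ℝ) (t : ℝ) :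
    Matrix (Cfg n) (Cfg n) ℝ :=
  NormedSpace.exp (t • gen J h)

/-- Total variation distance between the law at time `t` from `x` and the Gibbs measure. -/
noncomputable def tvd {n : ℕ} (J : Fin n → Fin n → ℝ) (h : Fin n → ℝ) (t : ℝ) (x : Cfg n) : ℝ :=
  (1 / 2) * ∑ y, |semi J h t x y - gibbs J h y|

/-- Mixing time. -/
noncomputable def tmix {n : ℕ} (J : Fin n → Fin n → ℝ) (h : Fin n → ℝ) : ℝ :=
  sInf {t : ℝ | 0 ≤ t ∧ ∀ x : Cfg n, tvd J h t x ≤ 1 / 4}

/-- Spectral gap of the generator: infimum of the Rayleigh quotients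
`- <f, L f> / Var f` over functions of positive variance. -/
noncomputable def gap {n : ℕ} (J : Fin n → Fin n → ℝ) (h : Fin n → ℝ) : ℝ :=
  sInf {r : ℝ | ∃ f : Cfg n → ℝ,
    0 < ∑ x, gibbs J h x * (f x - ∑ y, gibbs J h y * f y) ^ 2 ∧
    r = (- ∑ x, gibbs J h x * (f x * ((gen J h).mulVec f) x)) /
      ∑ x, gibbs J h x * (f x - ∑ y, gibbs J h y * f y) ^ 2}

/-- Sherrington-Kirkpatrick couplings at inverse temperature `b`: the Gaussian `g (i,j)`, `i < j`,
couples `i` and `j` with strength `b / sqrt n`. -/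
noncomputable def sk {n : ℕ} (b : ℝ) (g : Fin n × Fin n → ℝ) (i j : Fin n) : ℝ :=
  if i < j then b / Real.sqrt n * g (i, j)
  else if j < i then b / Real.sqrt n * g (j, i) else 0

/-- Law of the disorder: independent standard Gaussians. -/
noncomputable def dis (n : ℕ) : Measure (Fin n × Fin n → ℝ) :=
  Measure.pi fun _ => gaussianReal 0 1

/-- Good disorder (for `b = 1`). -/
def Good {n : ℕ} (e : ℝ) (J : Fin n → Fin n → ℝ) : Prop :=
  (∀ v : Fin n → ℝ, |∑ i, ∑ j, J i j * v i * v j| ≤ (2 + e) * ∑ i, v i ^ 2) ∧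
  (∀ i, ∑ j, J i j ^ 2 ≤ 1 + e) ∧ (∀ i j, |J i j| ≤ e)

end Vale.Agent.P150
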