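import Vale.Agent.Lib.P150.Defs

/-!
# P150, module DICT: the spectral gap of the generator and the Poincare inequality
-/

namespace Vale.Agent.P150

open Finset MeasureTheory ProbabilityTheory Filter Topology

theorem Dict_wt_pos {n : ℕ} (J : Fin n → Fin n → ℝ) (h : Fin n → ℝ) (x : Cfg n) :
    0 < wt J h x := Real.exp_pos _

theorem Dict_Z_pos {n : ℕ} (J : Fin n → Fin n → ℝ) (h : Fin n → ℝ) :
    0 < ∑ x : Cfg n, wt J h x :=
  Finset.sum_pos (fun x _ => Dict_wt_pos J h x) ⟨fun _ => true, Finset.mem_univ _⟩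

/-- action of the kernel -/
theorem Dict_Qker_mulVec {n : ℕ} (J : Fin n → Fin n → ℝ) (h : Fin n → ℝ) (i : Fin n)
    (f : Cfg n → ℝ) (x : Cfg n) :
    (Qker J h i).mulVec f x = hb (wt J h) i f x := by
  unfold Qker hb
  simp only [Matrix.mulVec, dotProduct, Matrix.of_apply, Finset.sum_mul]
  rw [Finset.sum_comm]
  simp only [ite_mul, zero_mul, Finset.sum_ite_eq', Finset.mem_univ, if_true, Fintype.sum_bool]
  ring

theorem Dict_gen_mulVec {n : ℕ} (J : Fin n → Fin n → ℝ) (h : Fin n → ℝ)
    (f : Cfg n → ℝ) (x : Cfg n) :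
    (gen J h).mulVec f x = ∑ i, (hb (wt J h) i f x - f x) := by
  unfold gen
  rw [Matrix.sum_mulVec, Finset.sum_apply]
  refine Finset.sum_congr rfl fun i _ => ?_
  rw [Matrix.sub_mulVec, Pi.sub_apply, Matrix.one_mulVec, Dict_Qker_mulVec]

/-- flipping involution sum rule -/
theorem Dict_sum_flip {n : ℕ} (i : Fin n) (F : Cfg n → ℝ) :
    ∑ x : Cfg n, F x = ∑ x : Cfg n, (F (st x i true) + F (st x i false)) / 2 := by
  have key : ∑ x : Cfg n, F (st x i (!(x i))) = ∑ x : Cfg n, F x := by
    refine Finset.sum_bij' (fun x _ => st x i (!(x i))) (fun x _ => st x i (!(x i)))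
      (fun _ _ => Finset.mem_univ _) (fun _ _ => Finset.mem_univ _) ?_ ?_ ?_
    · intro x _
      unfold st
      simp
    · intro x _
      unfold st
      simp
    · intro x _
      rfl
  have h2 : ∀ x : Cfg n, F (st x i true) + F (st x i false) = F x + F (st x i (!(x i))) := by
    intro x
    unfold st
    rcases hx : x i with _ | _
    · have : Function.update x i false = x := by rw [← hx]; exact Function.update_eq_self i x
      simp only [Bool.not_false]
      rw [this]; ring
    · have : Function.update x i true = x := by rw [← hx]; exact Function.update_eq_self i x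
      simp only [Bool.not_true]
      rw [this]
  calc ∑ x : Cfg n, F x = (∑ x : Cfg n, F x + ∑ x : Cfg n, F (st x i (!(x i)))) / 2 := by
        rw [key]; ring
    _ = _ := by
        rw [← Finset.sum_add_distrib, Finset.sum_div]
        refine Finset.sum_congr rfl fun x _ => ?_
        rw [h2]

/-- the key identity: `sum w f (f - Q f) = sum w (f - Q f)^2` -/
theorem Dict_dir_term {n : ℕ} (w : Cfg n → ℝ) (hw : ∀ x, 0 < w x) (i : Fin n) (f : Cfg n → ℝ) :
    ∑ x, w x * (f x * (f x - hb w i f x)) = ∑ x, w x * (f x - hb w i f x) ^ 2 := by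
  rw [Dict_sum_flip i, Dict_sum_flip i (fun x => w x * (f x - hb w i f x) ^ 2)]
  refine Finset.sum_congr rfl fun x _ => ?_
  congr 1
  have e1 : ∀ b, hb w i f (st x i b) = hb w i f x := by
    intro b
    unfold hb st
    simp
  simp only [e1]
  unfold hb
  have h1 := hw (st x i true)
  have h2 := hw (st x i false)
  have h3 : w (st x i true) + w (st x i false) ≠ 0 := by positivity
  field_simp
  ring

/-- numerator of the Rayleigh quotient -/
theorem Dict_num {n : ℕ} (J : Fin n → Fin n → ℝ) (h : Fin n → ℝ) (f : Cfg n → ℝ) :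
    - ∑ x, gibbs J h x * (f x * ((gen J h).mulVec f) x)
      = dir (wt J h) f / ∑ x, wt J h x := by
  unfold dir
  have : ∀ i, ∑ x, wt J h x * (f x - hb (wt J h) i f x) ^ 2
      = ∑ x, wt J h x * (f x * (f x - hb (wt J h) i f x)) := fun i =>
    (Dict_dir_term (wt J h) (Dict_wt_pos J h) i f).symm
  simp only [this]
  rw [Finset.sum_comm, Finset.sum_div, ← Finset.sum_neg_distrib]
  refine Finset.sum_congr rfl fun x _ => ?_
  rw [Dict_gen_mulVec]
  unfold gibbs
  rw [← Finset.mul_sum, ← Finset.mul_sum]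
  have : ∑ i, (f x - hb (wt J h) i f x) = - ∑ i, (hb (wt J h) i f x - f x) := by
    rw [← Finset.sum_neg_distrib]
    exact Finset.sum_congr rfl fun i _ => by ring
  rw [this]
  ring

/-- denominator of the Rayleigh quotient -/
theorem Dict_den {n : ℕ} (J : Fin n → Fin n → ℝ) (h : Fin n → ℝ) (f : Cfg n → ℝ) :
    ∑ x, gibbs J h x * (f x - ∑ y, gibbs J h y * f y) ^ 2
      = uvar (wt J h) f / ∑ x, wt J h x := by
  unfold uvar
  have e : ∑ y, gibbs J h y * f y = mean (wt J h) f := by
    unfold mean gibbs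
    rw [Finset.sum_div]
    exact Finset.sum_congr rfl fun y _ => by ring
  rw [e, Finset.sum_div]
  refine Finset.sum_congr rfl fun x _ => ?_
  unfold gibbs
  ring

theorem Dict_quot {n : ℕ} (J : Fin n → Fin n → ℝ) (h : Fin n → ℝ) (f : Cfg n → ℝ) :
    (- ∑ x, gibbs J h x * (f x * ((gen J h).mulVec f) x)) /
      ∑ x, gibbs J h x * (f x - ∑ y, gibbs J h y * f y) ^ 2
      = dir (wt J h) f / uvar (wt J h) f := by
  rw [Dict_num, Dict_den]
  rw [div_div_div_cancel_right₀ (Dict_Z_pos J h).ne']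

/-- the set of Rayleigh quotients is nonempty as soon as `0 < n`: spin at a site -/
theorem Dict_spin_uvar_pos {n : ℕ} (J : Fin n → Fin n → ℝ) (h : Fin n → ℝ) (i : Fin n) :
    0 < uvar (wt J h) (fun x => sp (x i)) := by
  unfold uvar
  set m := mean (wt J h) (fun x => sp (x i)) with hm
  have hge : ∀ x : Cfg n, 0 ≤ wt J h x * (sp (x i) - m) ^ 2 := fun x =>
    mul_nonneg (Dict_wt_pos J h x).le (sq_nonneg _)
  by_contra hc
  have h0 : ∑ x : Cfg n, wt J h x * (sp (x i) - m) ^ 2 = 0 :=
    le_antisymm (not_lt.mp hc) (Finset.sum_nonneg fun x _ => hge x)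
  rw [Finset.sum_eq_zero_iff_of_nonneg (fun x _ => hge x)] at h0
  have a1 := h0 (fun _ => true) (Finset.mem_univ _)
  have a2 := h0 (fun _ => false) (Finset.mem_univ _)
  have p1 := (Dict_wt_pos J h (fun _ => true)).ne'
  have p2 := (Dict_wt_pos J h (fun _ => false)).ne'
  have b1 : sp true - m = 0 := by
    rcases mul_eq_zero.mp a1 with q | q
    · exact absurd q p1
    · exact pow_eq_zero_iff (two_ne_zero) |>.mp q
  have b2 : sp false - m = 0 := by
    rcases mul_eq_zero.mp a2 with q | q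
    · exact absurd q p2
    · exact pow_eq_zero_iff (two_ne_zero) |>.mp q
  unfold sp at b1 b2
  simp at b1 b2
  linarith

theorem gap_of_poincare {n : ℕ} (hn : 0 < n) (J : Fin n → Fin n → ℝ) (h : Fin n → ℝ) (κ : ℝ)
    (hP : ∀ f : Cfg n → ℝ, κ * uvar (wt J h) f ≤ dir (wt J h) f) : κ ≤ gap J h := by
  unfold gap
  apply le_csInf
  · refine ⟨_, (fun x => sp (x ⟨0, hn⟩)), ?_, rfl⟩
    rw [Dict_den]
    exact div_pos (Dict_spin_uvar_pos J h _) (Dict_Z_pos J h)
  · rintro r ⟨f, hf, rfl⟩
    rw [Dict_quot]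
    rw [Dict_den] at hf
    have hv : 0 < uvar (wt J h) f := by
      by_contra hc
      have : uvar (wt J h) f / ∑ x, wt J h x ≤ 0 :=
        div_nonpos_of_nonpos_of_nonneg (not_lt.mp hc) (Dict_Z_pos J h).le
      linarith
    rw [le_div_iff₀ hv]
    exact hP f


/-- global flip -/
def Dict_neg {n : ℕ} (x : Cfg n) : Cfg n := fun i => !(x i)

theorem Dict_sp_not (b : Bool) : sp (!b) = - sp b := by
  cases b <;> simp [sp]

theorem Dict_wt_neg {n : ℕ} (J : Fin n → Fin n → ℝ) (x : Cfg n) :
    wt J 0 (Dict_neg x) = wt J 0 x := by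
  unfold wt Ham Dict_neg
  simp [Dict_sp_not]

theorem Dict_mean_zero {n : ℕ} (J : Fin n → Fin n → ℝ) (i : Fin n) :
    ∑ x, wt J 0 x * sp (x i) = 0 := by
  have key : ∑ x : Cfg n, wt J 0 (Dict_neg x) * sp (Dict_neg x i)
      = ∑ x : Cfg n, wt J 0 x * sp (x i) := by
    refine Finset.sum_bij' (fun x _ => Dict_neg x) (fun x _ => Dict_neg x)
      (fun _ _ => Finset.mem_univ _) (fun _ _ => Finset.mem_univ _) ?_ ?_ ?_
    · intro x _
      funext j
      simp [Dict_neg]
    · intro x _
      funext j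
      simp [Dict_neg]
    · intro x _
      rfl
  have k2 : ∑ x : Cfg n, wt J 0 (Dict_neg x) * sp (Dict_neg x i)
      = - ∑ x : Cfg n, wt J 0 x * sp (x i) := by
    rw [← Finset.sum_neg_distrib]
    refine Finset.sum_congr rfl fun x _ => ?_
    rw [Dict_wt_neg]
    have : sp (Dict_neg x i) = - sp (x i) := Dict_sp_not _
    rw [this]; ring
  linarith

theorem Dict_sp_sq (b : Bool) : sp b ^ 2 = 1 := by
  cases b <;> simp [sp]

theorem Dict_dir_spin_le {n : ℕ} (w : Cfg n → ℝ) (hw : ∀ x, 0 < w x) (i : Fin n) :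
    dir w (fun x => sp (x i)) ≤ ∑ x, w x := by
  unfold dir
  have hz : ∀ j, j ≠ i → ∑ x, w x * (sp (x i) - hb w j (fun x => sp (x i)) x) ^ 2 = 0 := by
    intro j hj
    refine Finset.sum_eq_zero fun x _ => ?_
    have : hb w j (fun x => sp (x i)) x = sp (x i) := by
      unfold hb st
      have e : ∀ b, Function.update x j b i = x i := fun b => by
        rw [Function.update_of_ne (Ne.symm hj)]
      simp only [e]
      have h1 := hw (Function.update x j true)
      have h2 := hw (Function.update x j false)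
      have h3 : w (Function.update x j true) + w (Function.update x j false) ≠ 0 := by positivity
      field_simp
    rw [this]; ring
  rw [Finset.sum_eq_single i (fun j _ hj => hz j hj) (fun hi => absurd (Finset.mem_univ i) hi)]
  have e1 := Dict_dir_term w hw i (fun x => sp (x i))
  set g := hb w i (fun x => sp (x i)) with hg
  have e2 : ∑ x, w x * (sp (x i) * (sp (x i) - g x)) = ∑ x, w x - ∑ x, w x * (sp (x i) * g x) := by
    rw [← Finset.sum_sub_distrib]
    refine Finset.sum_congr rfl fun x _ => ?_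
    have := Dict_sp_sq (x i)
    linear_combination (w x) * this
  have e3 : ∑ x, w x * (sp (x i) - g x) ^ 2
      = ∑ x, w x - 2 * ∑ x, w x * (sp (x i) * g x) + ∑ x, w x * g x ^ 2 := by
    rw [Finset.mul_sum, ← Finset.sum_sub_distrib, ← Finset.sum_add_distrib]
    refine Finset.sum_congr rfl fun x _ => ?_
    have := Dict_sp_sq (x i)
    linear_combination (w x) * this
  have e4 : 0 ≤ ∑ x, w x * g x ^ 2 :=
    Finset.sum_nonneg fun x _ => mul_nonneg (hw x).le (sq_nonneg _)
  have e5 : ∑ x, w x * (sp (x i) * (sp (x i) - g x)) = ∑ x, w x * (sp (x i) - g x) ^ 2 := e1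
  show ∑ x, w x * (sp (x i) - g x) ^ 2 ≤ ∑ x, w x
  linarith

/-- UPP: the gap is at most one at zero field. -/
theorem gap_le_one {n : ℕ} (hn : 0 < n) (J : Fin n → Fin n → ℝ) (hs : ∀ i j, J i j = J j i)
    (hd : ∀ i, J i i = 0) : gap J 0 ≤ 1 := by
  set i : Fin n := ⟨0, hn⟩
  have hv : uvar (wt J 0) (fun x => sp (x i)) = ∑ x, wt J 0 x := by
    unfold uvar mean
    rw [Dict_mean_zero, zero_div]
    refine Finset.sum_congr rfl fun x _ => ?_
    rw [sub_zero, Dict_sp_sq, mul_one]
  have hle : dir (wt J 0) (fun x => sp (x i)) ≤ ∑ x, wt J 0 x :=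
    Dict_dir_spin_le (wt J 0) (Dict_wt_pos J 0) i
  have hZ := Dict_Z_pos J 0
  refine le_trans (csInf_le ?_ ⟨(fun x => sp (x i)), ?_, rfl⟩) ?_
  · refine ⟨0, ?_⟩
    rintro r ⟨f, hf, rfl⟩
    rw [Dict_quot]
    have h1 : 0 ≤ dir (wt J 0) f := Finset.sum_nonneg fun i _ =>
      Finset.sum_nonneg fun x _ => mul_nonneg (Dict_wt_pos J 0 x).le (sq_nonneg _)
    have h2 : 0 ≤ uvar (wt J 0) f :=
      Finset.sum_nonneg fun x _ => mul_nonneg (Dict_wt_pos J 0 x).le (sq_nonneg _)
    exact div_nonneg h1 h2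
  · rw [Dict_den]
    exact div_pos (Dict_spin_uvar_pos J 0 i) hZ
  · rw [Dict_quot, hv, div_le_one hZ]
    exact hle

end Vale.Agent.P150
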