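import Vale.Agent.Lib.P150.Defs

namespace Vale.Agent.P150

open Finset

/-- failure event for the quadratic form with an extra coefficient `c` in direction `u`. -/
def Fail (n : ℕ) (lam c : ℝ) (u : Fin n → ℝ) : Set (Fin n × Fin n → ℝ) :=
  {X | ¬ ∀ v : Fin n → ℝ, Real.sqrt 2 * ∑ i, ∑ j, X (i, j) * v i * v j
        + c * (∑ i, u i * v i) ^ 2 ≤ lam * ∑ i, v i ^ 2}

end Vale.Agent.P150
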