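import Vale.Agent.Lib.P150.Defs

/-!
# The family `fam` and the channel `qx`  (module FAM of P150, first part)
-/

namespace Vale.Agent.P150

open Finset MeasureTheory ProbabilityTheory

theorem fam_sp_cases (b : Bool) : sp b = 1 ∨ sp b = -1 := by
  cases b <;> simp [sp]

theorem fam_cosh_mul (b : Bool) (z : ℝ) :
    Real.cosh z * ((1 + sp b * Real.tanh z) / 2) = 1 / 2 * Real.exp (sp b * z) := by
  have hc : Real.cosh z ≠ 0 := (Real.cosh_pos z).ne'
  have h1 : Real.cosh z * Real.tanh z = Real.sinh z := by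
    rw [Real.tanh_eq_sinh_div_cosh]
    field_simp
  have h2 : Real.cosh z * ((1 + sp b * Real.tanh z) / 2) =
      1 / 2 * (Real.cosh z + sp b * Real.sinh z) := by
    rw [← h1]
    ring
  rw [h2]
  congr 1
  rcases fam_sp_cases b with h | h
  · rw [h, one_mul, one_mul, Real.cosh_add_sinh]
  · rw [h]
    have h3 : Real.cosh z + -1 * Real.sinh z = Real.cosh z - Real.sinh z := by ring
    rw [h3, Real.cosh_sub_sinh]
    congr 1
    ring

/-- FAM1: one step of the family. -/
theorem fam_step {n : ℕ} (a : Fin n → Fin n → ℝ) (e : ℝ) (r : ℕ) (h : Fin n → ℝ) (xi x : Cfg n) :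
    fam a e (r+1) h x * qx (lin a) e xi x
      = (1/2)^n * fam a e r (fun i => h i + e * ∑ k, sp (xi k) * a k i) x := by
  unfold fam qx
  have h1 : (∏ k, Real.cosh (e * lin a k x) ^ (r + 1)) *
      ∏ k, (1 + sp (xi k) * Real.tanh (e * lin a k x)) / 2 =
      (∏ k, Real.cosh (e * lin a k x) ^ r) *
        ((1/2)^n * Real.exp (∑ k, sp (xi k) * (e * lin a k x))) := by
    rw [← Finset.prod_mul_distrib, Real.exp_sum]
    have h2 : ((1:ℝ)/2)^n = ∏ _k : Fin n, ((1:ℝ)/2) := by simp
    rw [h2, ← Finset.prod_mul_distrib, ← Finset.prod_mul_distrib]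
    apply Finset.prod_congr rfl
    intro k _
    rw [pow_succ, mul_assoc, fam_cosh_mul]
  have h3 : ∑ k, sp (xi k) * (e * lin a k x) =
      ∑ i, (e * ∑ k, sp (xi k) * a k i) * sp (x i) := by
    unfold lin
    simp only [Finset.mul_sum, Finset.sum_mul]
    rw [Finset.sum_comm]
    apply Finset.sum_congr rfl
    intro i _
    apply Finset.sum_congr rfl
    intro k _
    ring
  rw [mul_assoc, h1, h3]
  have h4 : Real.exp (∑ i, (h i + e * ∑ k, sp (xi k) * a k i) * sp (x i)) =
      Real.exp (∑ i, h i * sp (x i)) *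
        Real.exp (∑ i, (e * ∑ k, sp (xi k) * a k i) * sp (x i)) := by
    rw [← Real.exp_add, ← Finset.sum_add_distrib]
    congr 1
    apply Finset.sum_congr rfl
    intro i _
    ring
  rw [h4]
  ring

/-- FAM2: the channel is a Markov kernel with positive entries. -/
theorem qx_pos_sum {n : ℕ} (y : Fin n → Cfg n → ℝ) (e : ℝ) :
    (∀ xi x, 0 < qx y e xi x) ∧ ∀ x, ∑ xi, qx y e xi x = 1 := by
  constructor
  · intro xi x
    unfold qx
    apply Finset.prod_pos
    intro k _
    have h1 := Real.tanh_lt_one (e * y k x)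
    have h2 := Real.neg_one_lt_tanh (e * y k x)
    rcases fam_sp_cases (xi k) with h | h <;> rw [h] <;> linarith
  · intro x
    unfold qx
    have h1 := Finset.prod_univ_sum (fun _ : Fin n => (Finset.univ : Finset Bool))
      (fun k b => (1 + sp b * Real.tanh (e * y k x)) / 2)
    rw [Fintype.piFinset_univ] at h1
    rw [← h1]
    apply Finset.prod_eq_one
    intro k _
    rw [Fintype.sum_bool]
    unfold sp
    simp
    ring

theorem fam_pos {n : ℕ} (a : Fin n → Fin n → ℝ) (e : ℝ) (r : ℕ) (h : Fin n → ℝ) (x : Cfg n) :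
    0 < fam a e r h x := by
  unfold fam
  exact mul_pos (Real.exp_pos _) (Finset.prod_pos fun k _ => pow_pos (Real.cosh_pos _) _)

end Vale.Agent.P150
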