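import Vale.Agent.Lib.P150.Fail

/-!
# P150, module ROT: rotation invariance of the failure event
-/

namespace Vale.Agent.P150

open Finset MeasureTheory ProbabilityTheory

/-- Householder matrix exchanging two unit vectors -/
theorem ROT_exists {n : ℕ} (u u' : Fin n → ℝ) (hu : ∑ i, u i ^ 2 = 1) (hu' : ∑ i, u' i ^ 2 = 1) :
    ∃ M : Fin n → Fin n → ℝ, (∀ i a, M i a = M a i) ∧
      (∀ a b, ∑ i, M i a * M i b = if a = b then 1 else 0) ∧
      ∀ i, ∑ a, M i a * u' a = u i := by
  by_cases huu : u = u'
  · subst huu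
    refine ⟨fun i a => if i = a then 1 else 0, ?_, ?_, ?_⟩
    · intro i a
      by_cases h : i = a
      · subst h; rfl
      · simp only [if_neg h, if_neg (Ne.symm h)]
    · intro a b
      by_cases h : a = b
      · subst h; simp
      · simp [h, Ne.symm h]
    · intro i
      simp
  · obtain ⟨w, hw⟩ : ∃ w : Fin n → ℝ, ∀ i, w i = u' i - u i := ⟨_, fun i => rfl⟩
    obtain ⟨S, hS⟩ : ∃ S, ∑ i, w i ^ 2 = S := ⟨_, rfl⟩
    have hSpos : 0 < S := by
      rw [← hS]
      refine lt_of_le_of_ne (sum_nonneg fun _ _ => sq_nonneg _) fun h => huu ?_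
      funext i
      have h1 := (sum_eq_zero_iff_of_nonneg (fun i _ => sq_nonneg (w i))).1 h.symm i (mem_univ i)
      have h2 : w i = 0 := pow_eq_zero_iff (two_ne_zero) |>.1 h1
      rw [hw] at h2
      linarith
    have hwu : 2 * ∑ i, w i * u' i = S := by
      have e1 : S = ∑ i, u' i ^ 2 + ∑ i, u i ^ 2 - 2 * ∑ i, u i * u' i := by
        rw [← hS, mul_sum, ← sum_add_distrib, ← sum_sub_distrib]
        refine sum_congr rfl fun i _ => ?_
        rw [hw]; ring
      have e2 : ∑ i, w i * u' i = ∑ i, u' i ^ 2 - ∑ i, u i * u' i := by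
        rw [← sum_sub_distrib]
        refine sum_congr rfl fun i _ => ?_
        rw [hw]; ring
      rw [e1, e2, hu, hu']
      ring
    refine ⟨fun i a => (if i = a then 1 else 0) - 2 / S * w i * w a, ?_, ?_, ?_⟩
    · intro i a
      have : (if i = a then (1 : ℝ) else 0) = if a = i then 1 else 0 := by
        by_cases h : i = a
        · subst h; rfl
        · simp only [if_neg h, if_neg (Ne.symm h)]
      simp only [this]
      ring
    · intro a b
      have e1 : ∀ i, ((if i = a then (1 : ℝ) else 0) - 2 / S * w i * w a) *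
          ((if i = b then 1 else 0) - 2 / S * w i * w b) =
          (if i = a then (if i = b then 1 else 0) else 0)
          - (if i = a then 2 / S * w i * w b else 0) - (if i = b then 2 / S * w i * w a else 0)
          + (2 / S) ^ 2 * w a * w b * w i ^ 2 := by
        intro i
        split_ifs <;> ring
      simp only [e1]
      rw [sum_add_distrib, sum_sub_distrib, sum_sub_distrib, ← mul_sum, hS]
      simp only [sum_ite_eq', mem_univ, if_true]
      field_simp
      ring
    · intro i
      have e1 : ∀ a, ((if i = a then (1 : ℝ) else 0) - 2 / S * w i * w a) * u' a =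
          (if i = a then u' a else 0) - 2 / S * w i * (w a * u' a) := by
        intro a
        split_ifs <;> ring
      simp only [e1]
      rw [sum_sub_distrib, ← mul_sum]
      simp only [sum_ite_eq, mem_univ, if_true]
      have e2 : 2 / S * w i * ∑ a, w a * u' a = w i := by
        have : 2 / S * w i * ∑ a, w a * u' a = w i * (2 * ∑ a, w a * u' a) / S := by ring
        rw [this, hwu]
        field_simp
      rw [e2, hw]
      ring

/-- conjugation by `M` -/
def ROT_T {n : ℕ} (M : Fin n → Fin n → ℝ) (X : Fin n × Fin n → ℝ) (q : Fin n × Fin n) : ℝ :=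
  ∑ p : Fin n × Fin n, X p * (M q.1 p.1 * M q.2 p.2)

theorem ROT_map {n : ℕ} (M : Fin n → Fin n → ℝ)
    (hM : ∀ a b, ∑ i, M i a * M i b = if a = b then 1 else 0) :
    (dis n).map (ROT_T M) = dis n := by
  classical
  set v : Fin n × Fin n → EuclideanSpace ℝ (Fin n × Fin n) :=
    fun p => WithLp.toLp 2 (fun q : Fin n × Fin n => M q.1 p.1 * M q.2 p.2) with hv
  have hon : Orthonormal ℝ v := by
    rw [orthonormal_iff_ite]
    intro p p'
    have e1 : inner ℝ (v p) (v p') =
        (∑ i, M i p.1 * M i p'.1) * ∑ j, M j p.2 * M j p'.2 := by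
      rw [sum_mul_sum, PiLp.inner_apply, Fintype.sum_prod_type]
      refine sum_congr rfl fun i _ => sum_congr rfl fun j _ => ?_
      simp only [hv, RCLike.inner_apply, conj_trivial]
      ring
    rw [e1, hM, hM]
    by_cases h1 : p.1 = p'.1
    · by_cases h2 : p.2 = p'.2
      · have : p = p' := Prod.ext h1 h2
        simp [this]
      · have : p ≠ p' := fun h => h2 (by rw [h])
        simp [h2, this]
    · have : p ≠ p' := fun h => h1 (by rw [h])
      simp [h1, this]
  have hcard : Fintype.card (Fin n × Fin n) =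
      Module.finrank ℝ (EuclideanSpace ℝ (Fin n × Fin n)) := by
    rw [finrank_euclideanSpace]
  rcases isEmpty_or_nonempty (Fin n × Fin n) with hE | hE
  · have : ROT_T M = id := by
      funext X q
      exact (hE.false q).elim
    rw [this, Measure.map_id]
  set B := basisOfOrthonormalOfCardEqFinrank hon hcard with hB
  have hBv : ⇑B = v := coe_basisOfOrthonormalOfCardEqFinrank hon hcard
  set b := B.toOrthonormalBasis (by rw [hBv]; exact hon) with hb
  have hbv : ∀ p, b p = v p := by
    intro p
    rw [hb, Module.Basis.coe_toOrthonormalBasis, hBv]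
  have h1 := stdGaussian_eq_map_pi_orthonormalBasis b
  have h2 := map_pi_eq_stdGaussian (ι := Fin n × Fin n)
  have h3 : (dis n).map (WithLp.toLp 2) =
      (dis n).map (fun x : Fin n × Fin n → ℝ => ∑ p, x p • b p) := by
    unfold dis
    rw [← h1, ← h2]
  have h4 : ((dis n).map (WithLp.toLp 2)).map (WithLp.ofLp (p := 2)) =
      ((dis n).map (fun x : Fin n × Fin n → ℝ => ∑ p, x p • b p)).map (WithLp.ofLp (p := 2)) := by
    rw [h3]
  rw [Measure.map_map (by fun_prop) (by fun_prop), Measure.map_map (by fun_prop) (by fun_prop)]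
    at h4
  have e5 : (WithLp.ofLp (p := 2)) ∘ (WithLp.toLp 2) = (id : (Fin n × Fin n → ℝ) → _) := rfl
  rw [e5, Measure.map_id] at h4
  have e6 : (WithLp.ofLp (p := 2)) ∘ (fun x : Fin n × Fin n → ℝ => ∑ p, x p • b p) =
      ROT_T M := by
    funext X q
    simp only [Function.comp_apply, hbv, hv, WithLp.ofLp_sum, WithLp.ofLp_smul,
      Finset.sum_apply, Pi.smul_apply, smul_eq_mul, ROT_T]
  rw [e6] at h4
  exact h4.symm

theorem ROT_meas (n : ℕ) (lam c : ℝ) (u : Fin n → ℝ) : MeasurableSet (Fail n lam c u) := by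
  have e : Fail n lam c u =
      ⋃ v : Fin n → ℝ, {X : Fin n × Fin n → ℝ | lam * ∑ i, v i ^ 2 <
        Real.sqrt 2 * ∑ i, ∑ j, X (i, j) * v i * v j + c * (∑ i, u i * v i) ^ 2} := by
    ext q
    simp only [Fail, Set.mem_ofPred_eq, not_forall, not_le, Set.mem_iUnion]
  rw [e]
  refine (isOpen_iUnion fun v => isOpen_lt continuous_const ?_).measurableSet
  fun_prop

theorem ROT_form {n : ℕ} (M : Fin n → Fin n → ℝ) (X : Fin n × Fin n → ℝ) (v : Fin n → ℝ) :
    ∑ i, ∑ j, ROT_T M X (i, j) * v i * v j =
      ∑ a, ∑ b, X (a, b) * (∑ i, M i a * v i) * (∑ j, M j b * v j) := by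
  unfold ROT_T
  simp only [Fintype.sum_prod_type, sum_mul, mul_sum]
  rw [sum_comm]
  have e : ∀ j i : Fin n, ∑ a, ∑ b, X (a, b) * (M i a * M j b) * v i * v j =
      ∑ a, ∑ b, X (a, b) * (M i a * v i) * (M j b * v j) := by
    intro j i
    refine sum_congr rfl fun a _ => sum_congr rfl fun b _ => ?_
    ring
  simp only [e]
  have c1 : ∀ j : Fin n, ∑ i, ∑ a, ∑ b, X (a, b) * (M i a * v i) * (M j b * v j) =
      ∑ a, ∑ b, ∑ i, X (a, b) * (M i a * v i) * (M j b * v j) := by
    intro j
    rw [sum_comm]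
    refine sum_congr rfl fun a _ => ?_
    rw [sum_comm]
  simp only [c1]
  rw [sum_comm]
  refine sum_congr rfl fun a _ => ?_
  rw [sum_comm]

theorem fail_rot (n : ℕ) (lam c : ℝ) (u u' : Fin n → ℝ) (hu : ∑ i, u i ^ 2 = 1)
    (hu' : ∑ i, u' i ^ 2 = 1) : dis n (Fail n lam c u) = dis n (Fail n lam c u') := by
  obtain ⟨M, hMs, hM, hMu⟩ := ROT_exists u u' hu hu'
  have hmap := ROT_map M hM
  have hmT : Measurable (ROT_T M) := by
    unfold ROT_T
    fun_prop
  have h1 : dis n (Fail n lam c u) = dis n (ROT_T M ⁻¹' Fail n lam c u) := by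
    conv_lhs => rw [← hmap]
    rw [Measure.map_apply hmT (ROT_meas n lam c u)]
  rw [h1]
  congr 1
  -- orthogonality in the other order
  have hM' : ∀ a b, ∑ i, M a i * M b i = if a = b then 1 else 0 := by
    intro a b
    rw [← hM a b]
    exact sum_congr rfl fun i _ => by rw [hMs a i, hMs b i]
  have hnorm : ∀ v : Fin n → ℝ, ∑ a, (∑ i, M i a * v i) ^ 2 = ∑ i, v i ^ 2 := by
    intro v
    have e1 : ∀ a, (∑ i, M i a * v i) ^ 2 = ∑ i, ∑ j, (M i a * M j a) * (v i * v j) := by
      intro a
      rw [pow_two, sum_mul_sum]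
      exact sum_congr rfl fun i _ => sum_congr rfl fun j _ => by ring
    simp only [e1]
    rw [sum_comm]
    refine sum_congr rfl fun i _ => ?_
    rw [sum_comm]
    have e2 : ∀ j, ∑ a, M i a * M j a * (v i * v j) = (if i = j then 1 else 0) * (v i * v j) := by
      intro j
      rw [← sum_mul, hM' i j]
    simp only [e2, ite_mul, one_mul, zero_mul, sum_ite_eq, mem_univ, if_true]
    ring
  have hdir : ∀ v : Fin n → ℝ, ∑ i, u i * v i = ∑ a, u' a * ∑ i, M i a * v i := by
    intro v
    have e1 : ∀ i, u i * v i = ∑ a, M i a * u' a * v i := by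
      intro i
      rw [← sum_mul, hMu i]
    simp only [e1, mul_sum]
    rw [sum_comm]
    exact sum_congr rfl fun a _ => sum_congr rfl fun i _ => by ring
  ext X
  unfold Fail
  simp only [Set.mem_preimage, Set.mem_ofPred_eq]
  refine not_congr ⟨fun h w => ?_, fun h v => ?_⟩
  · have hv := h (fun i => ∑ a, M i a * w a)
    have hw : ∀ a, ∑ i, M i a * ∑ b, M i b * w b = w a := by
      intro a
      simp only [mul_sum]
      rw [sum_comm]
      have e2 : ∀ b, ∑ i, M i a * (M i b * w b) = (if a = b then 1 else 0) * w b := by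
        intro b
        rw [← hM a b, sum_mul]
        exact sum_congr rfl fun i _ => by ring
      simp only [e2, ite_mul, one_mul, zero_mul, sum_ite_eq, mem_univ, if_true]
    rw [ROT_form, hdir, ← hnorm] at hv
    simp only [hw] at hv
    exact hv
  · have hv := h (fun a => ∑ i, M i a * v i)
    rw [ROT_form, hdir, ← hnorm]
    exact hv

end Vale.Agent.P150
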