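import Vale.Agent.Lib.P150.GaussLaw
import Vale.Agent.Lib.P150.Fail
import Vale.Agent.Lib.P150.Rot

/-!
# P150, module REC: one step of the Schur complement recursion
-/

set_option linter.unusedVariables false

namespace Vale.Agent.P150

open Finset MeasureTheory ProbabilityTheory

/-- border vector -/
noncomputable def REC_g {n : ℕ} (X : Fin (n + 1) × Fin (n + 1) → ℝ) (j : Fin n) : ℝ :=
  (X (0, j.succ) + X (j.succ, 0)) / Real.sqrt 2

/-- lower block -/
def REC_b {n : ℕ} (X : Fin (n + 1) × Fin (n + 1) → ℝ) (p : Fin n × Fin n) : ℝ :=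
  X (p.1.succ, p.2.succ)

/-- normalised vector -/
noncomputable def REC_u {n : ℕ} (g : Fin n → ℝ) (i : Fin n) : ℝ := g i / Real.sqrt (∑ j, g j ^ 2)

theorem REC_expand {n : ℕ} (X : Fin (n + 1) × Fin (n + 1) → ℝ) (v : Fin (n + 1) → ℝ) :
    Real.sqrt 2 * ∑ i, ∑ j, X (i, j) * v i * v j =
      Real.sqrt 2 * X (0, 0) * v 0 ^ 2 + 2 * v 0 * ∑ j, REC_g X j * v j.succ +
      Real.sqrt 2 * ∑ i, ∑ j, REC_b X (i, j) * v i.succ * v j.succ := by
  have h2 : Real.sqrt 2 * Real.sqrt 2 = 2 := Real.mul_self_sqrt (by norm_num)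
  have h2' : Real.sqrt 2 ≠ 0 := by positivity
  have hg : ∀ j : Fin n, 2 * REC_g X j = Real.sqrt 2 * (X (0, j.succ) + X (j.succ, 0)) := by
    intro j
    unfold REC_g
    rw [mul_div_assoc', div_eq_iff h2']
    calc 2 * (X (0, j.succ) + X (j.succ, 0))
        = (Real.sqrt 2 * Real.sqrt 2) * (X (0, j.succ) + X (j.succ, 0)) := by rw [h2]
      _ = _ := by ring
  rw [Fin.sum_univ_succ]
  simp only [Fin.sum_univ_succ (f := fun j => X (0, j) * v 0 * v j)]
  have e1 : ∀ i : Fin n, ∑ j, X (i.succ, j) * v i.succ * v j =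
      X (i.succ, 0) * v i.succ * v 0 + ∑ j : Fin n, X (i.succ, j.succ) * v i.succ * v j.succ :=
    fun i => Fin.sum_univ_succ _
  simp only [e1, sum_add_distrib]
  have e2 : 2 * v 0 * ∑ j, REC_g X j * v j.succ =
      Real.sqrt 2 * (∑ j : Fin n, X (0, j.succ) * v 0 * v j.succ +
        ∑ j : Fin n, X (j.succ, 0) * v j.succ * v 0) := by
    rw [← sum_add_distrib, mul_sum, mul_sum]
    refine sum_congr rfl fun j _ => ?_
    have := hg j
    calc 2 * v 0 * (REC_g X j * v j.succ) = (2 * REC_g X j) * (v 0 * v j.succ) := by ring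
      _ = _ := by rw [this]; ring
  rw [e2]
  unfold REC_b
  ring

theorem REC_det {n : ℕ} (X : Fin (n + 1) × Fin (n + 1) → ℝ) (N δ c lam : ℝ) (hc : 0 ≤ c)
    (hlam : 0 < lam - δ * Real.sqrt N - c)
    (hstep : (1 + δ) * N / (lam - δ * Real.sqrt N - c) ≤ c)
    (h00 : Real.sqrt 2 * X (0, 0) ≤ δ * Real.sqrt N)
    (hg : ∑ j, REC_g X j ^ 2 ≤ (1 + δ) * N)
    (hb : REC_b X ∉ Fail n lam c (REC_u (REC_g X))) :
    X ∉ Fail (n + 1) lam c (fun i => if i = 0 then 1 else 0) := by
  unfold Fail at hb ⊢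
  simp only [Set.mem_ofPred_eq, not_not] at hb ⊢
  intro v
  rw [REC_expand X v]
  have e0 : ∑ i : Fin (n + 1), (if i = 0 then (1 : ℝ) else 0) * v i = v 0 := by simp
  have e1 : ∑ i, v i ^ 2 = v 0 ^ 2 + ∑ j : Fin n, v j.succ ^ 2 := Fin.sum_univ_succ _
  rw [e0, e1]
  have hv := hb (fun j => v j.succ)
  obtain ⟨P, hP⟩ : ∃ P, ∑ j, REC_g X j * v j.succ = P := ⟨_, rfl⟩
  obtain ⟨G, hG⟩ : ∃ G, ∑ j, REC_g X j ^ 2 = G := ⟨_, rfl⟩
  obtain ⟨U, hU⟩ : ∃ U, ∑ j, REC_u (REC_g X) j * v j.succ = U := ⟨_, rfl⟩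
  obtain ⟨Q, hQ⟩ : ∃ Q, Real.sqrt 2 * ∑ i, ∑ j, REC_b X (i, j) * v i.succ * v j.succ = Q :=
    ⟨_, rfl⟩
  obtain ⟨W, hW⟩ : ∃ W, ∑ j : Fin n, v j.succ ^ 2 = W := ⟨_, rfl⟩
  rw [hU, hQ, hW] at hv
  rw [hP, hQ, hW]
  rw [hG] at hg
  have hG0 : 0 ≤ G := by rw [← hG]; exact sum_nonneg fun _ _ => sq_nonneg _
  have hPU : P ^ 2 = G * U ^ 2 := by
    rcases hG0.eq_or_lt with h | h
    · have hz : ∀ j, REC_g X j = 0 := by
        intro j
        rw [← h] at hG
        have := (sum_eq_zero_iff_of_nonneg (fun i _ => sq_nonneg (REC_g X i))).1 hG j (mem_univ j)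
        exact pow_eq_zero_iff (two_ne_zero) |>.1 this
      have hP0 : P = 0 := by rw [← hP]; simp [hz]
      rw [hP0, ← h]
      ring
    · have hs : 0 < Real.sqrt G := Real.sqrt_pos.2 h
      have hU' : U = P / Real.sqrt G := by
        rw [← hU, ← hP, sum_div]
        refine sum_congr rfl fun j _ => ?_
        unfold REC_u
        rw [hG]
        ring
      rw [hU', div_pow, Real.sq_sqrt hG0]
      field_simp
  obtain ⟨D, hD⟩ : ∃ D, lam - c - Real.sqrt 2 * X (0, 0) = D := ⟨_, rfl⟩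
  have hD0 : lam - δ * Real.sqrt N - c ≤ D := by linarith
  have hDpos : 0 < D := lt_of_lt_of_le hlam hD0
  rw [div_le_iff₀ hlam] at hstep
  have hkey : P ^ 2 ≤ c * D * U ^ 2 := by
    rw [hPU]
    refine mul_le_mul_of_nonneg_right ?_ (sq_nonneg U)
    calc G ≤ (1 + δ) * N := hg
      _ ≤ c * (lam - δ * Real.sqrt N - c) := hstep
      _ ≤ c * D := mul_le_mul_of_nonneg_left hD0 hc
  have hfin : 2 * v 0 * P - D * v 0 ^ 2 ≤ c * U ^ 2 := by
    have h1 : 0 ≤ D * (c * U ^ 2 - (2 * v 0 * P - D * v 0 ^ 2)) := by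
      nlinarith [sq_nonneg (P - D * v 0)]
    have h2 := nonneg_of_mul_nonneg_right h1 hDpos
    linarith
  have e3 : D * v 0 ^ 2 = lam * v 0 ^ 2 - c * v 0 ^ 2 - Real.sqrt 2 * X (0, 0) * v 0 ^ 2 := by
    rw [← hD]; ring
  rw [e3] at hfin
  linarith

theorem REC_open (n : ℕ) (lam c : ℝ) :
    IsOpen {q : (Fin n → ℝ) × (Fin n × Fin n → ℝ) | q.2 ∈ Fail n lam c q.1} := by
  have e : {q : (Fin n → ℝ) × (Fin n × Fin n → ℝ) | q.2 ∈ Fail n lam c q.1} =
      ⋃ v : Fin n → ℝ, {q : (Fin n → ℝ) × (Fin n × Fin n → ℝ) | lam * ∑ i, v i ^ 2 <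
        Real.sqrt 2 * ∑ i, ∑ j, q.2 (i, j) * v i * v j + c * (∑ i, q.1 i * v i) ^ 2} := by
    ext q
    simp only [Fail, Set.mem_ofPred_eq, not_forall, not_le, Set.mem_iUnion]
  rw [e]
  refine isOpen_iUnion fun v => isOpen_lt continuous_const ?_
  fun_prop

theorem REC_meas_u (n : ℕ) : Measurable (fun g : Fin n → ℝ => REC_u g) := by
  unfold REC_u
  fun_prop

theorem REC_meas (n : ℕ) (lam c : ℝ) :
    MeasurableSet {q : (Fin n → ℝ) × (Fin n × Fin n → ℝ) | q.2 ∈ Fail n lam c (REC_u q.1)} := by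
  have hm : Measurable (fun q : (Fin n → ℝ) × (Fin n × Fin n → ℝ) => (REC_u q.1, q.2)) :=
    ((REC_meas_u n).comp measurable_fst).prodMk measurable_snd
  exact hm (REC_open n lam c).measurableSet

/-- REC with rotation invariance as an input -/
theorem REC_of
    (hrot : ∀ (n : ℕ) (lam c : ℝ) (u u' : Fin n → ℝ), ∑ i, u i ^ 2 = 1 → ∑ i, u' i ^ 2 = 1 →
      dis n (Fail n lam c u) = dis n (Fail n lam c u'))
    (n : ℕ) (N δ c lam : ℝ) (hc : 0 ≤ c)
    (hlam : 0 < lam - δ * Real.sqrt N - c)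
    (hstep : (1 + δ) * N / (lam - δ * Real.sqrt N - c) ≤ c)
    (u : Fin (n+1) → ℝ) (hu : ∑ i, u i ^ 2 = 1) (u' : Fin n → ℝ)
    (hu' : n ≠ 0 → ∑ i, u' i ^ 2 = 1) :
    dis (n+1) (Fail (n+1) lam c u) ≤ dis n (Fail n lam c u')
      + (gaussianReal 0 1) {x | δ * Real.sqrt N < Real.sqrt 2 * x}
      + (Measure.pi (fun _ : Fin n => gaussianReal 0 1)) {g | (1 + δ) * N < ∑ i, g i ^ 2} := by
  have he0 : ∑ i : Fin (n + 1), (if i = 0 then (1 : ℝ) else 0) ^ 2 = 1 := by simp
  rw [hrot (n + 1) lam c u (fun i => if i = 0 then 1 else 0) hu he0]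
  have hsub : Fail (n + 1) lam c (fun i => if i = 0 then 1 else 0) ⊆
      ({X | REC_b X ∈ Fail n lam c (REC_u (REC_g X))} ∪
        {X | δ * Real.sqrt N < Real.sqrt 2 * X (0, 0)}) ∪
        {X | (1 + δ) * N < ∑ j, REC_g X j ^ 2} := by
    intro X hX
    by_contra hcon
    simp only [Set.mem_union, Set.mem_ofPred_eq, not_or, not_lt] at hcon
    exact REC_det X N δ c lam hc hlam hstep hcon.1.2 hcon.2 hcon.1.1 hX
  refine (measure_mono hsub).trans ((measure_union_le _ _).trans ?_)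
  refine add_le_add ((measure_union_le _ _).trans (add_le_add ?_ ?_)) ?_
  · -- the block
    have hφ : Function.Injective (fun p : Fin n × Fin n => (p.1.succ, p.2.succ)) := by
      intro p q h
      simp only [Prod.mk.injEq, Fin.succ_inj] at h
      exact Prod.ext h.1 h.2
    have hYlaw : (dis (n + 1)).map (REC_b (n := n)) = dis n := GL_sub _ hφ
    have hind : IndepFun (REC_g (n := n)) (REC_b (n := n)) (dis (n + 1)) := by
      have h1 := GL_indep (ι := Fin (n + 1) × Fin (n + 1))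
        (κ := {p : Fin (n + 1) × Fin (n + 1) // p.1 = 0 ∨ p.2 = 0}) (κ' := Fin n × Fin n)
        (fun p => p.1) (fun p => (p.1.succ, p.2.succ)) (by
          rintro ⟨⟨a, b⟩, hab⟩ ⟨i, j⟩ h
          simp only [Prod.mk.injEq] at h
          rcases hab with h' | h'
          · exact Fin.succ_ne_zero i (h.1.symm.trans h')
          · exact Fin.succ_ne_zero j (h.2.symm.trans h'))
      have h2 := h1.comp (φ := fun (y : {p : Fin (n + 1) × Fin (n + 1) // p.1 = 0 ∨ p.2 = 0} → ℝ)
          (j : Fin n) => (y ⟨(0, j.succ), Or.inl rfl⟩ + y ⟨(j.succ, 0), Or.inr rfl⟩) / Real.sqrt 2)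
        (ψ := fun (y : Fin n × Fin n → ℝ) => y) (by fun_prop) measurable_id
      exact h2
    have hmg : Measurable (REC_g (n := n)) := by
      unfold REC_g
      fun_prop
    have hmb : Measurable (REC_b (n := n)) := by
      unfold REC_b
      fun_prop
    have hprob : IsProbabilityMeasure (dis n) := by unfold dis; infer_instance
    have hprob' : IsProbabilityMeasure (dis (n + 1)) := by unfold dis; infer_instance
    rw [indepFun_iff_map_prod_eq_prod_map_map hmg.aemeasurable hmb.aemeasurable, hYlaw] at hind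
    have hS := REC_meas n lam c
    have e1 : dis (n + 1) {X | REC_b X ∈ Fail n lam c (REC_u (REC_g X))} =
        ((dis (n + 1)).map (fun X => (REC_g X, REC_b X)))
          {q : (Fin n → ℝ) × (Fin n × Fin n → ℝ) | q.2 ∈ Fail n lam c (REC_u q.1)} := by
      rw [Measure.map_apply (hmg.prodMk hmb) hS]
      rfl
    have hprob2 : IsProbabilityMeasure ((dis (n + 1)).map (REC_g (n := n))) :=
      Measure.isProbabilityMeasure_map hmg.aemeasurable
    rw [e1, hind, Measure.prod_apply hS]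
    have hbound : ∀ g : Fin n → ℝ, dis n (Prod.mk g ⁻¹'
        {q : (Fin n → ℝ) × (Fin n × Fin n → ℝ) | q.2 ∈ Fail n lam c (REC_u q.1)}) ≤
        dis n (Fail n lam c u') := by
      intro g
      have e2 : Prod.mk g ⁻¹'
        {q : (Fin n → ℝ) × (Fin n × Fin n → ℝ) | q.2 ∈ Fail n lam c (REC_u q.1)} =
          Fail n lam c (REC_u g) := rfl
      rw [e2]
      rcases Nat.eq_zero_or_pos n with h0 | h0
      · subst h0
        refine measure_mono ?_
        intro X hX
        exfalso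
        apply hX
        intro v
        simp
      · rcases (sum_nonneg fun (i : Fin n) _ => sq_nonneg (g i)).eq_or_lt with hz | hz
        · refine measure_mono ?_
          intro X hX hcon
          apply hX
          intro v
          have hu0 : ∀ i, REC_u g i = 0 := by
            intro i
            unfold REC_u
            rw [← hz]
            simp
          simp only [hu0, zero_mul, sum_const_zero]
          have := hcon v
          have h3 : 0 ≤ c * (∑ i, u' i * v i) ^ 2 := mul_nonneg hc (sq_nonneg _)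
          have h4 : c * (0 : ℝ) ^ 2 = 0 := by ring
          rw [h4]
          linarith
        · refine le_of_eq (hrot n lam c _ _ ?_ (hu' (by omega)))
          unfold REC_u
          have h5 : ∀ i, (g i / Real.sqrt (∑ j, g j ^ 2)) ^ 2 = g i ^ 2 / ∑ j, g j ^ 2 := by
            intro i
            rw [div_pow, Real.sq_sqrt hz.le]
          simp only [h5]
          rw [← sum_div]
          exact div_self hz.ne'
    calc ∫⁻ g, dis n (Prod.mk g ⁻¹'
          {q : (Fin n → ℝ) × (Fin n × Fin n → ℝ) | q.2 ∈ Fail n lam c (REC_u q.1)})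
          ∂((dis (n + 1)).map (REC_g (n := n)))
        ≤ ∫⁻ _, dis n (Fail n lam c u') ∂((dis (n + 1)).map (REC_g (n := n))) :=
          lintegral_mono hbound
      _ = dis n (Fail n lam c u') := by rw [lintegral_const, measure_univ, mul_one]
  · -- the corner
    have hmp := measurePreserving_eval (fun _ : Fin (n + 1) × Fin (n + 1) => gaussianReal 0 1)
      (0, 0)
    have hms : MeasurableSet {x : ℝ | δ * Real.sqrt N < Real.sqrt 2 * x} :=
      measurableSet_lt measurable_const (by fun_prop)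
    have := hmp.measure_preimage hms.nullMeasurableSet
    exact le_of_eq this
  · -- the border
    have hlaw := GL_pair (ι := Fin (n + 1) × Fin (n + 1)) (κ := Fin n) (fun j => (0, j.succ))
      (fun j => (j.succ, 0)) (by
        intro i j h
        simp only [Prod.mk.injEq, Fin.succ_inj, true_and] at h
        exact h) (by
        intro i j h
        simp only [Prod.mk.injEq, Fin.succ_inj, and_true] at h
        exact h) (by
        intro i j h
        simp only [Prod.mk.injEq] at h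
        exact Fin.succ_ne_zero j h.1.symm)
    have hmg : Measurable (fun (x : Fin (n + 1) × Fin (n + 1) → ℝ) (a : Fin n) =>
        (x (0, a.succ) + x (a.succ, 0)) / Real.sqrt 2) := by fun_prop
    have hms : MeasurableSet {g : Fin n → ℝ | (1 + δ) * N < ∑ i, g i ^ 2} :=
      measurableSet_lt measurable_const (by fun_prop)
    rw [← hlaw, Measure.map_apply hmg hms]
    exact le_refl _

/-- REC: one step of the Schur complement recursion. -/
theorem fail_rec (n : ℕ) (N δ c lam : ℝ) (hN : 0 < N) (hδ : 0 < δ) (hc : 0 ≤ c)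
    (hlam : 0 < lam - δ * Real.sqrt N - c)
    (hstep : (1 + δ) * N / (lam - δ * Real.sqrt N - c) ≤ c)
    (u : Fin (n+1) → ℝ) (hu : ∑ i, u i ^ 2 = 1) (u' : Fin n → ℝ)
    (hu' : n ≠ 0 → ∑ i, u' i ^ 2 = 1) :
    dis (n+1) (Fail (n+1) lam c u) ≤ dis n (Fail n lam c u')
      + (gaussianReal 0 1) {x | δ * Real.sqrt N < Real.sqrt 2 * x}
      + (Measure.pi (fun _ : Fin n => gaussianReal 0 1)) {g | (1 + δ) * N < ∑ i, g i ^ 2} :=
  REC_of fail_rot n N δ c lam hc hlam hstep u hu u' hu'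

end Vale.Agent.P150
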