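import Vale.Agent.Lib.P150.GoeOf
import Vale.Agent.Lib.P150.Chi
import Vale.Agent.Lib.P150.Rec

/-!
P150, module GOE: final statement.
-/

namespace Vale.Agent.P150

open Finset MeasureTheory ProbabilityTheory Filter Topology

theorem goe (e : ℝ) (he : 0 < e) : Tendsto (fun n : ℕ => dis n
    {X | ¬ ∀ v : Fin n → ℝ, Real.sqrt 2 * ∑ i, ∑ j, X (i, j) * v i * v j
        ≤ (2 + e) * Real.sqrt n * ∑ i, v i ^ 2}) atTop (𝓝 0) :=
  goe_of (fun δ hδ => chi_tail δ hδ)
    (fun n N δ c lam hN hδ hc hlam hstep u hu u' hu' =>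
      fail_rec n N δ c lam hN hδ hc hlam hstep u hu u' hu') e he

end Vale.Agent.P150
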