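import Vale.Agent.Lib.P150.Sym0
import Vale.Agent.Lib.P150.Chi
import Vale.Agent.Lib.P150.Goe

/-!
# P150, module SYM: operator norm of the Sherrington-Kirkpatrick matrix
-/

namespace Vale.Agent.P150

open Finset MeasureTheory ProbabilityTheory Filter Topology

/-- SYM. -/
theorem sk_norm (e : ℝ) (he : 0 < e) : Tendsto (fun n : ℕ => dis n
    {g | ¬ ∀ v : Fin n → ℝ, |∑ i, ∑ j, sk 1 g i j * v i * v j|
        ≤ (2 + e) * ∑ i, v i ^ 2}) atTop (𝓝 0) :=
  sk_norm_of chi_tail goe e he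

end Vale.Agent.P150
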