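import Vale.Agent.Lib.P150.RowsFin
import Vale.Agent.Lib.P150.Sym

/-!
# P150, module GOOD: the disorder is good with high probability
-/

namespace Vale.Agent.P150

open Finset MeasureTheory ProbabilityTheory Filter Topology

/-- GOOD. -/
theorem good_whp (e : ℝ) (he : 0 < e) :
    Tendsto (fun n : ℕ => dis n {g | ¬ Good e (sk 1 g)}) atTop (𝓝 0) :=
  good_whp_of e (sk_norm e he) (sk_rows e he)

end Vale.Agent.P150
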