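import Vale.Agent.Lib.P150.Defs

set_option autoImplicit false

namespace Vale.Agent.P150.Mix

open Finset Matrix

section poisson

variable {Ω : Type*} [Fintype Ω] [DecidableEq Ω]

attribute [local instance] Matrix.linftyOpNormedRing Matrix.linftyOpNormedAlgebra in
theorem hasSum_exp_matrix (A : Matrix Ω Ω ℝ) :
    HasSum (fun k : ℕ => ((k.factorial : ℝ)⁻¹) • A ^ k) (NormedSpace.exp A) :=
  NormedSpace.exp_series_hasSum_exp' (𝕂 := ℝ) A

/-- Poisson form of the semigroup. -/
theorem hasSum_exp_entries (P : Matrix Ω Ω ℝ) (s : ℝ) (x y : Ω) :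
    HasSum (fun k : ℕ => Real.exp (-s) * (s ^ k / (k.factorial : ℝ)) * (P ^ k) x y)
      (NormedSpace.exp (s • (P - 1)) x y) := by
  have h1 : NormedSpace.exp (s • (P - 1)) = Real.exp (-s) • NormedSpace.exp (s • P) := by
    have e1 : s • (P - 1) = Matrix.diagonal (fun _ => -s) + s • P := by
      rw [smul_sub, ← Matrix.smul_one_eq_diagonal, neg_smul]
      abel
    have hc : Commute (Matrix.diagonal (fun _ : Ω => -s)) (s • P) := by
      rw [← Matrix.smul_one_eq_diagonal]
      exact (Commute.one_left _).smul_left _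
    rw [e1, Matrix.exp_add_of_commute _ _ hc, Matrix.exp_diagonal]
    ext a b
    rw [Matrix.diagonal_mul, Matrix.smul_apply, smul_eq_mul]
    congr 1
    rw [Pi.exp_def, Real.exp_eq_exp_ℝ]
  rw [h1, Matrix.smul_apply, smul_eq_mul]
  have h2 := hasSum_exp_matrix (s • P)
  have h3 := (Pi.hasSum.1 (Pi.hasSum.1 h2 x) y).mul_left (Real.exp (-s))
  have h4 : (fun k : ℕ => Real.exp (-s) * (s ^ k / (k.factorial : ℝ)) * (P ^ k) x y) =
      fun k : ℕ => Real.exp (-s) * ((((k.factorial : ℝ)⁻¹) • (s • P) ^ k) x y) := by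
    funext k
    rw [smul_pow, Matrix.smul_apply, Matrix.smul_apply, smul_eq_mul, smul_eq_mul]
    ring
  rw [h4]
  exact h3

end poisson

section entropy

variable {Ω ι : Type*} [Fintype Ω] [DecidableEq Ω] [Fintype ι]

/-- expectation of `f` under the weight `μ` -/
noncomputable def ex (μ f : Ω → ℝ) : ℝ := ∑ x, μ x * f x

/-- entropy of `f` under the weight `μ` -/
noncomputable def ent (μ f : Ω → ℝ) : ℝ :=
  ex μ (fun x => f x * Real.log (f x)) - ex μ f * Real.log (ex μ f)

/-- total variation distance -/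
noncomputable def tv (p q : Ω → ℝ) : ℝ := (∑ x, |p x - q x|) / 2

theorem key_hellinger (y : ℝ) (hy : 0 ≤ y) :
    (√y - 1) ^ 2 ≤ y * Real.log y - y + 1 := by
  rcases hy.eq_or_lt with rfl | hy
  · simp
  have hs : 0 < √y := Real.sqrt_pos.2 hy
  have h2 : 1 - (√y)⁻¹ ≤ Real.log (√y) := Real.one_sub_inv_le_log_of_pos hs
  have h3 : Real.log y = 2 * Real.log (√y) := by
    rw [Real.log_sqrt hy.le]; ring
  have h4 : √y ^ 2 = y := Real.sq_sqrt hy.le
  rw [h3]
  have h5 : y * (1 - (√y)⁻¹) = y - √y := by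
    have : y * (√y)⁻¹ = √y := by
      rw [← div_eq_mul_inv, div_eq_iff hs.ne', ← sq, h4]
    rw [mul_sub, mul_one, this]
  nlinarith [mul_le_mul_of_nonneg_left h2 hy.le]

/-- Pinsker type inequality. -/
theorem pinsker (μ f : Ω → ℝ) (hμ : ∀ x, 0 ≤ μ x) (hμ1 : ∑ x, μ x = 1)
    (h0 : ∀ x, 0 ≤ f x) (h1 : ex μ f = 1) :
    ex μ (fun x => |f x - 1|) ≤ 2 * √(ent μ f) := by
  have hH : ex μ (fun x => (√(f x) - 1) ^ 2) ≤ ent μ f := by
    have e1 : ent μ f = ex μ (fun x => f x * Real.log (f x) - f x + 1) := by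
      have e2 : ex μ (fun x => f x * Real.log (f x) - f x + 1) =
          ex μ (fun x => f x * Real.log (f x)) - ex μ f + ∑ x, μ x := by
        unfold ex
        rw [← Finset.sum_sub_distrib, ← Finset.sum_add_distrib]
        exact Finset.sum_congr rfl fun x _ => by ring
      rw [e2, hμ1, ent, h1, Real.log_one]
      ring
    rw [e1]
    exact Finset.sum_le_sum fun x _ => mul_le_mul_of_nonneg_left (key_hellinger _ (h0 x)) (hμ x)
  have hS : ex μ (fun x => (√(f x) + 1) ^ 2) ≤ 4 := by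
    have e2 : ex μ (fun x => 2 * f x + 2) = 4 := by
      have : ex μ (fun x => 2 * f x + 2) = 2 * ex μ f + 2 * ∑ x, μ x := by
        unfold ex
        rw [Finset.mul_sum, Finset.mul_sum, ← Finset.sum_add_distrib]
        exact Finset.sum_congr rfl fun x _ => by ring
      rw [this, h1, hμ1]; norm_num
    rw [← e2]
    refine Finset.sum_le_sum fun x _ => mul_le_mul_of_nonneg_left ?_ (hμ x)
    have := Real.sq_sqrt (h0 x)
    nlinarith [sq_nonneg (√(f x) - 1)]
  have h3 : ∀ x, μ x * |f x - 1| = (√(μ x) * |√(f x) - 1|) * (√(μ x) * |√(f x) + 1|) := by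
    intro x
    have e1 : |f x - 1| = |√(f x) - 1| * |√(f x) + 1| := by
      rw [← abs_mul]
      congr 1
      have := Real.sq_sqrt (h0 x)
      linear_combination -this
    have e2 : μ x = √(μ x) * √(μ x) := (Real.mul_self_sqrt (hμ x)).symm
    rw [e1]
    nth_rewrite 1 [e2]
    ring
  unfold ex
  rw [Finset.sum_congr rfl fun x _ => h3 x]
  refine (Real.sum_mul_le_sqrt_mul_sqrt _ _ _).trans ?_
  have e5 : ∑ x, (√(μ x) * |√(f x) - 1|) ^ 2 = ex μ (fun x => (√(f x) - 1) ^ 2) := by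
    unfold ex
    exact Finset.sum_congr rfl fun x _ => by rw [mul_pow, sq_abs, Real.sq_sqrt (hμ x)]
  have e6 : ∑ x, (√(μ x) * |√(f x) + 1|) ^ 2 = ex μ (fun x => (√(f x) + 1) ^ 2) := by
    unfold ex
    exact Finset.sum_congr rfl fun x _ => by rw [mul_pow, sq_abs, Real.sq_sqrt (hμ x)]
  rw [e5, e6, mul_comm]
  have h4 : √(ex μ (fun x => (√(f x) + 1) ^ 2)) ≤ 2 := by
    rw [show (2 : ℝ) = √4 by
      rw [show (4 : ℝ) = 2 ^ 2 by norm_num]; exact (Real.sqrt_sq (by norm_num)).symm]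
    exact Real.sqrt_le_sqrt hS
  exact mul_le_mul h4 (Real.sqrt_le_sqrt hH) (Real.sqrt_nonneg _) (by norm_num)

/-- A stochastic matrix reversible with respect to `μ`. -/
structure Rev (μ : Ω → ℝ) (K : Matrix Ω Ω ℝ) : Prop where
  nonneg : ∀ x y, 0 ≤ K x y
  row : ∀ x, ∑ y, K x y = 1
  rev : ∀ x y, μ x * K x y = μ y * K y x

theorem Rev.one (μ : Ω → ℝ) : Rev μ (1 : Matrix Ω Ω ℝ) where
  nonneg x y := by
    rw [Matrix.one_apply]; split_ifs <;> norm_num
  row x := by simp [Matrix.one_apply]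
  rev x y := by
    simp only [Matrix.one_apply]
    by_cases h : x = y
    · subst h; rfl
    · rw [if_neg h, if_neg (Ne.symm h)]; ring

theorem Rev.mulVec_nonneg {μ : Ω → ℝ} {K : Matrix Ω Ω ℝ} (hK : Rev μ K) {f : Ω → ℝ}
    (hf : ∀ x, 0 ≤ f x) (x : Ω) : 0 ≤ (K *ᵥ f) x :=
  Finset.sum_nonneg fun y _ => mul_nonneg (hK.nonneg x y) (hf y)

theorem Rev.ex_mulVec {μ : Ω → ℝ} {K : Matrix Ω Ω ℝ} (hK : Rev μ K) (f : Ω → ℝ) :
    ex μ (K *ᵥ f) = ex μ f := by
  unfold ex
  have h1 : ∀ x, μ x * (K *ᵥ f) x = ∑ y, μ y * K y x * f y := by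
    intro x
    rw [Matrix.mulVec, dotProduct, Finset.mul_sum]
    refine Finset.sum_congr rfl fun y _ => ?_
    rw [← mul_assoc, hK.rev]
  rw [Finset.sum_congr rfl fun x _ => h1 x, Finset.sum_comm]
  refine Finset.sum_congr rfl fun y _ => ?_
  rw [← Finset.sum_mul, ← Finset.mul_sum, hK.row, mul_one]

/-- average of a nonempty family of kernels -/
theorem Rev.avg [Nonempty ι] {μ : Ω → ℝ} {Q : ι → Matrix Ω Ω ℝ} (hQ : ∀ i, Rev μ (Q i)) :
    Rev μ (((Fintype.card ι : ℝ)⁻¹) • ∑ i, Q i) where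
  nonneg x y := by
    rw [Matrix.smul_apply, Matrix.sum_apply, smul_eq_mul]
    exact mul_nonneg (by positivity) (Finset.sum_nonneg fun i _ => (hQ i).nonneg x y)
  row x := by
    have hc : (0 : ℝ) < Fintype.card ι := by exact_mod_cast Fintype.card_pos
    simp only [Matrix.smul_apply, Matrix.sum_apply, smul_eq_mul]
    rw [← Finset.mul_sum, Finset.sum_comm]
    rw [Finset.sum_congr rfl fun i _ => (hQ i).row x]
    rw [Finset.sum_const, Finset.card_univ, nsmul_eq_mul, mul_one, inv_mul_cancel₀ hc.ne']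
  rev x y := by
    simp only [Matrix.smul_apply, Matrix.sum_apply, smul_eq_mul]
    have : ∑ i, μ x * Q i x y = ∑ i, μ y * Q i y x :=
      Finset.sum_congr rfl fun i _ => (hQ i).rev x y
    rw [← Finset.mul_sum, ← Finset.mul_sum] at this
    linear_combination (Fintype.card ι : ℝ)⁻¹ * this

theorem Rev.mul_comm_self {μ : Ω → ℝ} {K : Matrix Ω Ω ℝ} (hK : Rev μ K) (k : ℕ) :
    Rev μ (K ^ k) := by
  induction k with
  | zero => rw [pow_zero]; exact Rev.one μ
  | succ k ih =>
    refine ⟨fun x y => ?_, fun x => ?_, fun x y => ?_⟩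
    · rw [pow_succ, Matrix.mul_apply]
      exact Finset.sum_nonneg fun z _ => mul_nonneg (ih.nonneg _ _) (hK.nonneg _ _)
    · rw [pow_succ]
      simp only [Matrix.mul_apply]
      rw [Finset.sum_comm]
      have : ∀ z, ∑ y, (K ^ k) x z * K z y = (K ^ k) x z := by
        intro z
        rw [← Finset.mul_sum, hK.row, mul_one]
      rw [Finset.sum_congr rfl fun z _ => this z, ih.row]
    · nth_rewrite 2 [pow_succ']
      rw [pow_succ]
      simp only [Matrix.mul_apply]
      rw [Finset.mul_sum, Finset.mul_sum]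
      refine Finset.sum_congr rfl fun z _ => ?_
      have h1 := ih.rev x z
      have h2 := hK.rev z y
      calc μ x * ((K ^ k) x z * K z y) = (μ x * (K ^ k) x z) * K z y := by ring
        _ = (μ z * K z y) * (K ^ k) z x := by rw [h1]; ring
        _ = μ y * (K y z * (K ^ k) z x) := by rw [h2]; ring

theorem ent_avg_le [Nonempty ι] {μ : Ω → ℝ} (hμ : ∀ x, 0 ≤ μ x) {Q : ι → Matrix Ω Ω ℝ}
    (hQ : ∀ i, Rev μ (Q i)) {f : Ω → ℝ} (hf : ∀ x, 0 ≤ f x) :
    ent μ ((((Fintype.card ι : ℝ)⁻¹) • ∑ i, Q i) *ᵥ f) ≤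
      (Fintype.card ι : ℝ)⁻¹ * ∑ i, ent μ (Q i *ᵥ f) := by
  have hc : (0 : ℝ) < Fintype.card ι := by exact_mod_cast Fintype.card_pos
  unfold ent
  rw [(Rev.avg hQ).ex_mulVec]
  simp only [fun i => (hQ i).ex_mulVec f]
  rw [Finset.sum_sub_distrib, mul_sub, Finset.sum_const, Finset.card_univ, nsmul_eq_mul,
    inv_mul_cancel_left₀ hc.ne']
  refine sub_le_sub_right ?_ _
  unfold ex
  rw [Finset.sum_comm, Finset.mul_sum]
  refine Finset.sum_le_sum fun x _ => ?_
  rw [← Finset.mul_sum, mul_left_comm (Fintype.card ι : ℝ)⁻¹]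
  refine mul_le_mul_of_nonneg_left ?_ (hμ x)
  have h1 := Real.convexOn_mul_log.map_sum_le (t := (Finset.univ : Finset ι))
    (w := fun _ => (Fintype.card ι : ℝ)⁻¹) (p := fun i => (Q i *ᵥ f) x)
    (fun _ _ => by positivity)
    (by rw [Finset.sum_const, Finset.card_univ, nsmul_eq_mul, mul_inv_cancel₀ hc.ne'])
    (fun i _ => (hQ i).mulVec_nonneg hf x)
  simp only [smul_eq_mul, ← Finset.mul_sum] at h1
  have e1 : ((((Fintype.card ι : ℝ)⁻¹) • ∑ i, Q i) *ᵥ f) x =
      (Fintype.card ι : ℝ)⁻¹ * ∑ i, (Q i *ᵥ f) x := by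
    rw [Matrix.smul_mulVec, Pi.smul_apply, smul_eq_mul, Matrix.sum_mulVec, Finset.sum_apply]
  beta_reduce
  rw [e1]
  exact h1

/-- approximate tensorization gives entropy decay of the discrete chain -/
theorem ent_pow_le [Nonempty ι] {μ : Ω → ℝ} (hμ : ∀ x, 0 ≤ μ x) {Q : ι → Matrix Ω Ω ℝ}
    (hQ : ∀ i, Rev μ (Q i)) {C : ℝ} (hC : 1 ≤ C)
    (hAT : ∀ f : Ω → ℝ, (∀ x, 0 ≤ f x) → ent μ f ≤ C * ∑ i, (ent μ f - ent μ (Q i *ᵥ f)))
    {f : Ω → ℝ} (hf : ∀ x, 0 ≤ f x) (k : ℕ) :
    ent μ (((((Fintype.card ι : ℝ)⁻¹) • ∑ i, Q i) ^ k) *ᵥ f) ≤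
      (1 - 1 / (C * Fintype.card ι)) ^ k * ent μ f := by
  have hc : (1 : ℝ) ≤ Fintype.card ι := by exact_mod_cast Fintype.card_pos
  have hc0 : (0 : ℝ) < Fintype.card ι := by linarith
  have hC0 : 0 < C := by linarith
  have hr : 0 ≤ 1 - 1 / (C * Fintype.card ι) := by
    have : 1 / (C * Fintype.card ι) ≤ 1 := by
      rw [div_le_one (by positivity)]
      nlinarith
    linarith
  induction k with
  | zero => simp
  | succ k ih =>
    rw [pow_succ', ← Matrix.mulVec_mulVec, pow_succ', mul_assoc]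
    set P := ((Fintype.card ι : ℝ)⁻¹) • ∑ i, Q i with hP
    set g := (P ^ k) *ᵥ f with hg
    have hg0 : ∀ x, 0 ≤ g x := ((Rev.avg hQ).mul_comm_self k).mulVec_nonneg hf
    refine le_trans ?_ (mul_le_mul_of_nonneg_left ih hr)
    refine (ent_avg_le hμ hQ hg0).trans ?_
    have h1 := hAT g hg0
    rw [Finset.sum_sub_distrib, Finset.sum_const, Finset.card_univ, nsmul_eq_mul] at h1
    have h2 : ent μ g / C ≤ Fintype.card ι * ent μ g - ∑ i, ent μ (Q i *ᵥ g) := by
      rw [div_le_iff₀ hC0]; linarith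
    have h3 : (1 - 1 / (C * Fintype.card ι)) * ent μ g =
        (Fintype.card ι : ℝ)⁻¹ * (Fintype.card ι * ent μ g - ent μ g / C) := by
      field_simp
    rw [h3]
    refine mul_le_mul_of_nonneg_left ?_ (by positivity)
    linarith

/-- the continuous time kernel -/
noncomputable def Pt (Q : ι → Matrix Ω Ω ℝ) (t : ℝ) : Matrix Ω Ω ℝ :=
  NormedSpace.exp (t • ∑ i, (Q i - 1))

theorem Pt_eq [Nonempty ι] (Q : ι → Matrix Ω Ω ℝ) (t : ℝ) :
    Pt Q t = NormedSpace.exp ((Fintype.card ι * t) •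
      (((Fintype.card ι : ℝ)⁻¹) • ∑ i, Q i - 1)) := by
  have hc : (0 : ℝ) < Fintype.card ι := by exact_mod_cast Fintype.card_pos
  unfold Pt
  congr 1
  rw [Finset.sum_sub_distrib, smul_sub, smul_sub, smul_smul]
  congr 1
  · congr 1
    field_simp
  · rw [Finset.sum_const, Finset.card_univ, ← Nat.cast_smul_eq_nsmul ℝ, smul_smul, mul_comm]

theorem ent_delta {μ : Ω → ℝ} (hμ : ∀ x, 0 < μ x) (x : Ω) :
    ent μ (fun y => if y = x then (μ x)⁻¹ else 0) = Real.log (1 / μ x) := by
  have h1 : ex μ (fun y => if y = x then (μ x)⁻¹ else 0) = 1 := by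
    unfold ex
    simp [(hμ x).ne']
  have h2 : ex μ (fun y => (if y = x then (μ x)⁻¹ else 0) *
      Real.log (if y = x then (μ x)⁻¹ else 0)) = Real.log (1 / μ x) := by
    unfold ex
    rw [Finset.sum_eq_single x]
    · simp only [if_true]
      rw [← mul_assoc, mul_inv_cancel₀ (hμ x).ne', one_mul, one_div]
    · intro b _ hb
      simp only [if_neg hb]; simp
    · intro h; exact absurd (Finset.mem_univ x) h
  rw [ent, h1, h2, Real.log_one]
  ring

/-- `l1` distance of the law after `k` steps of the discrete chain -/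
theorem l1_pow_le [Nonempty ι] {μ : Ω → ℝ} (hμ : ∀ x, 0 < μ x) (hμ1 : ∑ x, μ x = 1)
    {Q : ι → Matrix Ω Ω ℝ}
    (hQ : ∀ i, Rev μ (Q i)) {C : ℝ} (hC : 1 ≤ C)
    (hAT : ∀ f : Ω → ℝ, (∀ x, 0 ≤ f x) → ent μ f ≤ C * ∑ i, (ent μ f - ent μ (Q i *ᵥ f)))
    (x : Ω) (k : ℕ) :
    ∑ y, |((((Fintype.card ι : ℝ)⁻¹) • ∑ i, Q i) ^ k) x y - μ y| ≤
      2 * √(Real.log (1 / μ x)) * (√(1 - 1 / (C * Fintype.card ι))) ^ k := by
  have hc : (1 : ℝ) ≤ Fintype.card ι := by exact_mod_cast Fintype.card_pos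
  have hc0 : (0 : ℝ) < Fintype.card ι := by linarith
  have hC0 : 0 < C := by linarith
  have hr : 0 ≤ 1 - 1 / (C * Fintype.card ι) := by
    have : 1 / (C * Fintype.card ι) ≤ 1 := by
      rw [div_le_one (by positivity)]
      nlinarith
    linarith
  set P := ((Fintype.card ι : ℝ)⁻¹) • ∑ i, Q i with hP
  have hRev : Rev μ (P ^ k) := (Rev.avg hQ).mul_comm_self k
  set f : Ω → ℝ := fun y => if y = x then (μ x)⁻¹ else 0 with hf
  have hf0 : ∀ y, 0 ≤ f y := by
    intro y
    simp only [hf]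
    split_ifs
    · exact inv_nonneg.2 (hμ x).le
    · exact le_rfl
  have hf1 : ex μ f = 1 := by
    unfold ex
    simp [hf, (hμ x).ne']
  have e1 : ∀ y, |(P ^ k) x y - μ y| = μ y * |((P ^ k) *ᵥ f) y - 1| := by
    intro y
    have e2 : ((P ^ k) *ᵥ f) y = (P ^ k) y x * (μ x)⁻¹ := by
      rw [Matrix.mulVec, dotProduct, Finset.sum_eq_single x]
      · simp [hf]
      · intro b _ hb
        simp [hf, hb]
      · intro h; exact absurd (Finset.mem_univ x) h
    rw [e2, ← abs_of_pos (hμ y), ← abs_mul, abs_of_pos (hμ y)]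
    congr 1
    rw [mul_sub, ← mul_assoc, ← hRev.rev x y]
    have := (hμ x).ne'
    field_simp
  rw [Finset.sum_congr rfl fun y _ => e1 y]
  have h2 := pinsker μ ((P ^ k) *ᵥ f) (fun x => (hμ x).le) hμ1 (hRev.mulVec_nonneg hf0)
    (by rw [hRev.ex_mulVec, hf1])
  refine h2.trans ?_
  rw [mul_assoc]
  refine mul_le_mul_of_nonneg_left ?_ (by norm_num)
  have h3 := ent_pow_le (fun x => (hμ x).le) hQ hC hAT hf0 k
  rw [ent_delta hμ x] at h3
  refine (Real.sqrt_le_sqrt h3).trans ?_
  rw [Real.sqrt_mul (pow_nonneg hr k), mul_comm]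
  refine le_of_eq ?_
  congr 1
  rw [Real.sqrt_eq_iff_mul_self_eq (pow_nonneg hr k) (by positivity), ← mul_pow,
    Real.mul_self_sqrt hr]

/-- `l1` distance of the law at time `t` of the continuous time chain -/
theorem l1_Pt_le [Nonempty ι] {μ : Ω → ℝ} (hμ : ∀ x, 0 < μ x) (hμ1 : ∑ x, μ x = 1)
    {Q : ι → Matrix Ω Ω ℝ}
    (hQ : ∀ i, Rev μ (Q i)) {C : ℝ} (hC : 1 ≤ C)
    (hAT : ∀ f : Ω → ℝ, (∀ x, 0 ≤ f x) → ent μ f ≤ C * ∑ i, (ent μ f - ent μ (Q i *ᵥ f)))
    (x : Ω) (t : ℝ) (ht : 0 ≤ t) :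
    ∑ y, |Pt Q t x y - μ y| ≤ 2 * √(Real.log (1 / μ x)) * Real.exp (-t / (2 * C)) := by
  have hc : (1 : ℝ) ≤ Fintype.card ι := by exact_mod_cast Fintype.card_pos
  have hc0 : (0 : ℝ) < Fintype.card ι := by linarith
  have hC0 : 0 < C := by linarith
  have hr : 0 ≤ 1 - 1 / (C * Fintype.card ι) := by
    have : 1 / (C * Fintype.card ι) ≤ 1 := by
      rw [div_le_one (by positivity)]
      nlinarith
    linarith
  rw [Pt_eq]
  set P := ((Fintype.card ι : ℝ)⁻¹) • ∑ i, Q i with hP
  set s := (Fintype.card ι : ℝ) * t with hs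
  have hs0 : 0 ≤ s := by positivity
  set r := √(1 - 1 / (C * Fintype.card ι)) with hr'
  set A := 2 * √(Real.log (1 / μ x)) with hA
  have hexp : ∀ z : ℝ, HasSum (fun k : ℕ => Real.exp (-s) * (s ^ k / (k.factorial : ℝ)) * z ^ k)
      (Real.exp (-s) * Real.exp (s * z)) := by
    intro z
    have h1 : HasSum (fun k : ℕ => (s * z) ^ k / (k.factorial : ℝ)) (Real.exp (s * z)) := by
      rw [Real.exp_eq_exp_ℝ]
      exact NormedSpace.expSeries_div_hasSum_exp (s * z)
    have h2 := h1.mul_left (Real.exp (-s))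
    have h3 : (fun k : ℕ => Real.exp (-s) * (s ^ k / (k.factorial : ℝ)) * z ^ k) =
        fun k : ℕ => Real.exp (-s) * ((s * z) ^ k / (k.factorial : ℝ)) := by
      funext k
      rw [mul_pow]; ring
    rw [h3]
    exact h2
  have hw : HasSum (fun k : ℕ => Real.exp (-s) * (s ^ k / (k.factorial : ℝ))) 1 := by
    have := hexp 1
    simp only [one_pow, mul_one] at this
    rwa [← Real.exp_add, neg_add_cancel, Real.exp_zero] at this
  have hent : ∀ y, HasSum (fun k : ℕ => Real.exp (-s) * (s ^ k / (k.factorial : ℝ)) *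
      ((P ^ k) x y - μ y)) (NormedSpace.exp (s • (P - 1)) x y - μ y) := by
    intro y
    have h1 := hasSum_exp_entries P s x y
    have h2 := hw.mul_right (μ y)
    rw [one_mul] at h2
    have h3 := h1.sub h2
    have h4 : (fun k : ℕ => Real.exp (-s) * (s ^ k / (k.factorial : ℝ)) * ((P ^ k) x y - μ y)) =
        fun k : ℕ => Real.exp (-s) * (s ^ k / (k.factorial : ℝ)) * (P ^ k) x y -
          Real.exp (-s) * (s ^ k / (k.factorial : ℝ)) * μ y := by
      funext k; ring
    rw [h4]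
    exact h3
  have hbd : HasSum (fun k : ℕ => A * (Real.exp (-s) * (s ^ k / (k.factorial : ℝ)) * r ^ k))
      (A * (Real.exp (-s) * Real.exp (s * r))) := (hexp r).mul_left A
  -- partial sums
  have hsum : HasSum (fun k : ℕ => ∑ y, Real.exp (-s) * (s ^ k / (k.factorial : ℝ)) *
      ((P ^ k) x y - μ y) * SignType.sign (NormedSpace.exp (s • (P - 1)) x y - μ y))
      (∑ y, (NormedSpace.exp (s • (P - 1)) x y - μ y) *
        SignType.sign (NormedSpace.exp (s • (P - 1)) x y - μ y)) :=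
    hasSum_sum fun y _ => (hent y).mul_right _
  have h5 : ∑ y, |NormedSpace.exp (s • (P - 1)) x y - μ y| =
      ∑ y, (NormedSpace.exp (s • (P - 1)) x y - μ y) *
        SignType.sign (NormedSpace.exp (s • (P - 1)) x y - μ y) :=
    Finset.sum_congr rfl fun y _ => (self_mul_sign _).symm
  have h6 : ∑ y, |NormedSpace.exp (s • (P - 1)) x y - μ y| ≤
      A * (Real.exp (-s) * Real.exp (s * r)) := by
    rw [h5]
    refine hasSum_le (fun k => ?_) hsum hbd
    have hk := l1_pow_le hμ hμ1 hQ hC hAT x k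
    have hp0 : 0 ≤ Real.exp (-s) * (s ^ k / (k.factorial : ℝ)) := by positivity
    calc ∑ y, Real.exp (-s) * (s ^ k / (k.factorial : ℝ)) *
          ((P ^ k) x y - μ y) * SignType.sign (NormedSpace.exp (s • (P - 1)) x y - μ y)
        ≤ ∑ y, Real.exp (-s) * (s ^ k / (k.factorial : ℝ)) * |(P ^ k) x y - μ y| := by
          refine Finset.sum_le_sum fun y _ => ?_
          rw [mul_assoc]
          refine mul_le_mul_of_nonneg_left ?_ hp0
          refine (le_abs_self _).trans ?_
          rw [abs_mul]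
          refine mul_le_of_le_one_right (abs_nonneg _) ?_
          rcases lt_trichotomy (NormedSpace.exp (s • (P - 1)) x y - μ y) 0 with h | h | h
          · rw [sign_neg h]; simp
          · rw [h]; simp
          · rw [sign_pos h]; simp
      _ = Real.exp (-s) * (s ^ k / (k.factorial : ℝ)) * ∑ y, |(P ^ k) x y - μ y| := by
          rw [Finset.mul_sum]
      _ ≤ Real.exp (-s) * (s ^ k / (k.factorial : ℝ)) * (A * r ^ k) :=
          mul_le_mul_of_nonneg_left hk hp0
      _ = A * (Real.exp (-s) * (s ^ k / (k.factorial : ℝ)) * r ^ k) := by ring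
  refine h6.trans (mul_le_mul_of_nonneg_left ?_ (by positivity))
  rw [← Real.exp_add]
  apply Real.exp_le_exp.2
  have h7 : r ≤ 1 - 1 / (C * Fintype.card ι) / 2 := by
    rw [hr']
    have hz : 0 ≤ 1 / (C * Fintype.card ι) := by positivity
    have hz1 : 1 / (C * Fintype.card ι) ≤ 1 := by linarith
    refine Real.sqrt_le_iff.2 ⟨by linarith, ?_⟩
    nlinarith [sq_nonneg (1 / (C * (Fintype.card ι : ℝ)))]
  have h8 : s * r ≤ s * (1 - 1 / (C * Fintype.card ι) / 2) := mul_le_mul_of_nonneg_left h7 hs0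
  have h9 : s * (1 - 1 / (C * Fintype.card ι) / 2) = s - t / (2 * C) := by
    rw [hs]; field_simp
  rw [h9] at h8
  have h10 : -t / (2 * C) = - (t / (2 * C)) := by ring
  rw [h10]
  linarith

end entropy

section ising

variable {n : ℕ}

theorem wt_pos (J : Fin n → Fin n → ℝ) (h : Fin n → ℝ) (x : Cfg n) : 0 < wt J h x :=
  Real.exp_pos _

theorem Z_pos (J : Fin n → Fin n → ℝ) (h : Fin n → ℝ) : 0 < ∑ y, wt J h y :=
  Finset.sum_pos (fun x _ => wt_pos J h x) ⟨fun _ => true, Finset.mem_univ _⟩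

theorem gibbs_pos (J : Fin n → Fin n → ℝ) (h : Fin n → ℝ) (x : Cfg n) : 0 < gibbs J h x :=
  div_pos (wt_pos J h x) (Z_pos J h)

theorem gibbs_sum (J : Fin n → Fin n → ℝ) (h : Fin n → ℝ) : ∑ x, gibbs J h x = 1 := by
  unfold gibbs
  rw [← Finset.sum_div, div_self (Z_pos J h).ne']

theorem st_self (x : Cfg n) (i : Fin n) (b : Bool) : st x i b i = b := by simp [st]

theorem st_st (x : Cfg n) (i : Fin n) (b c : Bool) : st (st x i b) i c = st x i c := by
  simp [st]

theorem st_eta (x : Cfg n) (i : Fin n) : st x i (x i) = x := by simp [st]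

theorem mulVec_Qker (J : Fin n → Fin n → ℝ) (h : Fin n → ℝ) (i : Fin n) (f : Cfg n → ℝ)
    (x : Cfg n) : (Qker J h i *ᵥ f) x = hb (wt J h) i f x := by
  rw [Matrix.mulVec, dotProduct]
  simp only [Qker, Matrix.of_apply, Finset.sum_mul, ite_mul, zero_mul]
  rw [Finset.sum_comm]
  simp only [Finset.sum_ite_eq', Finset.mem_univ, if_true, Fintype.sum_bool]
  unfold hb
  ring

theorem Rev_Qker (J : Fin n → Fin n → ℝ) (h : Fin n → ℝ) (i : Fin n) :
    Rev (gibbs J h) (Qker J h i) where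
  nonneg x y := by
    simp only [Qker, Matrix.of_apply]
    refine Finset.sum_nonneg fun b _ => ?_
    split_ifs
    · exact div_nonneg (wt_pos _ _ _).le (add_pos (wt_pos _ _ _) (wt_pos _ _ _)).le
    · exact le_rfl
  row x := by
    have h1 := mulVec_Qker J h i (fun _ => 1) x
    rw [Matrix.mulVec, dotProduct] at h1
    simp only [mul_one] at h1
    rw [h1]
    unfold hb
    rw [mul_one, mul_one]
    exact div_self (add_pos (wt_pos _ _ _) (wt_pos _ _ _)).ne'
  rev x y := by
    simp only [Qker, Matrix.of_apply, Fintype.sum_bool]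
    by_cases hxy : ∃ b, y = st x i b
    · obtain ⟨b, rfl⟩ := hxy
      have e1 : ∀ c, (st x i b = st x i c) ↔ b = c := by
        intro c
        constructor
        · intro hc
          have := congrFun hc i
          rwa [st_self, st_self] at this
        · rintro rfl; rfl
      have e2 : ∀ c, (x = st x i c) ↔ x i = c := by
        intro c
        constructor
        · intro hc
          have := congrFun hc i
          rwa [st_self] at this
        · rintro rfl; exact (st_eta x i).symm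
      simp only [st_st, e1, e2]
      have hD : (wt J h (st x i true) + wt J h (st x i false)) ≠ 0 :=
        (add_pos (wt_pos _ _ _) (wt_pos _ _ _)).ne'
      have e3 : ∀ c, x i = c → wt J h (st x i c) = wt J h x := by
        rintro c rfl; rw [st_eta]
      unfold gibbs
      have hZ := (Z_pos J h).ne'
      have e4 := e3 (x i) rfl
      cases b <;> cases hx1 : x i <;> rw [hx1] at e4 <;> simp only [hx1] <;> simp <;>
        first
        | (left; rw [← e4])
        | (rw [← e4]; field_simp)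
    · have e1 : ∀ b, y ≠ st x i b := fun b hb => hxy ⟨b, hb⟩
      have e2 : ∀ b, x ≠ st y i b := by
        intro b hb
        apply hxy
        refine ⟨y i, ?_⟩
        rw [hb, st_st, st_eta]
      simp [e1, e2]

theorem Ent_eq (J : Fin n → Fin n → ℝ) (h : Fin n → ℝ) (f : Cfg n → ℝ) :
    Ent (wt J h) f = (∑ y, wt J h y) * ent (gibbs J h) f := by
  have hZ := (Z_pos J h).ne'
  unfold ent ex gibbs Ent
  have e1 : ∀ g : Cfg n → ℝ, ∑ x, wt J h x / (∑ y, wt J h y) * g x =
      (∑ x, wt J h x * g x) / ∑ y, wt J h y := by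
    intro g
    rw [Finset.sum_div]
    exact Finset.sum_congr rfl fun x _ => by ring
  rw [e1, e1]
  field_simp

theorem EntI_eq (J : Fin n → Fin n → ℝ) (h : Fin n → ℝ) (i : Fin n) (f : Cfg n → ℝ)
    (hf : ∀ x, 0 < f x) :
    EntI (wt J h) i f =
      (∑ y, wt J h y) * (ent (gibbs J h) f - ent (gibbs J h) (Qker J h i *ᵥ f)) := by
  have hZ := (Z_pos J h).ne'
  have hR := Rev_Qker J h i
  have hQf : ∀ x, 0 < hb (wt J h) i f x := by
    intro x
    exact div_pos (add_pos (mul_pos (wt_pos _ _ _) (hf _)) (mul_pos (wt_pos _ _ _) (hf _)))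
      (add_pos (wt_pos _ _ _) (wt_pos _ _ _))
  have e0 : (Qker J h i *ᵥ f) = hb (wt J h) i f := funext fun x => mulVec_Qker J h i f x
  -- `g = log (Q f)` does not depend on the spin at `i`
  have e1 : ∀ x b, hb (wt J h) i f (st x i b) = hb (wt J h) i f x := by
    intro x b
    unfold hb
    simp only [st_st]
  have e2 : ∑ x, gibbs J h x * (f x * Real.log (hb (wt J h) i f x)) =
      ∑ x, gibbs J h x * (hb (wt J h) i f x * Real.log (hb (wt J h) i f x)) := by
    have h1 := hR.ex_mulVec (fun x => f x * Real.log (hb (wt J h) i f x))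
    have h2 : ∀ x, (Qker J h i *ᵥ (fun x => f x * Real.log (hb (wt J h) i f x))) x =
        hb (wt J h) i f x * Real.log (hb (wt J h) i f x) := by
      intro x
      rw [mulVec_Qker]
      have e3 : hb (wt J h) i (fun x => f x * Real.log (hb (wt J h) i f x)) x =
          hb (wt J h) i f x * Real.log (hb (wt J h) i f x) := by
        conv_lhs => unfold hb
        simp only [show ∀ y, (wt J h (st y i true) * f (st y i true) +
          wt J h (st y i false) * f (st y i false)) /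
            (wt J h (st y i true) + wt J h (st y i false)) = hb (wt J h) i f y from fun _ => rfl]
        rw [e1, e1]
        generalize Real.log (hb (wt J h) i f x) = l
        unfold hb
        ring
      exact e3
    unfold ex at h1
    rw [← h1]
    exact Finset.sum_congr rfl fun x _ => by rw [h2]
  have e4 : ent (gibbs J h) f - ent (gibbs J h) (Qker J h i *ᵥ f) =
      ∑ x, gibbs J h x * (f x * Real.log (f x)) -
        ∑ x, gibbs J h x * (f x * Real.log (hb (wt J h) i f x)) := by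
    rw [e2]
    unfold ent
    rw [hR.ex_mulVec, e0]
    unfold ex
    ring
  rw [e4]
  unfold EntI gibbs
  rw [← Finset.sum_sub_distrib, Finset.mul_sum]
  refine Finset.sum_congr rfl fun x _ => ?_
  rw [Real.log_div (hf x).ne' (hQf x).ne']
  field_simp

theorem continuous_ent {Ω : Type*} [Fintype Ω] (μ : Ω → ℝ) : Continuous (fun f : Ω → ℝ => ent μ f) := by
  unfold ent ex
  have h1 : Continuous (fun f : Ω → ℝ => ∑ x, μ x * f x) := by fun_prop
  refine Continuous.sub ?_ (Real.continuous_mul_log.comp h1)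
  refine continuous_finsetSum _ fun x _ => continuous_const.mul ?_
  exact Real.continuous_mul_log.comp (continuous_apply x)

theorem AT_ent (J : Fin n → Fin n → ℝ) (h : Fin n → ℝ) (C : ℝ) (hAT : AT (wt J h) C)
    (f : Cfg n → ℝ) (hf : ∀ x, 0 ≤ f x) :
    ent (gibbs J h) f ≤ C * ∑ i, (ent (gibbs J h) f - ent (gibbs J h) (Qker J h i *ᵥ f)) := by
  have hZ := Z_pos J h
  have h1 : ∀ e : ℝ, 0 < e → ent (gibbs J h) (fun x => f x + e) ≤
      C * ∑ i, (ent (gibbs J h) (fun x => f x + e) -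
        ent (gibbs J h) (Qker J h i *ᵥ (fun x => f x + e))) := by
    intro e he
    have hp : ∀ x, 0 < f x + e := fun x => add_pos_of_nonneg_of_pos (hf x) he
    have h2 := hAT (fun x => f x + e) hp
    rw [Ent_eq, Finset.sum_congr rfl fun i _ => EntI_eq J h i _ hp, ← Finset.mul_sum,
      mul_left_comm] at h2
    exact le_of_mul_le_mul_left h2 hZ
  have hc1 : Continuous (fun e : ℝ => (fun x => f x + e : Cfg n → ℝ)) := by
    refine continuous_pi fun x => ?_
    fun_prop
  have hL : Filter.Tendsto (fun e : ℝ => ent (gibbs J h) (fun x => f x + e)) (nhdsWithin 0 (Set.Ioi 0))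
      (nhds (ent (gibbs J h) (fun x => f x + 0))) :=
    (((continuous_ent (gibbs J h)).comp hc1).tendsto 0).mono_left nhdsWithin_le_nhds
  have hR : Filter.Tendsto (fun e : ℝ => C * ∑ i, (ent (gibbs J h) (fun x => f x + e) -
        ent (gibbs J h) (Qker J h i *ᵥ (fun x => f x + e)))) (nhdsWithin 0 (Set.Ioi 0))
      (nhds (C * ∑ i, (ent (gibbs J h) (fun x => f x + 0) -
        ent (gibbs J h) (Qker J h i *ᵥ (fun x => f x + 0))))) := by
    refine Filter.Tendsto.mono_left (Continuous.tendsto ?_ 0) nhdsWithin_le_nhds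
    refine continuous_const.mul (continuous_finsetSum _ fun i _ => ?_)
    refine ((continuous_ent (gibbs J h)).comp hc1).sub ((continuous_ent (gibbs J h)).comp ?_)
    exact Continuous.matrix_mulVec continuous_const hc1
  have h3 := le_of_tendsto_of_tendsto hL hR
    (Filter.eventually_of_mem self_mem_nhdsWithin fun e he => h1 e he)
  simpa using h3

theorem log_inv_gibbs_le (J : Fin n → Fin n → ℝ) (h : Fin n → ℝ) (M : ℝ)
    (hH : ∀ x, |Ham J h x| ≤ M) (x : Cfg n) :
    Real.log (1 / gibbs J h x) ≤ 2 * M + n := by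
  have h1 : 1 / gibbs J h x = (∑ y, wt J h y) / wt J h x := by
    unfold gibbs; rw [one_div, inv_div]
  have h2 : ∑ y, wt J h y ≤ 2 ^ n * Real.exp M := by
    calc ∑ y, wt J h y ≤ ∑ _y : Cfg n, Real.exp M :=
          Finset.sum_le_sum fun y _ => Real.exp_le_exp.2 (abs_le.1 (hH y)).2
      _ = 2 ^ n * Real.exp M := by
          rw [Finset.sum_const, Finset.card_univ, Fintype.card_fun, Fintype.card_bool,
            Fintype.card_fin, nsmul_eq_mul]
          norm_num
  have h3 : Real.exp (-M) ≤ wt J h x := Real.exp_le_exp.2 (abs_le.1 (hH x)).1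
  have h4 : Real.log ((∑ y, wt J h y) / wt J h x) =
      Real.log (∑ y, wt J h y) - Real.log (wt J h x) :=
    Real.log_div (Z_pos J h).ne' (wt_pos J h x).ne'
  have h5 : Real.log (∑ y, wt J h y) ≤ n * Real.log 2 + M := by
    refine (Real.log_le_log (Z_pos J h) h2).trans (le_of_eq ?_)
    rw [Real.log_mul (by positivity) (Real.exp_pos _).ne', Real.log_exp, Real.log_pow]
  have h6 : -M ≤ Real.log (wt J h x) := by
    rw [← Real.log_exp (-M)]
    exact Real.log_le_log (Real.exp_pos _) h3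
  have h7 : (n : ℝ) * Real.log 2 ≤ n := by
    have : Real.log 2 ≤ 1 := by
      have := Real.log_two_lt_d9
      linarith
    nlinarith [Nat.cast_nonneg (α := ℝ) n]
  rw [h1, h4]
  linarith

end ising

end Vale.Agent.P150.Mix

namespace Vale.Agent.P150

open Mix

/-- MIX: mixing from approximate tensorisation. -/
theorem tmix_of_at {n : ℕ} (hn : 0 < n) (J : Fin n → Fin n → ℝ) (h : Fin n → ℝ)
    (hs : ∀ i j, J i j = J j i) (C M : ℝ) (hC : 1 ≤ C) (hM : 1 ≤ M)
    (hAT : AT (wt J h) C) (hH : ∀ x, |Ham J h x| ≤ M) :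
    tmix J h ≤ 2 * C * Real.log (8 * (M + n)) := by
  have hn1 : (1 : ℝ) ≤ n := by exact_mod_cast hn
  haveI : Nonempty (Fin n) := ⟨⟨0, hn⟩⟩
  have hC0 : 0 < C := by linarith
  have hlog : 0 ≤ Real.log (8 * (M + n)) := Real.log_nonneg (by linarith)
  have ht : 0 ≤ 2 * C * Real.log (8 * (M + n)) := by positivity
  refine csInf_le ⟨0, fun t ht => ht.1⟩ ⟨ht, fun x => ?_⟩
  set t := 2 * C * Real.log (8 * (M + n)) with htdef
  have h1 := l1_Pt_le (gibbs_pos J h) (gibbs_sum J h) (fun i => Rev_Qker J h i) hC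
    (AT_ent J h C hAT) x t ht
  have h2 : tvd J h t x = (1 / 2) * ∑ y, |Pt (fun i => Qker J h i) t x y - gibbs J h y| := rfl
  rw [h2]
  have h3 : Real.exp (-t / (2 * C)) = 1 / (8 * (M + n)) := by
    have : -t / (2 * C) = - Real.log (8 * (M + n)) := by
      rw [htdef]; field_simp
    rw [this, Real.exp_neg, Real.exp_log (by linarith), one_div]
  have h4 : √(Real.log (1 / gibbs J h x)) ≤ 2 * (M + n) := by
    have h5 := log_inv_gibbs_le J h M hH x
    refine Real.sqrt_le_iff.2 ⟨by linarith, ?_⟩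
    nlinarith
  rw [h3] at h1
  have h6 : 2 * √(Real.log (1 / gibbs J h x)) * (1 / (8 * (M + n))) ≤
      2 * (2 * (M + n)) * (1 / (8 * (M + n))) := by
    refine mul_le_mul_of_nonneg_right ?_ (by positivity)
    linarith
  have h7 : 2 * (2 * (M + n)) * (1 / (8 * (M + n))) = 1 / 2 := by
    have : (M + n) ≠ 0 := by linarith
    field_simp
    norm_num
  linarith

end Vale.Agent.P150
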