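import Vale.Agent.Lib.P150.Gap
import Vale.Agent.Lib.P150.GoodWhp
import Vale.Agent.Lib.P150.Ati
import Vale.Agent.Lib.P150.Mix
import Vale.Agent.Lib.P150.Dict

namespace Vale.Agent.P150

open Finset MeasureTheory ProbabilityTheory Filter Topology

/-! proofs -/

theorem sk_scale {n : ℕ} (b : ℝ) (g : Fin n × Fin n → ℝ) (i j : Fin n) :
    sk b g i j = b * sk 1 g i j := by
  unfold sk
  split_ifs <;> ring

theorem sk_symm {n : ℕ} (b : ℝ) (g : Fin n × Fin n → ℝ) (i j : Fin n) :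
    sk b g i j = sk b g j i := by
  unfold sk
  rcases lt_trichotomy i j with h | h | h
  · simp [h, not_lt_of_gt h]
  · subst h; simp
  · simp [h, not_lt_of_gt h]

theorem sk_diag {n : ℕ} (b : ℝ) (g : Fin n × Fin n → ℝ) (i : Fin n) : sk b g i i = 0 := by
  simp [sk]

theorem uvar_nonneg {n : ℕ} (w f : Cfg n → ℝ) (hw : ∀ x, 0 < w x) : 0 ≤ uvar w f :=
  Finset.sum_nonneg fun x _ => mul_nonneg (hw x).le (sq_nonneg _)

theorem fin_quad {n : ℕ} (b : ℝ) (g : Fin n × Fin n → ℝ) (v : Fin n → ℝ) :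
    ∑ i, ∑ j, sk b g i j * v i * v j = b * ∑ i, ∑ j, sk 1 g i j * v i * v j := by
  rw [Finset.mul_sum]
  refine Finset.sum_congr rfl fun i _ => ?_
  rw [Finset.mul_sum]
  refine Finset.sum_congr rfl fun j _ => ?_
  rw [sk_scale]; ring

/-- Deterministic Poincare inequality from good disorder. -/
theorem fin_poinc {n : ℕ} (b e : ℝ) (hb0 : 0 ≤ b) (hb : b < 1/2) (he : 0 < e) (he4 : e ≤ 1/4)
    (hbe : 1001 * e < 1 - 2*b) (g : Fin n × Fin n → ℝ) (hg : Good e (sk 1 g)) (h : Fin n → ℝ)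
    (f : Cfg n → ℝ) :
    (1 - 2*b - 1001*e) * uvar (wt (sk b g) h) f ≤ dir (wt (sk b g) h) f := by
  obtain ⟨h1, h2, h3⟩ := hg
  have hL : ∀ v : Fin n → ℝ, ∑ i, ∑ j, sk b g i j * v i * v j ≤ (b * (2 + e)) * ∑ i, v i ^ 2 := by
    intro v
    rw [fin_quad, mul_assoc]
    exact mul_le_mul_of_nonneg_left (le_trans (le_abs_self _) (h1 v)) hb0
  have hB : ∀ i, ∑ j, sk b g i j ^ 2 ≤ b^2 * (1 + e) := by
    intro i
    have : ∑ j, sk b g i j ^ 2 = b^2 * ∑ j, sk 1 g i j ^ 2 := by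
      rw [Finset.mul_sum]
      refine Finset.sum_congr rfl fun j _ => ?_
      rw [sk_scale]; ring
    rw [this]
    exact mul_le_mul_of_nonneg_left (h2 i) (sq_nonneg b)
  have hτ : ∀ i j, |sk b g i j| ≤ e := by
    intro i j
    rw [sk_scale, abs_mul, abs_of_nonneg hb0]
    have := h3 i j
    have h0 := abs_nonneg (sk 1 g i j)
    nlinarith
  have hmax : max (b * (2 + e)) (2 * (b^2 * (1 + e))) ≤ 2*b + e := by
    apply max_le
    · nlinarith
    · nlinarith [mul_nonneg hb0 he.le, mul_nonneg hb0 (by linarith : (0:ℝ) ≤ 1 - 2*b),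
        mul_nonneg (mul_nonneg hb0 he.le) (by linarith : (0:ℝ) ≤ 1 - 2*b)]
  have hq : 2000 * e * (b^2 * (1+e)) ≤ 1000 * e := by
    have : b^2 * (1+e) ≤ 1/2 := by
      have hb2 : b^2 ≤ 1/4 := by nlinarith
      nlinarith [sq_nonneg b]
    nlinarith
  have hk : 1 - 2*b - 1001*e ≤ 1 - max (b * (2 + e)) (2 * (b^2 * (1 + e))) - 2000 * e * (b^2 * (1+e)) := by
    linarith
  have hk0 : 0 < 1 - max (b * (2 + e)) (2 * (b^2 * (1 + e))) - 2000 * e * (b^2 * (1+e)) := by
    linarith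
  have := gap_ineq (sk b g) h (sk_symm b g) (sk_diag b g) _ _ e hL hB hτ he4 hk0 f
  exact le_trans (mul_le_mul_of_nonneg_right hk (uvar_nonneg _ _ fun _ => Real.exp_pos _)) this

theorem fin_ham {n : ℕ} (J : Fin n → Fin n → ℝ) (h : Fin n → ℝ)
    (hJ : ∀ v : Fin n → ℝ, |∑ i, ∑ j, J i j * v i * v j| ≤ 2 * ∑ i, v i ^ 2) (x : Cfg n) :
    |Ham J h x| ≤ n + ∑ i, |h i| := by
  have hsp : ∀ b : Bool, sp b ^ 2 = 1 := by intro b; cases b <;> simp [sp]
  have hab : ∀ b : Bool, |sp b| = 1 := by intro b; cases b <;> simp [sp]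
  unfold Ham
  have h1 := hJ (fun i => sp (x i))
  have h2 : ∑ i : Fin n, (sp (x i)) ^ 2 = n := by simp [hsp]
  rw [h2] at h1
  have h3 : |∑ i, h i * sp (x i)| ≤ ∑ i, |h i| := by
    refine le_trans (Finset.abs_sum_le_sum_abs _ _) (le_of_eq ?_)
    refine Finset.sum_congr rfl fun i _ => ?_
    rw [abs_mul, hab, mul_one]
  refine le_trans (abs_add_le _ _) ?_
  refine add_le_add ?_ h3
  rw [abs_mul, abs_of_pos (by norm_num : (0:ℝ) < 1/2)]
  linarith

theorem fin_tends (P Q : ∀ n : ℕ, (Fin n × Fin n → ℝ) → Prop)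
    (hQ : Tendsto (fun n : ℕ => dis n {g | ¬ Q n g}) atTop (𝓝 0))
    (hPQ : ∀ᶠ n : ℕ in atTop, ∀ g, Q n g → P n g) :
    Tendsto (fun n : ℕ => dis n {g | ¬ P n g}) atTop (𝓝 0) := by
  refine tendsto_of_tendsto_of_tendsto_of_le_of_le' tendsto_const_nhds hQ
    (Filter.Eventually.of_forall fun n => zero_le) ?_
  filter_upwards [hPQ] with n hn
  exact measure_mono fun g hg hq => hg (hn g hq)

/-- FINAL. -/
theorem sk_final (b : ℝ) (hb0 : 0 ≤ b) (hb : b < 1/2) :
    (∀ e : ℝ, 0 < e → Tendsto (fun n : ℕ => dis n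
      {g | ¬ ∀ h : Fin n → ℝ, 1 - 2*b - e ≤ gap (sk b g) h}) atTop (𝓝 0)) ∧
    (∀ n : ℕ, 0 < n → ∀ g, gap (sk (n := n) b g) 0 ≤ 1) ∧
    (∃ C : ℝ, Tendsto (fun n : ℕ => dis n
      {g | ¬ ∀ h : Fin n → ℝ, tmix (sk b g) h ≤ C * Real.log (n + ∑ i, |h i|)}) atTop (𝓝 0)) := by
  refine ⟨?_, ?_, ?_⟩
  · intro e he
    set e' : ℝ := min (1/8) (min ((1 - 2*b)/2002) (e/1001)) with he'
    have h12 : 0 < 1 - 2*b := by linarith
    have he0 : 0 < e' := by
      rw [he']; exact lt_min (by norm_num) (lt_min (by positivity) (by positivity))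
    have ha : e' ≤ 1/8 := min_le_left _ _
    have hb1 : e' ≤ (1 - 2*b)/2002 := le_trans (min_le_right _ _) (min_le_left _ _)
    have hc1 : e' ≤ e/1001 := le_trans (min_le_right _ _) (min_le_right _ _)
    refine fin_tends _ (fun n g => Good e' (sk 1 g)) (good_whp e' he0) ?_
    filter_upwards [eventually_gt_atTop 0] with n hn g hg h
    have h1 : 1001 * e' < 1 - 2*b := by
      have : 1001 * e' ≤ (1 - 2*b)/2 := by linarith
      linarith
    refine le_trans ?_ (gap_of_poincare hn (sk b g) h (1 - 2*b - 1001*e')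
      (fun f => fin_poinc b e' hb0 hb he0 (by linarith) h1 g hg h f))
    linarith
  · intro n hn g
    exact gap_le_one hn _ (sk_symm b g) (sk_diag b g)
  · have h12 : 0 < 1 - 2*b := by linarith
    set e' : ℝ := min (1/8) ((1 - 2*b)/2002) with he'
    have he0 : 0 < e' := by
      rw [he']; exact lt_min (by norm_num) (by positivity)
    have ha : e' ≤ 1/8 := min_le_left _ _
    have hb1 : e' ≤ (1 - 2*b)/2002 := min_le_right _ _
    set κ : ℝ := (1 - 2*b)/2 with hκ
    have hκ0 : 0 < κ := by positivity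
    set C0 : ℝ := Real.exp (16 * 2 / κ) with hC0
    have hC01 : 1 ≤ C0 := Real.one_le_exp (by positivity)
    refine ⟨12 * C0, fin_tends _ (fun n g => Good e' (sk 1 g)) (good_whp e' he0) ?_⟩
    filter_upwards [eventually_gt_atTop 1] with n hn g hg h
    have hn0 : 0 < n := by omega
    have hn2 : (2:ℝ) ≤ n := by exact_mod_cast hn
    have hquad : ∀ v : Fin n → ℝ, |∑ i, ∑ j, sk b g i j * v i * v j| ≤ 2 * ∑ i, v i ^ 2 := by
      intro v
      rw [fin_quad, abs_mul, abs_of_nonneg hb0]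
      have h1 := hg.1 v
      have h0 := abs_nonneg (∑ i, ∑ j, sk 1 g i j * v i * v j)
      have hv : 0 ≤ ∑ i, v i ^ 2 := Finset.sum_nonneg fun i _ => sq_nonneg _
      nlinarith
    have hP : ∀ θ : ℝ, 0 ≤ θ → θ ≤ 1 → ∀ h : Fin n → ℝ, ∀ f : Cfg n → ℝ,
        κ * uvar (wt (fun i j => θ * sk b g i j) h) f ≤
          dir (wt (fun i j => θ * sk b g i j) h) f := by
      intro θ h0 h1 h f
      have hfun : (fun i j => θ * sk b g i j) = sk (θ * b) g := by
        funext i j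
        rw [sk_scale (θ * b), sk_scale b]; ring
      rw [hfun]
      have hθb : θ * b ≤ b := by nlinarith
      have hp := fin_poinc (θ * b) e' (by positivity) (by linarith) he0 (by linarith)
        (by linarith) g hg h f
      refine le_trans (mul_le_mul_of_nonneg_right ?_ (uvar_nonneg _ _ fun _ => Real.exp_pos _)) hp
      linarith
    have hAT := at_ising (sk b g) h (sk_symm b g) (sk_diag b g) 2 κ (by norm_num) hquad hκ0 hP
    have hH := fin_ham (sk b g) h hquad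
    have hsum : 0 ≤ ∑ i, |h i| := Finset.sum_nonneg fun i _ => abs_nonneg _
    have hM1 : (1:ℝ) ≤ n + ∑ i, |h i| := by linarith
    have ht := tmix_of_at hn0 (sk b g) h (sk_symm b g) C0 (n + ∑ i, |h i|) hC01 hM1 hAT hH
    refine le_trans ht ?_
    set z : ℝ := n + ∑ i, |h i| with hz
    have hz2 : 2 ≤ z := by linarith
    have hzn : (n:ℝ) ≤ z := by linarith
    have hlog : Real.log (8 * (z + n)) ≤ 6 * Real.log z := by
      have h6 : 6 * Real.log z = Real.log (z ^ 6) := by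
        rw [Real.log_pow]; norm_num
      rw [h6]
      apply Real.log_le_log (by positivity)
      have h5 : (32:ℝ) ≤ z^5 := by
        calc (32:ℝ) = 2^5 := by norm_num
          _ ≤ z^5 := by gcongr
      have : z^6 = z^5 * z := by ring
      nlinarith
    have : 2 * C0 * Real.log (8 * (z + n)) ≤ 2 * C0 * (6 * Real.log z) :=
      mul_le_mul_of_nonneg_left hlog (by positivity)
    linarith

end Vale.Agent.P150
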