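import Vale.Agent.Lib.P150.Semi

/-!
# P150: the heat-bath dynamics converges to the Gibbs measure (Doeblin argument)
-/

namespace Vale.Agent.P150

open Finset Filter Topology Semi

namespace Semi

variable {n : ℕ}

theorem mixM_step_pos (hn : 0 < n) (J : Fin n → Fin n → ℝ) (h : Fin n → ℝ) (x : Cfg n) (i : Fin n)
    (b : Bool) : 0 < mixM J h x (st x i b) := by
  have hn' : (0:ℝ) < n := by exact_mod_cast hn
  have hq : ∀ j, 0 ≤ Qker J h j x (st x i b) := by
    intro j
    unfold Qker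
    rw [Matrix.of_apply]
    refine Finset.sum_nonneg fun c _ => ?_
    split_ifs
    · unfold wt; positivity
    · exact le_rfl
  have hqi : 0 < Qker J h i x (st x i b) := by
    unfold Qker
    rw [Matrix.of_apply]
    refine Finset.sum_pos' (fun c _ => ?_) ⟨b, Finset.mem_univ _, ?_⟩
    · split_ifs
      · unfold wt; positivity
      · exact le_rfl
    · rw [if_pos rfl]
      unfold wt; positivity
  unfold mixM
  rw [Matrix.smul_apply, Matrix.sum_apply, smul_eq_mul]
  exact mul_pos (by positivity) (Finset.sum_pos' (fun j _ => hq j) ⟨i, Finset.mem_univ _, hqi⟩)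

theorem mixM_path (hn : 0 < n) (J : Fin n → Fin n → ℝ) (h : Fin n → ℝ) (x y : Cfg n)
    (s : Finset (Fin n)) : ∃ k : ℕ, 0 < (mixM J h ^ k) x (s.piecewise y x) := by
  classical
  induction s using Finset.induction_on with
  | empty => exact ⟨0, by simp⟩
  | insert i s _ ih =>
    obtain ⟨k, hk⟩ := ih
    refine ⟨k + 1, ?_⟩
    have he : (insert i s).piecewise y x = st (s.piecewise y x) i (y i) := by
      unfold st
      rw [Finset.piecewise_insert]
    rw [he, pow_succ, Matrix.mul_apply]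
    refine Finset.sum_pos' (fun z _ => mul_nonneg (mixM_pow_nonneg J h k x z)
      (mixM_nonneg J h z _)) ⟨s.piecewise y x, Finset.mem_univ _, ?_⟩
    exact mul_pos hk (mixM_step_pos hn J h _ i (y i))

theorem semi_one_pos (hn : 0 < n) (J : Fin n → Fin n → ℝ) (h : Fin n → ℝ) (x y : Cfg n) :
    0 < semi J h 1 x y := by
  obtain ⟨k, hk⟩ := mixM_path hn J h x y Finset.univ
  rw [Finset.piecewise_univ] at hk
  have hn' : (0:ℝ) < n := by exact_mod_cast hn
  have h1 := mix_semi hn J h 1 x y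
  refine lt_of_lt_of_le ?_ (le_hasSum h1 k fun j _ => mul_nonneg ?_ (mixM_pow_nonneg J h j x y))
  · rw [mul_one]; positivity
  · rw [mul_one]; positivity

theorem gibbs_pos' (J : Fin n → Fin n → ℝ) (h : Fin n → ℝ) (x : Cfg n) : 0 < gibbs J h x := by
  unfold gibbs
  exact div_pos (wt_pos' J h x) (Finset.sum_pos (fun y _ => wt_pos' J h y) Finset.univ_nonempty)

theorem gibbs_sum' (J : Fin n → Fin n → ℝ) (h : Fin n → ℝ) : ∑ x, gibbs J h x = 1 := by
  unfold gibbs
  rw [← Finset.sum_div, div_self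
    (Finset.sum_pos (fun y _ => wt_pos' J h y) Finset.univ_nonempty).ne']

theorem exists_doeblin (hn : 0 < n) (J : Fin n → Fin n → ℝ) (h : Fin n → ℝ) :
    ∃ δ : ℝ, 0 < δ ∧ δ ≤ 1 ∧ ∀ x y, δ * gibbs J h y ≤ semi J h 1 x y := by
  obtain ⟨p, _, hp⟩ := Finset.exists_min_image (Finset.univ : Finset (Cfg n × Cfg n))
    (fun p => semi J h 1 p.1 p.2) Finset.univ_nonempty
  refine ⟨min 1 (semi J h 1 p.1 p.2), lt_min one_pos (semi_one_pos hn J h _ _), min_le_left _ _,
    fun x y => ?_⟩
  have h1 : semi J h 1 p.1 p.2 ≤ semi J h 1 x y := hp (x, y) (Finset.mem_univ _)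
  have h2 : gibbs J h y ≤ 1 := by
    rw [← gibbs_sum' J h]
    exact Finset.single_le_sum (fun z _ => (gibbs_pos' J h z).le) (Finset.mem_univ y)
  have h3 : 0 ≤ min 1 (semi J h 1 p.1 p.2) := (lt_min one_pos (semi_one_pos hn J h _ _)).le
  calc min 1 (semi J h 1 p.1 p.2) * gibbs J h y ≤ min 1 (semi J h 1 p.1 p.2) * 1 :=
        mul_le_mul_of_nonneg_left h2 h3
    _ ≤ semi J h 1 x y := by rw [mul_one]; exact (min_le_right _ _).trans h1

theorem l1_contract (hn : 0 < n) (J : Fin n → Fin n → ℝ) (h : Fin n → ℝ) (δ : ℝ) (hδ1 : δ ≤ 1)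
    (hδ : ∀ x y, δ * gibbs J h y ≤ semi J h 1 x y) (m : ℕ) (x : Cfg n) :
    ∑ y, |semi J h m x y - gibbs J h y| ≤ 2 * (1 - δ) ^ m := by
  induction m with
  | zero =>
    rw [Nat.cast_zero, pow_zero, mul_one]
    have h0 : ∀ y, |semi J h 0 x y - gibbs J h y| ≤ semi J h 0 x y + gibbs J h y := by
      intro y
      have e1 := semi_nonneg hn J h 0 le_rfl x y
      have e2 := (gibbs_pos' J h y).le
      rw [abs_le]; constructor <;> linarith
    refine (Finset.sum_le_sum fun y _ => h0 y).trans ?_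
    rw [Finset.sum_add_distrib, semi_row_sum hn, gibbs_sum']
    norm_num
  | succ m ih =>
    have hd : 0 ≤ 1 - δ := by linarith
    have e1 : ∀ y, semi J h ((m + 1 : ℕ) : ℝ) x y - gibbs J h y =
        ∑ z, (semi J h m x z - gibbs J h z) * (semi J h 1 z y - δ * gibbs J h y) := by
      intro y
      have a1 : semi J h ((m + 1 : ℕ) : ℝ) x y = ∑ z, semi J h m x z * semi J h 1 z y := by
        rw [Nat.cast_add, Nat.cast_one, semi_add, Matrix.mul_apply]
      have a2 := semi_inv hn J h 1 y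
      have a3 : ∑ z, (semi J h m x z - gibbs J h z) * (semi J h 1 z y - δ * gibbs J h y)
          = ∑ z, semi J h m x z * semi J h 1 z y - ∑ z, gibbs J h z * semi J h 1 z y
            - (∑ z, semi J h m x z - ∑ z, gibbs J h z) * (δ * gibbs J h y) := by
        rw [sub_mul, Finset.sum_mul, Finset.sum_mul, ← Finset.sum_sub_distrib,
          ← Finset.sum_sub_distrib, ← Finset.sum_sub_distrib]
        exact Finset.sum_congr rfl fun z _ => by ring
      rw [a3, a1, a2, semi_row_sum hn, gibbs_sum']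
      ring
    calc ∑ y, |semi J h ((m + 1 : ℕ) : ℝ) x y - gibbs J h y|
        ≤ ∑ y, ∑ z, |semi J h m x z - gibbs J h z| * (semi J h 1 z y - δ * gibbs J h y) := by
          refine Finset.sum_le_sum fun y _ => ?_
          rw [e1 y]
          refine (Finset.abs_sum_le_sum_abs _ _).trans (Finset.sum_le_sum fun z _ => ?_)
          rw [abs_mul, abs_of_nonneg (sub_nonneg.2 (hδ z y))]
      _ = ∑ z, |semi J h m x z - gibbs J h z| * (1 - δ) := by
          rw [Finset.sum_comm]
          refine Finset.sum_congr rfl fun z _ => ?_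
          rw [← Finset.mul_sum, Finset.sum_sub_distrib, ← Finset.mul_sum, semi_row_sum hn,
            gibbs_sum', mul_one]
      _ ≤ 2 * (1 - δ) ^ (m + 1) := by
          rw [← Finset.sum_mul, pow_succ, ← mul_assoc]
          exact mul_le_mul_of_nonneg_right ih hd

end Semi

/-- The set in the definition of the mixing time is not empty. -/
theorem mix_nonempty {n : ℕ} (hn : 0 < n) (J : Fin n → Fin n → ℝ) (h : Fin n → ℝ)
    (_hs : ∀ i j, J i j = J j i) (_hd : ∀ i, J i i = 0) :
    ∃ t : ℝ, 0 ≤ t ∧ ∀ x : Cfg n, tvd J h t x ≤ 1 / 4 := by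
  obtain ⟨δ, h0, h1, hδ⟩ := exists_doeblin hn J h
  have hlim : Tendsto (fun m : ℕ => (1 - δ) ^ m) atTop (𝓝 0) :=
    tendsto_pow_atTop_nhds_zero_of_lt_one (by linarith) (by linarith)
  obtain ⟨m, hm⟩ := (hlim.eventually (gt_mem_nhds (show (0:ℝ) < 1/4 by norm_num))).exists
  refine ⟨m, Nat.cast_nonneg m, fun x => ?_⟩
  unfold tvd
  have := l1_contract hn J h δ h1 hδ m x
  linarith

end Vale.Agent.P150
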