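import Vale.Agent.Lib.P150.LowFin
import Vale.Agent.Lib.P150.Nonempty

/-!
# P150, module LOW, final form
-/

namespace Vale.Agent.P150

open Finset MeasureTheory ProbabilityTheory Filter Topology

/-- **Lower bound for the mixing time.** For every fixed `b ≥ 0` there is `a > 0` such that the
mixing time is at least `a log n` with probability tending to one. -/
theorem low_tmix (b : ℝ) (hb : 0 ≤ b) : ∃ a : ℝ, 0 < a ∧ Tendsto (fun n : ℕ => dis n
    {g | ¬ a * Real.log n ≤ tmix (sk b g) 0}) atTop (𝓝 0) :=
  low_tmix_of (fun hn J h hs hd => mix_nonempty hn J h hs hd) b hb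

end Vale.Agent.P150
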