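import Vale.Agent.Lib.P150.Fin
import Vale.Agent.Lib.P150.LowTmix

/-!
# P150: approximate tensorisation of entropy, with high probability, for `b < 1/2`
-/

namespace Vale.Agent.P150

open Finset MeasureTheory ProbabilityTheory Filter Topology

/-- Approximate tensorisation of entropy for every external field, `b < 1/2`. -/
theorem sk_at (b : ℝ) (hb0 : 0 ≤ b) (hb : b < 1/2) : ∃ K : ℝ, Tendsto (fun n : ℕ => dis n
    {g | ¬ ∀ h : Fin n → ℝ, AT (wt (sk b g) h) K}) atTop (𝓝 0) := by
  have h12 : 0 < 1 - 2*b := by linarith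
  set e' : ℝ := min (1/8) ((1 - 2*b)/2002) with he'
  have he0 : 0 < e' := by
    rw [he']; exact lt_min (by norm_num) (by positivity)
  have ha : e' ≤ 1/8 := min_le_left _ _
  have hb1 : e' ≤ (1 - 2*b)/2002 := min_le_right _ _
  set κ : ℝ := (1 - 2*b)/2 with hκ
  have hκ0 : 0 < κ := by positivity
  refine ⟨Real.exp (16 * 2 / κ), fin_tends _ (fun n g => Good e' (sk 1 g)) (good_whp e' he0) ?_⟩
  filter_upwards [eventually_gt_atTop 1] with n hn g hg h
  have hquad : ∀ v : Fin n → ℝ, |∑ i, ∑ j, sk b g i j * v i * v j| ≤ 2 * ∑ i, v i ^ 2 := by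
    intro v
    rw [fin_quad, abs_mul, abs_of_nonneg hb0]
    have h1 := hg.1 v
    have h0 := abs_nonneg (∑ i, ∑ j, sk 1 g i j * v i * v j)
    have hv : 0 ≤ ∑ i, v i ^ 2 := Finset.sum_nonneg fun i _ => sq_nonneg _
    nlinarith
  have hP : ∀ θ : ℝ, 0 ≤ θ → θ ≤ 1 → ∀ h : Fin n → ℝ, ∀ f : Cfg n → ℝ,
      κ * uvar (wt (fun i j => θ * sk b g i j) h) f ≤
        dir (wt (fun i j => θ * sk b g i j) h) f := by
    intro θ h0 h1 h f
    have hfun : (fun i j => θ * sk b g i j) = sk (θ * b) g := by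
      funext i j
      rw [sk_scale (θ * b), sk_scale b]; ring
    rw [hfun]
    have hθb : θ * b ≤ b := by nlinarith
    have hp := fin_poinc (θ * b) e' (by positivity) (by linarith) he0 (by linarith)
      (by linarith) g hg h f
    refine le_trans (mul_le_mul_of_nonneg_right ?_ (uvar_nonneg _ _ fun _ => Real.exp_pos _)) hp
    linarith
  exact at_ising (sk b g) h (sk_symm b g) (sk_diag b g) 2 κ (by norm_num) hquad hκ0 hP

end Vale.Agent.P150
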