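import Vale.Agent.Lib.P150.Defs

/-!
# P150, module G: rational function expansion (light version, Horner bounds)
-/

namespace Vale.Agent.P150

theorem G_k {v V : ℝ} (h : |v| ≤ V) : |v| ≤ V := h

theorem G_hor {a b x A B : ℝ} (hx : |x| ≤ 1) (ha : |a| ≤ A) (hb : |b| ≤ B) :
    |a + x * b| ≤ A + B := by
  have h1 : |x * b| ≤ B := by
    rw [abs_mul]
    calc |x| * |b| ≤ 1 * B := mul_le_mul hx hb (abs_nonneg _) (by norm_num)
      _ = B := one_mul B
  exact (abs_add_le _ _).trans (add_le_add ha h1)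

theorem G_hort {a b x A B : ℝ} (hx : |x| ≤ 1 / 4) (ha : |a| ≤ A) (hb : |b| ≤ B) :
    |a + x * b| ≤ A + B / 4 := by
  have h1 : |x * b| ≤ B / 4 := by
    rw [abs_mul]
    calc |x| * |b| ≤ (1 / 4) * B := mul_le_mul hx hb (abs_nonneg _) (by norm_num)
      _ = B / 4 := by ring
  exact (abs_add_le _ _).trans (add_le_add ha h1)

/-- remainder, Horner form -/
noncomputable def gRem (t m n : ℝ) : ℝ :=
  ((((-1) + n * ((-3) + n * (0 + n * 2))) + m * (((-3) + n * ((-3) + n * (4 + n * 4))) + m * ((0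
  + n * (4 + n * (6 + n * 2))) + m * (2 + n * (4 + n * 2))))) + t * ((((-2) + n * ((-1) + n * (0
  + n * (0 + n * 1)))) + m * (((-1) + n * ((-3) + n * (0 + n * (6 + n * 4)))) + m * ((0 + n * (0
  + n * (9 + n * (14 + n * 4)))) + m * ((0 + n * (6 + n * (14 + n * 8))) + m * (1 + n * (4 + n *
  4)))))) + t * (((1 + n * 1) + m * ((1 + n * (2 + n * (0 + n * (0 + n * (2 + n * 1))))) + m *
  ((0 + n * (0 + n * (0 + n * (6 + n * (10 + n * 2))))) + m * ((0 + n * (0 + n * (6 + n * (17 +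
  n * 10)))) + m * ((0 + n * (2 + n * (10 + n * 10))) + m * (0 + n * (1 + n * 2))))))) + t *
  (((1 + n * 1) + m * ((1 + n * 1) + m * ((0 + n * (0 + n * (0 + n * (0 + n * (1 + n * 2))))) +
  m * ((0 + n * (0 + n * (0 + n * (2 + n * (8 + n * 4))))) + m * ((0 + n * (0 + n * (1 + n * (8
  + n * 8)))) + m * (0 + n * (0 + n * (2 + n * 4)))))))) + t * (0 + m * (0 + m * (0 + m * ((0 +
  n * (0 + n * (0 + n * (0 + n * (0 + n * 1))))) + m * ((0 + n * (0 + n * (0 + n * (0 + n * (2 +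
  n * 2))))) + m * (0 + n * (0 + n * (0 + n * (1 + n * 2)))))))))))))

theorem gRem_bound (t m n : ℝ) (ht : |t| ≤ 1 / 4) (hm : |m| ≤ 1) (hn : |n| ≤ 1) :
    |gRem t m n| ≤ 67 := by
  unfold gRem
  have h := (G_hort ht (G_hor hm (G_hor hn (G_k (v := (-1)) (V := 1) (by norm_num)) (G_hor hn (G_k (v :=
    (-3)) (V := 3) (by norm_num)) (G_hor hn (G_k (v := 0) (V := 0) (by norm_num)) (G_k (v := 2)
    (V := 2) (by norm_num))))) (G_hor hm (G_hor hn (G_k (v := (-3)) (V := 3) (by norm_num))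
    (G_hor hn (G_k (v := (-3)) (V := 3) (by norm_num)) (G_hor hn (G_k (v := 4) (V := 4) (by
    norm_num)) (G_k (v := 4) (V := 4) (by norm_num))))) (G_hor hm (G_hor hn (G_k (v := 0) (V :=
    0) (by norm_num)) (G_hor hn (G_k (v := 4) (V := 4) (by norm_num)) (G_hor hn (G_k (v := 6) (V
    := 6) (by norm_num)) (G_k (v := 2) (V := 2) (by norm_num))))) (G_hor hn (G_k (v := 2) (V :=
    2) (by norm_num)) (G_hor hn (G_k (v := 4) (V := 4) (by norm_num)) (G_k (v := 2) (V := 2) (by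
    norm_num))))))) (G_hort ht (G_hor hm (G_hor hn (G_k (v := (-2)) (V := 2) (by norm_num))
    (G_hor hn (G_k (v := (-1)) (V := 1) (by norm_num)) (G_hor hn (G_k (v := 0) (V := 0) (by
    norm_num)) (G_hor hn (G_k (v := 0) (V := 0) (by norm_num)) (G_k (v := 1) (V := 1) (by
    norm_num)))))) (G_hor hm (G_hor hn (G_k (v := (-1)) (V := 1) (by norm_num)) (G_hor hn (G_k
    (v := (-3)) (V := 3) (by norm_num)) (G_hor hn (G_k (v := 0) (V := 0) (by norm_num)) (G_hor
    hn (G_k (v := 6) (V := 6) (by norm_num)) (G_k (v := 4) (V := 4) (by norm_num)))))) (G_hor hm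
    (G_hor hn (G_k (v := 0) (V := 0) (by norm_num)) (G_hor hn (G_k (v := 0) (V := 0) (by
    norm_num)) (G_hor hn (G_k (v := 9) (V := 9) (by norm_num)) (G_hor hn (G_k (v := 14) (V :=
    14) (by norm_num)) (G_k (v := 4) (V := 4) (by norm_num)))))) (G_hor hm (G_hor hn (G_k (v :=
    0) (V := 0) (by norm_num)) (G_hor hn (G_k (v := 6) (V := 6) (by norm_num)) (G_hor hn (G_k (v
    := 14) (V := 14) (by norm_num)) (G_k (v := 8) (V := 8) (by norm_num))))) (G_hor hn (G_k (v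
    := 1) (V := 1) (by norm_num)) (G_hor hn (G_k (v := 4) (V := 4) (by norm_num)) (G_k (v := 4)
    (V := 4) (by norm_num)))))))) (G_hort ht (G_hor hm (G_hor hn (G_k (v := 1) (V := 1) (by
    norm_num)) (G_k (v := 1) (V := 1) (by norm_num))) (G_hor hm (G_hor hn (G_k (v := 1) (V := 1)
    (by norm_num)) (G_hor hn (G_k (v := 2) (V := 2) (by norm_num)) (G_hor hn (G_k (v := 0) (V :=
    0) (by norm_num)) (G_hor hn (G_k (v := 0) (V := 0) (by norm_num)) (G_hor hn (G_k (v := 2) (V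
    := 2) (by norm_num)) (G_k (v := 1) (V := 1) (by norm_num))))))) (G_hor hm (G_hor hn (G_k (v
    := 0) (V := 0) (by norm_num)) (G_hor hn (G_k (v := 0) (V := 0) (by norm_num)) (G_hor hn (G_k
    (v := 0) (V := 0) (by norm_num)) (G_hor hn (G_k (v := 6) (V := 6) (by norm_num)) (G_hor hn
    (G_k (v := 10) (V := 10) (by norm_num)) (G_k (v := 2) (V := 2) (by norm_num))))))) (G_hor hm
    (G_hor hn (G_k (v := 0) (V := 0) (by norm_num)) (G_hor hn (G_k (v := 0) (V := 0) (by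
    norm_num)) (G_hor hn (G_k (v := 6) (V := 6) (by norm_num)) (G_hor hn (G_k (v := 17) (V :=
    17) (by norm_num)) (G_k (v := 10) (V := 10) (by norm_num)))))) (G_hor hm (G_hor hn (G_k (v
    := 0) (V := 0) (by norm_num)) (G_hor hn (G_k (v := 2) (V := 2) (by norm_num)) (G_hor hn (G_k
    (v := 10) (V := 10) (by norm_num)) (G_k (v := 10) (V := 10) (by norm_num))))) (G_hor hn (G_k
    (v := 0) (V := 0) (by norm_num)) (G_hor hn (G_k (v := 1) (V := 1) (by norm_num)) (G_k (v :=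
    2) (V := 2) (by norm_num))))))))) (G_hort ht (G_hor hm (G_hor hn (G_k (v := 1) (V := 1) (by
    norm_num)) (G_k (v := 1) (V := 1) (by norm_num))) (G_hor hm (G_hor hn (G_k (v := 1) (V := 1)
    (by norm_num)) (G_k (v := 1) (V := 1) (by norm_num))) (G_hor hm (G_hor hn (G_k (v := 0) (V
    := 0) (by norm_num)) (G_hor hn (G_k (v := 0) (V := 0) (by norm_num)) (G_hor hn (G_k (v := 0)
    (V := 0) (by norm_num)) (G_hor hn (G_k (v := 0) (V := 0) (by norm_num)) (G_hor hn (G_k (v :=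
    1) (V := 1) (by norm_num)) (G_k (v := 2) (V := 2) (by norm_num))))))) (G_hor hm (G_hor hn
    (G_k (v := 0) (V := 0) (by norm_num)) (G_hor hn (G_k (v := 0) (V := 0) (by norm_num)) (G_hor
    hn (G_k (v := 0) (V := 0) (by norm_num)) (G_hor hn (G_k (v := 2) (V := 2) (by norm_num))
    (G_hor hn (G_k (v := 8) (V := 8) (by norm_num)) (G_k (v := 4) (V := 4) (by norm_num)))))))
    (G_hor hm (G_hor hn (G_k (v := 0) (V := 0) (by norm_num)) (G_hor hn (G_k (v := 0) (V := 0)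
    (by norm_num)) (G_hor hn (G_k (v := 1) (V := 1) (by norm_num)) (G_hor hn (G_k (v := 8) (V :=
    8) (by norm_num)) (G_k (v := 8) (V := 8) (by norm_num)))))) (G_hor hn (G_k (v := 0) (V := 0)
    (by norm_num)) (G_hor hn (G_k (v := 0) (V := 0) (by norm_num)) (G_hor hn (G_k (v := 2) (V :=
    2) (by norm_num)) (G_k (v := 4) (V := 4) (by norm_num)))))))))) (G_hor hm (G_k (v := 0) (V
    := 0) (by norm_num)) (G_hor hm (G_k (v := 0) (V := 0) (by norm_num)) (G_hor hm (G_k (v := 0)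
    (V := 0) (by norm_num)) (G_hor hm (G_hor hn (G_k (v := 0) (V := 0) (by norm_num)) (G_hor hn
    (G_k (v := 0) (V := 0) (by norm_num)) (G_hor hn (G_k (v := 0) (V := 0) (by norm_num)) (G_hor
    hn (G_k (v := 0) (V := 0) (by norm_num)) (G_hor hn (G_k (v := 0) (V := 0) (by norm_num))
    (G_k (v := 1) (V := 1) (by norm_num))))))) (G_hor hm (G_hor hn (G_k (v := 0) (V := 0) (by
    norm_num)) (G_hor hn (G_k (v := 0) (V := 0) (by norm_num)) (G_hor hn (G_k (v := 0) (V := 0)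
    (by norm_num)) (G_hor hn (G_k (v := 0) (V := 0) (by norm_num)) (G_hor hn (G_k (v := 2) (V :=
    2) (by norm_num)) (G_k (v := 2) (V := 2) (by norm_num))))))) (G_hor hn (G_k (v := 0) (V :=
    0) (by norm_num)) (G_hor hn (G_k (v := 0) (V := 0) (by norm_num)) (G_hor hn (G_k (v := 0) (V
    := 0) (by norm_num)) (G_hor hn (G_k (v := 1) (V := 1) (by norm_num)) (G_k (v := 2) (V := 2)
    (by norm_num)))))))))))))))
  refine h.trans ?_
  norm_num

/-- G. Rational function expansion. -/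
theorem gfun_bound (t m n : ℝ) (ht : |t| ≤ 1/4) (hm : |m| ≤ 1) (hn : |n| ≤ 1) :
    |(1 - t^2) / ((1 + t*m*n) * (1 + t*m) * (1 + t*n)) *
        ((1 - t) + t * (1 - t^2) * (1+m) * (1+n) * (1+t) / ((1 + t*m) * (1 + t*n)))
      - 1 + t^2 * ((m + n) * (m + n + 2*m*n))| ≤ 300 * |t|^3 := by
  have habs : ∀ z : ℝ, |z| ≤ 1 → 3 / 4 ≤ 1 + t * z := by
    intro z hz
    have h1 : |t * z| ≤ 1/4 := by
      rw [abs_mul]
      calc |t| * |z| ≤ (1 / 4) * 1 := mul_le_mul ht hz (abs_nonneg _) (by norm_num)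
        _ = 1 / 4 := by ring
    linarith [(abs_le.mp h1).1]
  have hA3 : 3 / 4 ≤ 1 + t * m := habs m hm
  have hB3 : 3 / 4 ≤ 1 + t * n := habs n hn
  have hC3 : 3 / 4 ≤ 1 + t * m * n := by
    have h := habs (m * n) (by
      rw [abs_mul]
      calc |m| * |n| ≤ 1 * 1 := mul_le_mul hm hn (abs_nonneg _) (by norm_num)
        _ = 1 := by ring)
    rw [← mul_assoc] at h
    exact h
  have hA : 0 < 1 + t * m := by linarith
  have hB : 0 < 1 + t * n := by linarith
  have hC : 0 < 1 + t * m * n := by linarith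
  have hD : 0 < (1 + t*m*n) * (1 + t*m)^2 * (1 + t*n)^2 := by positivity
  have hD1 : 67 ≤ 300 * ((1 + t*m*n) * (1 + t*m)^2 * (1 + t*n)^2) := by
    have h1 : (3 / 4) * (3 / 4) ^ 2 * (3 / 4) ^ 2 ≤
        (1 + t*m*n) * (1 + t*m)^2 * (1 + t*n)^2 := by
      have ha : ((3 : ℝ) / 4) ^ 2 ≤ (1 + t * m) ^ 2 := pow_le_pow_left₀ (by norm_num) hA3 2
      have hb : ((3 : ℝ) / 4) ^ 2 ≤ (1 + t * n) ^ 2 := pow_le_pow_left₀ (by norm_num) hB3 2
      exact mul_le_mul (mul_le_mul hC3 ha (by norm_num) hC.le) hb (by norm_num) (by positivity)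
    have h2 : (67 : ℝ) ≤ 300 * ((3 / 4) * (3 / 4) ^ 2 * (3 / 4) ^ 2) := by norm_num
    exact h2.trans (mul_le_mul_of_nonneg_left h1 (by norm_num))
  have hE : (1 - t^2) / ((1 + t*m*n) * (1 + t*m) * (1 + t*n)) *
        ((1 - t) + t * (1 - t^2) * (1+m) * (1+n) * (1+t) / ((1 + t*m) * (1 + t*n)))
      - 1 + t^2 * ((m + n) * (m + n + 2*m*n))
      = t^3 * gRem t m n / ((1 + t*m*n) * (1 + t*m)^2 * (1 + t*n)^2) := by
    unfold gRem
    field_simp
    ring
  rw [hE, abs_div, abs_mul, abs_pow, abs_of_pos hD, div_le_iff₀ hD]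
  have hR1 : |gRem t m n| ≤ 300 * ((1 + t*m*n) * (1 + t*m)^2 * (1 + t*n)^2) :=
    (gRem_bound t m n ht hm hn).trans hD1
  calc |t|^3 * |gRem t m n| ≤ |t|^3 * (300 * ((1 + t*m*n) * (1 + t*m)^2 * (1 + t*n)^2)) :=
        mul_le_mul_of_nonneg_left hR1 (by positivity)
    _ = 300 * |t|^3 * ((1 + t*m*n) * (1 + t*m)^2 * (1 + t*n)^2) := by ring

end Vale.Agent.P150
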