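import Vale.Agent.Lib.P150.Loc

/-!
P150, module PSUM: the pair inequality summed over the cube.
-/

namespace Vale.Agent.P150

open Finset

variable {n : ℕ}

/-- averaging over the spins at two sites -/
theorem psum_two (i j : Fin n) (F : Cfg n → ℝ) :
    ∑ x, F x = (1 / 4) * ∑ x, ∑ s : Bool, ∑ t : Bool, F (st (st x i s) j t) := by
  rw [sum_pair_st j F, sum_pair_st i (fun x => ∑ b : Bool, F (st x j b)), ← mul_assoc]
  norm_num

/-- the statement of the pair inequality -/
def PairStmt : Prop := ∀ (J h k : ℝ) (_ : |J| ≤ 1/4) (u v : Bool → ℝ)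
    (_ : u true - u false = v true - v false),
    - J^2 * ∑ s : Bool, ∑ t : Bool, Real.exp (J * sp s * sp t + h * sp s + k * sp t) *
        ((1 - Real.tanh (h + J * sp t)^2) * Real.tanh (h + J * sp t)^2 * u t ^2
         + (1 - Real.tanh (k + J * sp s)^2) * Real.tanh (k + J * sp s)^2 * v s ^2)
      - 1000 * |J|^3 * ∑ s : Bool, ∑ t : Bool, Real.exp (J * sp s * sp t + h * sp s + k * sp t) *
        ((1 - Real.tanh (h + J * sp t)^2) * u t ^2 + (1 - Real.tanh (k + J * sp s)^2) * v s ^2)
    ≤ ∑ s : Bool, ∑ t : Bool, Real.exp (J * sp s * sp t + h * sp s + k * sp t) *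
        ((sp s - Real.tanh (h + J * sp t)) * (sp t - Real.tanh (k + J * sp s)) * (u t * v s))
      + J * ∑ s : Bool, ∑ t : Bool, Real.exp (J * sp s * sp t + h * sp s + k * sp t) *
        ((1 - Real.tanh (h + J * sp t)^2) * (1 - Real.tanh (k + J * sp s)^2) * (u t * v s))

theorem psum_wt (J : Fin n → Fin n → ℝ) (h : Fin n → ℝ) (hs : ∀ i j, J i j = J j i)
    (hd : ∀ i, J i i = 0) {i j : Fin n} (hij : i ≠ j) (x : Cfg n) (s t : Bool) :
    wt J h (st (st x i s) j t) = Real.exp (Ham J h x - sp (x i) * fld J h i x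
        - sp (x j) * fld J h j x + J i j * sp (x i) * sp (x j)) *
      Real.exp (J i j * sp s * sp t + (fld J h i x - J i j * sp (x j)) * sp s +
        (fld J h j x - J i j * sp (x i)) * sp t) := by
  unfold wt
  rw [Ham_st J h hs hd, Ham_st J h hs hd, fld_st, st_apply_ne x (Ne.symm hij), hs j i,
    ← Real.exp_add]
  congr 1
  ring

theorem psum_mgi (J : Fin n → Fin n → ℝ) (h : Fin n → ℝ) (hd : ∀ i, J i i = 0) {i j : Fin n}
    (hij : i ≠ j) (x : Cfg n) (s t : Bool) :
    mg J h i (st (st x i s) j t) = Real.tanh (fld J h i x - J i j * sp (x j) + J i j * sp t) := by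
  unfold mg
  rw [fld_st, fld_st, hd i, st_apply_ne x (Ne.symm hij)]
  congr 1
  ring

theorem psum_mgj (J : Fin n → Fin n → ℝ) (h : Fin n → ℝ) (hs : ∀ i j, J i j = J j i)
    (hd : ∀ i, J i i = 0) {i j : Fin n} (x : Cfg n) (s t : Bool) :
    mg J h j (st (st x i s) j t) = Real.tanh (fld J h j x - J i j * sp (x i) + J i j * sp s) := by
  unfold mg
  rw [fld_st, fld_st, hd j, hs j i]
  congr 1
  ring

/-- PSUM from PAIR -/
theorem pair_sum_of (hpair : PairStmt) (J : Fin n → Fin n → ℝ) (h : Fin n → ℝ)
    (hs : ∀ i j, J i j = J j i)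
    (hd : ∀ i, J i i = 0) (f : Cfg n → ℝ) (i j : Fin n) (hij : i ≠ j) (hJ : |J i j| ≤ 1/4) :
    - J i j ^2 * ∑ x, wt J h x * (sg J h i x * mg J h i x ^2 * Di f i x ^2
          + sg J h j x * mg J h j x ^2 * Di f j x ^2)
      - 1000 * |J i j|^3 * ∑ x, wt J h x * (sg J h i x * Di f i x ^2 + sg J h j x * Di f j x ^2)
    ≤ ∑ x, wt J h x * ((f x - hb (wt J h) i f x) * (f x - hb (wt J h) j f x))
      + J i j * ∑ x, wt J h x * ((sg J h i x * Di f i x) * (sg J h j x * Di f j x)) := by
  rw [psum_two i j (fun x => wt J h x * (sg J h i x * mg J h i x ^2 * Di f i x ^2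
          + sg J h j x * mg J h j x ^2 * Di f j x ^2)),
    psum_two i j (fun x => wt J h x * (sg J h i x * Di f i x ^2 + sg J h j x * Di f j x ^2)),
    psum_two i j (fun x => wt J h x * ((f x - hb (wt J h) i f x) * (f x - hb (wt J h) j f x))),
    psum_two i j (fun x => wt J h x * ((sg J h i x * Di f i x) * (sg J h j x * Di f j x)))]
  have key : ∀ x : Cfg n,
      - J i j ^2 * ∑ s : Bool, ∑ t : Bool, wt J h (st (st x i s) j t) *
          (sg J h i (st (st x i s) j t) * mg J h i (st (st x i s) j t) ^2 *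
            Di f i (st (st x i s) j t) ^2
          + sg J h j (st (st x i s) j t) * mg J h j (st (st x i s) j t) ^2 *
            Di f j (st (st x i s) j t) ^2)
      - 1000 * |J i j|^3 * ∑ s : Bool, ∑ t : Bool, wt J h (st (st x i s) j t) *
          (sg J h i (st (st x i s) j t) * Di f i (st (st x i s) j t) ^2
            + sg J h j (st (st x i s) j t) * Di f j (st (st x i s) j t) ^2)
      ≤ ∑ s : Bool, ∑ t : Bool, wt J h (st (st x i s) j t) *
          ((f (st (st x i s) j t) - hb (wt J h) i f (st (st x i s) j t)) *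
          (f (st (st x i s) j t) - hb (wt J h) j f (st (st x i s) j t)))
        + J i j * ∑ s : Bool, ∑ t : Bool, wt J h (st (st x i s) j t) *
          ((sg J h i (st (st x i s) j t) * Di f i (st (st x i s) j t)) *
          (sg J h j (st (st x i s) j t) * Di f j (st (st x i s) j t))) := by
    intro x
    set A := Real.exp (Ham J h x - sp (x i) * fld J h i x
        - sp (x j) * fld J h j x + J i j * sp (x i) * sp (x j)) with hA
    have hA0 : 0 < A := Real.exp_pos _
    have hp := hpair (J i j) (fld J h i x - J i j * sp (x j)) (fld J h j x - J i j * sp (x i)) hJ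
      (fun t => Di f i (st x j t)) (fun s => Di f j (st x i s)) (by
        unfold Di
        rw [st_comm x hij true true, st_comm x hij true false, st_comm x hij false true,
          st_comm x hij false false]
        ring)
    have d1 : ∀ s t, Di f i (st (st x i s) j t) = Di f i (st x j t) := by
      intro s t
      rw [st_comm x hij, Di_st]
    have d2 : ∀ s t, Di f j (st (st x i s) j t) = Di f j (st x i s) := by
      intro s t
      rw [Di_st]
    have d3 : ∀ s t, st (st x i s) j t i = s := by
      intro s t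
      rw [st_apply_ne _ hij, st_apply_same]
    have d4 : ∀ s t, st (st x i s) j t j = t := by
      intro s t
      rw [st_apply_same]
    simp only [sub_hb J h hs hd]
    unfold sg
    simp only [psum_wt J h hs hd hij, psum_mgi J h hd hij, psum_mgj J h hs hd, d1, d2, d3, d4]
    rw [← hA]
    have hp2 := mul_le_mul_of_nonneg_left hp hA0.le
    simp only [Fintype.sum_bool] at hp2 ⊢
    refine le_trans (le_of_eq ?_) (hp2.trans (le_of_eq ?_))
    · ring
    · ring
  have hsum := sum_le_sum (s := univ) fun x _ => key x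
  simp only [sum_sub_distrib, sum_add_distrib, ← mul_sum] at hsum ⊢
  linarith

end Vale.Agent.P150
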