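import Vale.Agent.Lib.P150.Pair
import Vale.Agent.Lib.P150.Psum
import Vale.Agent.Lib.P150.Boch
import Vale.Agent.Lib.P150.Abs

namespace Vale.Agent.P150

open Finset

/-- BOCH. -/
theorem bochner {n : ℕ} (J : Fin n → Fin n → ℝ) (h : Fin n → ℝ) (hs : ∀ i j, J i j = J j i)
    (hd : ∀ i, J i i = 0) (L B τ : ℝ)
    (hL : ∀ v : Fin n → ℝ, ∑ i, ∑ j, J i j * v i * v j ≤ L * ∑ i, v i ^ 2)
    (hB : ∀ i, ∑ j, J i j ^ 2 ≤ B) (hτ : ∀ i j, |J i j| ≤ τ) (hτ4 : τ ≤ 1/4) (f : Cfg n → ℝ) :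
    (1 - max L (2*B) - 2000 * τ * B) * dir (wt J h) f
      ≤ ∑ x, wt J h x * (∑ i, (f x - hb (wt J h) i f x)) ^ 2 :=
  bochner_of J h hs hd L B τ hL hB hτ hτ4 f (fun i => dir_eq J h hs hd f i)
    (fun i j hij hJ => pair_sum_of (fun J h k hJ u v huv => pair J h k hJ u v huv)
      J h hs hd f i j hij hJ)

/-- GAP. -/
theorem gap_ineq {n : ℕ} (J : Fin n → Fin n → ℝ) (h : Fin n → ℝ) (hs : ∀ i j, J i j = J j i)
    (hd : ∀ i, J i i = 0) (L B τ : ℝ)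
    (hL : ∀ v : Fin n → ℝ, ∑ i, ∑ j, J i j * v i * v j ≤ L * ∑ i, v i ^ 2)
    (hB : ∀ i, ∑ j, J i j ^ 2 ≤ B) (hτ : ∀ i j, |J i j| ≤ τ) (hτ4 : τ ≤ 1/4)
    (hk : 0 < 1 - max L (2*B) - 2000 * τ * B) (f : Cfg n → ℝ) :
    (1 - max L (2*B) - 2000 * τ * B) * uvar (wt J h) f ≤ dir (wt J h) f :=
  poincare_of_bochner _ (fun _ => Real.exp_pos _) _ hk
    (fun f => bochner J h hs hd L B τ hL hB hτ hτ4 f) f

end Vale.Agent.P150
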