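import Vale.Agent.Lib.P150.Defs

/-!
# P150: laws of linear images of a standard Gaussian vector (used by REC and SYM)
-/

namespace Vale.Agent.P150

open Finset MeasureTheory ProbabilityTheory

/-- law of a subfamily of coordinates -/
theorem GL_sub {ι κ : Type} [Fintype ι] [Fintype κ] (φ : κ → ι) (hφ : Function.Injective φ) :
    (Measure.pi (fun _ : ι => gaussianReal 0 1)).map (fun x a => x (φ a)) =
      Measure.pi (fun _ : κ => gaussianReal 0 1) := by
  have h0 : iIndepFun (fun (i : ι) (x : ι → ℝ) => x i)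
      (Measure.pi (fun _ : ι => gaussianReal 0 1)) :=
    iIndepFun_pi (X := fun _ : ι => (id : ℝ → ℝ)) (fun _ => aemeasurable_id)
  have h1 := h0.precomp hφ
  rw [iIndepFun_iff_map_fun_eq_pi_map (fun a => (measurable_pi_apply (φ a)).aemeasurable)] at h1
  rw [h1]
  congr 1
  funext a
  exact (measurePreserving_eval (fun _ : ι => gaussianReal 0 1) (φ a)).map_eq

/-- independence of two disjoint groups of coordinates -/
theorem GL_indep {ι κ κ' : Type} [Fintype ι] [Fintype κ] [Fintype κ'] (φ : κ → ι) (ψ : κ' → ι)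
    (hd : ∀ a b, φ a ≠ ψ b) :
    IndepFun (fun (x : ι → ℝ) a => x (φ a)) (fun (x : ι → ℝ) b => x (ψ b))
      (Measure.pi (fun _ : ι => gaussianReal 0 1)) := by
  classical
  have h0 : iIndepFun (fun (i : ι) (x : ι → ℝ) => x i)
      (Measure.pi (fun _ : ι => gaussianReal 0 1)) :=
    iIndepFun_pi (X := fun _ : ι => (id : ℝ → ℝ)) (fun _ => aemeasurable_id)
  have hdis : Disjoint (univ.image φ) (univ.image ψ) := by
    rw [Finset.disjoint_left]
    intro i hi hi'
    rw [mem_image] at hi hi'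
    obtain ⟨a, _, rfl⟩ := hi
    obtain ⟨b, _, hb⟩ := hi'
    exact hd a b hb.symm
  have h1 := h0.indepFun_finset (univ.image φ) (univ.image ψ) hdis
    (fun i => measurable_pi_apply i)
  have h2 := h1.comp (φ := fun (y : {i // i ∈ univ.image φ} → ℝ) (a : κ) =>
      y ⟨φ a, mem_image_of_mem φ (mem_univ a)⟩)
    (ψ := fun (y : {i // i ∈ univ.image ψ} → ℝ) (b : κ') =>
      y ⟨ψ b, mem_image_of_mem ψ (mem_univ b)⟩)
    (measurable_pi_lambda _ fun a => measurable_pi_apply _)
    (measurable_pi_lambda _ fun a => measurable_pi_apply _)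
  exact h2

theorem GL_two : ((gaussianReal 0 1).prod (gaussianReal 0 1)).map
    (fun w : ℝ × ℝ => (w.1 + w.2) / Real.sqrt 2) = gaussianReal 0 1 := by
  have h1 : ((gaussianReal 0 1).prod (gaussianReal 0 1)).map (fun w : ℝ × ℝ => w.1 + w.2) =
      gaussianReal 0 2 := by
    have h := gaussianReal_conv_gaussianReal (m₁ := 0) (m₂ := 0) (v₁ := 1) (v₂ := 1)
    unfold Measure.conv at h
    rw [h]
    congr 1
    · norm_num
    · norm_num
  have h2 : ((gaussianReal 0 1).prod (gaussianReal 0 1)).map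
      (fun w : ℝ × ℝ => (w.1 + w.2) / Real.sqrt 2) =
      (((gaussianReal 0 1).prod (gaussianReal 0 1)).map (fun w : ℝ × ℝ => w.1 + w.2)).map
        (fun z => z / Real.sqrt 2) := by
    rw [Measure.map_map (by fun_prop) (by fun_prop)]
    rfl
  rw [h2, h1, gaussianReal_map_div_const]
  congr 1
  · simp
  · ext
    simp

/-- law of the normalised sums of pairs of coordinates -/
theorem GL_pair {ι κ : Type} [Fintype ι] [Fintype κ] (φ ψ : κ → ι) (hφ : Function.Injective φ)
    (hψ : Function.Injective ψ) (hd : ∀ a b, φ a ≠ ψ b) :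
    (Measure.pi (fun _ : ι => gaussianReal 0 1)).map
      (fun x a => (x (φ a) + x (ψ a)) / Real.sqrt 2) =
      Measure.pi (fun _ : κ => gaussianReal 0 1) := by
  have hind := GL_indep φ ψ hd
  have hmφ : Measurable (fun (x : ι → ℝ) (a : κ) => x (φ a)) :=
    measurable_pi_lambda _ fun a => measurable_pi_apply _
  have hmψ : Measurable (fun (x : ι → ℝ) (a : κ) => x (ψ a)) :=
    measurable_pi_lambda _ fun a => measurable_pi_apply _
  rw [indepFun_iff_map_prod_eq_prod_map_map hmφ.aemeasurable hmψ.aemeasurable, GL_sub φ hφ,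
    GL_sub ψ hψ] at hind
  have hG : Measurable (fun (yz : (κ → ℝ) × (κ → ℝ)) (a : κ) =>
      (yz.1 a + yz.2 a) / Real.sqrt 2) := by fun_prop
  have e1 : (Measure.pi (fun _ : ι => gaussianReal 0 1)).map
      (fun x a => (x (φ a) + x (ψ a)) / Real.sqrt 2) =
      ((Measure.pi (fun _ : ι => gaussianReal 0 1)).map
        (fun x => ((fun a => x (φ a)), fun a => x (ψ a)))).map
        (fun (yz : (κ → ℝ) × (κ → ℝ)) (a : κ) => (yz.1 a + yz.2 a) / Real.sqrt 2) := by
    rw [Measure.map_map hG (hmφ.prodMk hmψ)]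
    rfl
  rw [e1, hind]
  have hmp := measurePreserving_arrowProdEquivProdArrow ℝ ℝ κ (fun _ => gaussianReal 0 1)
    (fun _ => gaussianReal 0 1)
  rw [← hmp.map_eq, Measure.map_map hG hmp.measurable]
  have e2 : (fun (yz : (κ → ℝ) × (κ → ℝ)) (a : κ) => (yz.1 a + yz.2 a) / Real.sqrt 2) ∘
      (MeasurableEquiv.arrowProdEquivProdArrow ℝ ℝ κ) =
      fun (w : κ → ℝ × ℝ) (a : κ) => ((w a).1 + (w a).2) / Real.sqrt 2 := rfl
  rw [e2]
  have hf : ∀ _ : κ, AEMeasurable (fun w : ℝ × ℝ => (w.1 + w.2) / Real.sqrt 2)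
      ((gaussianReal 0 1).prod (gaussianReal 0 1)) := fun _ => by fun_prop
  have hp : ∀ _ : κ, IsProbabilityMeasure (((gaussianReal 0 1).prod (gaussianReal 0 1)).map
      (fun w : ℝ × ℝ => (w.1 + w.2) / Real.sqrt 2)) := fun a =>
    Measure.isProbabilityMeasure_map (hf a)
  rw [Measure.pi_map_pi hf]
  simp only [GL_two]

end Vale.Agent.P150
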