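import Vale.Agent.Lib.P150.Fail

/-!
P150, module GOE: norm of the GOE from the chi-square tail and the Schur complement recursion.
-/

namespace Vale.Agent.P150

open Finset MeasureTheory ProbabilityTheory Filter Topology

/-- the first basis vector -/
def GOE_u (n : ℕ) : Fin n → ℝ := fun i => if i.val = 0 then 1 else 0

theorem GOE_u_sq (n : ℕ) (hn : n ≠ 0) : ∑ i, GOE_u n i ^ 2 = 1 := by
  obtain ⟨m, rfl⟩ := Nat.exists_eq_succ_of_ne_zero hn
  rw [Fin.sum_univ_succ]
  simp [GOE_u]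

theorem GOE_fail_zero (lam c : ℝ) (u : Fin 0 → ℝ) : Fail 0 lam c u = ∅ := by
  unfold Fail
  ext X
  simp

/-- Gaussian tail from the chi-square tail in dimension one -/
theorem GOE_tail
    (hchi : ∀ δ : ℝ, 0 < δ → ∃ c : ℝ, 0 < c ∧ ∀ (ι : Type) [Fintype ι] (N : ℝ),
      (Fintype.card ι : ℝ) ≤ N →
      (Measure.pi (fun _ : ι => gaussianReal 0 1)) {x | (1 + δ) * N ≤ ∑ i, x i ^ 2}
        ≤ ENNReal.ofReal (Real.exp (-c * N))) :
    ∃ c : ℝ, 0 < c ∧ ∀ t : ℝ, 0 ≤ t → 2 ≤ t ^ 2 →
      (gaussianReal 0 1) {x | t < x} ≤ ENNReal.ofReal (Real.exp (-c * t ^ 2)) := by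
  obtain ⟨c, hc, h⟩ := hchi 1 one_pos
  refine ⟨c / 2, by positivity, fun t ht0 ht => ?_⟩
  have h1 := h Unit (t ^ 2 / 2) (by simp; linarith)
  have hmp := measurePreserving_funUnique (gaussianReal 0 1) Unit
  have hS : MeasurableSet {x : ℝ | t < x} := measurableSet_Ioi
  rw [← hmp.measure_preimage hS.nullMeasurableSet]
  refine le_trans (measure_mono ?_) (le_trans h1 (le_of_eq ?_))
  · intro g hg
    simp only [Set.mem_preimage, Set.mem_ofPred_eq, MeasurableEquiv.funUnique_apply] at hg ⊢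
    simp only [univ_unique, sum_singleton]
    have : t ^ 2 ≤ g default ^ 2 := by
      have h2 : 0 ≤ g default := by
        have := hg.le
        exact ht0.trans this
      nlinarith [hg.le]
    calc (1 + 1) * (t ^ 2 / 2) = t ^ 2 := by ring
      _ ≤ _ := this
  · congr 2
    ring

theorem goe_of
    (hchi : ∀ δ : ℝ, 0 < δ → ∃ c : ℝ, 0 < c ∧ ∀ (ι : Type) [Fintype ι] (N : ℝ),
      (Fintype.card ι : ℝ) ≤ N →
      (Measure.pi (fun _ : ι => gaussianReal 0 1)) {x | (1 + δ) * N ≤ ∑ i, x i ^ 2}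
        ≤ ENNReal.ofReal (Real.exp (-c * N)))
    (hrec : ∀ (n : ℕ) (N δ c lam : ℝ), 0 < N → 0 < δ → 0 ≤ c →
      0 < lam - δ * Real.sqrt N - c →
      (1 + δ) * N / (lam - δ * Real.sqrt N - c) ≤ c →
      ∀ (u : Fin (n+1) → ℝ), ∑ i, u i ^ 2 = 1 → ∀ (u' : Fin n → ℝ),
      (n ≠ 0 → ∑ i, u' i ^ 2 = 1) →
      dis (n+1) (Fail (n+1) lam c u) ≤ dis n (Fail n lam c u')
        + (gaussianReal 0 1) {x | δ * Real.sqrt N < Real.sqrt 2 * x}
        + (Measure.pi (fun _ : Fin n => gaussianReal 0 1)) {g | (1 + δ) * N < ∑ i, g i ^ 2})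
    (e : ℝ) (he : 0 < e) : Tendsto (fun n : ℕ => dis n
    {X | ¬ ∀ v : Fin n → ℝ, Real.sqrt 2 * ∑ i, ∑ j, X (i, j) * v i * v j
        ≤ (2 + e) * Real.sqrt n * ∑ i, v i ^ 2}) atTop (𝓝 0) := by
  set δ : ℝ := min e 1 / 2 with hδdef
  have hδ0 : 0 < δ := by
    rw [hδdef]
    have : 0 < min e 1 := lt_min he one_pos
    linarith
  have hδe : 2 * δ ≤ e := by
    rw [hδdef]
    have : min e 1 ≤ e := min_le_left _ _
    linarith
  obtain ⟨c1, hc1, ht⟩ := GOE_tail hchi
  obtain ⟨c2, hc2, hx⟩ := hchi δ hδ0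
  -- the bound for large n
  have key : ∀ n : ℕ, 4 / δ ^ 2 ≤ n → 1 ≤ n → dis n
      {X | ¬ ∀ v : Fin n → ℝ, Real.sqrt 2 * ∑ i, ∑ j, X (i, j) * v i * v j
        ≤ (2 + e) * Real.sqrt n * ∑ i, v i ^ 2} ≤
      ENNReal.ofReal (n * (Real.exp (-(c1 * (δ ^ 2 / 2)) * n) + Real.exp (-c2 * n))) := by
    intro n hn hn1
    have hnp : (0 : ℝ) < n := by exact_mod_cast hn1
    have hsq : 0 < Real.sqrt n := Real.sqrt_pos.mpr hnp
    have hss : Real.sqrt n * Real.sqrt n = n := Real.mul_self_sqrt hnp.le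
    set lam : ℝ := (2 + e) * Real.sqrt n with hlam
    have hD : lam - δ * Real.sqrt n - Real.sqrt n = (1 + e - δ) * Real.sqrt n := by
      rw [hlam]; ring
    have hDpos : 0 < lam - δ * Real.sqrt n - Real.sqrt n := by
      rw [hD]
      have : 0 < 1 + e - δ := by linarith
      positivity
    have hstep : (1 + δ) * (n : ℝ) / (lam - δ * Real.sqrt n - Real.sqrt n) ≤ Real.sqrt n := by
      rw [div_le_iff₀ hDpos, hD]
      have : Real.sqrt n * ((1 + e - δ) * Real.sqrt n) = (1 + e - δ) * n := by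
        calc Real.sqrt n * ((1 + e - δ) * Real.sqrt n)
            = (1 + e - δ) * (Real.sqrt n * Real.sqrt n) := by ring
          _ = (1 + e - δ) * n := by rw [hss]
      rw [this]
      have : (1 + δ) ≤ (1 + e - δ) := by linarith
      nlinarith
    -- tails
    have hA : (gaussianReal 0 1) {x | δ * Real.sqrt n < Real.sqrt 2 * x} ≤
        ENNReal.ofReal (Real.exp (-(c1 * (δ ^ 2 / 2)) * n)) := by
      have hs2 : 0 < Real.sqrt 2 := Real.sqrt_pos.mpr (by norm_num)
      have hsq2 : (δ * Real.sqrt n / Real.sqrt 2) ^ 2 = δ ^ 2 / 2 * n := by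
        rw [div_pow, mul_pow, Real.sq_sqrt hnp.le, Real.sq_sqrt (by norm_num : (0:ℝ) ≤ 2)]
        ring
      have h4 : 2 ≤ (δ * Real.sqrt n / Real.sqrt 2) ^ 2 := by
        rw [hsq2]
        rw [div_le_iff₀ (by positivity)] at hn
        nlinarith
      have h5 := ht (δ * Real.sqrt n / Real.sqrt 2) (by positivity) h4
      rw [hsq2] at h5
      refine le_trans (measure_mono ?_) (le_trans h5 (le_of_eq ?_))
      · intro x hx'
        simp only [Set.mem_ofPred_eq] at hx' ⊢
        rw [div_lt_iff₀ hs2]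
        linarith [mul_comm x (Real.sqrt 2)]
      · congr 2
        ring
    have hB : ∀ k : ℕ, k ≤ n → (Measure.pi (fun _ : Fin k => gaussianReal 0 1))
        {g | (1 + δ) * (n : ℝ) < ∑ i, g i ^ 2} ≤ ENNReal.ofReal (Real.exp (-c2 * n)) := by
      intro k hk
      have h6 := hx (Fin k) n (by simp; exact_mod_cast hk)
      refine le_trans (measure_mono ?_) h6
      intro g hg
      have hg' : (1 + δ) * (n : ℝ) < ∑ i, g i ^ 2 := hg
      exact hg'.le
    -- iteration
    have hiter : ∀ k : ℕ, k ≤ n → dis k (Fail k lam (Real.sqrt n) (GOE_u k)) ≤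
        k • (ENNReal.ofReal (Real.exp (-(c1 * (δ ^ 2 / 2)) * n)) +
          ENNReal.ofReal (Real.exp (-c2 * n))) := by
      intro k
      induction k with
      | zero =>
        intro _
        rw [GOE_fail_zero]
        simp
      | succ k ih =>
        intro hk
        have h7 := hrec k n δ (Real.sqrt n) lam hnp hδ0 hsq.le hDpos hstep
          (GOE_u (k+1)) (GOE_u_sq (k+1) (Nat.succ_ne_zero k)) (GOE_u k) (GOE_u_sq k)
        refine h7.trans ?_
        rw [succ_nsmul, add_assoc]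
        exact add_le_add (ih (by omega)) (add_le_add hA (hB k (by omega)))
    have h8 := hiter n le_rfl
    refine le_trans (measure_mono ?_) (h8.trans (le_of_eq ?_))
    · intro X hX
      unfold Fail
      simp only [Set.mem_ofPred_eq] at hX ⊢
      intro h9
      apply hX
      intro v
      have h10 := h9 v
      have h11 : 0 ≤ Real.sqrt n * (∑ i, GOE_u n i * v i) ^ 2 := by positivity
      linarith
    · rw [← ENNReal.ofReal_add (Real.exp_pos _).le (Real.exp_pos _).le, nsmul_eq_mul,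
        ENNReal.ofReal_mul hnp.le]
      congr 1
      rw [ENNReal.ofReal_natCast]
  -- limit
  have hlim : Tendsto (fun n : ℕ => (n : ℝ) * (Real.exp (-(c1 * (δ ^ 2 / 2)) * n) +
      Real.exp (-c2 * n))) atTop (𝓝 0) := by
    have hexp : ∀ a : ℝ, 0 < a → Tendsto (fun n : ℕ => (n : ℝ) * Real.exp (-a * n)) atTop (𝓝 0) := by
      intro a ha
      have h1 : Tendsto (fun x : ℝ => x * Real.exp (-a * x)) atTop (𝓝 0) := by
        have h2 := Real.tendsto_pow_mul_exp_neg_atTop_nhds_zero 1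
        have h3 : Tendsto (fun x : ℝ => a * x) atTop atTop :=
          Tendsto.const_mul_atTop ha tendsto_id
        have h4 := (h2.comp h3).const_mul (1 / a)
        rw [mul_zero] at h4
        refine h4.congr fun x => ?_
        simp only [Function.comp, pow_one]
        rw [show -(a * x) = -a * x by ring]
        field_simp
      exact h1.comp tendsto_natCast_atTop_atTop
    have h5 := (hexp (c1 * (δ ^ 2 / 2)) (by positivity)).add (hexp c2 hc2)
    rw [add_zero] at h5
    refine h5.congr fun n => ?_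
    ring
  have hlim2 : Tendsto (fun n : ℕ => ENNReal.ofReal ((n : ℝ) *
      (Real.exp (-(c1 * (δ ^ 2 / 2)) * n) + Real.exp (-c2 * n)))) atTop (𝓝 0) := by
    have := ENNReal.tendsto_ofReal hlim
    rwa [ENNReal.ofReal_zero] at this
  refine tendsto_of_tendsto_of_tendsto_of_le_of_le' tendsto_const_nhds hlim2
    (Eventually.of_forall fun _ => bot_le) ?_
  obtain ⟨n0, hn0⟩ := exists_nat_ge (4 / δ ^ 2)
  filter_upwards [eventually_ge_atTop (max n0 1)] with n hn
  refine key n ?_ ?_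
  · exact hn0.trans (by exact_mod_cast (le_max_left n0 1).trans hn)
  · exact (le_max_right n0 1).trans hn

end Vale.Agent.P150
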