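import Vale.Agent.Lib.P150.Defs

/-!
P150, module LOC: local identities for the heat-bath average.
-/

namespace Vale.Agent.P150

open Finset

variable {n : ℕ}

theorem sp_sq (b : Bool) : sp b ^ 2 = 1 := by cases b <;> simp [sp]

theorem st_self (x : Cfg n) (i : Fin n) : st x i (x i) = x := by
  unfold st; exact Function.update_eq_self i x

theorem st_st (x : Cfg n) (i : Fin n) (b b' : Bool) : st (st x i b) i b' = st x i b' := by
  unfold st; exact Function.update_idem _ _ _

theorem st_apply_same (x : Cfg n) (i : Fin n) (b : Bool) : st x i b i = b := by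
  unfold st; exact Function.update_self _ _ _

theorem st_apply_ne (x : Cfg n) {i j : Fin n} (h : j ≠ i) (b : Bool) : st x i b j = x j := by
  unfold st; exact Function.update_of_ne h _ _

theorem st_comm (x : Cfg n) {i j : Fin n} (h : i ≠ j) (b b' : Bool) :
    st (st x i b) j b' = st (st x j b') i b := by
  unfold st; exact Function.update_comm h _ _ _

theorem sp_st (x : Cfg n) (i : Fin n) (b : Bool) (j : Fin n) :
    sp (st x i b j) = sp (x j) + if j = i then sp b - sp (x i) else 0 := by
  by_cases h : j = i
  · subst h; rw [st_apply_same, if_pos rfl]; ring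
  · rw [st_apply_ne x h, if_neg h, add_zero]

/-- the sum over all configurations, averaged over the spin at `i` -/
theorem sum_pair_st (i : Fin n) (F : Cfg n → ℝ) :
    ∑ x, F x = (1 / 2) * ∑ x, ∑ b : Bool, F (st x i b) := by
  have h1 : ∑ x : Cfg n, F (st x i (!(x i))) = ∑ x, F x := by
    refine Fintype.sum_equiv (Function.Involutive.toPerm (fun x : Cfg n => st x i (!(x i))) ?_) _ _
      (fun x => rfl)
    intro x
    simp only [st_apply_same, st_st, Bool.not_not, st_self]
  have h2 : ∀ x : Cfg n, ∑ b : Bool, F (st x i b) = F x + F (st x i (!(x i))) := by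
    intro x
    rw [Fintype.sum_bool]
    rcases hb : x i with _ | _
    · have : st x i false = x := by rw [← hb]; exact st_self x i
      rw [this, Bool.not_false]; ring
    · have : st x i true = x := by rw [← hb]; exact st_self x i
      rw [this, Bool.not_true]
  simp only [h2, sum_add_distrib, h1]
  ring

theorem Ham_st (J : Fin n → Fin n → ℝ) (h : Fin n → ℝ) (hs : ∀ i j, J i j = J j i)
    (hd : ∀ i, J i i = 0) (x : Cfg n) (i : Fin n) (b : Bool) :
    Ham J h (st x i b) = Ham J h x + (sp b - sp (x i)) * fld J h i x := by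
  unfold Ham fld
  simp only [sp_st]
  set δ := sp b - sp (x i) with hδ
  have e1 : ∀ j k, J j k * (sp (x j) + if j = i then δ else 0) * (sp (x k) + if k = i then δ else 0)
      = J j k * sp (x j) * sp (x k) + (if j = i then δ * (J j k * sp (x k)) else 0)
        + (if k = i then δ * (J j k * sp (x j)) else 0)
        + (if j = i then (if k = i then δ * δ * J j k else 0) else 0) := by
    intro j k
    split_ifs <;> ring
  have e2 : ∀ j, h j * (sp (x j) + if j = i then δ else 0) =
      h j * sp (x j) + if j = i then δ * h j else 0 := by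
    intro j
    split_ifs <;> ring
  simp only [e1, e2, sum_add_distrib]
  have s1 : ∑ j, ∑ k, (if j = i then δ * (J j k * sp (x k)) else 0) =
      δ * ∑ k, J i k * sp (x k) := by
    have : ∀ j, ∑ k, (if j = i then δ * (J j k * sp (x k)) else 0) =
        if j = i then δ * ∑ k, J j k * sp (x k) else 0 := by
      intro j
      split_ifs
      · rw [mul_sum]
      · simp
    simp only [this, sum_ite_eq', mem_univ, if_true]
  have s2 : ∑ j, ∑ k, (if k = i then δ * (J j k * sp (x j)) else 0) =
      δ * ∑ k, J i k * sp (x k) := by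
    simp only [sum_ite_eq', mem_univ, if_true]
    rw [← mul_sum]
    congr 1
    exact sum_congr rfl fun j _ => by rw [hs j i]
  have s3 : ∑ j, ∑ k, (if j = i then (if k = i then δ * δ * J j k else 0) else 0) = 0 := by
    refine sum_eq_zero fun j _ => sum_eq_zero fun k _ => ?_
    split_ifs with h1 h2
    · rw [h1, h2, hd i, mul_zero]
    · rfl
    · rfl
  have s4 : ∑ j, (if j = i then δ * h j else 0) = δ * h i := by
    simp only [sum_ite_eq', mem_univ, if_true]
  rw [s1, s2, s3, s4]
  ring

theorem fld_st (J : Fin n → Fin n → ℝ) (h : Fin n → ℝ) (x : Cfg n) (i j : Fin n) (b : Bool) :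
    fld J h j (st x i b) = fld J h j x + J j i * (sp b - sp (x i)) := by
  unfold fld
  simp only [sp_st]
  have e1 : ∀ k, J j k * (sp (x k) + if k = i then sp b - sp (x i) else 0) =
      J j k * sp (x k) + if k = i then J j k * (sp b - sp (x i)) else 0 := by
    intro k
    split_ifs <;> ring
  simp only [e1, sum_add_distrib, sum_ite_eq', mem_univ, if_true]
  ring

theorem mg_st (J : Fin n → Fin n → ℝ) (h : Fin n → ℝ) (hd : ∀ i, J i i = 0) (x : Cfg n)
    (i : Fin n) (b : Bool) : mg J h i (st x i b) = mg J h i x := by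
  unfold mg
  rw [fld_st, hd i, zero_mul, add_zero]

theorem Di_st (f : Cfg n → ℝ) (i : Fin n) (x : Cfg n) (b : Bool) :
    Di f i (st x i b) = Di f i x := by
  unfold Di
  rw [st_st, st_st]

/-- the weight of the two configurations at a site -/
theorem wt_st (J : Fin n → Fin n → ℝ) (h : Fin n → ℝ) (hs : ∀ i j, J i j = J j i)
    (hd : ∀ i, J i i = 0) (x : Cfg n) (i : Fin n) (b : Bool) :
    wt J h (st x i b) = Real.exp (Ham J h x - sp (x i) * fld J h i x) *
      Real.exp (sp b * fld J h i x) := by
  unfold wt
  rw [Ham_st J h hs hd, ← Real.exp_add]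
  congr 1
  ring

theorem tanh_exp (F : ℝ) :
    Real.tanh F * (Real.exp F + Real.exp (-F)) = Real.exp F - Real.exp (-F) := by
  rw [Real.tanh_eq_sinh_div_cosh, Real.sinh_eq, Real.cosh_eq]
  have : Real.exp F + Real.exp (-F) ≠ 0 := by positivity
  field_simp

/-- LOC1. -/
theorem sub_hb {n : ℕ} (J : Fin n → Fin n → ℝ) (h : Fin n → ℝ) (hs : ∀ i j, J i j = J j i)
    (hd : ∀ i, J i i = 0) (f : Cfg n → ℝ) (i : Fin n) (x : Cfg n) :
    f x - hb (wt J h) i f x = (sp (x i) - mg J h i x) * Di f i x := by
  unfold hb mg Di
  rw [wt_st J h hs hd, wt_st J h hs hd]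
  set C := Real.exp (Ham J h x - sp (x i) * fld J h i x) with hC
  set F := fld J h i x with hF
  have hC0 : 0 < C := Real.exp_pos _
  have e1 : sp true = 1 := by simp [sp]
  have e2 : sp false = -1 := by simp [sp]
  rw [e1, e2, one_mul, neg_one_mul]
  set p := Real.exp F with hp
  set q := Real.exp (-F) with hq
  have hp0 : 0 < p := Real.exp_pos _
  have hq0 : 0 < q := Real.exp_pos _
  have ht : Real.tanh F = (p - q) / (p + q) := by
    rw [eq_div_iff (by positivity)]
    exact tanh_exp F
  rw [ht]
  have hfx : f x = (f (st x i true) + f (st x i false)) / 2 +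
      sp (x i) * ((f (st x i true) - f (st x i false)) / 2) := by
    rcases hb : x i with _ | _
    · have : st x i false = x := by rw [← hb]; exact st_self x i
      rw [this, e2]; ring
    · have : st x i true = x := by rw [← hb]; exact st_self x i
      rw [this, e1]; ring
  rw [hfx]
  set a := f (st x i true)
  set b := f (st x i false)
  field_simp
  ring

/-- LOC2. -/
theorem dir_eq {n : ℕ} (J : Fin n → Fin n → ℝ) (h : Fin n → ℝ) (hs : ∀ i j, J i j = J j i)
    (hd : ∀ i, J i i = 0) (f : Cfg n → ℝ) (i : Fin n) :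
    ∑ x, wt J h x * (f x - hb (wt J h) i f x) ^ 2
      = ∑ x, wt J h x * (sg J h i x * Di f i x ^ 2) := by
  rw [sum_pair_st i, sum_pair_st i (fun x => wt J h x * (sg J h i x * Di f i x ^ 2))]
  congr 1
  refine sum_congr rfl fun x _ => ?_
  rw [Fintype.sum_bool, Fintype.sum_bool]
  unfold sg
  simp only [sub_hb J h hs hd, mg_st J h hd, Di_st, st_apply_same, wt_st J h hs hd]
  set C := Real.exp (Ham J h x - sp (x i) * fld J h i x) with hC
  have e1 : sp true = 1 := by simp [sp]
  have e2 : sp false = -1 := by simp [sp]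
  rw [e1, e2, one_mul, neg_one_mul]
  unfold mg
  set F := fld J h i x with hF
  have ht := tanh_exp F
  set p := Real.exp F
  set q := Real.exp (-F)
  set m := Real.tanh F
  set D := Di f i x
  have : C * p * ((1 - m) * D) ^ 2 + C * q * ((-1 - m) * D) ^ 2 -
      (C * p * ((1 - m ^ 2) * D ^ 2) + C * q * ((1 - m ^ 2) * D ^ 2)) =
      2 * C * D ^ 2 * m * (m * (p + q) - (p - q)) := by ring
  have h0 : m * (p + q) - (p - q) = 0 := by linarith
  rw [h0, mul_zero] at this
  linarith

end Vale.Agent.P150
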