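import Vale.Agent.Lib.P150.LowTvd
import Vale.Agent.Lib.P150.GoodWhp

/-!
# P150, module LOW, part 5: for every fixed `b`, mixing takes time at least `a log n`, w.h.p.
-/

namespace Vale.Agent.P150

open Finset MeasureTheory ProbabilityTheory Filter Topology

theorem LOW_sk_symm {n : ℕ} (b : ℝ) (g : Fin n × Fin n → ℝ) (i j : Fin n) :
    sk b g i j = sk b g j i := by
  unfold sk
  rcases lt_trichotomy i j with h | h | h
  · rw [if_pos h, if_neg (not_lt.mpr h.le), if_pos h]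
  · rw [h]
  · rw [if_neg (not_lt.mpr h.le), if_pos h, if_pos h]

theorem LOW_sk_diag {n : ℕ} (b : ℝ) (g : Fin n × Fin n → ℝ) (i : Fin n) : sk b g i i = 0 := by
  unfold sk
  rw [if_neg (lt_irrefl i), if_neg (lt_irrefl i)]

theorem LOW_sk_mul {n : ℕ} (b : ℝ) (g : Fin n × Fin n → ℝ) (i j : Fin n) :
    sk b g i j = b * sk 1 g i j := by
  unfold sk
  split_ifs <;> ring

theorem LOW_time (K t : ℝ) (hK : 0 ≤ K) (n : ℕ) (hn : 256 < n) (ht : 0 ≤ t)
    (hta : t ≤ 1 / (2 * (K + 3)) * Real.log n) :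
    16 * t * Real.exp ((K + 2) * t) < n := by
  have hn0 : (256 : ℝ) < n := by exact_mod_cast hn
  have h1 : t ≤ Real.exp t := by
    have := Real.add_one_le_exp t
    linarith
  have h2 : 16 * t * Real.exp ((K + 2) * t) ≤ 16 * Real.exp ((K + 3) * t) := by
    have h3 : Real.exp ((K + 3) * t) = Real.exp t * Real.exp ((K + 2) * t) := by
      rw [← Real.exp_add]; congr 1; ring
    rw [h3]
    have := mul_le_mul_of_nonneg_right h1 (Real.exp_pos ((K + 2) * t)).le
    linarith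
  have h4 : (K + 3) * t ≤ Real.log n / 2 := by
    have h5 := mul_le_mul_of_nonneg_left hta (by linarith : (0 : ℝ) ≤ K + 3)
    have h6 : (K + 3) * (1 / (2 * (K + 3)) * Real.log n) = Real.log n / 2 := by
      have : K + 3 ≠ 0 := by linarith
      field_simp
    linarith
  have h7 : Real.exp ((K + 3) * t) ≤ Real.exp (Real.log n / 2) := Real.exp_le_exp.mpr h4
  set r := Real.exp (Real.log n / 2) with hr
  have h8 : r * r = n := by
    rw [hr, ← Real.exp_add, add_halves, Real.exp_log (by linarith)]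
  have hr0 : 0 < r := Real.exp_pos _
  have h9 : 16 < r := by
    by_contra hcon
    push Not at hcon
    nlinarith
  nlinarith

/-- **Lower bound, total variation form.** For every fixed `b ≥ 0` there is `a > 0` such that,
with probability tending to one, for every time `0 ≤ t ≤ a log n` some starting point is at
distance more than `1/4` from equilibrium. -/
theorem low_tvd (b : ℝ) (hb : 0 ≤ b) : ∃ a : ℝ, 0 < a ∧ Tendsto (fun n : ℕ => dis n
    {g | ¬ ∀ t : ℝ, 0 ≤ t → t ≤ a * Real.log n → ∃ x, 1 / 4 < tvd (sk b g) 0 t x})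
    atTop (𝓝 0) := by
  obtain ⟨K, hK⟩ : ∃ K : ℝ, K = 2 * (3 * b) + 32 * (2 * b ^ 2) := ⟨_, rfl⟩
  have hK0 : 0 ≤ K := by rw [hK]; positivity
  refine ⟨1 / (2 * (K + 3)), by positivity, ?_⟩
  have he0 : 0 < 1 / (16 * (b + 1)) := by positivity
  have he1 : 1 / (16 * (b + 1)) ≤ 1 := by
    rw [div_le_one (by positivity)]
    linarith
  obtain ⟨e, he⟩ : ∃ e : ℝ, e = 1 / (16 * (b + 1)) := ⟨_, rfl⟩
  rw [← he] at he0 he1
  have hbe : b * e ≤ 1 / 16 := by
    rw [he, mul_one_div, div_le_div_iff₀ (by positivity) (by norm_num)]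
    linarith
  refine tendsto_of_tendsto_of_tendsto_of_le_of_le' tendsto_const_nhds (good_whp e he0)
    (Eventually.of_forall fun n => zero_le) ?_
  filter_upwards [eventually_gt_atTop 256] with n hn
  refine measure_mono ?_
  intro g hg hgood
  apply hg
  intro t ht hta
  obtain ⟨g1, g2, g3⟩ := hgood
  have hJ1 : ∀ i j, |sk b g i j| ≤ 1 / 16 := by
    intro i j
    rw [LOW_sk_mul, abs_mul, abs_of_nonneg hb]
    exact (mul_le_mul_of_nonneg_left (g3 i j) hb).trans hbe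
  have hB : ∀ i, ∑ j, sk b g i j ^ 2 ≤ 2 * b ^ 2 := by
    intro i
    have h1 : ∑ j, sk b g i j ^ 2 = b ^ 2 * ∑ j, sk 1 g i j ^ 2 := by
      rw [mul_sum]
      exact sum_congr rfl fun j _ => by rw [LOW_sk_mul b g i j]; ring
    rw [h1]
    have := mul_le_mul_of_nonneg_left (g2 i) (sq_nonneg b)
    nlinarith [sq_nonneg b]
  have hL : ∀ v : Fin n → ℝ, |∑ i, ∑ j, sk b g i j * v i * v j| ≤ 3 * b * ∑ i, v i ^ 2 := by
    intro v
    have h1 : ∑ i, ∑ j, sk b g i j * v i * v j = b * ∑ i, ∑ j, sk 1 g i j * v i * v j := by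
      rw [mul_sum]
      refine sum_congr rfl fun i _ => ?_
      rw [mul_sum]
      exact sum_congr rfl fun j _ => by rw [LOW_sk_mul b g i j]; ring
    rw [h1, abs_mul, abs_of_nonneg hb]
    have h2 := mul_le_mul_of_nonneg_left (g1 v) hb
    have h3 : 0 ≤ ∑ i, v i ^ 2 := sum_nonneg fun i _ => sq_nonneg _
    have h4 : b * ((2 + e) * ∑ i, v i ^ 2) ≤ 3 * b * ∑ i, v i ^ 2 := by
      have h5 : 0 ≤ b * ∑ i, v i ^ 2 := mul_nonneg hb h3
      nlinarith
    linarith
  refine LOW_tvd (by omega) (sk b g) (LOW_sk_symm b g) (LOW_sk_diag b g) (3 * b) (2 * b ^ 2) hL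
    (by positivity) (by positivity) hB hJ1 t ht ?_
  rw [← hK]
  exact LOW_time K t hK0 n hn ht hta

/-- **Lower bound for the mixing time**, given that the chain mixes at all. -/
theorem low_tmix_of (hne : ∀ {n : ℕ}, 0 < n → ∀ (J : Fin n → Fin n → ℝ) (h : Fin n → ℝ),
    (∀ i j, J i j = J j i) → (∀ i, J i i = 0) → ∃ t : ℝ, 0 ≤ t ∧ ∀ x, tvd J h t x ≤ 1 / 4)
    (b : ℝ) (hb : 0 ≤ b) : ∃ a : ℝ, 0 < a ∧ Tendsto (fun n : ℕ => dis n
    {g | ¬ a * Real.log n ≤ tmix (sk b g) 0}) atTop (𝓝 0) := by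
  obtain ⟨a, ha, hlim⟩ := low_tvd b hb
  refine ⟨a, ha, ?_⟩
  refine tendsto_of_tendsto_of_tendsto_of_le_of_le' tendsto_const_nhds hlim
    (Eventually.of_forall fun n => zero_le) ?_
  filter_upwards [eventually_gt_atTop 0] with n hn
  refine measure_mono ?_
  intro g hg hall
  apply hg
  obtain ⟨t0, ht0, ht1⟩ := hne hn (sk b g) 0 (LOW_sk_symm b g) (LOW_sk_diag b g)
  refine le_csInf ⟨t0, ht0, ht1⟩ ?_
  rintro t ⟨h0, h1⟩
  by_contra hcon
  push Not at hcon
  obtain ⟨x, hx⟩ := hall t h0 hcon.le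
  have := h1 x
  linarith

end Vale.Agent.P150
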