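import Vale.Agent.Lib.P150.Loc
import Vale.Agent.Lib.P150.Chan

/-!
# P150, module LOW, part 1: pointwise gradient inequality for the heat-bath generator
-/

namespace Vale.Agent.P150

open Finset

variable {n : ℕ}

/-- the generator written with discrete derivatives -/
noncomputable def LOWL (J : Fin n → Fin n → ℝ) (h : Fin n → ℝ) (f : Cfg n → ℝ) (x : Cfg n) : ℝ :=
  - ∑ j, (sp (x j) - mg J h j x) * Di f j x

/-- the configuration with the spin at `i` flipped -/
def LOWfl (x : Cfg n) (i : Fin n) : Cfg n := st x i (!(x i))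

theorem LOW_cases (f : Cfg n → ℝ) (i : Fin n) (x : Cfg n) :
    (sp (x i) = 1 ∧ f (st x i true) = f x ∧ f (st x i false) = f (LOWfl x i)) ∨
    (sp (x i) = -1 ∧ f (st x i false) = f x ∧ f (st x i true) = f (LOWfl x i)) := by
  unfold LOWfl
  rcases hb : x i with _ | _
  · right
    refine ⟨by simp [sp], ?_, by simp⟩
    have : st x i false = x := by rw [← hb]; exact st_self x i
    rw [this]
  · left
    refine ⟨by simp [sp], ?_, by simp⟩
    have : st x i true = x := by rw [← hb]; exact st_self x i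
    rw [this]

theorem LOW_fl_eq (f : Cfg n → ℝ) (i : Fin n) (x : Cfg n) :
    f (LOWfl x i) = f x - 2 * sp (x i) * Di f i x := by
  unfold Di
  rcases LOW_cases f i x with ⟨h1, h2, h3⟩ | ⟨h1, h2, h3⟩
  · rw [h1, h2, h3]; ring
  · rw [h1, h2, h3]; ring

theorem LOW_leibniz (u v : Cfg n → ℝ) (i : Fin n) (x : Cfg n) :
    Di (fun y => u y * v y) i x = u x * Di v i x + Di u i x * v (LOWfl x i) := by
  have hu : Di u i x = (u (st x i true) - u (st x i false)) / 2 := rfl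
  have hv : Di v i x = (v (st x i true) - v (st x i false)) / 2 := rfl
  have huv : Di (fun y => u y * v y) i x =
    (u (st x i true) * v (st x i true) - u (st x i false) * v (st x i false)) / 2 := rfl
  rw [huv, hu, hv]
  rcases LOW_cases u i x with ⟨h1, h2, h3⟩ | ⟨h1, h2, h3⟩
  · rcases LOW_cases v i x with ⟨k1, k2, k3⟩ | ⟨k1, k2, k3⟩
    · rw [h2, h3, k2, k3]; ring
    · exfalso; rw [h1] at k1; norm_num at k1
  · rcases LOW_cases v i x with ⟨k1, k2, k3⟩ | ⟨k1, k2, k3⟩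
    · exfalso; rw [h1] at k1; norm_num at k1
    · rw [h2, h3, k2, k3]; ring

theorem LOW_Di_comm (f : Cfg n → ℝ) {i j : Fin n} (hij : i ≠ j) (x : Cfg n) :
    Di (Di f j) i x = Di (Di f i) j x := by
  unfold Di
  rw [st_comm x hij, st_comm x hij, st_comm x hij, st_comm x hij]
  ring

theorem LOW_Di_Di_self (f : Cfg n → ℝ) (i : Fin n) (x : Cfg n) : Di (Di f i) i x = 0 := by
  have : Di (Di f i) i x = (Di f i (st x i true) - Di f i (st x i false)) / 2 := rfl
  rw [this, Di_st, Di_st]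
  simp

theorem LOW_Di_mg_self (J : Fin n → Fin n → ℝ) (h : Fin n → ℝ) (hd : ∀ i, J i i = 0) (i : Fin n)
    (x : Cfg n) : Di (mg J h i) i x = 0 := by
  unfold Di
  rw [mg_st J h hd, mg_st J h hd]
  simp

/-- one term of the commutation formula -/
theorem LOW_term (J : Fin n → Fin n → ℝ) (h : Fin n → ℝ) (hd : ∀ i, J i i = 0) (f : Cfg n → ℝ)
    (i j : Fin n) (x : Cfg n) :
    Di (fun y => (sp (y j) - mg J h j y) * Di f j y) i x =
      (if j = i then Di f i x else 0) + (sp (x j) - mg J h j x) * Di (Di f i) j x -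
        Di (mg J h j) i x * Di f j (LOWfl x i) := by
  by_cases hji : j = i
  · subst hji
    rw [if_pos rfl, LOW_Di_Di_self, LOW_Di_mg_self J h hd]
    have : Di (fun y => (sp (y j) - mg J h j y) * Di f j y) j x =
        ((sp (st x j true j) - mg J h j (st x j true)) * Di f j (st x j true) -
          (sp (st x j false j) - mg J h j (st x j false)) * Di f j (st x j false)) / 2 := rfl
    rw [this, st_apply_same, st_apply_same, mg_st J h hd, mg_st J h hd, Di_st, Di_st]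
    simp only [sp, if_true]
    norm_num
    ring
  · rw [if_neg hji, LOW_leibniz, LOW_Di_comm f (Ne.symm hji)]
    have : Di (fun y => sp (y j) - mg J h j y) i x = - Di (mg J h j) i x := by
      have e1 : Di (fun y => sp (y j) - mg J h j y) i x =
        ((sp (st x i true j) - mg J h j (st x i true)) -
          (sp (st x i false j) - mg J h j (st x i false))) / 2 := rfl
      have e2 : Di (mg J h j) i x = (mg J h j (st x i true) - mg J h j (st x i false)) / 2 := rfl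
      rw [e1, e2, st_apply_ne x hji, st_apply_ne x hji]
      ring
    rw [this]
    ring

/-- commutation of the derivative with the generator -/
theorem LOW_comm (J : Fin n → Fin n → ℝ) (h : Fin n → ℝ) (hd : ∀ i, J i i = 0) (f : Cfg n → ℝ)
    (i : Fin n) (x : Cfg n) :
    Di (LOWL J h f) i x = LOWL J h (Di f i) x - Di f i x +
      ∑ j, Di (mg J h j) i x * (Di f j x - 2 * sp (x i) * Di (Di f j) i x) := by
  have e1 : Di (LOWL J h f) i x =
      - ∑ j, Di (fun y => (sp (y j) - mg J h j y) * Di f j y) i x := by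
    unfold LOWL
    have : ∀ j, Di (fun y => (sp (y j) - mg J h j y) * Di f j y) i x =
      ((sp (st x i true j) - mg J h j (st x i true)) * Di f j (st x i true) -
        (sp (st x i false j) - mg J h j (st x i false)) * Di f j (st x i false)) / 2 :=
      fun j => rfl
    simp only [this]
    rw [← sum_div, sum_sub_distrib]
    have e2 : ∀ F : Cfg n → ℝ, Di F i x = (F (st x i true) - F (st x i false)) / 2 := fun F => rfl
    rw [e2]
    ring
  rw [e1]
  simp only [LOW_term J h hd]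
  rw [sum_sub_distrib, sum_add_distrib, sum_ite_eq' univ i, if_pos (mem_univ i)]
  have e3 : ∀ j, Di f j (LOWfl x i) = Di f j x - 2 * sp (x i) * Di (Di f j) i x :=
    fun j => LOW_fl_eq (Di f j) i x
  simp only [e3]
  unfold LOWL
  ring

/-- square field -/
theorem LOW_gamma (J : Fin n → Fin n → ℝ) (h : Fin n → ℝ) (f : Cfg n → ℝ) (x : Cfg n) :
    LOWL J h (fun y => f y ^ 2) x = 2 * f x * LOWL J h f x +
      2 * ∑ j, (1 - sp (x j) * mg J h j x) * Di f j x ^ 2 := by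
  unfold LOWL
  rw [mul_neg, ← sum_neg_distrib, mul_sum, mul_sum, ← sum_neg_distrib, ← sum_add_distrib]
  refine sum_congr rfl fun j _ => ?_
  have h1 : Di (fun y => f y ^ 2) j x = Di (fun y => f y * f y) j x := by
    simp only [pow_two]
  rw [h1, LOW_leibniz, LOW_fl_eq f j x]
  have h2 := sp_sq (x j)
  linear_combination (2 * Di f j x ^ 2) * h2

theorem LOW_tanh_add (y z : ℝ) :
    Real.tanh (y + z) * (1 + Real.tanh y * Real.tanh z) = Real.tanh y + Real.tanh z := by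
  rw [Real.tanh_eq_sinh_div_cosh, Real.tanh_eq_sinh_div_cosh, Real.tanh_eq_sinh_div_cosh,
    Real.sinh_add, Real.cosh_add]
  have h1 := (Real.cosh_pos y).ne'
  have h2 := (Real.cosh_pos z).ne'
  have h3 : Real.cosh y * Real.cosh z + Real.sinh y * Real.sinh z ≠ 0 := by
    rw [← Real.cosh_add]; exact (Real.cosh_pos _).ne'
  rw [div_mul_eq_mul_div, div_eq_iff h3, div_mul_div_comm, div_add_div _ _ h1 h2]
  field_simp

theorem LOW_tanh (y t : ℝ) (ht : |t| ≤ 1 / 16) :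
    |(Real.tanh (y + 2 * t) - Real.tanh y) / 2 - t * (1 - Real.tanh y ^ 2)| ≤ 8 * t ^ 2 ∧
    |(Real.tanh (y + 2 * t) - Real.tanh y) / 2| ≤ 2 * |t| * (1 - Real.tanh y ^ 2) := by
  obtain ⟨m, hm⟩ : ∃ m, m = Real.tanh y := ⟨_, rfl⟩
  obtain ⟨T, hT⟩ : ∃ T, T = Real.tanh (2 * t) := ⟨_, rfl⟩
  have hm1 : |m| < 1 := by rw [hm]; exact Real.abs_tanh_lt_one y
  have htt : t ^ 2 = |t| * |t| := by rw [abs_mul_abs_self]; ring
  have hT1 : |T - 2 * t| ≤ 8 * t ^ 2 := by
    have := chan_tanh (z := 2 * t) (by rw [abs_mul, abs_two]; linarith)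
    rw [← hT] at this
    linarith
  have hT2 : |T| ≤ 5 / 2 * |t| := by
    have h1 : |T| ≤ |T - 2 * t| + |2 * t| := by
      have := abs_add_le (T - 2 * t) (2 * t)
      rwa [sub_add_cancel] at this
    have h2 : 8 * t ^ 2 ≤ 1 / 2 * |t| := by
      rw [htt]
      nlinarith [abs_nonneg t]
    have h3 : |2 * t| = 2 * |t| := by rw [abs_mul, abs_two]
    linarith
  have hmT : |m * T| ≤ 5 / 2 * |t| := by
    rw [abs_mul]
    nlinarith [abs_nonneg m, abs_nonneg T]
  have hden : 27 / 32 ≤ 1 + m * T := by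
    have := (abs_le.mp hmT).1
    linarith
  have hden0 : 0 < 1 + m * T := by linarith
  have hs0 : 0 ≤ 1 - m ^ 2 := by
    have := sq_abs m
    nlinarith [abs_nonneg m]
  have hs1 : 1 - m ^ 2 ≤ 1 := by nlinarith [sq_nonneg m]
  have hadd := LOW_tanh_add y (2 * t)
  rw [← hm, ← hT] at hadd
  have hφ : (Real.tanh (y + 2 * t) - m) / 2 = T * (1 - m ^ 2) / (2 * (1 + m * T)) := by
    rw [div_eq_div_iff (by norm_num) (by positivity)]
    linear_combination 2 * hadd
  rw [← hm, hφ]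
  constructor
  · have e1 : T * (1 - m ^ 2) / (2 * (1 + m * T)) - t * (1 - m ^ 2) =
        (1 - m ^ 2) * ((T - 2 * t) / 2 - t * (m * T)) / (1 + m * T) := by
      have e0 : T * (1 - m ^ 2) * (1 + m * T) / (2 * (1 + m * T)) = T * (1 - m ^ 2) / 2 :=
        mul_div_mul_right _ _ hden0.ne'
      rw [eq_div_iff hden0.ne', sub_mul, div_mul_eq_mul_div, e0]
      ring
    rw [e1, abs_div, abs_of_pos hden0, div_le_iff₀ hden0, abs_mul, abs_of_nonneg hs0]
    have h1 : |(T - 2 * t) / 2 - t * (m * T)| ≤ 13 / 2 * t ^ 2 := by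
      have h2 := abs_sub ((T - 2 * t) / 2) (t * (m * T))
      rw [abs_div, abs_two, abs_mul t] at h2
      have h3 : |T - 2 * t| / 2 ≤ 4 * t ^ 2 := by
        rw [div_le_iff₀ (by norm_num)]
        linarith
      have h4 : |t| * |m * T| ≤ 5 / 2 * t ^ 2 := by
        rw [htt]
        nlinarith [abs_nonneg t]
      linarith
    have h5 : (1 - m ^ 2) * |(T - 2 * t) / 2 - t * (m * T)| ≤ 1 * (13 / 2 * t ^ 2) :=
      mul_le_mul hs1 h1 (abs_nonneg _) (by norm_num)
    nlinarith [sq_nonneg t]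
  · rw [abs_div, abs_of_pos (by positivity : (0 : ℝ) < 2 * (1 + m * T)), abs_mul,
      abs_of_nonneg hs0, div_le_iff₀ (by positivity)]
    have h1 : |T| ≤ 2 * |t| * (2 * (1 + m * T)) := by
      nlinarith [abs_nonneg t]
    calc |T| * (1 - m ^ 2) ≤ 2 * |t| * (2 * (1 + m * T)) * (1 - m ^ 2) :=
          mul_le_mul_of_nonneg_right h1 hs0
      _ = _ := by ring

/-- bounds for the derivative of the local magnetisation -/
theorem LOW_M (J : Fin n → Fin n → ℝ) (h : Fin n → ℝ) (hs : ∀ i j, J i j = J j i)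
    (hJ : ∀ i j, |J i j| ≤ 1 / 16) (i j : Fin n) (x : Cfg n) :
    |Di (mg J h j) i x - J i j * (1 - mg J h j x ^ 2)| ≤ 8 * J i j ^ 2 ∧
    |Di (mg J h j) i x| ≤ 2 * |J i j| * (1 - mg J h j x ^ 2) := by
  have e2 : Di (mg J h j) i x = (mg J h j (st x i true) - mg J h j (st x i false)) / 2 := rfl
  have hx : ∀ b, mg J h j (st x i b) = Real.tanh (fld J h j x + J i j * (sp b - sp (x i))) := by
    intro b
    unfold mg
    rw [fld_st, hs j i]
  have hm : mg J h j x = Real.tanh (fld J h j x) := rfl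
  rcases LOW_cases (mg J h j) i x with ⟨h1, h2, h3⟩ | ⟨h1, h2, h3⟩
  · have h4 := LOW_tanh (fld J h j x) (-(J i j)) (by rw [abs_neg]; exact hJ i j)
    have h5 : mg J h j (st x i false) = Real.tanh (fld J h j x + 2 * -(J i j)) := by
      rw [hx, h1]
      congr 1
      simp only [sp, Bool.false_eq_true, if_false]
      ring
    have e3 : Di (mg J h j) i x =
        -((Real.tanh (fld J h j x + 2 * -(J i j)) - Real.tanh (fld J h j x)) / 2) := by
      rw [e2, h5, h2, hm]; ring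
    rw [e3, hm]
    constructor
    · have := h4.1
      rw [neg_sq] at this
      rw [← abs_neg]
      refine le_trans (le_of_eq ?_) this
      congr 1
      ring
    · rw [abs_neg]
      have := h4.2
      rwa [abs_neg] at this
  · have h4 := LOW_tanh (fld J h j x) (J i j) (hJ i j)
    have h5 : mg J h j (st x i true) = Real.tanh (fld J h j x + 2 * J i j) := by
      rw [hx, h1]
      congr 1
      simp only [sp, if_true]
      ring
    have e3 : Di (mg J h j) i x =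
        (Real.tanh (fld J h j x + 2 * J i j) - Real.tanh (fld J h j x)) / 2 := by
      rw [e2, h5, h2, hm]
    rw [e3, hm]
    exact h4

/-- polarisation -/
theorem LOW_polar (J : Fin n → Fin n → ℝ) (hs : ∀ i j, J i j = J j i) (L : ℝ)
    (hL : ∀ v : Fin n → ℝ, |∑ i, ∑ j, J i j * v i * v j| ≤ L * ∑ i, v i ^ 2)
    (a b : Fin n → ℝ) :
    ∑ i, ∑ j, J i j * a i * b j ≤ L / 2 * (∑ i, a i ^ 2 + ∑ i, b i ^ 2) := by
  have h1 := (abs_le.mp (hL (fun i => a i + b i))).2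
  have h2 := (abs_le.mp (hL (fun i => a i - b i))).1
  have hsw : ∑ i, ∑ j, J i j * b i * a j = ∑ i, ∑ j, J i j * a i * b j := by
    rw [sum_comm]
    exact sum_congr rfl fun i _ => sum_congr rfl fun j _ => by rw [hs j i]; ring
  have e1 : ∑ i, ∑ j, J i j * (a i + b i) * (a j + b j) =
      ∑ i, ∑ j, J i j * a i * a j + ∑ i, ∑ j, J i j * b i * b j +
        (∑ i, ∑ j, J i j * a i * b j + ∑ i, ∑ j, J i j * b i * a j) := by
    simp only [← sum_add_distrib]
    exact sum_congr rfl fun i _ => sum_congr rfl fun j _ => by ring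
  have e2 : ∑ i, ∑ j, J i j * (a i - b i) * (a j - b j) =
      ∑ i, ∑ j, J i j * a i * a j + ∑ i, ∑ j, J i j * b i * b j -
        (∑ i, ∑ j, J i j * a i * b j + ∑ i, ∑ j, J i j * b i * a j) := by
    simp only [← sum_add_distrib, ← sum_sub_distrib]
    exact sum_congr rfl fun i _ => sum_congr rfl fun j _ => by ring
  have e3 : ∑ i, (a i + b i) ^ 2 + ∑ i, (a i - b i) ^ 2 =
      2 * (∑ i, a i ^ 2 + ∑ i, b i ^ 2) := by
    rw [← sum_add_distrib, ← sum_add_distrib, mul_sum]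
    exact sum_congr rfl fun i _ => by ring
  rw [e1, hsw] at h1
  rw [e2, hsw] at h2
  have e4 : L * ∑ i, (a i + b i) ^ 2 + L * ∑ i, (a i - b i) ^ 2 =
      2 * L * (∑ i, a i ^ 2 + ∑ i, b i ^ 2) := by
    rw [← mul_add, e3]; ring
  linarith

theorem LOW_L_sum (J : Fin n → Fin n → ℝ) (h : Fin n → ℝ) (F : Fin n → Cfg n → ℝ) (x : Cfg n) :
    LOWL J h (fun y => ∑ i, F i y) x = ∑ i, LOWL J h (F i) x := by
  unfold LOWL
  rw [sum_neg_distrib, sum_comm]
  congr 1
  refine sum_congr rfl fun j _ => ?_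
  rw [← mul_sum]
  congr 1
  have e2 : ∀ F : Cfg n → ℝ, Di F j x = (F (st x j true) - F (st x j false)) / 2 := fun F => rfl
  simp only [e2]
  rw [← sum_div, sum_sub_distrib]

/-- scalar inequality for the cross term -/
theorem LOW_scalar (g M H R J X s m : ℝ) (hX : X ^ 2 = 1) (hs : s = 1 - m ^ 2) (hs0 : 0 ≤ s)
    (hR0 : 1 - |m| ≤ R) (hm : |m| ≤ 1) (hM : |M| ≤ 2 * |J| * s) :
    -(4 * X * g * M * H) - 2 * R * H ^ 2 ≤ 16 * J ^ 2 * g ^ 2 := by
  have hm0 := abs_nonneg m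
  have hsR : s ≤ 2 * R := by
    rw [hs, ← sq_abs]
    nlinarith
  have hs1 : s ≤ 1 := by rw [hs]; nlinarith [sq_nonneg m]
  have hR1 : 0 ≤ R := by linarith
  -- M ^ 2 ≤ 8 J ^ 2 R
  have hM2 : M ^ 2 ≤ 8 * J ^ 2 * R := by
    have h1 : M ^ 2 ≤ (2 * |J| * s) ^ 2 := by
      rw [← sq_abs M]
      exact pow_le_pow_left₀ (abs_nonneg _) hM 2
    have h2 : (2 * |J| * s) ^ 2 = 4 * J ^ 2 * s ^ 2 := by
      rw [mul_pow, mul_pow, sq_abs]; ring
    have h3 : s ^ 2 ≤ 2 * R := by nlinarith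
    nlinarith [sq_nonneg J]
  rcases hR1.eq_or_lt with h0 | h0
  · have hM0 : M = 0 := by
      rw [← h0, mul_zero] at hM2
      nlinarith [sq_nonneg M]
    rw [hM0, ← h0]
    nlinarith [mul_nonneg (sq_nonneg J) (sq_nonneg g)]
  · -- complete the square: 2R (H + XgM/R)^2 ≥ 0
    have h1 : 0 ≤ 2 * (R * H + X * g * M) ^ 2 := by positivity
    have h2 : (X * g * M) ^ 2 ≤ g ^ 2 * (8 * J ^ 2 * R) := by
      have : (X * g * M) ^ 2 = X ^ 2 * g ^ 2 * M ^ 2 := by ring
      rw [this, hX, one_mul]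
      exact mul_le_mul_of_nonneg_left hM2 (sq_nonneg g)
    have h3 : R * (-(4 * X * g * M * H) - 2 * R * H ^ 2) ≤ R * (16 * J ^ 2 * g ^ 2) := by
      nlinarith
    exact le_of_mul_le_mul_left h3 h0

/-- one term of the pointwise inequality -/
theorem LOW_term_le (J : Fin n → Fin n → ℝ) (h : Fin n → ℝ) (hs : ∀ i j, J i j = J j i)
    (hJ : ∀ i j, |J i j| ≤ 1 / 16) (f : Cfg n → ℝ) (x : Cfg n) (i j : Fin n) :
    2 * (Di f i x * (Di (mg J h j) i x * (Di f j x - 2 * sp (x i) *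
      Di (Di f i) j x))) ≤ 2 * ((1 - sp (x j) * mg J h j x) * Di (Di f i) j x ^ 2) +
        (2 * (J i j * Di f i x * ((1 - mg J h j x ^ 2) * Di f j x)) +
        8 * (J i j ^ 2 * Di f i x ^ 2 + J i j ^ 2 * Di f j x ^ 2) +
          16 * (J i j ^ 2 * Di f i x ^ 2)) := by
  have hm1 : |mg J h j x| ≤ 1 := (Real.abs_tanh_lt_one _).le
  have hs0 : 0 ≤ 1 - mg J h j x ^ 2 := by
    have h2 := sq_abs (mg J h j x)
    nlinarith [abs_nonneg (mg J h j x)]
  obtain ⟨h1, h2⟩ := LOW_M J h hs hJ i j x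
  have hX : |sp (x j)| = 1 := by
    have h4 : |sp (x j)| ^ 2 = 1 := by rw [sq_abs]; exact sp_sq _
    nlinarith [abs_nonneg (sp (x j))]
  have h3 := LOW_scalar (Di f i x) (Di (mg J h j) i x) (Di (Di f i) j x)
    (1 - sp (x j) * mg J h j x) (J i j) (sp (x i)) (1 - mg J h j x ^ 2) (mg J h j x)
    (sp_sq _) rfl hs0 (by
      have : sp (x j) * mg J h j x ≤ |sp (x j) * mg J h j x| := le_abs_self _
      rw [abs_mul, hX, one_mul] at this
      linarith) hm1 h2
  obtain ⟨g, hg⟩ : ∃ g, g = Di f i x := ⟨_, rfl⟩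
  obtain ⟨k, hk⟩ : ∃ k, k = Di f j x := ⟨_, rfl⟩
  obtain ⟨M, hM⟩ : ∃ M, M = Di (mg J h j) i x := ⟨_, rfl⟩
  obtain ⟨s, hss⟩ : ∃ s, s = 1 - mg J h j x ^ 2 := ⟨_, rfl⟩
  obtain ⟨K, hK⟩ : ∃ K, K = Di (Di f i) j x := ⟨_, rfl⟩
  obtain ⟨R, hR⟩ : ∃ R, R = 1 - sp (x j) * mg J h j x := ⟨_, rfl⟩
  rw [← hg, ← hk, ← hM, ← hss, ← hK, ← hR]
  rw [← hg, ← hM, ← hK, ← hR] at h3
  rw [← hM, ← hss] at h1
  -- 2 g M k ≤ 2 J g s k + 8 J^2 (g^2 + k^2)
  have h5 : 2 * (g * (M - J i j * s) * k) ≤ 8 * J i j ^ 2 * (g ^ 2 + k ^ 2) := by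
    have e1 : g * (M - J i j * s) * k ≤ |M - J i j * s| * (|g| * |k|) := by
      refine (le_abs_self _).trans (le_of_eq ?_)
      rw [abs_mul, abs_mul]; ring
    have e2 : |M - J i j * s| * (|g| * |k|) ≤ 8 * J i j ^ 2 * (|g| * |k|) :=
      mul_le_mul_of_nonneg_right h1 (by positivity)
    have e3 : 2 * (|g| * |k|) ≤ g ^ 2 + k ^ 2 := by
      rw [← sq_abs g, ← sq_abs k]
      nlinarith [sq_nonneg (|g| - |k|)]
    nlinarith [sq_nonneg (J i j)]
  nlinarith

/-- pointwise inequality of Bakry-Emery type -/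
theorem LOW_point (J : Fin n → Fin n → ℝ) (h : Fin n → ℝ) (hs : ∀ i j, J i j = J j i)
    (hd : ∀ i, J i i = 0) (L B : ℝ)
    (hL : ∀ v : Fin n → ℝ, |∑ i, ∑ j, J i j * v i * v j| ≤ L * ∑ i, v i ^ 2) (hL0 : 0 ≤ L)
    (hB : ∀ i, ∑ j, J i j ^ 2 ≤ B) (hJ : ∀ i j, |J i j| ≤ 1 / 16) (f : Cfg n → ℝ) (x : Cfg n) :
    2 * ∑ i, Di f i x * Di (LOWL J h f) i x ≤
      LOWL J h (fun y => ∑ i, Di f i y ^ 2) x + (2 * L + 32 * B) * ∑ i, Di f i x ^ 2 := by
  have hH : ∀ i j, Di (Di f j) i x = Di (Di f i) j x := by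
    intro i j
    by_cases hij : i = j
    · rw [hij]
    · exact LOW_Di_comm f hij x
  rw [LOW_L_sum J h (fun i y => Di f i y ^ 2)]
  simp only [LOW_gamma, LOW_comm J h hd, hH]
  have t2 : ∑ i, ∑ j, 2 * (Di f i x * (Di (mg J h j) i x * (Di f j x - 2 * sp (x i) *
      Di (Di f i) j x))) ≤ ∑ i, ∑ j, (2 * ((1 - sp (x j) * mg J h j x) * Di (Di f i) j x ^ 2) +
        (2 * (J i j * Di f i x * ((1 - mg J h j x ^ 2) * Di f j x)) +
        8 * (J i j ^ 2 * Di f i x ^ 2 + J i j ^ 2 * Di f j x ^ 2) +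
          16 * (J i j ^ 2 * Di f i x ^ 2))) :=
    sum_le_sum fun i _ => sum_le_sum fun j _ => LOW_term_le J h hs hJ f x i j
  have hpol := LOW_polar J hs L hL (fun i => Di f i x)
    (fun j => (1 - mg J h j x ^ 2) * Di f j x)
  have hsum2 : ∑ j, ((1 - mg J h j x ^ 2) * Di f j x) ^ 2 ≤ ∑ j, Di f j x ^ 2 := by
    refine sum_le_sum fun j _ => ?_
    have h0 : 0 ≤ 1 - mg J h j x ^ 2 := by
      have h1 : |mg J h j x| ≤ 1 := (Real.abs_tanh_lt_one _).le
      have h2 := sq_abs (mg J h j x)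
      nlinarith [abs_nonneg (mg J h j x)]
    have h1 : 1 - mg J h j x ^ 2 ≤ 1 := by nlinarith [sq_nonneg (mg J h j x)]
    have h2 : (1 - mg J h j x ^ 2) ^ 2 ≤ 1 := pow_le_one₀ h0 h1
    rw [mul_pow]
    nlinarith [sq_nonneg (Di f j x)]
  have hJ1 : ∑ i, ∑ j, J i j ^ 2 * Di f i x ^ 2 ≤ B * ∑ i, Di f i x ^ 2 := by
    rw [mul_sum]
    refine sum_le_sum fun i _ => ?_
    rw [← sum_mul]
    exact mul_le_mul_of_nonneg_right (hB i) (sq_nonneg _)
  have hJ2 : ∑ i, ∑ j, J i j ^ 2 * Di f j x ^ 2 ≤ B * ∑ i, Di f i x ^ 2 := by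
    rw [sum_comm, mul_sum]
    refine sum_le_sum fun i _ => ?_
    rw [← sum_mul]
    refine mul_le_mul_of_nonneg_right ?_ (sq_nonneg _)
    simp only [hs _ i]
    exact hB i
  have e1 : 2 * ∑ i, Di f i x * (LOWL J h (Di f i) x - Di f i x +
      ∑ j, Di (mg J h j) i x * (Di f j x - 2 * sp (x i) * Di (Di f i) j x)) =
      ∑ i, 2 * Di f i x * LOWL J h (Di f i) x - 2 * ∑ i, Di f i x ^ 2 +
      ∑ i, ∑ j, 2 * (Di f i x * (Di (mg J h j) i x * (Di f j x - 2 * sp (x i) *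
        Di (Di f i) j x))) := by
    rw [mul_sum, mul_sum, ← sum_sub_distrib, ← sum_add_distrib]
    refine sum_congr rfl fun i _ => ?_
    rw [← mul_sum, ← mul_sum]
    ring
  have e2 : ∑ i, (2 * Di f i x * LOWL J h (Di f i) x +
      2 * ∑ j, (1 - sp (x j) * mg J h j x) * Di (Di f i) j x ^ 2) =
      ∑ i, 2 * Di f i x * LOWL J h (Di f i) x +
      ∑ i, ∑ j, 2 * ((1 - sp (x j) * mg J h j x) * Di (Di f i) j x ^ 2) := by
    rw [sum_add_distrib]
    congr 1
    exact sum_congr rfl fun i _ => by rw [mul_sum]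
  have e3 : ∑ i, ∑ j, (2 * ((1 - sp (x j) * mg J h j x) * Di (Di f i) j x ^ 2) +
        (2 * (J i j * Di f i x * ((1 - mg J h j x ^ 2) * Di f j x)) +
        8 * (J i j ^ 2 * Di f i x ^ 2 + J i j ^ 2 * Di f j x ^ 2) +
          16 * (J i j ^ 2 * Di f i x ^ 2))) =
      ∑ i, ∑ j, 2 * ((1 - sp (x j) * mg J h j x) * Di (Di f i) j x ^ 2) +
      (2 * ∑ i, ∑ j, J i j * Di f i x * ((1 - mg J h j x ^ 2) * Di f j x) +
        8 * (∑ i, ∑ j, J i j ^ 2 * Di f i x ^ 2 + ∑ i, ∑ j, J i j ^ 2 * Di f j x ^ 2) +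
        16 * ∑ i, ∑ j, J i j ^ 2 * Di f i x ^ 2) := by
    simp only [mul_sum, ← sum_add_distrib]
  rw [e1, e2]
  rw [e3] at t2
  have hS0 : 0 ≤ ∑ i, Di f i x ^ 2 := sum_nonneg fun i _ => sq_nonneg _
  have hpol2 : L / 2 * (∑ i, Di f i x ^ 2 + ∑ i, ((1 - mg J h i x ^ 2) * Di f i x) ^ 2) ≤
      L * ∑ i, Di f i x ^ 2 := by nlinarith
  linarith

end Vale.Agent.P150
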