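import Vale.Agent.Lib.P150.LowSemi

/-!
# P150, module LOW, part 3: autocorrelation of the spins and the lower bound for the distance
-/

namespace Vale.Agent.P150

open Finset Matrix

variable {n : ℕ}

theorem LOW_gen_rev (J : Fin n → Fin n → ℝ) (h : Fin n → ℝ) (x y : Cfg n) :
    gibbs J h x * gen J h x y = gibbs J h y * gen J h y x := by
  unfold gen
  simp only [Matrix.sum_apply, Matrix.sub_apply]
  rw [mul_sum, mul_sum]
  refine sum_congr rfl fun i _ => ?_
  rw [mul_sub, mul_sub, (Mix.Rev_Qker J h i).rev x y, (Mix.Rev.one (gibbs J h)).rev x y]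

/-- the generator is self-adjoint -/
theorem LOW_sa (J : Fin n → Fin n → ℝ) (h : Fin n → ℝ) (f g : Cfg n → ℝ) :
    ∑ x, gibbs J h x * (f x * (gen J h).mulVec g x) =
      ∑ x, gibbs J h x * ((gen J h).mulVec f x * g x) := by
  unfold Matrix.mulVec dotProduct
  simp only [mul_sum, sum_mul]
  rw [sum_comm]
  refine sum_congr rfl fun y _ => sum_congr rfl fun x _ => ?_
  have := LOW_gen_rev J h x y
  linear_combination (f x * g y) * this

/-- `<P_s f, P_{t-s} g>` does not depend on `s` -/
theorem LOW_semi_sa (J : Fin n → Fin n → ℝ) (h : Fin n → ℝ) (f g : Cfg n → ℝ) (t s : ℝ) :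
    ∑ x, gibbs J h x * ((semi J h s).mulVec f x * (semi J h (t - s)).mulVec g x) =
      ∑ x, gibbs J h x * (f x * (semi J h t).mulVec g x) := by
  have h1 : ∀ s : ℝ, HasDerivAt (fun s : ℝ => ∑ x, gibbs J h x *
      ((semi J h s).mulVec f x * (semi J h (t - s)).mulVec g x)) 0 s := by
    intro s
    have h2 : HasDerivAt (fun s : ℝ => ∑ x, gibbs J h x *
        ((semi J h s).mulVec f x * (semi J h (t - s)).mulVec g x))
        (∑ x, gibbs J h x * ((gen J h).mulVec ((semi J h s).mulVec f) x *
          (semi J h (t - s)).mulVec g x + (semi J h s).mulVec f x *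
          ((gen J h).mulVec ((semi J h (t - s)).mulVec g) x * (-1)))) s := by
      refine HasDerivAt.fun_sum fun x _ => HasDerivAt.const_mul _ ?_
      refine (LOW_v_deriv J h f s x).mul ?_
      have h3 : HasDerivAt (fun s : ℝ => t - s) (-1) s := by
        simpa using (hasDerivAt_id s).const_sub t
      exact HasDerivAt.comp s (LOW_v_deriv J h g (t - s) x) h3
    have h4 : ∑ x, gibbs J h x * ((gen J h).mulVec ((semi J h s).mulVec f) x *
          (semi J h (t - s)).mulVec g x + (semi J h s).mulVec f x *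
          ((gen J h).mulVec ((semi J h (t - s)).mulVec g) x * (-1))) = 0 := by
      have h5 := LOW_sa J h ((semi J h s).mulVec f) ((semi J h (t - s)).mulVec g)
      simp only [mul_add, sum_add_distrib]
      have h6 : ∑ x, gibbs J h x * ((semi J h s).mulVec f x *
          ((gen J h).mulVec ((semi J h (t - s)).mulVec g) x * (-1))) =
          - ∑ x, gibbs J h x * ((semi J h s).mulVec f x *
            (gen J h).mulVec ((semi J h (t - s)).mulVec g) x) := by
        rw [← sum_neg_distrib]
        exact sum_congr rfl fun x _ => by ring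
      rw [h6, h5]
      ring
    rwa [h4] at h2
  have h7 : (fun s : ℝ => ∑ x, gibbs J h x *
      ((semi J h s).mulVec f x * (semi J h (t - s)).mulVec g x)) s =
      (fun s : ℝ => ∑ x, gibbs J h x *
      ((semi J h s).mulVec f x * (semi J h (t - s)).mulVec g x)) 0 :=
    is_const_of_deriv_eq_zero (fun s => (h1 s).differentiableAt) (fun s => (h1 s).deriv) s 0
  simp only [sub_zero, LOW_semi_zero, Matrix.one_mulVec] at h7
  exact h7

theorem LOW_semi_pos (J : Fin n → Fin n → ℝ) (h : Fin n → ℝ) (f : Cfg n → ℝ) (t : ℝ) :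
    0 ≤ ∑ x, gibbs J h x * (f x * (semi J h t).mulVec f x) := by
  rw [← LOW_semi_sa J h f f t (t / 2)]
  refine sum_nonneg fun x _ => mul_nonneg (Mix.gibbs_pos J h x).le ?_
  have : t - t / 2 = t / 2 := by ring
  rw [this]
  exact mul_self_nonneg _

theorem LOW_Di_sp (i j : Fin n) (x : Cfg n) :
    Di (fun y : Cfg n => sp (y i)) j x = if i = j then 1 else 0 := by
  have e1 : Di (fun y : Cfg n => sp (y i)) j x = (sp (st x j true i) - sp (st x j false i)) / 2 :=
    rfl
  rw [e1]
  by_cases hij : i = j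
  · subst hij
    rw [if_pos rfl, st_apply_same, st_apply_same]
    simp only [sp, if_true]
    norm_num
  · rw [if_neg hij, st_apply_ne x hij, st_apply_ne x hij]
    simp

theorem LOW_gen_sp (J : Fin n → Fin n → ℝ) (h : Fin n → ℝ) (hs : ∀ i j, J i j = J j i)
    (hd : ∀ i, J i i = 0) (i : Fin n) (x : Cfg n) :
    (gen J h).mulVec (fun y : Cfg n => sp (y i)) x = mg J h i x - sp (x i) := by
  rw [LOW_gen J h hs hd]
  unfold LOWL
  simp only [LOW_Di_sp, mul_ite, mul_one, mul_zero]
  rw [sum_ite_eq univ i, if_pos (mem_univ i)]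
  ring

/-- `<m_i, x_i> = <m_i, m_i>` -/
theorem LOW_m_sp (J : Fin n → Fin n → ℝ) (h : Fin n → ℝ) (hs : ∀ i j, J i j = J j i)
    (hd : ∀ i, J i i = 0) (i : Fin n) :
    0 ≤ ∑ x, gibbs J h x * (mg J h i x * sp (x i)) := by
  have h0 : ∑ x, wt J h x * (mg J h i x * (sp (x i) - mg J h i x)) = 0 := by
    rw [sum_pair_st i]
    refine mul_eq_zero_of_right _ (sum_eq_zero fun x _ => ?_)
    rw [Fintype.sum_bool]
    simp only [mg_st J h hd, st_apply_same, wt_st J h hs hd]
    have e1 : sp true = 1 := by simp [sp]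
    have e2 : sp false = -1 := by simp [sp]
    rw [e1, e2, one_mul, neg_one_mul]
    unfold mg
    have ht := tanh_exp (fld J h i x)
    linear_combination (-Real.exp (Ham J h x - sp (x i) * fld J h i x) *
      Real.tanh (fld J h i x)) * ht
  have h1 : ∑ x, wt J h x * (mg J h i x * sp (x i)) = ∑ x, wt J h x * mg J h i x ^ 2 := by
    rw [← sub_eq_zero, ← sum_sub_distrib, ← h0]
    exact sum_congr rfl fun x _ => by ring
  have h2 : ∑ x, gibbs J h x * (mg J h i x * sp (x i)) =
      (∑ x, wt J h x * (mg J h i x * sp (x i))) / ∑ y, wt J h y := by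
    rw [sum_div]
    exact sum_congr rfl fun x _ => by unfold gibbs; ring
  rw [h2, h1]
  exact div_nonneg (sum_nonneg fun x _ => mul_nonneg (Dict_wt_pos J h x).le (sq_nonneg _))
    (Dict_Z_pos J h).le

/-- autocorrelation of one spin -/
theorem LOW_auto (J : Fin n → Fin n → ℝ) (h : Fin n → ℝ) (hs : ∀ i j, J i j = J j i)
    (hd : ∀ i, J i i = 0) (i : Fin n) (t : ℝ) (ht : 0 ≤ t) :
    Real.exp (-t) ≤ ∑ x, gibbs J h x * (sp (x i) *
      (semi J h t).mulVec (fun y : Cfg n => sp (y i)) x) := by
  -- the function `B`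
  have hBder : ∀ s : ℝ, HasDerivAt (fun s : ℝ => Real.exp s * ∑ x, gibbs J h x *
      (sp (x i) * (semi J h s).mulVec (mg J h i) x))
      (Real.exp s * ∑ x, gibbs J h x * (mg J h i x * (semi J h s).mulVec (mg J h i) x)) s := by
    intro s
    have h1 : HasDerivAt (fun s : ℝ => ∑ x, gibbs J h x *
      (sp (x i) * (semi J h s).mulVec (mg J h i) x))
      (∑ x, gibbs J h x * (sp (x i) * (gen J h).mulVec ((semi J h s).mulVec (mg J h i)) x)) s :=
      HasDerivAt.fun_sum fun x _ => HasDerivAt.const_mul _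
        (HasDerivAt.const_mul _ (LOW_v_deriv J h _ s x))
    have h2 := (Real.hasDerivAt_exp s).mul h1
    refine h2.congr_deriv ?_
    rw [LOW_sa J h (fun y : Cfg n => sp (y i))]
    simp only [LOW_gen_sp J h hs hd]
    rw [← mul_add, ← sum_add_distrib]
    congr 1
    exact sum_congr rfl fun x _ => by ring
  have hB0 : ∀ s : ℝ, 0 ≤ s → 0 ≤ Real.exp s * ∑ x, gibbs J h x *
      (sp (x i) * (semi J h s).mulVec (mg J h i) x) := by
    intro s hs0
    have hmono : Monotone (fun s : ℝ => Real.exp s * ∑ x, gibbs J h x *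
        (sp (x i) * (semi J h s).mulVec (mg J h i) x)) :=
      monotone_of_deriv_nonneg (fun s => (hBder s).differentiableAt) (fun s => by
        rw [(hBder s).deriv]
        exact mul_nonneg (Real.exp_pos _).le (LOW_semi_pos J h _ s))
    have h3 := hmono hs0
    simp only [Real.exp_zero, one_mul, LOW_semi_zero, Matrix.one_mulVec] at h3
    refine le_trans ?_ h3
    have h4 := LOW_m_sp J h hs hd i
    refine h4.trans (le_of_eq (sum_congr rfl fun x _ => by ring))
  have hAder : ∀ s : ℝ, HasDerivAt (fun s : ℝ => Real.exp s * ∑ x, gibbs J h x *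
      (sp (x i) * (semi J h s).mulVec (fun y : Cfg n => sp (y i)) x))
      (Real.exp s * ∑ x, gibbs J h x * (sp (x i) * (semi J h s).mulVec (mg J h i) x)) s := by
    intro s
    have h1 : HasDerivAt (fun s : ℝ => ∑ x, gibbs J h x *
      (sp (x i) * (semi J h s).mulVec (fun y : Cfg n => sp (y i)) x))
      (∑ x, gibbs J h x * (sp (x i) *
        (gen J h).mulVec ((semi J h s).mulVec (fun y : Cfg n => sp (y i))) x)) s :=
      HasDerivAt.fun_sum fun x _ => HasDerivAt.const_mul _
        (HasDerivAt.const_mul _ (LOW_v_deriv J h _ s x))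
    have h2 := (Real.hasDerivAt_exp s).mul h1
    refine h2.congr_deriv ?_
    rw [LOW_sa J h (fun y : Cfg n => sp (y i))]
    simp only [LOW_gen_sp J h hs hd]
    rw [← mul_add, ← sum_add_distrib]
    congr 1
    have h5 := LOW_semi_sa J h (mg J h i) (fun y : Cfg n => sp (y i)) s s
    rw [sub_self, LOW_semi_zero] at h5
    simp only [Matrix.one_mulVec] at h5
    have h6 : ∑ x, gibbs J h x * (sp (x i) * (semi J h s).mulVec (mg J h i) x) =
        ∑ x, gibbs J h x * ((semi J h s).mulVec (mg J h i) x * sp (x i)) :=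
      sum_congr rfl fun x _ => by ring
    rw [h6, h5]
    exact sum_congr rfl fun x _ => by ring
  have hmonoA : MonotoneOn (fun s : ℝ => Real.exp s * ∑ x, gibbs J h x *
      (sp (x i) * (semi J h s).mulVec (fun y : Cfg n => sp (y i)) x)) (Set.Icc 0 t) := by
    refine monotoneOn_of_deriv_nonneg (convex_Icc 0 t)
      (fun s _ => (hAder s).continuousAt.continuousWithinAt)
      (fun s _ => (hAder s).differentiableAt.differentiableWithinAt) ?_
    intro s hs1
    rw [interior_Icc] at hs1
    rw [(hAder s).deriv]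
    exact hB0 s hs1.1.le
  have h7 := hmonoA (Set.left_mem_Icc.mpr ht) (Set.right_mem_Icc.mpr ht) ht
  simp only [Real.exp_zero, one_mul, LOW_semi_zero, Matrix.one_mulVec] at h7
  have h8 : ∑ x, gibbs J h x * (sp (x i) * sp (x i)) = 1 := by
    rw [← Mix.gibbs_sum J h]
    refine sum_congr rfl fun x _ => ?_
    rw [← pow_two, sp_sq, mul_one]
  rw [h8] at h7
  rw [Real.exp_neg, inv_eq_one_div, div_le_iff₀ (Real.exp_pos t), mul_comm]
  exact h7

end Vale.Agent.P150
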