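import Vale.Agent.Lib.P150.LowGrad
import Vale.Agent.Lib.P150.Mix
import Vale.Agent.Lib.P150.Dict

/-!
# P150, module LOW, part 2: calculus of the semigroup, comparison principle
-/

namespace Vale.Agent.P150

open Finset Matrix

variable {n : ℕ}

theorem LOW_gen (J : Fin n → Fin n → ℝ) (h : Fin n → ℝ) (hs : ∀ i j, J i j = J j i)
    (hd : ∀ i, J i i = 0) (f : Cfg n → ℝ) (x : Cfg n) :
    (gen J h).mulVec f x = LOWL J h f x := by
  rw [Dict_gen_mulVec]
  unfold LOWL
  rw [← sum_neg_distrib]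
  refine sum_congr rfl fun i _ => ?_
  rw [← sub_hb J h hs hd]
  ring

attribute [local instance] Matrix.linftyOpNormedRing Matrix.linftyOpNormedAlgebra in
theorem LOW_deriv_entry {Ω : Type} [Fintype Ω] [DecidableEq Ω] (G : Matrix Ω Ω ℝ) (s : ℝ)
    (x y : Ω) :
    HasDerivAt (fun s : ℝ => NormedSpace.exp (s • G) x y) ((G * NormedSpace.exp (s • G)) x y) s ∧
    HasDerivAt (fun s : ℝ => NormedSpace.exp (s • G) x y)
      ((NormedSpace.exp (s • G) * G) x y) s := by
  let e : Matrix Ω Ω ℝ →L[ℝ] ℝ := LinearMap.toContinuousLinearMap (Matrix.entryLinearMap ℝ ℝ x y)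
  exact ⟨e.hasFDerivAt.comp_hasDerivAt s (hasDerivAt_exp_smul_const' G s),
    e.hasFDerivAt.comp_hasDerivAt s (hasDerivAt_exp_smul_const G s)⟩

theorem LOW_semi_deriv (J : Fin n → Fin n → ℝ) (h : Fin n → ℝ) (s : ℝ) (x y : Cfg n) :
    HasDerivAt (fun s : ℝ => semi J h s x y) ((semi J h s * gen J h) x y) s :=
  (LOW_deriv_entry (gen J h) s x y).2

/-- derivative of `P_s f` -/
theorem LOW_v_deriv (J : Fin n → Fin n → ℝ) (h : Fin n → ℝ) (f : Cfg n → ℝ) (s : ℝ)
    (y : Cfg n) :
    HasDerivAt (fun s : ℝ => (semi J h s).mulVec f y)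
      ((gen J h).mulVec ((semi J h s).mulVec f) y) s := by
  have h1 : HasDerivAt (fun s : ℝ => ∑ z, semi J h s y z * f z)
      (∑ z, (gen J h * semi J h s) y z * f z) s :=
    HasDerivAt.fun_sum fun z _ => ((LOW_deriv_entry (gen J h) s y z).1).mul_const (f z)
  have h2 : (gen J h).mulVec ((semi J h s).mulVec f) y = ∑ z, (gen J h * semi J h s) y z * f z := by
    rw [Matrix.mulVec_mulVec]
    rfl
  rw [h2]
  exact h1

theorem LOW_semi_zero (J : Fin n → Fin n → ℝ) (h : Fin n → ℝ) : semi J h 0 = 1 := by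
  unfold semi
  rw [zero_smul, NormedSpace.exp_zero]

theorem LOW_semi_nonneg (hn : 0 < n) (J : Fin n → Fin n → ℝ) (h : Fin n → ℝ) {s : ℝ} (hs : 0 ≤ s)
    (x y : Cfg n) : 0 ≤ semi J h s x y := by
  have : Nonempty (Fin n) := ⟨⟨0, hn⟩⟩
  have h1 : semi J h s = Mix.Pt (fun i => Qker J h i) s := rfl
  rw [h1, Mix.Pt_eq]
  have h2 := Mix.hasSum_exp_entries (((Fintype.card (Fin n) : ℝ)⁻¹) • ∑ i, Qker J h i)
    (Fintype.card (Fin n) * s) x y
  refine h2.nonneg fun k => ?_
  have h3 := ((Mix.Rev.avg fun i => Mix.Rev_Qker J h i).mul_comm_self k).nonneg x y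
  positivity

theorem LOW_gen_one (J : Fin n → Fin n → ℝ) (h : Fin n → ℝ) (x : Cfg n) :
    ∑ y, gen J h x y = 0 := by
  have h1 := Dict_gen_mulVec J h (fun _ => 1) x
  have h2 : (gen J h).mulVec (fun _ => 1) x = ∑ y, gen J h x y := by
    unfold Matrix.mulVec dotProduct
    simp
  rw [← h2, h1]
  refine sum_eq_zero fun i _ => ?_
  unfold hb
  have hD : (wt J h (st x i true) + wt J h (st x i false)) ≠ 0 :=
    (add_pos (Dict_wt_pos _ _ _) (Dict_wt_pos _ _ _)).ne'
  rw [mul_one, mul_one, div_self hD, sub_self]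

theorem LOW_semi_row (J : Fin n → Fin n → ℝ) (h : Fin n → ℝ) (s : ℝ) (x : Cfg n) :
    ∑ y, semi J h s x y = 1 := by
  have h1 : ∀ s : ℝ, HasDerivAt (fun s : ℝ => ∑ y, semi J h s x y) 0 s := by
    intro s
    have h2 : HasDerivAt (fun s : ℝ => ∑ y, semi J h s x y)
        (∑ y, (semi J h s * gen J h) x y) s :=
      HasDerivAt.fun_sum fun y _ => LOW_semi_deriv J h s x y
    have h3 : ∑ y, (semi J h s * gen J h) x y = 0 := by
      simp only [Matrix.mul_apply]
      rw [sum_comm]
      refine sum_eq_zero fun z _ => ?_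
      rw [← mul_sum, LOW_gen_one, mul_zero]
    rwa [h3] at h2
  have h4 : ∑ y, semi J h s x y = ∑ y, semi J h 0 x y :=
    is_const_of_deriv_eq_zero (fun s => (h1 s).differentiableAt) (fun s => (h1 s).deriv) s 0
  rw [h4, LOW_semi_zero]
  simp [Matrix.one_apply]

/-- comparison principle -/
theorem LOW_compare (hn : 0 < n) (J : Fin n → Fin n → ℝ) (h : Fin n → ℝ) (a a' : ℝ → Cfg n → ℝ)
    (b t : ℝ) (ht : 0 ≤ t) (ha : ∀ s y, HasDerivAt (fun r => a r y) (a' s y) s)
    (hle : ∀ s, 0 ≤ s → s ≤ t → ∀ y, a' s y ≤ (gen J h).mulVec (a s) y + b) (x : Cfg n) :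
    a t x ≤ (semi J h t).mulVec (a 0) x + b * t := by
  have hder : ∀ s, HasDerivAt (fun s : ℝ => ∑ y, semi J h s x y * a (t - s) y + b * s)
      (∑ y, ((semi J h s * gen J h) x y * a (t - s) y + semi J h s x y * (-a' (t - s) y)) + b)
      s := by
    intro s
    have h1 : HasDerivAt (fun s : ℝ => ∑ y, semi J h s x y * a (t - s) y)
        (∑ y, ((semi J h s * gen J h) x y * a (t - s) y + semi J h s x y * (-a' (t - s) y)))
        s := by
      refine HasDerivAt.fun_sum fun y _ => ?_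
      refine (LOW_semi_deriv J h s x y).mul ?_
      have h2 : HasDerivAt (fun s : ℝ => t - s) (-1) s := by
        simpa using (hasDerivAt_id s).const_sub t
      have h3 : HasDerivAt (fun s : ℝ => a (t - s) y) (a' (t - s) y * (-1)) s :=
        HasDerivAt.comp s (ha (t - s) y) h2
      rwa [mul_neg_one] at h3
    have h4 : HasDerivAt (fun s : ℝ => b * s) b s := by
      simpa using (hasDerivAt_id s).const_mul b
    exact h1.add h4
  have hval : ∀ s, ∑ y, ((semi J h s * gen J h) x y * a (t - s) y +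
      semi J h s x y * (-a' (t - s) y)) =
      ∑ y, semi J h s x y * ((gen J h).mulVec (a (t - s)) y - a' (t - s) y) := by
    intro s
    have h5 : ∑ y, (semi J h s * gen J h) x y * a (t - s) y =
        ∑ y, semi J h s x y * (gen J h).mulVec (a (t - s)) y := by
      have h6 : (semi J h s * gen J h).mulVec (a (t - s)) x =
        (semi J h s).mulVec ((gen J h).mulVec (a (t - s))) x := by
        rw [Matrix.mulVec_mulVec]
      exact h6
    rw [sum_add_distrib, h5, ← sum_add_distrib]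
    exact sum_congr rfl fun y _ => by ring
  have hmono : MonotoneOn (fun s : ℝ => ∑ y, semi J h s x y * a (t - s) y + b * s)
      (Set.Icc 0 t) := by
    refine monotoneOn_of_deriv_nonneg (convex_Icc 0 t)
      (fun s _ => (hder s).continuousAt.continuousWithinAt)
      (fun s _ => (hder s).differentiableAt.differentiableWithinAt) ?_
    intro s hs
    rw [interior_Icc] at hs
    rw [(hder s).deriv, hval]
    have h7 : ∑ y, semi J h s x y * (-b) ≤
        ∑ y, semi J h s x y * ((gen J h).mulVec (a (t - s)) y - a' (t - s) y) := by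
      refine sum_le_sum fun y _ => mul_le_mul_of_nonneg_left ?_
        (LOW_semi_nonneg hn J h hs.1.le x y)
      have := hle (t - s) (by linarith [hs.2]) (by linarith [hs.1]) y
      linarith
    rw [← sum_mul, LOW_semi_row] at h7
    linarith
  have h8 := hmono (Set.left_mem_Icc.mpr ht) (Set.right_mem_Icc.mpr ht) ht
  simp only [sub_zero, mul_zero, add_zero, sub_self, LOW_semi_zero] at h8
  have h9 : ∑ y, (1 : Matrix (Cfg n) (Cfg n) ℝ) x y * a t y = a t x := by
    simp [Matrix.one_apply]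
  rw [h9] at h8
  exact h8

/-- the operator `Di` and derivatives in time -/
theorem LOW_Di_deriv (v v' : ℝ → Cfg n → ℝ) (hv : ∀ s y, HasDerivAt (fun r => v r y) (v' s y) s)
    (i : Fin n) (s : ℝ) (y : Cfg n) :
    HasDerivAt (fun r => Di (v r) i y) (Di (v' s) i y) s :=
  ((hv s (st y i true)).sub (hv s (st y i false))).div_const 2

/-- gradient bound for the semigroup -/
theorem LOW_grad (hn : 0 < n) (J : Fin n → Fin n → ℝ) (h : Fin n → ℝ) (hs : ∀ i j, J i j = J j i)
    (hd : ∀ i, J i i = 0) (L B : ℝ)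
    (hL : ∀ v : Fin n → ℝ, |∑ i, ∑ j, J i j * v i * v j| ≤ L * ∑ i, v i ^ 2) (hL0 : 0 ≤ L)
    (hB : ∀ i, ∑ j, J i j ^ 2 ≤ B) (hJ : ∀ i j, |J i j| ≤ 1 / 16) (f : Cfg n → ℝ) (G : ℝ)
    (hf : ∀ y, ∑ i, Di f i y ^ 2 ≤ G) (t : ℝ) (ht : 0 ≤ t) (x : Cfg n) :
    ∑ i, Di ((semi J h t).mulVec f) i x ^ 2 ≤ G * Real.exp ((2 * L + 32 * B) * t) := by
  obtain ⟨K, hK⟩ : ∃ K, K = 2 * L + 32 * B := ⟨_, rfl⟩
  rw [← hK]
  have hder : ∀ s y, HasDerivAt
      (fun s : ℝ => Real.exp (-(K * s)) * ∑ i, Di ((semi J h s).mulVec f) i y ^ 2)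
      (Real.exp (-(K * s)) * (-K) * ∑ i, Di ((semi J h s).mulVec f) i y ^ 2 +
        Real.exp (-(K * s)) * (2 * ∑ i, Di ((semi J h s).mulVec f) i y *
          Di (LOWL J h ((semi J h s).mulVec f)) i y)) s := by
    intro s y
    have h1 : HasDerivAt (fun s : ℝ => Real.exp (-(K * s))) (Real.exp (-(K * s)) * (-K)) s := by
      have h2 : HasDerivAt (fun s : ℝ => -(K * s)) (-K) s := by
        have h0 := ((hasDerivAt_id s).const_mul K).neg
        rw [mul_one] at h0
        exact h0
      exact h2.exp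
    have h3 : HasDerivAt (fun s : ℝ => ∑ i, Di ((semi J h s).mulVec f) i y ^ 2)
        (2 * ∑ i, Di ((semi J h s).mulVec f) i y *
          Di (LOWL J h ((semi J h s).mulVec f)) i y) s := by
      rw [mul_sum]
      refine HasDerivAt.fun_sum fun i _ => ?_
      have h4 := LOW_Di_deriv (fun s => (semi J h s).mulVec f)
        (fun s => LOWL J h ((semi J h s).mulVec f)) (fun s y => by
          have h5 := LOW_v_deriv J h f s y
          rwa [LOW_gen J h hs hd] at h5) i s y
      have h6 := h4.pow 2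
      have e1 : (2 : ℕ) * Di ((semi J h s).mulVec f) i y ^ (2 - 1) *
          Di (LOWL J h ((semi J h s).mulVec f)) i y =
          2 * (Di ((semi J h s).mulVec f) i y * Di (LOWL J h ((semi J h s).mulVec f)) i y) := by
        norm_num
        ring
      rw [e1] at h6
      exact h6
    exact h1.mul h3
  have hcmp := LOW_compare hn J h
    (fun s y => Real.exp (-(K * s)) * ∑ i, Di ((semi J h s).mulVec f) i y ^ 2)
    (fun s y => Real.exp (-(K * s)) * (-K) * ∑ i, Di ((semi J h s).mulVec f) i y ^ 2 +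
        Real.exp (-(K * s)) * (2 * ∑ i, Di ((semi J h s).mulVec f) i y *
          Di (LOWL J h ((semi J h s).mulVec f)) i y)) 0 t ht hder (by
      intro s _ _ y
      have h1 := LOW_point J h hs hd L B hL hL0 hB hJ ((semi J h s).mulVec f) y
      rw [← hK] at h1
      have h2 : (gen J h).mulVec
          (fun y => Real.exp (-(K * s)) * ∑ i, Di ((semi J h s).mulVec f) i y ^ 2) y =
          Real.exp (-(K * s)) * LOWL J h
            (fun y => ∑ i, Di ((semi J h s).mulVec f) i y ^ 2) y := by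
        rw [← LOW_gen J h hs hd]
        have h3 : (fun y => Real.exp (-(K * s)) * ∑ i, Di ((semi J h s).mulVec f) i y ^ 2) =
          Real.exp (-(K * s)) • (fun y => ∑ i, Di ((semi J h s).mulVec f) i y ^ 2) := by
          ext y
          rfl
        rw [h3, Matrix.mulVec_smul]
        rfl
      rw [h2, add_zero]
      have h4 := mul_le_mul_of_nonneg_left h1 (Real.exp_pos (-(K * s))).le
      nlinarith) x
  rw [zero_mul, add_zero] at hcmp
  have h5 : (semi J h t).mulVec
      (fun y => Real.exp (-(K * 0)) * ∑ i, Di ((semi J h 0).mulVec f) i y ^ 2) x ≤ G := by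
    rw [LOW_semi_zero]
    simp only [Matrix.one_mulVec, mul_zero, neg_zero, Real.exp_zero, one_mul]
    unfold Matrix.mulVec dotProduct
    calc ∑ y, semi J h t x y * ∑ i, Di f i y ^ 2 ≤ ∑ y, semi J h t x y * G :=
          sum_le_sum fun y _ => mul_le_mul_of_nonneg_left (hf y) (LOW_semi_nonneg hn J h ht x y)
      _ = G := by rw [← sum_mul, LOW_semi_row, one_mul]
  have h6 := hcmp.trans h5
  have h7 : Real.exp (K * t) * (Real.exp (-(K * t)) *
      ∑ i, Di ((semi J h t).mulVec f) i x ^ 2) = ∑ i, Di ((semi J h t).mulVec f) i x ^ 2 := by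
    rw [← mul_assoc, ← Real.exp_add, add_neg_cancel, Real.exp_zero, one_mul]
  have h8 := mul_le_mul_of_nonneg_left h6 (Real.exp_pos (K * t)).le
  rw [h7] at h8
  linarith

/-- variance bound -/
theorem LOW_var (hn : 0 < n) (J : Fin n → Fin n → ℝ) (h : Fin n → ℝ) (hs : ∀ i j, J i j = J j i)
    (hd : ∀ i, J i i = 0) (L B : ℝ)
    (hL : ∀ v : Fin n → ℝ, |∑ i, ∑ j, J i j * v i * v j| ≤ L * ∑ i, v i ^ 2) (hL0 : 0 ≤ L)
    (hB0 : 0 ≤ B)
    (hB : ∀ i, ∑ j, J i j ^ 2 ≤ B) (hJ : ∀ i j, |J i j| ≤ 1 / 16) (f : Cfg n → ℝ) (G : ℝ)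
    (hG : 0 ≤ G)
    (hf : ∀ y, ∑ i, Di f i y ^ 2 ≤ G) (t : ℝ) (ht : 0 ≤ t) (x : Cfg n) :
    (semi J h t).mulVec (fun y => f y ^ 2) x - (semi J h t).mulVec f x ^ 2 ≤
      4 * G * Real.exp ((2 * L + 32 * B) * t) * t := by
  obtain ⟨K, hK⟩ : ∃ K, K = 2 * L + 32 * B := ⟨_, rfl⟩
  have hK0 : 0 ≤ K := by rw [hK]; positivity
  have hder : ∀ s y, HasDerivAt (fun s : ℝ => -((semi J h s).mulVec f y ^ 2))
      (-(2 * (semi J h s).mulVec f y * LOWL J h ((semi J h s).mulVec f) y)) s := by
    intro s y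
    have h5 := LOW_v_deriv J h f s y
    rw [LOW_gen J h hs hd] at h5
    have h6 := (h5.pow 2).neg
    have e1 : (2 : ℕ) * (semi J h s).mulVec f y ^ (2 - 1) *
        LOWL J h ((semi J h s).mulVec f) y =
        2 * (semi J h s).mulVec f y * LOWL J h ((semi J h s).mulVec f) y := by
      norm_num
    rw [e1] at h6
    exact h6
  have hcmp := LOW_compare hn J h (fun s y => -((semi J h s).mulVec f y ^ 2))
    (fun s y => -(2 * (semi J h s).mulVec f y * LOWL J h ((semi J h s).mulVec f) y))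
    (4 * G * Real.exp (K * t)) t ht hder (by
      intro s hs0 hst y
      have h2 : (gen J h).mulVec (fun y => -((semi J h s).mulVec f y ^ 2)) y =
          -(LOWL J h (fun y => (semi J h s).mulVec f y ^ 2) y) := by
        rw [← LOW_gen J h hs hd]
        have h3 : (fun y => -((semi J h s).mulVec f y ^ 2)) =
          -(fun y => (semi J h s).mulVec f y ^ 2) := by
          ext y
          rfl
        rw [h3, Matrix.mulVec_neg]
        rfl
      rw [h2, LOW_gamma]
      have h4 := LOW_grad hn J h hs hd L B hL hL0 hB hJ f G hf s hs0 y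
      rw [← hK] at h4
      have h5 : ∑ j, (1 - sp (y j) * mg J h j y) * Di ((semi J h s).mulVec f) j y ^ 2 ≤
          2 * ∑ j, Di ((semi J h s).mulVec f) j y ^ 2 := by
        rw [mul_sum]
        refine sum_le_sum fun j _ => mul_le_mul_of_nonneg_right ?_ (sq_nonneg _)
        have h6 : |mg J h j y| ≤ 1 := (Real.abs_tanh_lt_one _).le
        have h7 : |sp (y j)| = 1 := by
          have h8 : |sp (y j)| ^ 2 = 1 := by rw [sq_abs]; exact sp_sq _
          nlinarith [abs_nonneg (sp (y j))]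
        have h9 : -(sp (y j) * mg J h j y) ≤ |sp (y j) * mg J h j y| := neg_le_abs _
        rw [abs_mul, h7, one_mul] at h9
        linarith
      have h6 : G * Real.exp (K * s) ≤ G * Real.exp (K * t) :=
        mul_le_mul_of_nonneg_left (Real.exp_le_exp.mpr (mul_le_mul_of_nonneg_left hst hK0)) hG
      linarith) x
  have h3 : (semi J h t).mulVec (fun y => -((semi J h 0).mulVec f y ^ 2)) x =
      -((semi J h t).mulVec (fun y => f y ^ 2) x) := by
    rw [LOW_semi_zero]
    simp only [Matrix.one_mulVec]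
    have h4 : (fun y => -(f y ^ 2)) = -(fun y => f y ^ 2) := by
      ext y
      rfl
    rw [h4, Matrix.mulVec_neg]
    rfl
  rw [h3] at hcmp
  rw [← hK]
  linarith

end Vale.Agent.P150
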