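import Vale.Agent.Lib.P150.LowMix

/-!
# P150, module LOW, part 4: lower bound for the total variation distance, fixed disorder
-/

namespace Vale.Agent.P150

open Finset Matrix

variable {n : ℕ}

/-- distinguishing by an event -/
theorem LOW_tv_event {Ω : Type} [Fintype Ω] (p q : Ω → ℝ) (hp : ∑ y, p y = 1) (hq : ∑ y, q y = 1)
    (A : Ω → Prop) [DecidablePred A] :
    (∑ y, if A y then p y else 0) - (∑ y, if A y then q y else 0) ≤
      (1 / 2) * ∑ y, |p y - q y| := by
  have h1 : ∑ y, (if A y then (p y - q y) else -(p y - q y)) ≤ ∑ y, |p y - q y| := by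
    refine sum_le_sum fun y _ => ?_
    split_ifs
    · exact le_abs_self _
    · exact neg_le_abs _
  have h2 : ∑ y, (if A y then (p y - q y) else -(p y - q y)) =
      2 * ((∑ y, if A y then p y else 0) - (∑ y, if A y then q y else 0)) -
        (∑ y, p y - ∑ y, q y) := by
    rw [← sum_sub_distrib, ← sum_sub_distrib, mul_sum, ← sum_sub_distrib]
    refine sum_congr rfl fun y _ => ?_
    split_ifs <;> ring
  rw [h2, hp, hq] at h1
  linarith

/-- Chebyshev -/
theorem LOW_cheb {Ω : Type} [Fintype Ω] (p F : Ω → ℝ) (hp0 : ∀ y, 0 ≤ p y) (hp : ∑ y, p y = 1)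
    (m V : ℝ) (hm0 : 0 < m) (hm : ∑ y, p y * F y = m) (hV : ∑ y, p y * F y ^ 2 - m ^ 2 ≤ V) :
    1 - V / m ^ 2 ≤ ∑ y, if 0 < F y then p y else 0 := by
  have h1 : ∑ y, p y * (F y - m) ^ 2 ≤ V := by
    have h2 : ∑ y, p y * (F y - m) ^ 2 =
        ∑ y, p y * F y ^ 2 - 2 * m * ∑ y, p y * F y + m ^ 2 * ∑ y, p y := by
      rw [mul_sum, mul_sum, ← sum_sub_distrib, ← sum_add_distrib]
      exact sum_congr rfl fun y _ => by ring
    rw [h2, hm, hp]
    linarith
  have h3 : (1 - ∑ y, if 0 < F y then p y else 0) * m ^ 2 ≤ V := by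
    refine le_trans ?_ h1
    rw [← hp, ← sum_sub_distrib, sum_mul]
    refine sum_le_sum fun y _ => ?_
    split_ifs with hF
    · rw [sub_self, zero_mul]
      exact mul_nonneg (hp0 y) (sq_nonneg _)
    · rw [sub_zero]
      refine mul_le_mul_of_nonneg_left ?_ (hp0 y)
      nlinarith [not_lt.mp hF]
  have h4 : 1 - (∑ y, if 0 < F y then p y else 0) ≤ V / m ^ 2 := by
    rw [le_div_iff₀ (by positivity)]
    exact h3
  linarith

/-- an odd function is positive with probability at most `1/2` -/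
theorem LOW_sym (J : Fin n → Fin n → ℝ) (F : Cfg n → ℝ) (hF : ∀ y, F (Dict_neg y) = - F y) :
    ∑ y, (if 0 < F y then gibbs J 0 y else 0) ≤ 1 / 2 := by
  have h1 : ∑ y, (if 0 < F y then gibbs J 0 y else 0) =
      ∑ y, (if F y < 0 then gibbs J 0 y else 0) := by
    have h2 : ∑ y : Cfg n, (if 0 < F (Dict_neg y) then gibbs J 0 (Dict_neg y) else 0) =
        ∑ y, (if 0 < F y then gibbs J 0 y else 0) := by
      refine Finset.sum_bij' (fun x _ => Dict_neg x) (fun x _ => Dict_neg x)
        (fun _ _ => Finset.mem_univ _) (fun _ _ => Finset.mem_univ _) ?_ ?_ ?_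
      · intro x _
        funext j
        simp [Dict_neg]
      · intro x _
        funext j
        simp [Dict_neg]
      · intro x _
        rfl
    rw [← h2]
    refine sum_congr rfl fun y _ => ?_
    have h3 : gibbs J 0 (Dict_neg y) = gibbs J 0 y := by
      unfold gibbs
      rw [Dict_wt_neg]
    rw [hF, h3]
    simp
  have h4 : ∑ y, (if 0 < F y then gibbs J 0 y else 0) +
      ∑ y, (if F y < 0 then gibbs J 0 y else 0) ≤ 1 := by
    rw [← Mix.gibbs_sum J 0, ← sum_add_distrib]
    refine sum_le_sum fun y _ => ?_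
    have h5 := (Mix.gibbs_pos J 0 y).le
    split_ifs with h6 h7
    · linarith
    · linarith
    · linarith
    · linarith
  linarith

/-- **lower bound for the distance**, fixed disorder -/
theorem LOW_tvd (hn : 0 < n) (J : Fin n → Fin n → ℝ) (hs : ∀ i j, J i j = J j i)
    (hd : ∀ i, J i i = 0) (L B : ℝ)
    (hL : ∀ v : Fin n → ℝ, |∑ i, ∑ j, J i j * v i * v j| ≤ L * ∑ i, v i ^ 2) (hL0 : 0 ≤ L)
    (hB0 : 0 ≤ B)
    (hB : ∀ i, ∑ j, J i j ^ 2 ≤ B) (hJ : ∀ i j, |J i j| ≤ 1 / 16) (t : ℝ) (ht : 0 ≤ t)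
    (hsmall : 16 * t * Real.exp ((2 * L + 32 * B + 2) * t) < n) :
    ∃ x, 1 / 4 < tvd J 0 t x := by
  have hn0 : (0 : ℝ) < n := by exact_mod_cast hn
  -- the mean
  have hmean : ∃ x : Cfg n, n * Real.exp (-t) ≤
      ∑ i, sp (x i) * (semi J 0 t).mulVec (fun y : Cfg n => sp (y i)) x := by
    by_contra hcon
    push Not at hcon
    have h1 : ∑ x, gibbs J 0 x * ∑ i, sp (x i) *
        (semi J 0 t).mulVec (fun y : Cfg n => sp (y i)) x <
        ∑ x, gibbs J 0 x * (n * Real.exp (-t)) :=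
      sum_lt_sum_of_nonempty ⟨fun _ => true, mem_univ _⟩ fun x _ =>
        mul_lt_mul_of_pos_left (hcon x) (Mix.gibbs_pos J 0 x)
    rw [← sum_mul, Mix.gibbs_sum, one_mul] at h1
    have h2 : ∑ i : Fin n, Real.exp (-t) ≤ ∑ i : Fin n, ∑ x, gibbs J 0 x * (sp (x i) *
      (semi J 0 t).mulVec (fun y : Cfg n => sp (y i)) x) :=
      sum_le_sum fun i _ => LOW_auto J 0 hs hd i t ht
    rw [sum_const, card_univ, Fintype.card_fin, nsmul_eq_mul, sum_comm] at h2
    have h3 : ∑ x, gibbs J 0 x * ∑ i, sp (x i) *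
        (semi J 0 t).mulVec (fun y : Cfg n => sp (y i)) x =
        ∑ x, ∑ i : Fin n, gibbs J 0 x * (sp (x i) *
          (semi J 0 t).mulVec (fun y : Cfg n => sp (y i)) x) :=
      sum_congr rfl fun x _ => by rw [mul_sum]
    rw [h3] at h1
    linarith
  obtain ⟨x, hx⟩ := hmean
  refine ⟨x, ?_⟩
  set F : Cfg n → ℝ := fun y => ∑ i, sp (x i) * sp (y i) with hFdef
  set m := ∑ y, semi J 0 t x y * F y with hm
  have hmx : n * Real.exp (-t) ≤ m := by
    refine hx.trans (le_of_eq ?_)
    rw [hm, hFdef]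
    unfold Matrix.mulVec dotProduct
    simp only [mul_sum]
    rw [sum_comm]
    exact sum_congr rfl fun y _ => sum_congr rfl fun i _ => by ring
  have hm0 : 0 < m := lt_of_lt_of_le (by positivity) hmx
  -- gradient of `F`
  have hgrad : ∀ y, ∑ i, Di F i y ^ 2 ≤ n := by
    intro y
    have h1 : ∀ i, Di F i y = sp (x i) := by
      intro i
      have e1 : Di F i y = ∑ j, sp (x j) * Di (fun y : Cfg n => sp (y j)) i y := by
        have e2 : Di F i y = (∑ j, sp (x j) * sp (st y i true j) -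
          ∑ j, sp (x j) * sp (st y i false j)) / 2 := rfl
        have e3 : ∀ j, Di (fun y : Cfg n => sp (y j)) i y =
          (sp (st y i true j) - sp (st y i false j)) / 2 := fun j => rfl
        simp only [e2, e3]
        rw [← sum_sub_distrib, sum_div]
        exact sum_congr rfl fun j _ => by ring
      rw [e1]
      simp only [LOW_Di_sp, mul_ite, mul_one, mul_zero]
      rw [sum_ite_eq' univ i, if_pos (mem_univ i)]
    simp only [h1, sp_sq, sum_const, card_univ, Fintype.card_fin, nsmul_eq_mul, mul_one]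
    exact le_rfl
  have hvar := LOW_var hn J 0 hs hd L B hL hL0 hB0 hB hJ F n hn0.le hgrad t ht x
  set V := 4 * (n : ℝ) * Real.exp ((2 * L + 32 * B) * t) * t with hV
  have hV' : ∑ y, semi J 0 t x y * F y ^ 2 - m ^ 2 ≤ V := hvar
  have hch := LOW_cheb (semi J 0 t x) F (fun y => LOW_semi_nonneg hn J 0 ht x y)
    (LOW_semi_row J 0 t x) m V hm0 rfl hV'
  have hsy := LOW_sym J F (by
    intro y
    rw [hFdef]
    simp only
    rw [← sum_neg_distrib]
    refine sum_congr rfl fun i _ => ?_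
    unfold Dict_neg
    rw [Dict_sp_not]
    ring)
  have hev := LOW_tv_event (semi J 0 t x) (gibbs J 0) (LOW_semi_row J 0 t x) (Mix.gibbs_sum J 0)
    (fun y => 0 < F y)
  have htv : tvd J 0 t x = (1 / 2) * ∑ y, |semi J 0 t x y - gibbs J 0 y| := rfl
  rw [htv]
  have hVm : V / m ^ 2 < 1 / 4 := by
    have h1 : (n * Real.exp (-t)) ^ 2 ≤ m ^ 2 := pow_le_pow_left₀ (by positivity) hmx 2
    rw [div_lt_iff₀ (by positivity)]
    have h2 : (n * Real.exp (-t)) ^ 2 = n ^ 2 * Real.exp (-(2 * t)) := by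
      rw [mul_pow, ← Real.exp_nat_mul]
      congr 2
      push_cast
      ring
    have h3 : V = n * Real.exp (-(2 * t)) / 4 *
        (16 * t * Real.exp ((2 * L + 32 * B + 2) * t)) := by
      have h4 : Real.exp ((2 * L + 32 * B + 2) * t) =
          Real.exp ((2 * L + 32 * B) * t) * Real.exp (2 * t) := by
        rw [← Real.exp_add]; congr 1; ring
      have h5 : Real.exp (-(2 * t)) * Real.exp (2 * t) = 1 := by
        rw [← Real.exp_add, neg_add_cancel, Real.exp_zero]
      rw [h4, hV]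
      linear_combination (-(4 * (n : ℝ) * Real.exp ((2 * L + 32 * B) * t) * t)) * h5
    have h6 : V < n * Real.exp (-(2 * t)) / 4 * n := by
      rw [h3]
      exact mul_lt_mul_of_pos_left hsmall (by positivity)
    nlinarith
  linarith

end Vale.Agent.P150
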