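import Vale.Agent.Lib.P150.Defs
import Vale.Agent.Lib.P150.G

/-! P150 MODULE PAIR: the four-point inequality. -/

namespace Vale.Agent.P150

open Finset

theorem pair_exp (x σ : ℝ) (hσ : σ = 1 ∨ σ = -1) :
    Real.exp (x * σ) = Real.cosh x * (1 + Real.tanh x * σ) := by
  have hc := (Real.cosh_pos x).ne'
  rw [Real.tanh_eq_sinh_div_cosh]
  rcases hσ with rfl | rfl
  · rw [mul_one, mul_one, mul_add, mul_one, mul_div_cancel₀ _ hc, Real.cosh_add_sinh]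
  · have : Real.cosh x * (1 + Real.sinh x / Real.cosh x * -1) = Real.cosh x - Real.sinh x := by
      field_simp
      ring
    rw [this, Real.cosh_sub_sinh, mul_neg_one]

theorem pair_tanh (x y σ : ℝ) (hσ : σ = 1 ∨ σ = -1) :
    Real.tanh (x + y * σ) = (Real.tanh x + Real.tanh y * σ) / (1 + Real.tanh y * Real.tanh x * σ) := by
  have hc := (Real.cosh_pos x).ne'
  have hc' := (Real.cosh_pos y).ne'
  have e1 : Real.sinh (y * σ) = Real.sinh y * σ := by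
    rcases hσ with rfl | rfl
    · simp
    · rw [mul_neg_one, Real.sinh_neg, mul_neg_one]
  have e2 : Real.cosh (y * σ) = Real.cosh y := by
    rcases hσ with rfl | rfl
    · simp
    · rw [mul_neg_one, Real.cosh_neg]
  rw [Real.tanh_eq_sinh_div_cosh, Real.sinh_add, Real.cosh_add, e1, e2, Real.tanh_eq_sinh_div_cosh,
    Real.tanh_eq_sinh_div_cosh]
  have hd := (Real.cosh_pos (x + y * σ)).ne'
  rw [Real.cosh_add, e1, e2] at hd
  have h1 : Real.sinh x * Real.cosh y + Real.cosh x * (Real.sinh y * σ) =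
      (Real.cosh x * Real.cosh y) * (Real.sinh x / Real.cosh x + Real.sinh y / Real.cosh y * σ) := by
    field_simp
  have h2 : Real.cosh x * Real.cosh y + Real.sinh x * (Real.sinh y * σ) =
      (Real.cosh x * Real.cosh y) * (1 + Real.sinh y / Real.cosh y * (Real.sinh x / Real.cosh x) * σ) := by
    field_simp
  rw [h1, h2, mul_div_mul_left _ _ (mul_ne_zero hc hc')]

/-- the function of module G -/
noncomputable def pairG (t m n : ℝ) : ℝ :=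
  (1 - t^2) / ((1 + t*m*n) * (1 + t*m) * (1 + t*n)) *
        ((1 - t) + t * (1 - t^2) * (1+m) * (1+n) * (1+t) / ((1 + t*m) * (1 + t*n)))

/-- the rational identity -/
theorem pair_core (t m n : ℝ) (hA : 1 + t * m ≠ 0) (hB : 1 + t * n ≠ 0) (hZ : 1 + t * m * n ≠ 0) :
    (1 + m) * (1 + n) * (1 + t) * ((1 - (m + t) / (1 + t * m)) * (1 - (n + t) / (1 + t * n))) +
      t * ((1 + m) * (1 + n) * (1 + t) *
        ((1 - ((m + t) / (1 + t * m)) ^ 2) * (1 - ((n + t) / (1 + t * n)) ^ 2))) =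
      (1 - m ^ 2) * (1 - n ^ 2) * (1 + t * m * n) * pairG t m n := by
  unfold pairG
  have hA' : (1 + t * m) * (1 + t * m)⁻¹ = 1 := mul_inv_cancel₀ hA
  have hB' : (1 + t * n) * (1 + t * n)⁻¹ = 1 := mul_inv_cancel₀ hB
  have e1 : 1 - (m + t) / (1 + t * m) = (1 - m) * (1 - t) * (1 + t * m)⁻¹ := by
    rw [div_eq_mul_inv]
    linear_combination (-1 : ℝ) * hA'
  have e2 : 1 - (n + t) / (1 + t * n) = (1 - n) * (1 - t) * (1 + t * n)⁻¹ := by
    rw [div_eq_mul_inv]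
    linear_combination (-1 : ℝ) * hB'
  have e3 : 1 - ((m + t) / (1 + t * m)) ^ 2 = (1 - m ^ 2) * (1 - t ^ 2) * (1 + t * m)⁻¹ ^ 2 := by
    rw [div_eq_mul_inv]
    linear_combination (-((1 + t * m) * (1 + t * m)⁻¹ + 1)) * hA'
  have e4 : 1 - ((n + t) / (1 + t * n)) ^ 2 = (1 - n ^ 2) * (1 - t ^ 2) * (1 + t * n)⁻¹ ^ 2 := by
    rw [div_eq_mul_inv]
    linear_combination (-((1 + t * n) * (1 + t * n)⁻¹ + 1)) * hB'
  have e5 : (1 + t * m * n) * (1 + t * m * n)⁻¹ = 1 := mul_inv_cancel₀ hZ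
  rw [e1, e2, e3, e4]
  simp only [div_eq_mul_inv, mul_inv]
  generalize (1 + t * m)⁻¹ = A
  generalize (1 + t * n)⁻¹ = B
  generalize (1 + t * m * n)⁻¹ = Z at e5 ⊢
  linear_combination (-((1 - m ^ 2) * (1 - n ^ 2) * (1 - t ^ 2) * A * B *
    ((1 - t) + t * (1 - t^2) * (1+m) * (1+n) * (1+t) * (A * B)))) * e5

/-- pointwise lower bound -/
theorem pair_point (T m n σ τ U V : ℝ) (hσ : σ = 1 ∨ σ = -1) (hτ : τ = 1 ∨ τ = -1)
    (hT : |T| ≤ 1 / 4) (hm : |m| ≤ 1) (hn : |n| ≤ 1) :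
    (1 - m ^ 2) * (1 - n ^ 2) * (1 + T * m * n) *
      (σ * τ * (U * V) - T ^ 2 * (σ * τ * ((m * σ + n * τ) * (m * σ + n * τ + 2 * m * n * (σ * τ))) * (U * V))
        - 300 * |T| ^ 3 * |U * V|) ≤
    (1 + m * σ) * (1 + n * τ) * (1 + T * (σ * τ)) *
        ((σ - (m + T * τ) / (1 + T * m * τ)) * (τ - (n + T * σ) / (1 + T * n * σ)) * (U * V)) +
      T * ((1 + m * σ) * (1 + n * τ) * (1 + T * (σ * τ)) *
        ((1 - ((m + T * τ) / (1 + T * m * τ)) ^ 2) * (1 - ((n + T * σ) / (1 + T * n * σ)) ^ 2) * (U * V))) := by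
  have hσ2 : σ * σ = 1 := by rcases hσ with rfl | rfl <;> norm_num
  have hτ2 : τ * τ = 1 := by rcases hτ with rfl | rfl <;> norm_num
  have hστ : (σ * τ) * (σ * τ) = 1 := by
    calc (σ * τ) * (σ * τ) = (σ * σ) * (τ * τ) := by ring
      _ = 1 := by rw [hσ2, hτ2, one_mul]
  have haσ : |σ| = 1 := by rcases hσ with rfl | rfl <;> simp
  have haτ : |τ| = 1 := by rcases hτ with rfl | rfl <;> simp
  set t := T * (σ * τ) with ht
  set m' := m * σ with hm'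
  set n' := n * τ with hn'
  have hta : |t| = |T| := by rw [ht, abs_mul, abs_mul, haσ, haτ]; ring
  have hma : |m'| = |m| := by rw [hm', abs_mul, haσ, mul_one]
  have hna : |n'| = |n| := by rw [hn', abs_mul, haτ, mul_one]
  have htm : |t * m'| ≤ 1 / 4 := by
    rw [abs_mul, hta, hma]
    calc |T| * |m| ≤ (1 / 4) * 1 := mul_le_mul hT hm (abs_nonneg _) (by norm_num)
      _ = 1 / 4 := by norm_num
  have htn : |t * n'| ≤ 1 / 4 := by
    rw [abs_mul, hta, hna]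
    calc |T| * |n| ≤ (1 / 4) * 1 := mul_le_mul hT hn (abs_nonneg _) (by norm_num)
      _ = 1 / 4 := by norm_num
  have htmn : |t * m' * n'| ≤ 1 / 4 := by
    rw [abs_mul, hna]
    calc |t * m'| * |n| ≤ (1 / 4) * 1 := mul_le_mul htm hn (abs_nonneg _) (by norm_num)
      _ = 1 / 4 := by norm_num
  have hA : 0 < 1 + t * m' := by have := (abs_le.1 htm).1; linarith
  have hB : 0 < 1 + t * n' := by have := (abs_le.1 htn).1; linarith
  have hZ : 0 < 1 + t * m' * n' := by have := (abs_le.1 htmn).1; linarith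
  have eA : T * m * τ = t * m' := by
    rw [ht, hm']
    calc T * m * τ = T * m * τ * (σ * σ) := by rw [hσ2, mul_one]
      _ = _ := by ring
  have eB : T * n * σ = t * n' := by
    rw [ht, hn']
    calc T * n * σ = T * n * σ * (τ * τ) := by rw [hτ2, mul_one]
      _ = _ := by ring
  have eZ : T * m * n = t * m' * n' := by
    rw [ht, hm', hn']
    calc T * m * n = T * m * n * ((σ * σ) * (τ * τ)) := by rw [hσ2, hτ2]; ring
      _ = _ := by ring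
  have eC : σ - (m + T * τ) / (1 + T * m * τ) = σ * (1 - (m' + t) / (1 + t * m')) := by
    rw [eA, mul_sub, mul_one, ← mul_div_assoc]
    congr 2
    rw [ht, hm']
    calc m + T * τ = m * (σ * σ) + T * τ * (σ * σ) := by rw [hσ2]; ring
      _ = _ := by ring
  have eD : τ - (n + T * σ) / (1 + T * n * σ) = τ * (1 - (n' + t) / (1 + t * n')) := by
    rw [eB, mul_sub, mul_one, ← mul_div_assoc]
    congr 2
    rw [ht, hn']
    calc n + T * σ = n * (τ * τ) + T * σ * (τ * τ) := by rw [hτ2]; ring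
      _ = _ := by ring
  have eE : ((m + T * τ) / (1 + T * m * τ)) ^ 2 = ((m' + t) / (1 + t * m')) ^ 2 := by
    have : (m + T * τ) / (1 + T * m * τ) = σ * ((m' + t) / (1 + t * m')) := by
      rw [eA, ← mul_div_assoc]
      congr 1
      rw [ht, hm']
      calc m + T * τ = m * (σ * σ) + T * τ * (σ * σ) := by rw [hσ2]; ring
        _ = _ := by ring
    rw [this, mul_pow, pow_two σ, hσ2, one_mul]
  have eF : ((n + T * σ) / (1 + T * n * σ)) ^ 2 = ((n' + t) / (1 + t * n')) ^ 2 := by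
    have : (n + T * σ) / (1 + T * n * σ) = τ * ((n' + t) / (1 + t * n')) := by
      rw [eB, ← mul_div_assoc]
      congr 1
      rw [ht, hn']
      calc n + T * σ = n * (τ * τ) + T * σ * (τ * τ) := by rw [hτ2]; ring
        _ = _ := by ring
    rw [this, mul_pow, pow_two τ, hτ2, one_mul]
  rw [eC, eD, eE, eF, eZ]
  clear eC eD eE eF eA eB eZ
  have hT' : T = t * (σ * τ) := by
    rw [ht]
    calc T = T * ((σ * τ) * (σ * τ)) := by rw [hστ, mul_one]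
      _ = _ := by ring
  have hcore := pair_core t m' n' hA.ne' hB.ne' hZ.ne'
  have hRHS : (1 + m') * (1 + n') * (1 + t) *
        (σ * (1 - (m' + t) / (1 + t * m')) * (τ * (1 - (n' + t) / (1 + t * n'))) * (U * V)) +
      T * ((1 + m') * (1 + n') * (1 + t) *
        ((1 - ((m' + t) / (1 + t * m')) ^ 2) * (1 - ((n' + t) / (1 + t * n')) ^ 2) * (U * V))) =
      (σ * τ * (U * V)) * ((1 - m' ^ 2) * (1 - n' ^ 2) * (1 + t * m' * n') * pairG t m' n') := by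
    rw [← hcore]
    linear_combination ((1 + m') * (1 + n') * (1 + t) * ((1 - ((m' + t) / (1 + t * m')) ^ 2) *
      (1 - ((n' + t) / (1 + t * n')) ^ 2)) * (U * V)) * hT'
  rw [hRHS]
  have hG := gfun_bound t m' n' (by rw [hta]; exact hT) (by rw [hma]; exact hm) (by rw [hna]; exact hn)
  have hG' : |pairG t m' n' - 1 + t ^ 2 * ((m' + n') * (m' + n' + 2 * m' * n'))| ≤ 300 * |T| ^ 3 := by
    rw [hta] at hG
    exact hG
  have em : m ^ 2 = m' ^ 2 := by rw [hm', mul_pow, pow_two σ, hσ2, mul_one]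
  have en : n ^ 2 = n' ^ 2 := by rw [hn', mul_pow, pow_two τ, hτ2, mul_one]
  have eT : T ^ 2 = t ^ 2 := by rw [ht, mul_pow, pow_two (σ * τ), hστ, mul_one]
  have e2 : 2 * m * n * (σ * τ) = 2 * m' * n' := by rw [hm', hn']; ring
  rw [em, en, eT, e2]
  have hS : 0 ≤ 1 - m' ^ 2 := by
    have : m' ^ 2 ≤ 1 := (sq_le_one_iff_abs_le_one m').2 (by rw [hma]; exact hm)
    linarith
  have hR : 0 ≤ 1 - n' ^ 2 := by
    have : n' ^ 2 ≤ 1 := (sq_le_one_iff_abs_le_one n').2 (by rw [hna]; exact hn)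
    linarith
  have hK : 0 ≤ (1 - m' ^ 2) * (1 - n' ^ 2) * (1 + t * m' * n') := by positivity
  have hmain : σ * τ * (U * V) - t ^ 2 * (σ * τ * ((m' + n') * (m' + n' + 2 * m' * n')) * (U * V))
        - 300 * |T| ^ 3 * |U * V| ≤ σ * τ * (U * V) * pairG t m' n' := by
    have h1 : |σ * τ * (U * V) * (pairG t m' n' - 1 + t ^ 2 * ((m' + n') * (m' + n' + 2 * m' * n')))| ≤
        300 * |T| ^ 3 * |U * V| := by
      rw [abs_mul, abs_mul, abs_mul, haσ, haτ, one_mul, one_mul, mul_comm]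
      exact mul_le_mul_of_nonneg_right hG' (abs_nonneg _)
    have h2 := (abs_le.1 h1).1
    have h3 : σ * τ * (U * V) * (pairG t m' n' - 1 + t ^ 2 * ((m' + n') * (m' + n' + 2 * m' * n'))) =
        σ * τ * (U * V) * pairG t m' n' - (σ * τ * (U * V) -
          t ^ 2 * (σ * τ * ((m' + n') * (m' + n' + 2 * m' * n')) * (U * V))) := by ring
    rw [h3] at h2
    linarith
  calc _ ≤ (1 - m' ^ 2) * (1 - n' ^ 2) * (1 + t * m' * n') * (σ * τ * (U * V) * pairG t m' n') :=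
        mul_le_mul_of_nonneg_left hmain hK
    _ = _ := by ring

/-- weight of the pair, up to a constant -/
noncomputable def pairW (T m n σ τ : ℝ) : ℝ := (1 + m * σ) * (1 + n * τ) * (1 + T * (σ * τ))

/-- conditional mean -/
noncomputable def pairM (T m τ : ℝ) : ℝ := (m + T * τ) / (1 + T * m * τ)

/-- elementary one-variable estimate -/
theorem pair_scal (x m y z : ℝ) (hx : x ≤ 1 / 4) (hy : |y| ≤ x) (hz : |z| ≤ x) (hm : |m| ≤ 1) :
    (1 + z) * m ^ 2 * (1 + m * y) ^ 3 ≤ (1 - y ^ 2) * ((m + y) ^ 2 + 100 * x * (1 + m * y) ^ 2) := by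
  have hx0 : 0 ≤ x := (abs_nonneg y).trans hy
  have hm2 : m ^ 2 ≤ 1 := (sq_le_one_iff_abs_le_one m).2 hm
  have hmy : |m * y| ≤ x := by
    rw [abs_mul]
    calc |m| * |y| ≤ 1 * x := mul_le_mul hm hy (abs_nonneg _) (by norm_num)
      _ = x := one_mul x
  obtain ⟨a1, a2⟩ := abs_le.1 hmy
  obtain ⟨b1, b2⟩ := abs_le.1 hy
  obtain ⟨c1, c2⟩ := abs_le.1 hz
  obtain ⟨d1, d2⟩ := abs_le.1 hm
  have hA0 : 0 ≤ 1 + m * y := by linarith
  have hA1 : 3 / 4 ≤ 1 + m * y := by linarith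
  have hA3 : (1 + m * y) ^ 3 ≤ 1 + 4 * x := by
    have h1 : (1 + m * y) ^ 3 ≤ (1 + x) ^ 3 := pow_le_pow_left₀ hA0 (by linarith) 3
    have h4 : x * x ≤ (1 / 4) * x := mul_le_mul_of_nonneg_right hx hx0
    have h5 : x * (x * x) ≤ (1 / 4) * ((1 / 4) * x) :=
      mul_le_mul hx h4 (mul_nonneg hx0 hx0) (by norm_num)
    have h2 : (1 + x) ^ 3 = 1 + 3 * x + 3 * (x * x) + x * (x * x) := by ring
    linarith
  have hL : (1 + z) * m ^ 2 * (1 + m * y) ^ 3 ≤ m ^ 2 + 6 * x := by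
    have h1 : (1 + z) * m ^ 2 ≤ (1 + x) * m ^ 2 :=
      mul_le_mul_of_nonneg_right (by linarith) (sq_nonneg _)
    have h2 : (1 + z) * m ^ 2 * (1 + m * y) ^ 3 ≤ (1 + x) * m ^ 2 * (1 + 4 * x) :=
      mul_le_mul h1 hA3 (pow_nonneg hA0 3) (mul_nonneg (by linarith) (sq_nonneg _))
    have h3 : (1 + x) * m ^ 2 * (1 + 4 * x) = m ^ 2 + (5 * x + 4 * (x * x)) * m ^ 2 := by ring
    have h4 : x * x ≤ (1 / 4) * x := mul_le_mul_of_nonneg_right hx hx0
    have h5 : (5 * x + 4 * (x * x)) * m ^ 2 ≤ (5 * x + 4 * (x * x)) * 1 :=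
      mul_le_mul_of_nonneg_left hm2 (by positivity)
    linarith
  have hy2 : y ^ 2 ≤ (1 / 4) * x := by
    have h1 : y ^ 2 = |y| * |y| := by rw [← sq_abs, sq]
    rw [h1]
    calc |y| * |y| ≤ (1 / 4) * x := mul_le_mul (hy.trans hx) hy (abs_nonneg _) (by norm_num)
      _ = _ := rfl
  have hmy2 : (m + y) ^ 2 ≤ 25 / 16 := by
    have h1 : |m + y| ≤ 5 / 4 := (abs_add_le m y).trans (by linarith)
    have h2 : |m + y| ^ 2 ≤ (5 / 4) ^ 2 := pow_le_pow_left₀ (abs_nonneg _) h1 2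
    rw [sq_abs] at h2
    norm_num at h2 ⊢
    exact h2
  have hm2y : m ^ 2 - 2 * x ≤ (m + y) ^ 2 := by nlinarith [sq_nonneg y]
  have hR1 : m ^ 2 - 2 * x - (25 / 64) * x ≤ (1 - y ^ 2) * (m + y) ^ 2 := by
    have h1 : y ^ 2 * (m + y) ^ 2 ≤ ((1 / 4) * x) * (25 / 16) :=
      mul_le_mul hy2 hmy2 (sq_nonneg _) (by positivity)
    linarith
  have hR2 : 50 * x ≤ (1 - y ^ 2) * (100 * x * (1 + m * y) ^ 2) := by
    have h1 : (15 : ℝ) / 16 ≤ 1 - y ^ 2 := by linarith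
    have h2 : (9 : ℝ) / 16 ≤ (1 + m * y) ^ 2 := by nlinarith
    have h3 : 100 * x * (9 / 16) ≤ 100 * x * (1 + m * y) ^ 2 :=
      mul_le_mul_of_nonneg_left h2 (by positivity)
    have h4 : (15 / 16) * (100 * x * (9 / 16)) ≤ (1 - y ^ 2) * (100 * x * (1 + m * y) ^ 2) :=
      mul_le_mul h1 h3 (by positivity) (by linarith)
    linarith
  rw [mul_add]
  linarith

theorem pair_coef (J T m n τ : ℝ) (hτ : τ = 1 ∨ τ = -1) (hJ : |J| ≤ 1 / 4) (hT : |T| ≤ |J|)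
    (hm : |m| ≤ 1) (hn : |n| ≤ 1) :
    2 * T ^ 2 * ((1 + T * m * n) * m ^ 2) + 750 * |J| ^ 3 ≤
      2 * (1 - T ^ 2) / (1 + T * m * τ) * (J ^ 2 * pairM T m τ ^ 2 + 700 * |J| ^ 3) := by
  have hx0 : 0 ≤ |J| := abs_nonneg J
  have haτ : |τ| = 1 := by rcases hτ with rfl | rfl <;> simp
  have hτ2 : τ ^ 2 = 1 := by rcases hτ with rfl | rfl <;> norm_num
  have hy : |T * τ| ≤ |J| := by rw [abs_mul, haτ, mul_one]; exact hT
  have hz : |T * m * n| ≤ |J| := by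
    rw [abs_mul, abs_mul]
    calc |T| * |m| * |n| ≤ |J| * 1 * 1 :=
          mul_le_mul (mul_le_mul hT hm (abs_nonneg _) hx0) hn (abs_nonneg _) (by positivity)
      _ = |J| := by ring
  have h := pair_scal |J| m (T * τ) (T * m * n) hJ hy hz hm
  have hmy : |m * (T * τ)| ≤ |J| := by
    rw [abs_mul]
    calc |m| * |T * τ| ≤ 1 * |J| := mul_le_mul hm hy (abs_nonneg _) (by norm_num)
      _ = |J| := one_mul _
  obtain ⟨a1, a2⟩ := abs_le.1 hmy
  have eA : m * (T * τ) = T * m * τ := by ring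
  rw [eA] at h a1 a2
  set A := 1 + T * m * τ with hA
  have hA0 : 3 / 4 ≤ A := by linarith
  have hA1 : A ≤ 5 / 4 := by linarith
  have hApos : 0 < A := by linarith
  have eT : (T * τ) ^ 2 = T ^ 2 := by rw [mul_pow, hτ2, mul_one]
  rw [eT] at h
  have hT2 : T ^ 2 ≤ |J| ^ 2 := by
    rw [← sq_abs]
    exact pow_le_pow_left₀ (abs_nonneg _) hT 2
  have hJ2 : |J| ^ 2 = J ^ 2 := sq_abs J
  have hT16 : T ^ 2 ≤ 1 / 16 := by
    have : |J| ^ 2 ≤ (1 / 4) ^ 2 := pow_le_pow_left₀ hx0 hJ 2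
    norm_num at this
    linarith
  -- divide by A^3
  have h1 : (1 + T * m * n) * m ^ 2 ≤ (1 - T ^ 2) / A * (pairM T m τ ^ 2 + 100 * |J|) := by
    have e : (1 - T ^ 2) / A * (pairM T m τ ^ 2 + 100 * |J|) =
        ((1 - T ^ 2) * ((m + T * τ) ^ 2 + 100 * |J| * A ^ 2)) / A ^ 3 := by
      unfold pairM
      rw [← hA]
      field_simp
    rw [e, le_div_iff₀ (by positivity)]
    exact h
  have hZ0 : 0 ≤ (1 + T * m * n) * m ^ 2 := by
    have := (abs_le.1 hz).1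
    exact mul_nonneg (by linarith) (sq_nonneg _)
  have h2 : T ^ 2 * ((1 + T * m * n) * m ^ 2) ≤ J ^ 2 * ((1 - T ^ 2) / A * (pairM T m τ ^ 2 + 100 * |J|)) := by
    apply mul_le_mul _ h1 hZ0 (sq_nonneg _)
    rw [← hJ2]; exact hT2
  have h3 : (3 : ℝ) / 4 ≤ (1 - T ^ 2) / A := by
    rw [le_div_iff₀ hApos]
    linarith
  have h4 : (3 / 4) * (600 * |J| ^ 3) ≤ (1 - T ^ 2) / A * (600 * |J| ^ 3) :=
    mul_le_mul_of_nonneg_right h3 (by positivity)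
  have e5 : J ^ 2 * ((1 - T ^ 2) / A * (pairM T m τ ^ 2 + 100 * |J|)) =
      (1 - T ^ 2) / A * (J ^ 2 * pairM T m τ ^ 2 + 100 * |J| ^ 3) := by
    rw [← hJ2]; ring
  have e6 : 2 * (1 - T ^ 2) / A * (J ^ 2 * pairM T m τ ^ 2 + 700 * |J| ^ 3) =
      2 * ((1 - T ^ 2) / A * (J ^ 2 * pairM T m τ ^ 2 + 100 * |J| ^ 3)) +
        2 * ((1 - T ^ 2) / A * (600 * |J| ^ 3)) := by ring
  rw [e5] at h2
  rw [e6]
  have h7 : 0 ≤ |J| ^ 3 := by positivity
  linarith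

/-- the one-dimensional estimate used for each of the two spins -/
theorem pair_one (J T m n U1 U2 : ℝ) (hJ : |J| ≤ 1 / 4) (hT : |T| ≤ |J|) (hm : |m| ≤ 1)
    (hn : |n| ≤ 1) :
    (1 + T * m * n) * (4 * T ^ 2 * ((1 - m ^ 2) * (m ^ 2 * (((1 + n) * U1 + (1 - n) * U2) / 2) ^ 2))) +
      300 * |T| ^ 3 * ((1 + T * m * n) * ((1 - m ^ 2) * (1 - n ^ 2) * (U1 ^ 2 + U2 ^ 2))) ≤
    (1 - m ^ 2) * ((1 + n) * U1 ^ 2 * (2 * (1 - T ^ 2) / (1 + T * m * 1) *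
        (J ^ 2 * pairM T m 1 ^ 2 + 700 * |J| ^ 3)) +
      (1 - n) * U2 ^ 2 * (2 * (1 - T ^ 2) / (1 + T * m * (-1)) *
        (J ^ 2 * pairM T m (-1) ^ 2 + 700 * |J| ^ 3))) := by
  have hS : 0 ≤ 1 - m ^ 2 := by
    have := (sq_le_one_iff_abs_le_one m).2 hm
    linarith
  obtain ⟨n1, n2⟩ := abs_le.1 hn
  have hx0 : 0 ≤ |J| := abs_nonneg J
  have hz : |T * m * n| ≤ |J| := by
    rw [abs_mul, abs_mul]
    calc |T| * |m| * |n| ≤ |J| * 1 * 1 :=
          mul_le_mul (mul_le_mul hT hm (abs_nonneg _) hx0) hn (abs_nonneg _) (by positivity)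
      _ = |J| := by ring
  have hZ0 : 0 ≤ 1 + T * m * n := by have := (abs_le.1 hz).1; linarith
  have hZ1 : 1 + T * m * n ≤ 5 / 4 := by have := (abs_le.1 hz).2; linarith
  have c1 := pair_coef J T m n 1 (Or.inl rfl) hJ hT hm hn
  have c2 := pair_coef J T m n (-1) (Or.inr rfl) hJ hT hm hn
  have p1 : 0 ≤ (1 - m ^ 2) * ((1 + n) * U1 ^ 2) :=
    mul_nonneg hS (mul_nonneg (by linarith) (sq_nonneg _))
  have p2 : 0 ≤ (1 - m ^ 2) * ((1 - n) * U2 ^ 2) :=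
    mul_nonneg hS (mul_nonneg (by linarith) (sq_nonneg _))
  have q1 := mul_le_mul_of_nonneg_left c1 p1
  have q2 := mul_le_mul_of_nonneg_left c2 p2
  -- Jensen
  have hj : (((1 + n) * U1 + (1 - n) * U2) / 2) ^ 2 ≤ ((1 + n) * U1 ^ 2 + (1 - n) * U2 ^ 2) / 2 := by
    have : ((1 + n) * U1 ^ 2 + (1 - n) * U2 ^ 2) / 2 - (((1 + n) * U1 + (1 - n) * U2) / 2) ^ 2 =
        (1 + n) * (1 - n) * (U1 - U2) ^ 2 / 4 := by ring
    have h0 : 0 ≤ (1 + n) * (1 - n) * (U1 - U2) ^ 2 / 4 := by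
      have : 0 ≤ (1 + n) * (1 - n) := mul_nonneg (by linarith) (by linarith)
      positivity
    linarith
  have j1 : (1 + T * m * n) * (4 * T ^ 2 * ((1 - m ^ 2) * (m ^ 2 * (((1 + n) * U1 + (1 - n) * U2) / 2) ^ 2)))
      ≤ (1 + T * m * n) * (4 * T ^ 2 * ((1 - m ^ 2) * (m ^ 2 *
        (((1 + n) * U1 ^ 2 + (1 - n) * U2 ^ 2) / 2)))) := by
    apply mul_le_mul_of_nonneg_left _ hZ0
    apply mul_le_mul_of_nonneg_left _ (by positivity)
    apply mul_le_mul_of_nonneg_left _ hS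
    exact mul_le_mul_of_nonneg_left hj (sq_nonneg _)
  -- cubic term
  have hT3 : |T| ^ 3 ≤ |J| ^ 3 := pow_le_pow_left₀ (abs_nonneg _) hT 3
  have k1 : (1 - n ^ 2) * (U1 ^ 2 + U2 ^ 2) ≤ 2 * ((1 + n) * U1 ^ 2 + (1 - n) * U2 ^ 2) := by
    have e : 2 * ((1 + n) * U1 ^ 2 + (1 - n) * U2 ^ 2) - (1 - n ^ 2) * (U1 ^ 2 + U2 ^ 2) =
        (1 + n) * (1 + n) * U1 ^ 2 + (1 - n) * (1 - n) * U2 ^ 2 := by ring
    have : 0 ≤ (1 + n) * (1 + n) * U1 ^ 2 + (1 - n) * (1 - n) * U2 ^ 2 := by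
      have := mul_nonneg (mul_self_nonneg (1 + n)) (sq_nonneg U1)
      have := mul_nonneg (mul_self_nonneg (1 - n)) (sq_nonneg U2)
      linarith
    linarith
  have k2 : (1 - m ^ 2) * (1 - n ^ 2) * (U1 ^ 2 + U2 ^ 2) ≤
      (1 - m ^ 2) * (2 * ((1 + n) * U1 ^ 2 + (1 - n) * U2 ^ 2)) := by
    rw [mul_assoc]
    exact mul_le_mul_of_nonneg_left k1 hS
  have k0 : 0 ≤ (1 - m ^ 2) * (1 - n ^ 2) * (U1 ^ 2 + U2 ^ 2) := by
    have : 0 ≤ 1 - n ^ 2 := by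
      have := (sq_le_one_iff_abs_le_one n).2 hn
      linarith
    positivity
  have k3 : (1 + T * m * n) * ((1 - m ^ 2) * (1 - n ^ 2) * (U1 ^ 2 + U2 ^ 2)) ≤
      (5 / 4) * ((1 - m ^ 2) * (2 * ((1 + n) * U1 ^ 2 + (1 - n) * U2 ^ 2))) :=
    mul_le_mul hZ1 k2 k0 (by norm_num)
  have k4 : 300 * |T| ^ 3 * ((1 + T * m * n) * ((1 - m ^ 2) * (1 - n ^ 2) * (U1 ^ 2 + U2 ^ 2))) ≤
      300 * |J| ^ 3 * ((5 / 4) * ((1 - m ^ 2) * (2 * ((1 + n) * U1 ^ 2 + (1 - n) * U2 ^ 2)))) :=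
    mul_le_mul (by linarith) k3 (mul_nonneg hZ0 k0) (by positivity)
  have e1 : (1 + T * m * n) * (4 * T ^ 2 * ((1 - m ^ 2) * (m ^ 2 *
        (((1 + n) * U1 ^ 2 + (1 - n) * U2 ^ 2) / 2)))) +
      300 * |J| ^ 3 * ((5 / 4) * ((1 - m ^ 2) * (2 * ((1 + n) * U1 ^ 2 + (1 - n) * U2 ^ 2)))) =
      (1 - m ^ 2) * ((1 + n) * U1 ^ 2) * (2 * T ^ 2 * ((1 + T * m * n) * m ^ 2) + 750 * |J| ^ 3) +
      (1 - m ^ 2) * ((1 - n) * U2 ^ 2) * (2 * T ^ 2 * ((1 + T * m * n) * m ^ 2) + 750 * |J| ^ 3) := by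
    ring
  have e2 : (1 - m ^ 2) * ((1 + n) * U1 ^ 2 * (2 * (1 - T ^ 2) / (1 + T * m * 1) *
        (J ^ 2 * pairM T m 1 ^ 2 + 700 * |J| ^ 3)) +
      (1 - n) * U2 ^ 2 * (2 * (1 - T ^ 2) / (1 + T * m * (-1)) *
        (J ^ 2 * pairM T m (-1) ^ 2 + 700 * |J| ^ 3))) =
      (1 - m ^ 2) * ((1 + n) * U1 ^ 2) * (2 * (1 - T ^ 2) / (1 + T * m * 1) *
        (J ^ 2 * pairM T m 1 ^ 2 + 700 * |J| ^ 3)) +
      (1 - m ^ 2) * ((1 - n) * U2 ^ 2) * (2 * (1 - T ^ 2) / (1 + T * m * (-1)) *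
        (J ^ 2 * pairM T m (-1) ^ 2 + 700 * |J| ^ 3)) := by
    ring
  rw [e2]
  linarith

theorem pair_hasDeriv_tanh (x : ℝ) : HasDerivAt Real.tanh (1 - Real.tanh x ^ 2) x := by
  have hc := (Real.cosh_pos x).ne'
  have h := (Real.hasDerivAt_sinh x).div (Real.hasDerivAt_cosh x) hc
  have e : (fun y => Real.sinh y / Real.cosh y) = Real.tanh := by
    funext y; rw [Real.tanh_eq_sinh_div_cosh]
  have h' : HasDerivAt (fun y => Real.sinh y / Real.cosh y)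
      ((Real.cosh x * Real.cosh x - Real.sinh x * Real.sinh x) / Real.cosh x ^ 2) x := h
  rw [e] at h'
  convert h' using 1
  rw [Real.tanh_eq_sinh_div_cosh]
  field_simp

theorem pair_tanh_le (x : ℝ) : |Real.tanh x| ≤ |x| ∧ |x - Real.tanh x| ≤ |x| ^ 3 := by
  have d1 : ∀ y, HasDerivAt (fun y => y - Real.tanh y) (1 - (1 - Real.tanh y ^ 2)) y := fun y =>
    (hasDerivAt_id y).sub (pair_hasDeriv_tanh y)
  have m1 : Monotone (fun y => y - Real.tanh y) :=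
    monotone_of_deriv_nonneg (fun y => (d1 y).differentiableAt)
      (fun y => by rw [(d1 y).deriv]; nlinarith [sq_nonneg (Real.tanh y)])
  have t1 : ∀ y : ℝ, 0 ≤ y → Real.tanh y ≤ y := fun y hy => by
    have := m1 hy
    simp only [Real.tanh_zero, sub_zero] at this
    linarith
  have t0 : ∀ y : ℝ, 0 ≤ y → 0 ≤ Real.tanh y := fun y hy => by
    rw [Real.tanh_eq_sinh_div_cosh]
    exact div_nonneg (Real.sinh_nonneg_iff.2 hy) (Real.cosh_pos y).le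
  have habs : ∀ y : ℝ, |Real.tanh y| ≤ |y| := fun y => by
    rcases le_total 0 y with hy | hy
    · rw [abs_of_nonneg hy, abs_of_nonneg (t0 y hy)]
      exact t1 y hy
    · have h1 := t1 (-y) (by linarith)
      have h0 := t0 (-y) (by linarith)
      rw [Real.tanh_neg] at h1 h0
      rw [abs_of_nonpos hy, abs_of_nonpos (by linarith)]
      exact h1
  refine ⟨habs x, ?_⟩
  have d2 : ∀ y, HasDerivAt (fun y => y ^ 3 - (y - Real.tanh y))
      (3 * y ^ 2 - (1 - (1 - Real.tanh y ^ 2))) y := fun y => by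
    have h3 : HasDerivAt (fun y : ℝ => y ^ 3) (3 * y ^ 2) y := by
      simpa using hasDerivAt_pow 3 y
    exact h3.sub (d1 y)
  have m2 : Monotone (fun y => y ^ 3 - (y - Real.tanh y)) :=
    monotone_of_deriv_nonneg (fun y => (d2 y).differentiableAt)
      (fun y => by
        rw [(d2 y).deriv]
        have h := pow_le_pow_left₀ (abs_nonneg _) (habs y) 2
        rw [sq_abs, sq_abs] at h
        nlinarith [sq_nonneg y])
  rcases le_total 0 x with hx | hx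
  · have h1 := m2 hx
    have h2 := t1 x hx
    simp only [Real.tanh_zero, sub_zero] at h1
    rw [abs_of_nonneg hx, abs_of_nonneg (by linarith)]
    norm_num at h1
    linarith
  · have h1 := m2 hx
    have h2 := m1 hx
    simp only [Real.tanh_zero, sub_zero] at h1 h2
    norm_num at h1
    rw [abs_of_nonpos hx, abs_of_nonpos h2]
    have : (-x) ^ 3 = - x ^ 3 := by ring
    rw [this]
    linarith

theorem pair_abs_tanh (x : ℝ) : |Real.tanh x| ≤ 1 := by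
  rw [abs_le]
  exact ⟨(Real.neg_one_lt_tanh x).le, (Real.tanh_lt_one x).le⟩

theorem pair_marg (T m n τ : ℝ) (hτ : τ = 1 ∨ τ = -1) (hA : 1 + T * m * τ ≠ 0) (c : ℝ) :
    (pairW T m n 1 τ + pairW T m n (-1) τ) * ((1 - pairM T m τ ^ 2) * c) =
      (1 - m ^ 2) * ((1 + n * τ) * (2 * (1 - T ^ 2) / (1 + T * m * τ) * c)) := by
  have hτ2 : τ ^ 2 = 1 := by rcases hτ with rfl | rfl <;> norm_num
  have e1 : pairW T m n 1 τ + pairW T m n (-1) τ = 2 * (1 + n * τ) * (1 + T * m * τ) := by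
    unfold pairW; ring
  have e2 : 1 - pairM T m τ ^ 2 = (1 - m ^ 2) * (1 - T ^ 2) / (1 + T * m * τ) ^ 2 := by
    unfold pairM
    rw [div_pow, eq_div_iff (pow_ne_zero 2 hA), sub_mul, one_mul, div_mul_cancel₀ _ (pow_ne_zero 2 hA)]
    linear_combination (T ^ 2 * m ^ 2 - T ^ 2) * hτ2
  rw [e1, e2]
  field_simp

theorem pairW_symm (T m n σ τ : ℝ) : pairW T m n σ τ = pairW T n m τ σ := by
  unfold pairW; ring

theorem pairM_sq_le (T m τ : ℝ) (hτ : τ = 1 ∨ τ = -1) (hT : |T| ≤ 1 / 4) (hm : |m| ≤ 1) :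
    pairM T m τ ^ 2 ≤ 1 := by
  have hm2 := (sq_le_one_iff_abs_le_one m).2 hm
  have hT2 := (sq_le_one_iff_abs_le_one T).2 (by linarith)
  have hτ2 : τ ^ 2 = 1 := by rcases hτ with rfl | rfl <;> norm_num
  have haτ : |τ| = 1 := by rcases hτ with rfl | rfl <;> simp
  have hA : |T * m * τ| ≤ 1 / 4 := by
    rw [abs_mul, abs_mul, haτ, mul_one]
    calc |T| * |m| ≤ (1 / 4) * 1 := mul_le_mul hT hm (abs_nonneg _) (by norm_num)
      _ = 1 / 4 := by norm_num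
  have hA0 : 0 < 1 + T * m * τ := by have := (abs_le.1 hA).1; linarith
  unfold pairM
  rw [div_pow, div_le_one (by positivity)]
  have e : (1 + T * m * τ) ^ 2 - (m + T * τ) ^ 2 = (1 - m ^ 2) * (1 - T ^ 2) := by
    linear_combination (T ^ 2 * m ^ 2 - T ^ 2) * hτ2
  have : 0 ≤ (1 - m ^ 2) * (1 - T ^ 2) := mul_nonneg (by linarith) (by linarith)
  linarith

/-- energy terms -/
noncomputable def pairD (T m n σ τ U V : ℝ) : ℝ :=
  pairW T m n σ τ * ((1 - pairM T m τ ^ 2) * U ^ 2 + (1 - pairM T n σ ^ 2) * V ^ 2)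

noncomputable def pairE (T m n σ τ U V : ℝ) : ℝ :=
  pairW T m n σ τ * ((1 - pairM T m τ ^ 2) * pairM T m τ ^ 2 * U ^ 2 +
    (1 - pairM T n σ ^ 2) * pairM T n σ ^ 2 * V ^ 2)

noncomputable def pairX (T m n σ τ U V : ℝ) : ℝ :=
  pairW T m n σ τ * ((σ - pairM T m τ) * (τ - pairM T n σ) * (U * V))

noncomputable def pairP (T m n σ τ U V : ℝ) : ℝ :=
  pairW T m n σ τ * ((1 - pairM T m τ ^ 2) * (1 - pairM T n σ ^ 2) * (U * V))

theorem pairW_nonneg (T m n σ τ : ℝ) (hσ : σ = 1 ∨ σ = -1) (hτ : τ = 1 ∨ τ = -1)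
    (hT : |T| ≤ 1 / 4) (hm : |m| ≤ 1) (hn : |n| ≤ 1) : 0 ≤ pairW T m n σ τ := by
  obtain ⟨a1, a2⟩ := abs_le.1 hT
  obtain ⟨b1, b2⟩ := abs_le.1 hm
  obtain ⟨c1, c2⟩ := abs_le.1 hn
  unfold pairW
  rcases hσ with rfl | rfl <;> rcases hτ with rfl | rfl
  all_goals
    apply mul_nonneg (mul_nonneg _ _) _ <;> linarith

theorem pairP_le (T m n σ τ U V : ℝ) (hσ : σ = 1 ∨ σ = -1) (hτ : τ = 1 ∨ τ = -1)
    (hT : |T| ≤ 1 / 4) (hm : |m| ≤ 1) (hn : |n| ≤ 1) :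
    |pairP T m n σ τ U V| ≤ pairD T m n σ τ U V / 2 := by
  have hW := pairW_nonneg T m n σ τ hσ hτ hT hm hn
  have h1 := pairM_sq_le T m τ hτ hT hm
  have h2 := pairM_sq_le T n σ hσ hT hn
  have g1 := sq_nonneg (pairM T m τ)
  have g2 := sq_nonneg (pairM T n σ)
  unfold pairP pairD
  rw [abs_mul, abs_of_nonneg hW, mul_div_assoc]
  apply mul_le_mul_of_nonneg_left _ hW
  rw [abs_mul, abs_of_nonneg (mul_nonneg (by linarith) (by linarith) :
    0 ≤ (1 - pairM T m τ ^ 2) * (1 - pairM T n σ ^ 2))]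
  set a := 1 - pairM T m τ ^ 2 with ha
  set b := 1 - pairM T n σ ^ 2 with hb
  have ha0 : 0 ≤ a := by linarith
  have hb0 : 0 ≤ b := by linarith
  have ha1 : a ≤ 1 := by linarith
  have hb1 : b ≤ 1 := by linarith
  have hUV : |U * V| ≤ (U ^ 2 + V ^ 2) / 2 := by
    rw [abs_mul]
    nlinarith [sq_nonneg (|U| - |V|), sq_abs U, sq_abs V]
  have k1 : a * b * |U * V| ≤ a * b * ((U ^ 2 + V ^ 2) / 2) :=
    mul_le_mul_of_nonneg_left hUV (mul_nonneg ha0 hb0)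
  have k2 : a * b * U ^ 2 ≤ a * U ^ 2 := by
    have := mul_le_mul_of_nonneg_left hb1 (mul_nonneg ha0 (sq_nonneg U))
    linarith
  have k3 : a * b * V ^ 2 ≤ b * V ^ 2 := by
    have := mul_le_mul_of_nonneg_left ha1 (mul_nonneg hb0 (sq_nonneg V))
    linarith
  linarith

theorem pair_hab (a b : ℝ) : |a * b| ≤ (a ^ 2 + b ^ 2) / 2 := by
  rw [abs_mul]
  nlinarith [sq_nonneg (|a| - |b|), sq_abs a, sq_abs b]

theorem pair_am (a b : ℝ) : 2 * (a * b) ≤ a ^ 2 + b ^ 2 := by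
  nlinarith [sq_nonneg (a - b)]

theorem pair_sumid (K T m n U1 U2 V1 V2 tt a1 a2 a3 a4 : ℝ) (huv : U1 - U2 = V1 - V2) :
    K * ((U1 - U2) ^ 2 * (1 - T ^ 2 * (m ^ 2 + n ^ 2 - 2 * m ^ 2 * n ^ 2)) -
        8 * T ^ 2 * (m * n * (((1 + n) * U1 + (1 - n) * U2) / 2 * (((1 + m) * V1 + (1 - m) * V2) / 2))) -
        300 * tt ^ 3 * (a1 + a2 + a3 + a4)) =
      K * (1 * 1 * (U1 * V1) - T ^ 2 * (1 * 1 * ((m * 1 + n * 1) * (m * 1 + n * 1 + 2 * m * n * (1 * 1))) * (U1 * V1))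
        - 300 * tt ^ 3 * a1) +
      K * (1 * (-1) * (U2 * V1) - T ^ 2 * (1 * (-1) * ((m * 1 + n * (-1)) * (m * 1 + n * (-1) + 2 * m * n * (1 * (-1)))) * (U2 * V1))
        - 300 * tt ^ 3 * a2) +
      K * (-1 * 1 * (U1 * V2) - T ^ 2 * (-1 * 1 * ((m * (-1) + n * 1) * (m * (-1) + n * 1 + 2 * m * n * (-1 * 1))) * (U1 * V2))
        - 300 * tt ^ 3 * a3) +
      K * (-1 * (-1) * (U2 * V2) - T ^ 2 * (-1 * (-1) * ((m * (-1) + n * (-1)) * (m * (-1) + n * (-1) + 2 * m * n * (-1 * (-1)))) * (U2 * V2))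
        - 300 * tt ^ 3 * a4) := by
  have hV1 : V1 = V2 + (U1 - U2) := by linarith
  rw [hV1]
  ring

/-- lower bound of the sum of the cross terms -/
theorem pair_cross (T m n U1 U2 V1 V2 : ℝ) (hT4 : |T| ≤ 1 / 4) (hm : |m| ≤ 1) (hn : |n| ≤ 1)
    (huv : U1 - U2 = V1 - V2) :
    - ((1 + T * m * n) * (4 * T ^ 2 * ((1 - m ^ 2) * (m ^ 2 * (((1 + n) * U1 + (1 - n) * U2) / 2) ^ 2))) +
      300 * |T| ^ 3 * ((1 + T * m * n) * ((1 - m ^ 2) * (1 - n ^ 2) * (U1 ^ 2 + U2 ^ 2)))) -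
    ((1 + T * n * m) * (4 * T ^ 2 * ((1 - n ^ 2) * (n ^ 2 * (((1 + m) * V1 + (1 - m) * V2) / 2) ^ 2))) +
      300 * |T| ^ 3 * ((1 + T * n * m) * ((1 - n ^ 2) * (1 - m ^ 2) * (V1 ^ 2 + V2 ^ 2)))) ≤
    ((pairX T m n 1 1 U1 V1 + pairX T m n 1 (-1) U2 V1) +
        (pairX T m n (-1) 1 U1 V2 + pairX T m n (-1) (-1) U2 V2)) +
      T * ((pairP T m n 1 1 U1 V1 + pairP T m n 1 (-1) U2 V1) +
        (pairP T m n (-1) 1 U1 V2 + pairP T m n (-1) (-1) U2 V2)) := by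
  have o1 : (1 : ℝ) = 1 ∨ (1 : ℝ) = -1 := Or.inl rfl
  have o2 : (-1 : ℝ) = 1 ∨ (-1 : ℝ) = -1 := Or.inr rfl
  have hm2 := (sq_le_one_iff_abs_le_one m).2 hm
  have hn2 := (sq_le_one_iff_abs_le_one n).2 hn
  have hS : 0 ≤ 1 - m ^ 2 := by linarith
  have hR : 0 ≤ 1 - n ^ 2 := by linarith
  have hz : |T * m * n| ≤ 1 / 4 := by
    rw [abs_mul, abs_mul]
    calc |T| * |m| * |n| ≤ (1 / 4) * 1 * 1 :=
          mul_le_mul (mul_le_mul hT4 hm (abs_nonneg _) (by norm_num)) hn (abs_nonneg _) (by norm_num)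
      _ = 1 / 4 := by ring
  have hZ0 : 0 ≤ 1 + T * m * n := by have := (abs_le.1 hz).1; linarith
  have x1 := pair_point T m n 1 1 U1 V1 o1 o1 hT4 hm hn
  have x2 := pair_point T m n 1 (-1) U2 V1 o1 o2 hT4 hm hn
  have x3 := pair_point T m n (-1) 1 U1 V2 o2 o1 hT4 hm hn
  have x4 := pair_point T m n (-1) (-1) U2 V2 o2 o2 hT4 hm hn
  have ex : ∀ σ τ U V : ℝ, (1 + m * σ) * (1 + n * τ) * (1 + T * (σ * τ)) *
        ((σ - (m + T * τ) / (1 + T * m * τ)) * (τ - (n + T * σ) / (1 + T * n * σ)) * (U * V)) +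
      T * ((1 + m * σ) * (1 + n * τ) * (1 + T * (σ * τ)) *
        ((1 - ((m + T * τ) / (1 + T * m * τ)) ^ 2) * (1 - ((n + T * σ) / (1 + T * n * σ)) ^ 2) * (U * V))) =
      pairX T m n σ τ U V + T * pairP T m n σ τ U V := fun σ τ U V => rfl
  rw [ex] at x1 x2 x3 x4
  have hsum := pair_sumid ((1 - m ^ 2) * (1 - n ^ 2) * (1 + T * m * n)) T m n U1 U2 V1 V2 |T|
    |U1 * V1| |U2 * V1| |U1 * V2| |U2 * V2| huv
  have hq : |U1 * V1| + |U2 * V1| + |U1 * V2| + |U2 * V2| ≤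
      (U1 ^ 2 + U2 ^ 2) + (V1 ^ 2 + V2 ^ 2) := by
    have a1 := pair_hab U1 V1
    have a2 := pair_hab U2 V1
    have a3 := pair_hab U1 V2
    have a4 := pair_hab U2 V2
    linarith
  generalize |U1 * V1| = a1 at *
  generalize |U2 * V1| = a2 at *
  generalize |U1 * V2| = a3 at *
  generalize |U2 * V2| = a4 at *
  generalize ((1 + n) * U1 + (1 - n) * U2) / 2 = al at *
  generalize ((1 + m) * V1 + (1 - m) * V2) / 2 = be at *
  have hK0 : 0 ≤ (1 - m ^ 2) * (1 - n ^ 2) * (1 + T * m * n) := mul_nonneg (mul_nonneg hS hR) hZ0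
  have hmn2 : 0 ≤ 1 - T ^ 2 * (m ^ 2 + n ^ 2 - 2 * m ^ 2 * n ^ 2) := by
    have h0 : 0 ≤ m ^ 2 * n ^ 2 := by positivity
    have h1 : m ^ 2 + n ^ 2 - 2 * m ^ 2 * n ^ 2 ≤ 2 := by linarith
    have h2 : T ^ 2 ≤ 1 / 16 := by
      have := pow_le_pow_left₀ (abs_nonneg T) hT4 2
      rw [sq_abs] at this
      norm_num at this
      linarith
    have h3 : T ^ 2 * (m ^ 2 + n ^ 2 - 2 * m ^ 2 * n ^ 2) ≤ T ^ 2 * 2 :=
      mul_le_mul_of_nonneg_left h1 (sq_nonneg _)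
    linarith
  have hK1 : 0 ≤ (1 - m ^ 2) * (1 - n ^ 2) * (1 + T * m * n) *
      ((U1 - U2) ^ 2 * (1 - T ^ 2 * (m ^ 2 + n ^ 2 - 2 * m ^ 2 * n ^ 2))) :=
    mul_nonneg hK0 (mul_nonneg (sq_nonneg _) hmn2)
  have hamgm : (1 - m ^ 2) * (1 - n ^ 2) * (1 + T * m * n) * (8 * T ^ 2 * (m * n * (al * be))) ≤
      (1 + T * m * n) * (4 * T ^ 2 * ((1 - m ^ 2) * (m ^ 2 * al ^ 2))) +
      (1 + T * n * m) * (4 * T ^ 2 * ((1 - n ^ 2) * (n ^ 2 * be ^ 2))) := by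
    have h1 := pair_am (m * al) (n * be)
    have h2 := mul_le_mul_of_nonneg_left h1 (mul_nonneg hS hR)
    have h3 := mul_nonneg (mul_nonneg hS (sq_nonneg n)) (mul_nonneg (sq_nonneg m) (sq_nonneg al))
    have h4 := mul_nonneg (mul_nonneg hR (sq_nonneg m)) (mul_nonneg (sq_nonneg n) (sq_nonneg be))
    have h5 : (1 - m ^ 2) * (1 - n ^ 2) * (2 * (m * al * (n * be))) ≤
        (1 - m ^ 2) * (m ^ 2 * al ^ 2) + (1 - n ^ 2) * (n ^ 2 * be ^ 2) := by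
      have e : (1 - m ^ 2) * (m ^ 2 * al ^ 2) + (1 - n ^ 2) * (n ^ 2 * be ^ 2) =
          (1 - m ^ 2) * (1 - n ^ 2) * ((m * al) ^ 2 + (n * be) ^ 2) +
          (1 - m ^ 2) * n ^ 2 * (m ^ 2 * al ^ 2) + (1 - n ^ 2) * m ^ 2 * (n ^ 2 * be ^ 2) := by ring
      rw [e]
      linarith
    have h6 := mul_le_mul_of_nonneg_left h5 (mul_nonneg hZ0 (by positivity : 0 ≤ 4 * T ^ 2))
    calc (1 - m ^ 2) * (1 - n ^ 2) * (1 + T * m * n) * (8 * T ^ 2 * (m * n * (al * be))) =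
        (1 + T * m * n) * (4 * T ^ 2) * ((1 - m ^ 2) * (1 - n ^ 2) * (2 * (m * al * (n * be)))) := by
          ring
      _ ≤ _ := h6
      _ = _ := by ring
  have hcub : (1 - m ^ 2) * (1 - n ^ 2) * (1 + T * m * n) * (300 * |T| ^ 3 * (a1 + a2 + a3 + a4)) ≤
      300 * |T| ^ 3 * ((1 + T * m * n) * ((1 - m ^ 2) * (1 - n ^ 2) * (U1 ^ 2 + U2 ^ 2))) +
      300 * |T| ^ 3 * ((1 + T * n * m) * ((1 - n ^ 2) * (1 - m ^ 2) * (V1 ^ 2 + V2 ^ 2))) := by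
    have h2 := mul_le_mul_of_nonneg_left hq (mul_nonneg hK0 (by positivity : 0 ≤ 300 * |T| ^ 3))
    calc (1 - m ^ 2) * (1 - n ^ 2) * (1 + T * m * n) * (300 * |T| ^ 3 * (a1 + a2 + a3 + a4)) =
        (1 - m ^ 2) * (1 - n ^ 2) * (1 + T * m * n) * (300 * |T| ^ 3) * (a1 + a2 + a3 + a4) := by ring
      _ ≤ _ := h2
      _ = _ := by ring
  have hdist : (1 - m ^ 2) * (1 - n ^ 2) * (1 + T * m * n) *
      ((U1 - U2) ^ 2 * (1 - T ^ 2 * (m ^ 2 + n ^ 2 - 2 * m ^ 2 * n ^ 2)) -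
      8 * T ^ 2 * (m * n * (al * be)) - 300 * |T| ^ 3 * (a1 + a2 + a3 + a4)) =
      (1 - m ^ 2) * (1 - n ^ 2) * (1 + T * m * n) *
        ((U1 - U2) ^ 2 * (1 - T ^ 2 * (m ^ 2 + n ^ 2 - 2 * m ^ 2 * n ^ 2))) -
      (1 - m ^ 2) * (1 - n ^ 2) * (1 + T * m * n) * (8 * T ^ 2 * (m * n * (al * be))) -
      (1 - m ^ 2) * (1 - n ^ 2) * (1 + T * m * n) * (300 * |T| ^ 3 * (a1 + a2 + a3 + a4)) := by ring
  rw [hdist] at hsum
  linarith

/-- energies as one-dimensional sums -/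
theorem pair_energy (J T m n U1 U2 V1 V2 : ℝ) (hT4 : |T| ≤ 1 / 4) (hm : |m| ≤ 1) (hn : |n| ≤ 1) :
    J ^ 2 * ((pairE T m n 1 1 U1 V1 + pairE T m n 1 (-1) U2 V1) +
        (pairE T m n (-1) 1 U1 V2 + pairE T m n (-1) (-1) U2 V2)) +
      700 * |J| ^ 3 * ((pairD T m n 1 1 U1 V1 + pairD T m n 1 (-1) U2 V1) +
        (pairD T m n (-1) 1 U1 V2 + pairD T m n (-1) (-1) U2 V2)) =
      (1 - m ^ 2) * ((1 + n) * U1 ^ 2 * (2 * (1 - T ^ 2) / (1 + T * m * 1) *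
        (J ^ 2 * pairM T m 1 ^ 2 + 700 * |J| ^ 3)) +
      (1 - n) * U2 ^ 2 * (2 * (1 - T ^ 2) / (1 + T * m * (-1)) *
        (J ^ 2 * pairM T m (-1) ^ 2 + 700 * |J| ^ 3))) +
      (1 - n ^ 2) * ((1 + m) * V1 ^ 2 * (2 * (1 - T ^ 2) / (1 + T * n * 1) *
        (J ^ 2 * pairM T n 1 ^ 2 + 700 * |J| ^ 3)) +
      (1 - m) * V2 ^ 2 * (2 * (1 - T ^ 2) / (1 + T * n * (-1)) *
        (J ^ 2 * pairM T n (-1) ^ 2 + 700 * |J| ^ 3))) := by
  have o1 : (1 : ℝ) = 1 ∨ (1 : ℝ) = -1 := Or.inl rfl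
  have o2 : (-1 : ℝ) = 1 ∨ (-1 : ℝ) = -1 := Or.inr rfl
  have hAne : ∀ (m : ℝ), |m| ≤ 1 → ∀ τ : ℝ, (τ = 1 ∨ τ = -1) → 1 + T * m * τ ≠ 0 := by
    intro m hm τ hτ
    have haτ : |τ| = 1 := by rcases hτ with rfl | rfl <;> simp
    have hA : |T * m * τ| ≤ 1 / 4 := by
      rw [abs_mul, abs_mul, haτ, mul_one]
      calc |T| * |m| ≤ (1 / 4) * 1 := mul_le_mul hT4 hm (abs_nonneg _) (by norm_num)
        _ = 1 / 4 := by norm_num
    have := (abs_le.1 hA).1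
    intro h0
    linarith
  have r1 := pair_marg T m n 1 o1 (hAne m hm 1 o1)
    (U1 ^ 2 * (J ^ 2 * pairM T m 1 ^ 2 + 700 * |J| ^ 3))
  have r2 := pair_marg T m n (-1) o2 (hAne m hm (-1) o2)
    (U2 ^ 2 * (J ^ 2 * pairM T m (-1) ^ 2 + 700 * |J| ^ 3))
  have r3 := pair_marg T n m 1 o1 (hAne n hn 1 o1)
    (V1 ^ 2 * (J ^ 2 * pairM T n 1 ^ 2 + 700 * |J| ^ 3))
  have r4 := pair_marg T n m (-1) o2 (hAne n hn (-1) o2)
    (V2 ^ 2 * (J ^ 2 * pairM T n (-1) ^ 2 + 700 * |J| ^ 3))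
  rw [pairW_symm T n m 1 1, pairW_symm T n m (-1) 1] at r3
  rw [pairW_symm T n m 1 (-1), pairW_symm T n m (-1) (-1)] at r4
  unfold pairE pairD
  generalize |J| = jj at *
  generalize pairM T m 1 = c1 at *
  generalize pairM T m (-1) = c2 at *
  generalize pairM T n 1 = c3 at *
  generalize pairM T n (-1) = c4 at *
  generalize pairW T m n 1 1 = w1 at *
  generalize pairW T m n 1 (-1) = w2 at *
  generalize pairW T m n (-1) 1 = w3 at *
  generalize pairW T m n (-1) (-1) = w4 at *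
  generalize 2 * (1 - T ^ 2) / (1 + T * m * 1) = d1 at *
  generalize 2 * (1 - T ^ 2) / (1 + T * m * (-1)) = d2 at *
  generalize 2 * (1 - T ^ 2) / (1 + T * n * 1) = d3 at *
  generalize 2 * (1 - T ^ 2) / (1 + T * n * (-1)) = d4 at *
  linear_combination r1 + r2 + r3 + r4

/-- the rational form of the pair inequality -/
theorem pair_rat (J T m n U1 U2 V1 V2 : ℝ) (hJ : |J| ≤ 1 / 4) (hT : |T| ≤ |J|)
    (hJT : |J - T| ≤ |J| ^ 3) (hm : |m| ≤ 1) (hn : |n| ≤ 1) (huv : U1 - U2 = V1 - V2) :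
    - J ^ 2 * ((pairE T m n 1 1 U1 V1 + pairE T m n 1 (-1) U2 V1) +
        (pairE T m n (-1) 1 U1 V2 + pairE T m n (-1) (-1) U2 V2))
      - 1000 * |J| ^ 3 * ((pairD T m n 1 1 U1 V1 + pairD T m n 1 (-1) U2 V1) +
        (pairD T m n (-1) 1 U1 V2 + pairD T m n (-1) (-1) U2 V2)) ≤
    ((pairX T m n 1 1 U1 V1 + pairX T m n 1 (-1) U2 V1) +
        (pairX T m n (-1) 1 U1 V2 + pairX T m n (-1) (-1) U2 V2)) +
      J * ((pairP T m n 1 1 U1 V1 + pairP T m n 1 (-1) U2 V1) +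
        (pairP T m n (-1) 1 U1 V2 + pairP T m n (-1) (-1) U2 V2)) := by
  have o1 : (1 : ℝ) = 1 ∨ (1 : ℝ) = -1 := Or.inl rfl
  have o2 : (-1 : ℝ) = 1 ∨ (-1 : ℝ) = -1 := Or.inr rfl
  have hT4 : |T| ≤ 1 / 4 := hT.trans hJ
  have hx0 : 0 ≤ |J| := abs_nonneg J
  have hc := pair_cross T m n U1 U2 V1 V2 hT4 hm hn huv
  have he := pair_energy J T m n U1 U2 V1 V2 hT4 hm hn
  have p1 := pair_one J T m n U1 U2 hJ hT hm hn
  have p2 := pair_one J T n m V1 V2 hJ hT hn hm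
  have y1 := pairP_le T m n 1 1 U1 V1 o1 o1 hT4 hm hn
  have y2 := pairP_le T m n 1 (-1) U2 V1 o1 o2 hT4 hm hn
  have y3 := pairP_le T m n (-1) 1 U1 V2 o2 o1 hT4 hm hn
  have y4 := pairP_le T m n (-1) (-1) U2 V2 o2 o2 hT4 hm hn
  have t1 := abs_add_le (pairP T m n 1 1 U1 V1 + pairP T m n 1 (-1) U2 V1)
      (pairP T m n (-1) 1 U1 V2 + pairP T m n (-1) (-1) U2 V2)
  have t2 := abs_add_le (pairP T m n 1 1 U1 V1) (pairP T m n 1 (-1) U2 V1)
  have t3 := abs_add_le (pairP T m n (-1) 1 U1 V2) (pairP T m n (-1) (-1) U2 V2)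
  set X := (pairX T m n 1 1 U1 V1 + pairX T m n 1 (-1) U2 V1) +
        (pairX T m n (-1) 1 U1 V2 + pairX T m n (-1) (-1) U2 V2) with hX
  set P := (pairP T m n 1 1 U1 V1 + pairP T m n 1 (-1) U2 V1) +
        (pairP T m n (-1) 1 U1 V2 + pairP T m n (-1) (-1) U2 V2) with hP
  set D := (pairD T m n 1 1 U1 V1 + pairD T m n 1 (-1) U2 V1) +
        (pairD T m n (-1) 1 U1 V2 + pairD T m n (-1) (-1) U2 V2) with hD
  set E := (pairE T m n 1 1 U1 V1 + pairE T m n 1 (-1) U2 V1) +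
        (pairE T m n (-1) 1 U1 V2 + pairE T m n (-1) (-1) U2 V2) with hE
  have hPD : |P| ≤ D / 2 := by linarith
  have hD0 : 0 ≤ D := by
    have := abs_nonneg P
    linarith
  have hJP : |(J - T) * P| ≤ |J| ^ 3 * (D / 2) := by
    rw [abs_mul]
    exact mul_le_mul hJT hPD (abs_nonneg _) (by positivity)
  have hJP' := (abs_le.1 hJP).1
  have hJ3D : 0 ≤ |J| ^ 3 * D := by positivity
  have hfin : J * P = T * P + (J - T) * P := by ring
  rw [hfin]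
  linarith

/-- PAIR. -/
theorem pair (J h k : ℝ) (hJ : |J| ≤ 1/4) (u v : Bool → ℝ)
    (huv : u true - u false = v true - v false) :
    - J^2 * ∑ s : Bool, ∑ t : Bool, Real.exp (J * sp s * sp t + h * sp s + k * sp t) *
        ((1 - Real.tanh (h + J * sp t)^2) * Real.tanh (h + J * sp t)^2 * u t ^2
         + (1 - Real.tanh (k + J * sp s)^2) * Real.tanh (k + J * sp s)^2 * v s ^2)
      - 1000 * |J|^3 * ∑ s : Bool, ∑ t : Bool, Real.exp (J * sp s * sp t + h * sp s + k * sp t) *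
        ((1 - Real.tanh (h + J * sp t)^2) * u t ^2 + (1 - Real.tanh (k + J * sp s)^2) * v s ^2)
    ≤ ∑ s : Bool, ∑ t : Bool, Real.exp (J * sp s * sp t + h * sp s + k * sp t) *
        ((sp s - Real.tanh (h + J * sp t)) * (sp t - Real.tanh (k + J * sp s)) * (u t * v s))
      + J * ∑ s : Bool, ∑ t : Bool, Real.exp (J * sp s * sp t + h * sp s + k * sp t) *
        ((1 - Real.tanh (h + J * sp t)^2) * (1 - Real.tanh (k + J * sp s)^2) * (u t * v s)) := by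
  set C := Real.cosh J * Real.cosh h * Real.cosh k with hC
  have hC0 : 0 < C := mul_pos (mul_pos (Real.cosh_pos _) (Real.cosh_pos _)) (Real.cosh_pos _)
  have hsp : ∀ s : Bool, sp s = 1 ∨ sp s = -1 := fun s => by
    cases s
    · right; simp [sp]
    · left; simp [sp]
  have hw : ∀ s t : Bool, Real.exp (J * sp s * sp t + h * sp s + k * sp t) =
      C * pairW (Real.tanh J) (Real.tanh h) (Real.tanh k) (sp s) (sp t) := by
    intro s t
    have hst : sp s * sp t = 1 ∨ sp s * sp t = -1 := by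
      rcases hsp s with h1 | h1 <;> rcases hsp t with h2 | h2 <;> rw [h1, h2] <;> norm_num
    rw [Real.exp_add, Real.exp_add, mul_assoc J, pair_exp J _ hst, pair_exp h _ (hsp s),
      pair_exp k _ (hsp t), hC]
    unfold pairW
    ring
  have ht1 : ∀ t : Bool, Real.tanh (h + J * sp t) = pairM (Real.tanh J) (Real.tanh h) (sp t) :=
    fun t => by rw [pair_tanh h J _ (hsp t)]; rfl
  have ht2 : ∀ s : Bool, Real.tanh (k + J * sp s) = pairM (Real.tanh J) (Real.tanh k) (sp s) :=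
    fun s => by rw [pair_tanh k J _ (hsp s)]; rfl
  obtain ⟨b1, b2⟩ := pair_tanh_le J
  have hr := pair_rat J (Real.tanh J) (Real.tanh h) (Real.tanh k) (u true) (u false) (v true)
    (v false) hJ b1 b2 (pair_abs_tanh h) (pair_abs_tanh k) huv
  have st : sp true = 1 := by simp [sp]
  have sf : sp false = -1 := by simp [sp]
  simp only [hw, ht1, ht2, Fintype.sum_bool, st, sf]
  have hr' := mul_le_mul_of_nonneg_left hr hC0.le
  unfold pairX pairP pairD pairE at hr'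
  generalize pairM (Real.tanh J) (Real.tanh h) 1 = c1 at *
  generalize pairM (Real.tanh J) (Real.tanh h) (-1) = c2 at *
  generalize pairM (Real.tanh J) (Real.tanh k) 1 = c3 at *
  generalize pairM (Real.tanh J) (Real.tanh k) (-1) = c4 at *
  generalize pairW (Real.tanh J) (Real.tanh h) (Real.tanh k) 1 1 = w1 at *
  generalize pairW (Real.tanh J) (Real.tanh h) (Real.tanh k) 1 (-1) = w2 at *
  generalize pairW (Real.tanh J) (Real.tanh h) (Real.tanh k) (-1) 1 = w3 at *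
  generalize pairW (Real.tanh J) (Real.tanh h) (Real.tanh k) (-1) (-1) = w4 at *
  calc _ = _ := ?_
    _ ≤ _ := hr'
    _ = _ := ?_
  · ring
  · ring

end Vale.Agent.P150
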