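import Vale.Agent.Lib.P150.Pair
import Vale.Agent.Lib.P150.Psum

/-!
P150, module PSUM: the final form.
-/

namespace Vale.Agent.P150

open Finset

/-- PSUM: the pair inequality summed over the cube. -/
theorem pair_sum {n : ℕ} (J : Fin n → Fin n → ℝ) (h : Fin n → ℝ) (hs : ∀ i j, J i j = J j i)
    (hd : ∀ i, J i i = 0) (f : Cfg n → ℝ) (i j : Fin n) (hij : i ≠ j) (hJ : |J i j| ≤ 1/4) :
    - J i j ^2 * ∑ x, wt J h x * (sg J h i x * mg J h i x ^2 * Di f i x ^2
          + sg J h j x * mg J h j x ^2 * Di f j x ^2)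
      - 1000 * |J i j|^3 * ∑ x, wt J h x * (sg J h i x * Di f i x ^2 + sg J h j x * Di f j x ^2)
    ≤ ∑ x, wt J h x * ((f x - hb (wt J h) i f x) * (f x - hb (wt J h) j f x))
      + J i j * ∑ x, wt J h x * ((sg J h i x * Di f i x) * (sg J h j x * Di f j x)) :=
  pair_sum_of (fun J h k hJ u v huv => pair J h k hJ u v huv) J h hs hd f i j hij hJ

end Vale.Agent.P150
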