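import Vale.Agent.Lib.P150.Defs

/-!
# P150, module ROWS: row norms and entries of the SK couplings
-/

namespace Vale.Agent.P150

open Finset MeasureTheory ProbabilityTheory Filter Topology

theorem ROWS_map {α ι : Type} [Fintype α] [Fintype ι] (r : ι → α) (hr : Function.Injective r) :
    (Measure.pi (fun _ : α => gaussianReal 0 1)).map (fun g (j : ι) => g (r j)) =
      Measure.pi (fun _ : ι => gaussianReal 0 1) := by
  classical
  symm
  refine Measure.pi_eq fun s hs => ?_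
  have hm : Measurable (fun (g : α → ℝ) (j : ι) => g (r j)) :=
    measurable_pi_lambda _ fun j => measurable_pi_apply (r j)
  rw [Measure.map_apply hm (MeasurableSet.univ_pi hs)]
  set T : α → Set ℝ := fun p => if h : ∃ j, r j = p then s h.choose else Set.univ with hT
  have hTr : ∀ j, T (r j) = s j := by
    intro j
    have hp : ∃ j', r j' = r j := ⟨j, rfl⟩
    have h1 : T (r j) = s hp.choose := by rw [hT]; exact dif_pos hp
    rw [h1, hr hp.choose_spec]
  have hTn : ∀ p, (¬ ∃ j, r j = p) → T p = Set.univ := by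
    intro p hp
    rw [hT]; exact dif_neg hp
  have e : (fun (g : α → ℝ) (j : ι) => g (r j)) ⁻¹' (Set.univ.pi s) = Set.univ.pi T := by
    ext g
    simp only [Set.mem_preimage, Set.mem_pi, Set.mem_univ, true_implies]
    constructor
    · intro h p
      by_cases hp : ∃ j, r j = p
      · obtain ⟨j, rfl⟩ := hp
        rw [hTr]; exact h j
      · rw [hTn p hp]; trivial
    · intro h j
      have := h (r j)
      rwa [hTr] at this
  rw [e, Measure.pi_pi]
  rw [← Finset.prod_subset (Finset.subset_univ (univ.image r))]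
  · rw [Finset.prod_image (fun a _ b _ h => hr h)]
    exact Finset.prod_congr rfl fun j _ => by rw [hTr]
  · intro p _ hp
    have : ¬ ∃ j, r j = p := by
      intro ⟨j, hj⟩
      exact hp (mem_image.2 ⟨j, mem_univ _, hj⟩)
    rw [hTn p this]
    simp

/-- tail of a sub-family -/
theorem ROWS_tail {α ι : Type} [Fintype α] [Fintype ι] (r : ι → α) (hr : Function.Injective r)
    (M : ℝ) : (Measure.pi (fun _ : α => gaussianReal 0 1)) {g | M ≤ ∑ j, g (r j) ^ 2} =
      (Measure.pi (fun _ : ι => gaussianReal 0 1)) {x | M ≤ ∑ j, x j ^ 2} := by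
  rw [← ROWS_map r hr, Measure.map_apply (measurable_pi_lambda _ fun j => measurable_pi_apply (r j))]
  · rfl
  · exact measurableSet_le measurable_const (by fun_prop)

/-- the coordinate pair carrying the coupling of `i` and `j` -/
def ROWS_r {n : ℕ} (i : Fin n) (j : {j : Fin n // j ≠ i}) : Fin n × Fin n :=
  if i < j.1 then (i, j.1) else (j.1, i)

theorem ROWS_r_inj {n : ℕ} (i : Fin n) : Function.Injective (ROWS_r i) := by
  rintro ⟨j, hj⟩ ⟨k, hk⟩ h
  unfold ROWS_r at h
  simp only at h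
  split_ifs at h with h1 h2 h2
  · simpa using h
  · simp only [Prod.mk.injEq] at h
    exact absurd h.2 hj
  · simp only [Prod.mk.injEq] at h
    exact absurd h.1 hj
  · simpa using h

theorem ROWS_sk {n : ℕ} (g : Fin n × Fin n → ℝ) (i : Fin n) (j : {j : Fin n // j ≠ i}) :
    sk 1 g i j.1 = 1 / Real.sqrt n * g (ROWS_r i j) := by
  unfold sk ROWS_r
  rcases lt_trichotomy i j.1 with h | h | h
  · simp [h]
  · exact absurd h.symm j.2
  · simp [h, h.not_gt]

theorem ROWS_sum {n : ℕ} (g : Fin n × Fin n → ℝ) (i : Fin n) :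
    ∑ j, sk 1 g i j ^ 2 = (1 / n) * ∑ j : {j : Fin n // j ≠ i}, g (ROWS_r i j) ^ 2 := by
  classical
  have h0 : sk 1 g i i = 0 := by simp [sk]
  have h1 : ∑ j, sk 1 g i j ^ 2 = ∑ j : {j : Fin n // j ≠ i}, sk 1 g i j.1 ^ 2 := by
    have h2 := Finset.sum_subtype (F := inferInstance) (univ.erase i) (p := fun j => j ≠ i)
        (fun x => by simp)
        (fun j => sk 1 g i j ^ 2)
    rw [← Finset.add_sum_erase univ (fun j => sk 1 g i j ^ 2) (mem_univ i), h2, h0]
    simp
  rw [h1, Finset.mul_sum]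
  refine sum_congr rfl fun j _ => ?_
  rw [ROWS_sk, mul_pow, div_pow, one_pow, Real.sq_sqrt (Nat.cast_nonneg n)]

theorem ROWS_lim (c : ℝ) (hc : 0 < c) :
    Tendsto (fun n : ℕ => (n : ℝ) ^ 2 * Real.exp (-c * n)) atTop (𝓝 0) := by
  have h := (Real.tendsto_pow_mul_exp_neg_atTop_nhds_zero 2).comp
    ((tendsto_natCast_atTop_atTop (R := ℝ)).const_mul_atTop hc)
  have h2 := h.const_mul (1 / c ^ 2)
  rw [mul_zero] at h2
  refine h2.congr fun n => ?_
  simp only [Function.comp]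
  rw [neg_mul]
  field_simp

/-- `sk_rows` from the chi-square tail (`chi_tail`). -/
theorem sk_rows_of (chi_tail : ∀ δ : ℝ, 0 < δ → ∃ c : ℝ, 0 < c ∧
      ∀ (ι : Type) [Fintype ι] (N : ℝ), (Fintype.card ι : ℝ) ≤ N →
      (Measure.pi (fun _ : ι => gaussianReal 0 1)) {x | (1 + δ) * N ≤ ∑ i, x i ^ 2}
        ≤ ENNReal.ofReal (Real.exp (-c * N)))
    (e : ℝ) (he : 0 < e) : Tendsto (fun n : ℕ => dis n
    {g | ¬ ((∀ i : Fin n, ∑ j, sk 1 g i j ^ 2 ≤ 1 + e) ∧ ∀ i j : Fin n, |sk 1 g i j| ≤ e)})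
    atTop (𝓝 0) := by
  obtain ⟨c, hc, hcc⟩ := chi_tail e he
  obtain ⟨c', hc', hcc'⟩ := chi_tail 1 one_pos
  have hlim : Tendsto (fun n : ℕ => ENNReal.ofReal ((n : ℝ) ^ 2 * Real.exp (-c * n)) +
      ENNReal.ofReal ((n : ℝ) ^ 2 * Real.exp (-(c' * (e ^ 2 / 2)) * n))) atTop (𝓝 0) := by
    have h1 := ENNReal.tendsto_ofReal (ROWS_lim c hc)
    have h2 := ENNReal.tendsto_ofReal (ROWS_lim (c' * (e ^ 2 / 2)) (by positivity))
    rw [ENNReal.ofReal_zero] at h1 h2
    simpa using h1.add h2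
  refine tendsto_of_tendsto_of_tendsto_of_le_of_le' tendsto_const_nhds hlim
    (Eventually.of_forall fun n => bot_le) ?_
  have hev : ∀ᶠ n : ℕ in atTop, 2 / e ^ 2 ≤ (n : ℝ) :=
    (tendsto_natCast_atTop_atTop (R := ℝ)).eventually_ge_atTop _
  filter_upwards [hev, eventually_ge_atTop 1] with n hn hn1
  have hn0 : (0 : ℝ) < n := by exact_mod_cast hn1
  have hsub : {g : Fin n × Fin n → ℝ | ¬ ((∀ i : Fin n, ∑ j, sk 1 g i j ^ 2 ≤ 1 + e) ∧
      ∀ i j : Fin n, |sk 1 g i j| ≤ e)} ⊆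
      (⋃ i : Fin n, {g | (1 + e) * n ≤ ∑ j : {j : Fin n // j ≠ i}, g (ROWS_r i j) ^ 2}) ∪
      (⋃ p : Fin n × Fin n, {g | (1 + 1) * (e ^ 2 / 2 * n) ≤ ∑ _j : Unit, g p ^ 2}) := by
    intro g hg
    simp only [Set.mem_ofPred_eq, not_and_or, not_forall, not_le] at hg
    rcases hg with ⟨i, hi⟩ | ⟨i, j, hij⟩
    · left
      refine Set.mem_iUnion.2 ⟨i, ?_⟩
      rw [ROWS_sum] at hi
      simp only [Set.mem_ofPred_eq]
      rw [one_div, inv_mul_eq_div, lt_div_iff₀ hn0] at hi
      exact hi.le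
    · right
      have hij' : j ≠ i := by
        rintro rfl
        simp [sk] at hij
        linarith
      refine Set.mem_iUnion.2 ⟨ROWS_r i ⟨j, hij'⟩, ?_⟩
      have h1 : sk 1 g i j = 1 / Real.sqrt n * g (ROWS_r i ⟨j, hij'⟩) := ROWS_sk g i ⟨j, hij'⟩
      rw [h1] at hij
      have h2 : e ^ 2 < (1 / Real.sqrt n * g (ROWS_r i ⟨j, hij'⟩)) ^ 2 := by
        rw [← sq_abs (1 / Real.sqrt n * g (ROWS_r i ⟨j, hij'⟩))]
        exact pow_lt_pow_left₀ hij he.le (by norm_num)
      rw [mul_pow, div_pow, one_pow, Real.sq_sqrt hn0.le, one_div, inv_mul_eq_div,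
        lt_div_iff₀ hn0] at h2
      simp only [Set.mem_ofPred_eq, univ_unique, sum_const, card_singleton, one_smul]
      linarith
  refine le_trans (measure_mono hsub) (le_trans (measure_union_le _ _) (add_le_add ?_ ?_))
  · refine le_trans (measure_iUnion_fintype_le _ _) ?_
    have hi : ∀ i : Fin n, dis n {g | (1 + e) * n ≤ ∑ j : {j : Fin n // j ≠ i},
        g (ROWS_r i j) ^ 2} ≤ ENNReal.ofReal (Real.exp (-c * n)) := by
      intro i
      unfold dis
      rw [ROWS_tail (ROWS_r i) (ROWS_r_inj i)]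
      refine hcc _ n ?_
      exact_mod_cast (Fintype.card_subtype_le _).trans (by simp)
    refine le_trans (sum_le_sum fun i _ => hi i) ?_
    rw [sum_const, card_univ, Fintype.card_fin, nsmul_eq_mul]
    rw [← ENNReal.ofReal_natCast, ← ENNReal.ofReal_mul hn0.le]
    refine ENNReal.ofReal_le_ofReal ?_
    have : (n : ℝ) ≤ n ^ 2 := by nlinarith [show (1 : ℝ) ≤ n by exact_mod_cast hn1]
    exact mul_le_mul_of_nonneg_right this (Real.exp_pos _).le
  · refine le_trans (measure_iUnion_fintype_le _ _) ?_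
    have hp : ∀ p : Fin n × Fin n, dis n {g | (1 + 1) * (e ^ 2 / 2 * n) ≤ ∑ _j : Unit,
        g p ^ 2} ≤ ENNReal.ofReal (Real.exp (-(c' * (e ^ 2 / 2)) * n)) := by
      intro p
      unfold dis
      rw [ROWS_tail (ι := Unit) (fun _ => p) (fun _ _ _ => rfl)]
      refine le_trans (hcc' Unit (e ^ 2 / 2 * n) ?_) ?_
      · rw [Fintype.card_unit, Nat.cast_one]
        rw [div_le_iff₀ (by positivity)] at hn
        nlinarith
      · refine ENNReal.ofReal_le_ofReal (le_of_eq ?_)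
        congr 1
        ring
    refine le_trans (sum_le_sum fun i _ => hp i) ?_
    rw [sum_const, card_univ, Fintype.card_prod, Fintype.card_fin, nsmul_eq_mul]
    rw [← ENNReal.ofReal_natCast, ← ENNReal.ofReal_mul (by positivity)]
    refine ENNReal.ofReal_le_ofReal (le_of_eq ?_)
    push_cast
    ring

/-- `good_whp` from `sk_norm` and `sk_rows`. -/
theorem good_whp_of (e : ℝ)
    (hnorm : Tendsto (fun n : ℕ => dis n
      {g | ¬ ∀ v : Fin n → ℝ, |∑ i, ∑ j, sk 1 g i j * v i * v j|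
        ≤ (2 + e) * ∑ i, v i ^ 2}) atTop (𝓝 0))
    (hrows : Tendsto (fun n : ℕ => dis n
      {g | ¬ ((∀ i : Fin n, ∑ j, sk 1 g i j ^ 2 ≤ 1 + e) ∧
        ∀ i j : Fin n, |sk 1 g i j| ≤ e)}) atTop (𝓝 0)) :
    Tendsto (fun n : ℕ => dis n {g | ¬ Good e (sk 1 g)}) atTop (𝓝 0) := by
  have h := hnorm.add hrows
  rw [add_zero] at h
  refine tendsto_of_tendsto_of_tendsto_of_le_of_le tendsto_const_nhds h
    (fun n => bot_le) fun n => ?_
  refine le_trans (measure_mono ?_) (measure_union_le _ _)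
  intro g hg
  simp only [Set.mem_ofPred_eq, Good] at hg
  by_cases h1 : ∀ v : Fin n → ℝ, |∑ i, ∑ j, sk 1 g i j * v i * v j| ≤ (2 + e) * ∑ i, v i ^ 2
  · right
    intro h2
    exact hg ⟨h1, h2.1, h2.2⟩
  · left
    exact h1

end Vale.Agent.P150
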