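import Vale.Agent.Lib.P150.Rows
import Vale.Agent.Lib.P150.Chi

/-!
# P150, module ROWS: final statement `sk_rows`
-/

namespace Vale.Agent.P150

open Finset MeasureTheory ProbabilityTheory Filter Topology

/-- ROWS. -/
theorem sk_rows (e : ℝ) (he : 0 < e) : Tendsto (fun n : ℕ => dis n
    {g | ¬ ((∀ i : Fin n, ∑ j, sk 1 g i j ^ 2 ≤ 1 + e) ∧ ∀ i j : Fin n, |sk 1 g i j| ≤ e)})
    atTop (𝓝 0) :=
  sk_rows_of chi_tail e he

end Vale.Agent.P150
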