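import Vale.Agent.Lib.P150.Defs

/-!
# P150: basic facts on the heat-bath semigroup (positivity, row sums, semigroup property,
reversibility, derivative)
-/

namespace Vale.Agent.P150.Semi

open Finset Filter Topology

variable {n : ℕ}

theorem mix_st_st (x : Cfg n) (i : Fin n) (b c : Bool) : st (st x i b) i c = st x i c := by
  unfold st; simp

theorem mix_st_self (x : Cfg n) (i : Fin n) : st x i (x i) = x := by
  unfold st; simp

/-- flip of the spin at `i` -/
def mixFlip (i : Fin n) : Cfg n ≃ Cfg n where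
  toFun x := st x i (!(x i))
  invFun x := st x i (!(x i))
  left_inv x := by
    unfold st; simp
  right_inv x := by
    unfold st; simp

theorem mix_sum_two (i : Fin n) (F : Cfg n → ℝ) :
    ∑ x, F x = (1/2) * ∑ x, (F (st x i true) + F (st x i false)) := by
  have h1 : ∑ x, F (mixFlip i x) = ∑ x, F x := Equiv.sum_comp (mixFlip i) F
  have h2 : ∀ x, F (st x i true) + F (st x i false) = F x + F (mixFlip i x) := by
    intro x
    have hx := mix_st_self x i
    show _ = F x + F (st x i (!(x i)))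
    cases hxi : x i
    · rw [hxi] at hx
      rw [hx]; simp [add_comm]
    · rw [hxi] at hx
      rw [hx]; simp
  rw [Finset.sum_congr rfl fun x _ => h2 x, Finset.sum_add_distrib, h1]
  ring

theorem mix_hb_st (w : Cfg n → ℝ) (i : Fin n) (f : Cfg n → ℝ) (x : Cfg n) (b : Bool) :
    hb w i f (st x i b) = hb w i f x := by
  unfold hb; simp only [mix_st_st]

theorem mix_hb_inv (w : Cfg n → ℝ) (hw : ∀ x, 0 < w x) (i : Fin n) (f g : Cfg n → ℝ)
    (hg : ∀ x b, g (st x i b) = g x) :
    ∑ x, w x * (hb w i f x * g x) = ∑ x, w x * (f x * g x) := by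
  rw [mix_sum_two i, mix_sum_two i (fun x => w x * (f x * g x))]
  congr 1
  refine Finset.sum_congr rfl fun x _ => ?_
  simp only [mix_hb_st, hg]
  have hp : 0 < w (st x i true) + w (st x i false) := add_pos (hw _) (hw _)
  have : hb w i f x * (w (st x i true) + w (st x i false)) =
      w (st x i true) * f (st x i true) + w (st x i false) * f (st x i false) := by
    unfold hb; rw [div_mul_cancel₀ _ hp.ne']
  linear_combination g x * this

theorem mix_hb_pos (w : Cfg n → ℝ) (hw : ∀ x, 0 < w x) (i : Fin n) (f : Cfg n → ℝ)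
    (hf : ∀ x, 0 < f x) (x : Cfg n) : 0 < hb w i f x := by
  unfold hb
  have := hw (st x i true); have := hw (st x i false)
  have := hf (st x i true); have := hf (st x i false)
  positivity

/-- one step of the discrete dynamics, acting on functions -/
noncomputable def mixK (w : Cfg n → ℝ) (f : Cfg n → ℝ) : Cfg n → ℝ :=
  fun x => (∑ i, hb w i f x) / n

theorem mixK_pos (hn : 0 < n) (w : Cfg n → ℝ) (hw : ∀ x, 0 < w x) (f : Cfg n → ℝ)
    (hf : ∀ x, 0 < f x) (x : Cfg n) : 0 < mixK w f x := by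
  unfold mixK
  have : 0 < ∑ i, hb w i f x := by
    have : Nonempty (Fin n) := ⟨⟨0, hn⟩⟩
    exact Finset.sum_pos (fun i _ => mix_hb_pos w hw i f hf x) Finset.univ_nonempty
  have : (0:ℝ) < n := by exact_mod_cast hn
  positivity

theorem mixK_sum (hn : 0 < n) (w : Cfg n → ℝ) (hw : ∀ x, 0 < w x) (f : Cfg n → ℝ) :
    ∑ x, w x * mixK w f x = ∑ x, w x * f x := by
  have hn' : (0:ℝ) < n := by exact_mod_cast hn
  have h1 : ∀ i, ∑ x, w x * hb w i f x = ∑ x, w x * f x := by
    intro i
    have := mix_hb_inv w hw i f (fun _ => 1) (fun _ _ => rfl)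
    simpa using this
  unfold mixK
  have h2 : ∀ x, w x * ((∑ i, hb w i f x) / n) = (1 / n) * ∑ i, w x * hb w i f x := by
    intro x; rw [← Finset.mul_sum]; ring
  rw [Finset.sum_congr rfl fun x _ => h2 x, ← Finset.mul_sum, Finset.sum_comm,
    Finset.sum_congr rfl fun i _ => h1 i, Finset.sum_const, Finset.card_univ, Fintype.card_fin,
    nsmul_eq_mul]
  field_simp

theorem mix_Qker_mulVec (J : Fin n → Fin n → ℝ) (h : Fin n → ℝ) (i : Fin n) (f : Cfg n → ℝ) :
    (Qker J h i).mulVec f = hb (wt J h) i f := by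
  funext x
  unfold Matrix.mulVec dotProduct Qker hb
  simp only [Matrix.of_apply, Finset.sum_mul, ite_mul, zero_mul]
  rw [Finset.sum_comm]
  simp only [Finset.sum_ite_eq', Finset.mem_univ, if_true, Fintype.sum_bool]
  ring

/-- transition matrix of the discrete dynamics -/
noncomputable def mixM (J : Fin n → Fin n → ℝ) (h : Fin n → ℝ) : Matrix (Cfg n) (Cfg n) ℝ :=
  (1 / (n : ℝ)) • ∑ i, Qker J h i

theorem mixM_mulVec (J : Fin n → Fin n → ℝ) (h : Fin n → ℝ) (f : Cfg n → ℝ) :
    (mixM J h).mulVec f = mixK (wt J h) f := by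
  funext x
  unfold mixM mixK
  rw [Matrix.smul_mulVec, Matrix.sum_mulVec]
  simp only [Pi.smul_apply, Finset.sum_apply, mix_Qker_mulVec, smul_eq_mul]
  ring

theorem mixM_pow_mulVec (J : Fin n → Fin n → ℝ) (h : Fin n → ℝ) (f : Cfg n → ℝ) (k : ℕ) :
    (mixM J h ^ k).mulVec f = (mixK (wt J h))^[k] f := by
  induction k with
  | zero => simp
  | succ k ih =>
    rw [pow_succ', ← Matrix.mulVec_mulVec, ih, mixM_mulVec, Function.iterate_succ_apply']

theorem mix_gen (hn : 0 < n) (J : Fin n → Fin n → ℝ) (h : Fin n → ℝ) (t : ℝ) :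
    t • gen J h = (n * t) • mixM J h + Matrix.diagonal (fun _ => -(n * t)) := by
  have hn' : (n : ℝ) ≠ 0 := by exact_mod_cast hn.ne'
  unfold gen mixM
  rw [Finset.sum_sub_distrib, Finset.sum_const, Finset.card_univ, Fintype.card_fin, smul_sub,
    smul_smul, sub_eq_add_neg]
  congr 1
  · congr 1
    field_simp
  · ext x y
    by_cases hxy : x = y
    · subst hxy
      simp only [Matrix.neg_apply, Matrix.smul_apply, Matrix.one_apply_eq,
        Matrix.diagonal_apply_eq]
      simp only [nsmul_eq_mul, smul_eq_mul]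
      ring
    · simp only [Matrix.neg_apply, Matrix.smul_apply, Matrix.one_apply_ne hxy,
        Matrix.diagonal_apply_ne _ hxy, smul_zero, neg_zero]

theorem mix_semi (hn : 0 < n) (J : Fin n → Fin n → ℝ) (h : Fin n → ℝ) (t : ℝ) (x y : Cfg n) :
    HasSum (fun k : ℕ => Real.exp (-(n * t)) * (n * t) ^ k / (k.factorial : ℝ)
      * (mixM J h ^ k) x y) (semi J h t x y) := by
  have h1 : semi J h t = Real.exp (-(n * t)) • NormedSpace.exp ((n * t) • mixM J h) := by
    unfold semi
    rw [mix_gen hn, Matrix.exp_add_of_commute _ _ ?_, Matrix.exp_diagonal]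
    · have : Matrix.diagonal (NormedSpace.exp (fun _ : Cfg n => -((n:ℝ) * t)))
          = Real.exp (-(n * t)) • (1 : Matrix (Cfg n) (Cfg n) ℝ) := by
        rw [← Matrix.diagonal_one, ← Matrix.diagonal_smul]
        congr 1
        funext z
        rw [Pi.coe_exp, Real.exp_eq_exp_ℝ]
        simp
      rw [this, mul_smul_comm, mul_one]
    · have : Matrix.diagonal (fun _ : Cfg n => -((n:ℝ) * t))
          = (-((n:ℝ) * t)) • (1 : Matrix (Cfg n) (Cfg n) ℝ) := by
        rw [← Matrix.diagonal_one, ← Matrix.diagonal_smul]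
        congr 1
        funext z
        simp
      rw [this]
      exact (Commute.one_right _).smul_right _
  have h2 : HasSum (fun k : ℕ => ((k.factorial : ℝ)⁻¹) • ((n * t) • mixM J h) ^ k)
      (NormedSpace.exp ((n * t) • mixM J h)) := by
    open scoped Matrix.Norms.Operator in
    exact NormedSpace.exp_series_hasSum_exp' (𝕂 := ℝ) ((n * t) • mixM J h)
  have h3 := (Pi.hasSum.1 ((Pi.hasSum.1 h2) x)) y
  have h4 := h3.mul_left (Real.exp (-(n * t)))
  have h5 : Real.exp (-(n * t)) * NormedSpace.exp ((n * t) • mixM J h) x y = semi J h t x y := by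
    rw [h1]; rfl
  rw [h5] at h4
  have h6 : (fun k : ℕ => Real.exp (-(n * t)) * (n * t) ^ k / (k.factorial : ℝ)
      * (mixM J h ^ k) x y) = fun k : ℕ => Real.exp (-(n * t)) *
        (((k.factorial : ℝ)⁻¹) • ((n * t) • mixM J h) ^ k) x y := by
    funext k
    rw [smul_pow]
    simp only [Matrix.smul_apply, smul_eq_mul]
    ring
  rw [h6]
  exact h4

theorem mix_hs {f g : ℕ → ℝ} {a : ℝ} (h : HasSum f a) (hf : ∀ k, g k = f k) : HasSum g a := by
  rw [show g = f from funext hf]; exact h

theorem mixK_adj (hn : 0 < n) (w : Cfg n → ℝ) (hw : ∀ x, 0 < w x) (f g : Cfg n → ℝ) :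
    ∑ x, w x * (mixK w f x * g x) = ∑ x, w x * (f x * mixK w g x) := by
  have hn' : (0:ℝ) < n := by exact_mod_cast hn
  have h1 : ∀ i, ∑ x, w x * (hb w i f x * g x) = ∑ x, w x * (f x * hb w i g x) := by
    intro i
    have e1 := mix_hb_inv w hw i f (fun x => hb w i g x) (fun x b => mix_hb_st w i g x b)
    have e2 := mix_hb_inv w hw i g (fun x => hb w i f x) (fun x b => mix_hb_st w i f x b)
    rw [← e1]
    have e3 : ∀ x, w x * (hb w i f x * g x) = w x * (g x * hb w i f x) := fun x => by ring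
    rw [Finset.sum_congr rfl fun x _ => e3 x, ← e2]
    exact Finset.sum_congr rfl fun x _ => by ring
  have h2 : ∀ F G : Cfg n → ℝ, (∀ i : Fin n, True) → ∑ x, w x * (mixK w F x * G x) =
      (1 / n) * ∑ i, ∑ x, w x * (hb w i F x * G x) := by
    intro F G _
    rw [Finset.sum_comm, Finset.mul_sum]
    refine Finset.sum_congr rfl fun x _ => ?_
    rw [← Finset.mul_sum, ← Finset.sum_mul]
    unfold mixK
    ring
  have h3 : ∀ x, w x * (f x * mixK w g x) = w x * (mixK w g x * f x) := fun x => by ring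
  rw [Finset.sum_congr rfl fun x _ => h3 x, h2 f g (fun _ => trivial), h2 g f (fun _ => trivial),
    Finset.sum_congr rfl fun i _ => h1 i]
  congr 1
  refine Finset.sum_congr rfl fun i _ => Finset.sum_congr rfl fun x _ => by ring

theorem mixK_iter_adj (hn : 0 < n) (w : Cfg n → ℝ) (hw : ∀ x, 0 < w x) (k : ℕ) :
    ∀ f g : Cfg n → ℝ, ∑ x, w x * ((mixK w)^[k] f x * g x)
      = ∑ x, w x * (f x * (mixK w)^[k] g x) := by
  induction k with
  | zero => intro f g; rfl
  | succ k ih =>
    intro f g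
    rw [Function.iterate_succ_apply', mixK_adj hn w hw, ih, ← Function.iterate_succ_apply]

theorem mixM_pow_apply (J : Fin n → Fin n → ℝ) (h : Fin n → ℝ) (k : ℕ) (x y : Cfg n) :
    (mixM J h ^ k) x y = (mixK (wt J h))^[k] (Pi.single y 1) x := by
  rw [← mixM_pow_mulVec]
  simp

theorem wt_pos' (J : Fin n → Fin n → ℝ) (h : Fin n → ℝ) (x : Cfg n) : 0 < wt J h x :=
  Real.exp_pos _

theorem mix_rev_pow (hn : 0 < n) (J : Fin n → Fin n → ℝ) (h : Fin n → ℝ) (k : ℕ) (x y : Cfg n) :
    wt J h x * (mixM J h ^ k) x y = wt J h y * (mixM J h ^ k) y x := by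
  have := mixK_iter_adj hn (wt J h) (wt_pos' J h) k (Pi.single y 1) (Pi.single x 1)
  rw [mixM_pow_apply, mixM_pow_apply]
  simpa [Pi.single_apply] using this

theorem mix_rev (hn : 0 < n) (J : Fin n → Fin n → ℝ) (h : Fin n → ℝ) (t : ℝ) (x y : Cfg n) :
    wt J h x * semi J h t x y = wt J h y * semi J h t y x := by
  have h1 := (mix_semi hn J h t x y).mul_left (wt J h x)
  have h2 := (mix_semi hn J h t y x).mul_left (wt J h y)
  refine h1.unique (mix_hs h2 fun k => ?_)
  have := mix_rev_pow hn J h k x y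
  linear_combination (Real.exp (-(n * t)) * (n * t) ^ k / (k.factorial : ℝ)) * this


/-- Poisson weights -/
theorem mix_poisson (s : ℝ) : HasSum (fun k : ℕ => Real.exp (-s) * s ^ k / (k.factorial : ℝ)) 1 := by
  have h1 := NormedSpace.expSeries_div_hasSum_exp s
  rw [← Real.exp_eq_exp_ℝ] at h1
  have h2 := h1.mul_left (Real.exp (-s))
  rw [← Real.exp_add, neg_add_cancel, Real.exp_zero] at h2
  refine mix_hs h2 fun k => ?_
  ring

theorem mixM_nonneg (J : Fin n → Fin n → ℝ) (h : Fin n → ℝ) (x y : Cfg n) : 0 ≤ mixM J h x y := by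
  unfold mixM Qker
  rw [Matrix.smul_apply, Matrix.sum_apply, smul_eq_mul]
  refine mul_nonneg (by positivity) (Finset.sum_nonneg fun i _ => ?_)
  rw [Matrix.of_apply]
  refine Finset.sum_nonneg fun b _ => ?_
  split_ifs
  · unfold wt; positivity
  · exact le_rfl

theorem mixM_pow_nonneg (J : Fin n → Fin n → ℝ) (h : Fin n → ℝ) (k : ℕ) (x y : Cfg n) :
    0 ≤ (mixM J h ^ k) x y := by
  induction k generalizing x y with
  | zero => rw [pow_zero, Matrix.one_apply]; split_ifs <;> norm_num
  | succ k ih =>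
    rw [pow_succ, Matrix.mul_apply]
    exact Finset.sum_nonneg fun z _ => mul_nonneg (ih x z) (mixM_nonneg J h z y)

theorem mixK_one (hn : 0 < n) (w : Cfg n → ℝ) (hw : ∀ x, 0 < w x) :
    mixK w (fun _ => 1) = fun _ => 1 := by
  have hn' : (n : ℝ) ≠ 0 := by exact_mod_cast hn.ne'
  funext x
  unfold mixK hb
  have h1 : ∀ i : Fin n, (w (st x i true) * 1 + w (st x i false) * 1) /
      (w (st x i true) + w (st x i false)) = 1 := by
    intro i
    have := hw (st x i true); have := hw (st x i false)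
    rw [mul_one, mul_one, div_self (by positivity)]
  rw [Finset.sum_congr rfl fun i _ => h1 i, Finset.sum_const, Finset.card_univ, Fintype.card_fin,
    nsmul_eq_mul, mul_one, div_self hn']

theorem mixM_pow_row (hn : 0 < n) (J : Fin n → Fin n → ℝ) (h : Fin n → ℝ) (k : ℕ) (x : Cfg n) :
    ∑ y, (mixM J h ^ k) x y = 1 := by
  have h1 : (mixM J h ^ k).mulVec (fun _ => 1) x = 1 := by
    rw [mixM_pow_mulVec]
    have h2 : ∀ k : ℕ, (mixK (wt J h))^[k] (fun _ => 1) = fun _ => 1 := by
      intro k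
      induction k with
      | zero => rfl
      | succ k ih => rw [Function.iterate_succ_apply', ih, mixK_one hn _ (wt_pos' J h)]
    rw [h2]
  simpa [Matrix.mulVec, dotProduct] using h1

/-- SEMI1: the semigroup has nonnegative entries. -/
theorem semi_nonneg (hn : 0 < n) (J : Fin n → Fin n → ℝ) (h : Fin n → ℝ) (t : ℝ) (ht : 0 ≤ t)
    (x y : Cfg n) : 0 ≤ semi J h t x y := by
  have h1 := mix_semi hn J h t x y
  rw [← h1.tsum_eq]
  refine tsum_nonneg fun k => mul_nonneg ?_ (mixM_pow_nonneg J h k x y)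
  have : 0 ≤ (n:ℝ) * t := by positivity
  positivity

/-- SEMI2: rows sum to one. -/
theorem semi_row_sum (hn : 0 < n) (J : Fin n → Fin n → ℝ) (h : Fin n → ℝ) (t : ℝ) (x : Cfg n) :
    ∑ y, semi J h t x y = 1 := by
  have h1 : HasSum (fun k : ℕ => ∑ y, Real.exp (-(n * t)) * (n * t) ^ k / (k.factorial : ℝ)
      * (mixM J h ^ k) x y) (∑ y, semi J h t x y) :=
    hasSum_sum fun y _ => mix_semi hn J h t x y
  refine h1.unique (mix_hs (mix_poisson (n * t)) fun k => ?_)
  rw [← Finset.mul_sum, mixM_pow_row hn, mul_one]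

/-- SEMI3: semigroup property. -/
theorem semi_add (J : Fin n → Fin n → ℝ) (h : Fin n → ℝ) (s t : ℝ) :
    semi J h (s + t) = semi J h s * semi J h t := by
  unfold semi
  rw [add_smul]
  exact Matrix.exp_add_of_commute _ _ (((Commute.refl _).smul_left _).smul_right _)

theorem semi_zero (J : Fin n → Fin n → ℝ) (h : Fin n → ℝ) : semi J h 0 = 1 := by
  unfold semi
  rw [zero_smul, NormedSpace.exp_zero]

/-- SEMI4: derivative of the semigroup. -/
theorem semi_hasDerivAt (J : Fin n → Fin n → ℝ) (h : Fin n → ℝ) (t : ℝ) (x y : Cfg n) :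
    HasDerivAt (fun s => semi J h s x y) ((gen J h * semi J h t) x y) t := by
  have h1 : HasDerivAt (fun s : ℝ => NormedSpace.exp (s • gen J h))
      (gen J h * NormedSpace.exp (t • gen J h)) t := by
    open scoped Matrix.Norms.Operator in
    exact hasDerivAt_exp_smul_const' (𝕂 := ℝ) (gen J h) t
  have h2 := hasDerivAt_pi.1 h1 x
  exact hasDerivAt_pi.1 h2 y

/-- SEMI5: reversibility. -/
theorem semi_rev (hn : 0 < n) (J : Fin n → Fin n → ℝ) (h : Fin n → ℝ) (t : ℝ) (x y : Cfg n) :
    gibbs J h x * semi J h t x y = gibbs J h y * semi J h t y x := by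
  have h1 := mix_rev hn J h t x y
  unfold gibbs
  rw [div_mul_eq_mul_div, div_mul_eq_mul_div, h1]

/-- SEMI6: invariance of the Gibbs measure. -/
theorem semi_inv (hn : 0 < n) (J : Fin n → Fin n → ℝ) (h : Fin n → ℝ) (t : ℝ) (y : Cfg n) :
    ∑ x, gibbs J h x * semi J h t x y = gibbs J h y := by
  rw [Finset.sum_congr rfl fun x _ => semi_rev hn J h t x y, ← Finset.mul_sum,
    semi_row_sum hn, mul_one]

end Vale.Agent.P150.Semi
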