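import Vale.Agent.Lib.P150.Defs

/-!
# P150, module SYM: operator norm of the Sherrington-Kirkpatrick matrix
-/

namespace Vale.Agent.P150

open Finset MeasureTheory ProbabilityTheory Filter Topology

/-- Linear isometric involutions preserve the standard Gaussian measure. -/
theorem SYM_map {ι : Type} [Fintype ι] (T : (ι → ℝ) →ₗ[ℝ] (ι → ℝ)) (hT : ∀ x, T (T x) = x)
    (hn : ∀ x, ∑ i, (T x i) ^ 2 = ∑ i, x i ^ 2) :
    (Measure.pi (fun _ : ι => gaussianReal 0 1)).map T =
      Measure.pi (fun _ : ι => gaussianReal 0 1) := by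
  classical
  let e : EuclideanSpace ℝ ι ≃ₗ[ℝ] (ι → ℝ) := WithLp.linearEquiv 2 ℝ (ι → ℝ)
  let S : EuclideanSpace ℝ ι →ₗ[ℝ] EuclideanSpace ℝ ι :=
    e.symm.toLinearMap ∘ₗ T ∘ₗ e.toLinearMap
  have hS : ∀ x, S (S x) = x := by
    intro x
    simp [S, hT]
  let T' : EuclideanSpace ℝ ι ≃ₗᵢ[ℝ] EuclideanSpace ℝ ι :=
    { toLinearEquiv := LinearEquiv.ofInvolutive S hS
      norm_map' := by
        intro x
        have h1 : ‖S x‖ ^ 2 = ‖x‖ ^ 2 := by
          rw [EuclideanSpace.real_norm_sq_eq, EuclideanSpace.real_norm_sq_eq]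
          exact hn (e x)
        exact (sq_eq_sq₀ (norm_nonneg _) (norm_nonneg _)).1 h1 }
  have h1 : (Measure.pi (fun _ : ι => gaussianReal 0 1)).map (WithLp.toLp 2) =
      stdGaussian (EuclideanSpace ℝ ι) := map_pi_eq_stdGaussian
  have h2 : (stdGaussian (EuclideanSpace ℝ ι)).map T' = stdGaussian (EuclideanSpace ℝ ι) :=
    stdGaussian_map T'
  have hTm : Measurable T := (LinearMap.continuous_of_finiteDimensional T).measurable
  have hto : Measurable (WithLp.toLp 2 : (ι → ℝ) → EuclideanSpace ℝ ι) := by fun_prop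
  have hof : Measurable (WithLp.ofLp : EuclideanSpace ℝ ι → (ι → ℝ)) := by fun_prop
  have hT'm : Measurable T' := T'.continuous.measurable
  have h3 : (Measure.pi (fun _ : ι => gaussianReal 0 1)).map
      ((WithLp.toLp 2 : (ι → ℝ) → EuclideanSpace ℝ ι) ∘ T) =
      (Measure.pi (fun _ : ι => gaussianReal 0 1)).map (WithLp.toLp 2) := by
    rw [h1, ← h2, ← h1, Measure.map_map hT'm hto]
    rfl
  have h4 := congrArg (fun m => Measure.map (WithLp.ofLp : EuclideanSpace ℝ ι → (ι → ℝ)) m) h3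
  dsimp only at h4
  rw [Measure.map_map hof (hto.comp hTm), Measure.map_map hof hto] at h4
  have h5 : (WithLp.ofLp : EuclideanSpace ℝ ι → (ι → ℝ)) ∘
      ((WithLp.toLp 2 : (ι → ℝ) → EuclideanSpace ℝ ι) ∘ T) = T := rfl
  have h6 : (WithLp.ofLp : EuclideanSpace ℝ ι → (ι → ℝ)) ∘ (WithLp.toLp 2) = id := rfl
  rw [h5, h6, Measure.map_id] at h4
  exact h4

theorem SYM_preimage {ι : Type} [Fintype ι] (T : (ι → ℝ) →ₗ[ℝ] (ι → ℝ)) (hT : ∀ x, T (T x) = x)
    (hn : ∀ x, ∑ i, (T x i) ^ 2 = ∑ i, x i ^ 2) (s : Set (ι → ℝ)) :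
    (Measure.pi (fun _ : ι => gaussianReal 0 1)) (T ⁻¹' s) =
      (Measure.pi (fun _ : ι => gaussianReal 0 1)) s := by
  have hTm : Measurable T := (LinearMap.continuous_of_finiteDimensional T).measurable
  let E : (ι → ℝ) ≃ᵐ (ι → ℝ) :=
    { toFun := T
      invFun := T
      left_inv := hT
      right_inv := hT
      measurable_toFun := hTm
      measurable_invFun := hTm }
  have h1 := E.map_apply (μ := Measure.pi (fun _ : ι => gaussianReal 0 1)) s
  have h2 : Measure.map E (Measure.pi (fun _ : ι => gaussianReal 0 1)) =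
      Measure.pi (fun _ : ι => gaussianReal 0 1) := SYM_map T hT hn
  rw [h2] at h1
  exact h1.symm

/-- The rotation of the pairs `(X_ij, X_ji)`. -/
noncomputable def symT (n : ℕ) : (Fin n × Fin n → ℝ) →ₗ[ℝ] (Fin n × Fin n → ℝ) where
  toFun X q := if q.1 < q.2 then (X q + X q.swap) / Real.sqrt 2
    else if q.2 < q.1 then (X q.swap - X q) / Real.sqrt 2 else X q
  map_add' X Y := by
    funext q
    simp only [Pi.add_apply]
    split_ifs <;> ring
  map_smul' c X := by
    funext q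
    simp only [Pi.smul_apply, smul_eq_mul, RingHom.id_apply]
    split_ifs <;> ring

theorem symT_apply (n : ℕ) (X : Fin n × Fin n → ℝ) (q : Fin n × Fin n) :
    symT n X q = if q.1 < q.2 then (X q + X q.swap) / Real.sqrt 2
    else if q.2 < q.1 then (X q.swap - X q) / Real.sqrt 2 else X q := rfl

theorem SYM_sqrt2 : Real.sqrt 2 * Real.sqrt 2 = 2 := Real.mul_self_sqrt (by norm_num)

theorem symT_invol (n : ℕ) (X : Fin n × Fin n → ℝ) : symT n (symT n X) = X := by
  have hs : Real.sqrt 2 ≠ 0 := by positivity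
  have h2 := SYM_sqrt2
  funext q
  obtain ⟨i, j⟩ := q
  rw [symT_apply]
  rcases lt_trichotomy i j with h | h | h
  · simp only [h, if_true, symT_apply, Prod.swap, not_lt_of_gt h, if_false]
    field_simp
    rw [Real.sq_sqrt (by norm_num)]
    ring
  · subst h
    simp [symT_apply]
  · simp only [h, if_true, symT_apply, Prod.swap, not_lt_of_gt h, if_false]
    field_simp
    rw [Real.sq_sqrt (by norm_num)]
    ring

theorem symT_norm (n : ℕ) (X : Fin n × Fin n → ℝ) :
    ∑ q, (symT n X q) ^ 2 = ∑ q, X q ^ 2 := by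
  have hs : Real.sqrt 2 ≠ 0 := by positivity
  have h2 := SYM_sqrt2
  have hswap : ∀ φ : Fin n × Fin n → ℝ, ∑ q : Fin n × Fin n, φ q.swap = ∑ q, φ q := fun φ =>
    Equiv.sum_comp (Equiv.prodComm (Fin n) (Fin n)) φ
  have h3 : ∀ q : Fin n × Fin n, (symT n X q) ^ 2 + (symT n X q.swap) ^ 2 =
      X q ^ 2 + X q.swap ^ 2 := by
    intro q
    obtain ⟨i, j⟩ := q
    rcases lt_trichotomy i j with h | h | h
    · simp only [symT_apply, Prod.swap, h, if_true, not_lt_of_gt h, if_false]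
      rw [div_pow, div_pow, pow_two (Real.sqrt 2), h2]
      ring
    · subst h
      simp [symT_apply]
    · simp only [symT_apply, Prod.swap, h, if_true, not_lt_of_gt h, if_false]
      rw [div_pow, div_pow, pow_two (Real.sqrt 2), h2]
      ring
  have h4 := hswap (fun q => (symT n X q) ^ 2)
  have h5 := hswap (fun q => X q ^ 2)
  have h6 : ∑ q, ((symT n X q) ^ 2 + (symT n X q.swap) ^ 2) = ∑ q, (X q ^ 2 + X q.swap ^ 2) :=
    Finset.sum_congr rfl fun q _ => h3 q
  rw [Finset.sum_add_distrib, Finset.sum_add_distrib] at h6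
  linarith

/-- the sign change -/
theorem SYM_neg_preimage {ι : Type} [Fintype ι] (s : Set (ι → ℝ)) :
    (Measure.pi (fun _ : ι => gaussianReal 0 1)) {x | -x ∈ s} =
      (Measure.pi (fun _ : ι => gaussianReal 0 1)) s := by
  have h := SYM_preimage (-LinearMap.id : (ι → ℝ) →ₗ[ℝ] (ι → ℝ)) (fun x => by simp)
    (fun x => by simp) s
  exact h

theorem sk_symT {n : ℕ} (X : Fin n × Fin n → ℝ) (i j : Fin n) :
    sk 1 (symT n X) i j = (1 / (Real.sqrt n * Real.sqrt 2)) *
      (X (i, j) + X (j, i) - if i = j then 2 * X (i, i) else 0) := by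
  unfold sk
  rcases lt_trichotomy i j with h | h | h
  · simp only [h, if_true, symT_apply, Prod.swap, h.ne, if_false, sub_zero]
    ring
  · subst h
    simp only [lt_irrefl, if_false, if_true]
    ring
  · simp only [not_lt_of_gt h, if_false, h, if_true, symT_apply, Prod.swap, h.ne', sub_zero]
    ring

theorem sk_quad {n : ℕ} (X : Fin n × Fin n → ℝ) (v : Fin n → ℝ) :
    ∑ i, ∑ j, sk 1 (symT n X) i j * v i * v j = (1 / Real.sqrt n) *
      (Real.sqrt 2 * ∑ i, ∑ j, X (i, j) * v i * v j - Real.sqrt 2 * ∑ i, X (i, i) * v i ^ 2) := by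
  have h2 := SYM_sqrt2
  have hs : Real.sqrt 2 ≠ 0 := by positivity
  have h3 : 1 / Real.sqrt 2 * 2 = Real.sqrt 2 := by
    rw [one_div, inv_mul_eq_iff_eq_mul₀ hs]; exact h2.symm
  have h4 : ∀ i j, sk 1 (symT n X) i j * v i * v j = (1 / (Real.sqrt n * Real.sqrt 2)) *
      (X (i, j) * v i * v j + X (j, i) * v j * v i -
        if i = j then 2 * (X (i, i) * v i ^ 2) else 0) := by
    intro i j
    rw [sk_symT]
    split_ifs with h
    · subst h; ring
    · ring
  simp only [h4]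
  have h5 : ∑ i, ∑ j, (1 / (Real.sqrt n * Real.sqrt 2)) *
      (X (i, j) * v i * v j + X (j, i) * v j * v i -
        if i = j then 2 * (X (i, i) * v i ^ 2) else 0) = (1 / (Real.sqrt n * Real.sqrt 2)) *
      (∑ i, ∑ j, X (i, j) * v i * v j + ∑ i, ∑ j, X (j, i) * v j * v i -
        ∑ i : Fin n, ∑ j : Fin n, if i = j then 2 * (X (i, i) * v i ^ 2) else 0) := by
    simp only [← Finset.mul_sum, Finset.sum_sub_distrib, Finset.sum_add_distrib]
  rw [h5]
  have h6 : ∑ i, ∑ j, X (j, i) * v j * v i = ∑ i, ∑ j, X (i, j) * v i * v j := Finset.sum_comm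
  have h7 : ∑ i : Fin n, ∑ j : Fin n, (if i = j then 2 * (X (i, i) * v i ^ 2) else 0) =
      2 * ∑ i, X (i, i) * v i ^ 2 := by
    rw [Finset.mul_sum]
    apply Finset.sum_congr rfl
    intro i _
    simp
  rw [h6, h7]
  have h8 : (1 / (Real.sqrt n * Real.sqrt 2)) = (1 / Real.sqrt n) * (1 / Real.sqrt 2) := by
    rw [one_div, one_div, one_div, mul_inv]
  rw [h8, mul_assoc]
  congr 1
  have h9 : ∀ a b : ℝ, 1 / Real.sqrt 2 * (a + a - 2 * b) = (1 / Real.sqrt 2 * 2) * a -
      (1 / Real.sqrt 2 * 2) * b := fun a b => by ring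
  rw [h9, h3]

/-- diagonal entries are small -/
theorem SYM_diag
    (chi_tail : ∀ δ : ℝ, 0 < δ → ∃ c : ℝ, 0 < c ∧ ∀ (ι : Type) [Fintype ι] (N : ℝ),
      (Fintype.card ι : ℝ) ≤ N →
      (Measure.pi (fun _ : ι => gaussianReal 0 1)) {x | (1 + δ) * N ≤ ∑ i, x i ^ 2}
      ≤ ENNReal.ofReal (Real.exp (-c * N)))
    (e : ℝ) (he : 0 < e) : Tendsto (fun n : ℕ => dis n
    {X | ∃ i : Fin n, e / 2 * Real.sqrt n < Real.sqrt 2 * |X (i, i)|}) atTop (𝓝 0) := by
  obtain ⟨c, hc, hchi⟩ := chi_tail 1 one_pos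
  set c' : ℝ := c * (e ^ 2 / 16) with hc'
  have hc'0 : 0 < c' := by positivity
  -- bound for large n
  have hbound : ∀ n : ℕ, 1 ≤ e ^ 2 / 16 * n → dis n
      {X | ∃ i : Fin n, e / 2 * Real.sqrt n < Real.sqrt 2 * |X (i, i)|} ≤
      ENNReal.ofReal (n * Real.exp (-(c' * n))) := by
    intro n hn
    have hsub : {X : Fin n × Fin n → ℝ | ∃ i : Fin n,
        e / 2 * Real.sqrt n < Real.sqrt 2 * |X (i, i)|} ⊆
        ⋃ i : Fin n, {X | (1 + 1) * (e ^ 2 / 16 * n) ≤ X (i, i) ^ 2} := by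
      rintro X ⟨i, hi⟩
      refine Set.mem_iUnion.2 ⟨i, ?_⟩
      have h1 : (e / 2 * Real.sqrt n) ^ 2 < (Real.sqrt 2 * |X (i, i)|) ^ 2 :=
        pow_lt_pow_left₀ hi (by positivity) two_ne_zero
      rw [mul_pow, mul_pow, Real.sq_sqrt (by positivity), Real.sq_sqrt (by positivity),
        sq_abs] at h1
      simp only [Set.mem_ofPred_eq]
      nlinarith
    have hone : ∀ i : Fin n, dis n {X | (1 + 1) * (e ^ 2 / 16 * n) ≤ X (i, i) ^ 2} ≤
        ENNReal.ofReal (Real.exp (-(c' * n))) := by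
      intro i
      have h1 := hchi Unit (e ^ 2 / 16 * n) (by simpa using hn)
      have h2 : (Measure.pi (fun _ : Unit => gaussianReal 0 1))
          {x | (1 + 1) * (e ^ 2 / 16 * n) ≤ ∑ i, x i ^ 2} =
          (gaussianReal 0 1) {y | (1 + 1) * (e ^ 2 / 16 * n) ≤ y ^ 2} := by
        have hmp := measurePreserving_eval (fun _ : Unit => gaussianReal 0 1) ()
        have hm : MeasurableSet {y : ℝ | (1 + 1) * (e ^ 2 / 16 * n) ≤ y ^ 2} :=
          measurableSet_le measurable_const (by fun_prop)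
        rw [← hmp.measure_preimage hm.nullMeasurableSet]
        congr 1
        ext x
        simp
      have h3 : dis n {X | (1 + 1) * (e ^ 2 / 16 * n) ≤ X (i, i) ^ 2} =
          (gaussianReal 0 1) {y | (1 + 1) * (e ^ 2 / 16 * n) ≤ y ^ 2} := by
        have hmp := measurePreserving_eval (fun _ : Fin n × Fin n => gaussianReal 0 1) (i, i)
        have hm : MeasurableSet {y : ℝ | (1 + 1) * (e ^ 2 / 16 * n) ≤ y ^ 2} :=
          measurableSet_le measurable_const (by fun_prop)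
        rw [← hmp.measure_preimage hm.nullMeasurableSet]
        rfl
      rw [h3, ← h2]
      refine h1.trans (le_of_eq ?_)
      congr 2
      rw [hc']; ring
    calc dis n {X | ∃ i : Fin n, e / 2 * Real.sqrt n < Real.sqrt 2 * |X (i, i)|}
        ≤ dis n (⋃ i : Fin n, {X | (1 + 1) * (e ^ 2 / 16 * n) ≤ X (i, i) ^ 2}) :=
          measure_mono hsub
      _ ≤ ∑ i : Fin n, dis n {X | (1 + 1) * (e ^ 2 / 16 * n) ≤ X (i, i) ^ 2} :=
          measure_iUnion_fintype_le _ _
      _ ≤ ∑ _i : Fin n, ENNReal.ofReal (Real.exp (-(c' * n))) :=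
          Finset.sum_le_sum fun i _ => hone i
      _ = ENNReal.ofReal (n * Real.exp (-(c' * n))) := by
          rw [Finset.sum_const, Finset.card_univ, Fintype.card_fin, nsmul_eq_mul,
            ENNReal.ofReal_mul (by positivity), ENNReal.ofReal_natCast]
  have hlim : Tendsto (fun n : ℕ => ENNReal.ofReal (n * Real.exp (-(c' * n)))) atTop (𝓝 0) := by
    rw [← ENNReal.ofReal_zero]
    apply ENNReal.tendsto_ofReal
    have h1 := Real.tendsto_pow_mul_exp_neg_atTop_nhds_zero 1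
    have h2 : Tendsto (fun n : ℕ => c' * (n:ℝ)) atTop atTop :=
      Tendsto.const_mul_atTop hc'0 tendsto_natCast_atTop_atTop
    have h3 := (h1.comp h2).const_mul (1 / c')
    simp only [mul_zero] at h3
    refine h3.congr fun n => ?_
    simp only [Function.comp_apply, pow_one]
    field_simp
  have hev : ∀ᶠ n : ℕ in atTop, 1 ≤ e ^ 2 / 16 * (n:ℝ) :=
    (Tendsto.const_mul_atTop (by positivity) tendsto_natCast_atTop_atTop).eventually_ge_atTop 1
  exact tendsto_of_tendsto_of_tendsto_of_le_of_le' tendsto_const_nhds hlim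
    (Eventually.of_forall fun _ => zero_le) (hev.mono fun n hn => hbound n hn)

/-- SYM, from the chi-square tail bound and the GOE bound. -/
theorem sk_norm_of
    (chi_tail : ∀ δ : ℝ, 0 < δ → ∃ c : ℝ, 0 < c ∧ ∀ (ι : Type) [Fintype ι] (N : ℝ),
      (Fintype.card ι : ℝ) ≤ N →
      (Measure.pi (fun _ : ι => gaussianReal 0 1)) {x | (1 + δ) * N ≤ ∑ i, x i ^ 2}
      ≤ ENNReal.ofReal (Real.exp (-c * N)))
    (goe : ∀ e : ℝ, 0 < e → Tendsto (fun n : ℕ => dis n
      {X | ¬ ∀ v : Fin n → ℝ, Real.sqrt 2 * ∑ i, ∑ j, X (i, j) * v i * v j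
        ≤ (2 + e) * Real.sqrt n * ∑ i, v i ^ 2}) atTop (𝓝 0))
    (e : ℝ) (he : 0 < e) : Tendsto (fun n : ℕ => dis n
    {g | ¬ ∀ v : Fin n → ℝ, |∑ i, ∑ j, sk 1 g i j * v i * v j|
        ≤ (2 + e) * ∑ i, v i ^ 2}) atTop (𝓝 0) := by
  have hg := goe (e / 2) (by positivity)
  have hd := SYM_diag chi_tail e he
  set Ap : ∀ n : ℕ, Set (Fin n × Fin n → ℝ) := fun n =>
    {g | ¬ ∀ v : Fin n → ℝ, ∑ i, ∑ j, sk 1 g i j * v i * v j ≤ (2 + e) * ∑ i, v i ^ 2} with hAp
  have hskneg : ∀ (n : ℕ) (g : Fin n × Fin n → ℝ) (i j : Fin n), sk 1 (-g) i j = - sk 1 g i j := by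
    intro n g i j
    unfold sk
    simp only [Pi.neg_apply]
    split_ifs <;> ring
  have hsub1 : ∀ n : ℕ, {g : Fin n × Fin n → ℝ | ¬ ∀ v : Fin n → ℝ,
      |∑ i, ∑ j, sk 1 g i j * v i * v j| ≤ (2 + e) * ∑ i, v i ^ 2} ⊆
      Ap n ∪ {g | -g ∈ Ap n} := by
    intro n g hgm
    simp only [Set.mem_ofPred_eq] at hgm
    push Not at hgm
    obtain ⟨v, hv⟩ := hgm
    rcases lt_abs.1 hv with h | h
    · left
      simp only [hAp, Set.mem_ofPred_eq]
      push Not
      exact ⟨v, h⟩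
    · right
      simp only [hAp, Set.mem_ofPred_eq]
      push Not
      refine ⟨v, ?_⟩
      have h1 : ∑ i, ∑ j, sk 1 (-g) i j * v i * v j = - ∑ i, ∑ j, sk 1 g i j * v i * v j := by
        rw [← Finset.sum_neg_distrib]
        apply Finset.sum_congr rfl
        intro i _
        rw [← Finset.sum_neg_distrib]
        apply Finset.sum_congr rfl
        intro j _
        rw [hskneg]; ring
      rw [h1]
      exact h
  have hsub2 : ∀ n : ℕ, (symT n) ⁻¹' (Ap n) ⊆
      {X | ¬ ∀ v : Fin n → ℝ, Real.sqrt 2 * ∑ i, ∑ j, X (i, j) * v i * v j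
        ≤ (2 + e / 2) * Real.sqrt n * ∑ i, v i ^ 2} ∪
      {X | ∃ i : Fin n, e / 2 * Real.sqrt n < Real.sqrt 2 * |X (i, i)|} := by
    intro n X hX
    by_contra hcon
    simp only [Set.mem_union, Set.mem_ofPred_eq, not_or, not_not] at hcon
    obtain ⟨h1, h2⟩ := hcon
    push Not at h2
    simp only [hAp, Set.mem_preimage, Set.mem_ofPred_eq] at hX
    apply hX
    intro v
    rw [sk_quad]
    rcases Nat.eq_zero_or_pos n with h0 | h0
    · subst h0
      simp
    · have hn : 0 < Real.sqrt n := Real.sqrt_pos.2 (by exact_mod_cast h0)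
      have h3 := h1 v
      have h4 : - (Real.sqrt 2 * ∑ i, X (i, i) * v i ^ 2) ≤
          e / 2 * Real.sqrt n * ∑ i, v i ^ 2 := by
        rw [Finset.mul_sum, ← Finset.sum_neg_distrib, Finset.mul_sum]
        apply Finset.sum_le_sum
        intro i _
        have h5 := h2 i
        have h6 : - (Real.sqrt 2 * (X (i, i) * v i ^ 2)) ≤ (Real.sqrt 2 * |X (i, i)|) * v i ^ 2 := by
          have h7 := neg_abs_le (X (i, i))
          have h8 : 0 ≤ Real.sqrt 2 * v i ^ 2 := by positivity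
          nlinarith
        exact h6.trans (mul_le_mul_of_nonneg_right h5 (by positivity))
      rw [one_div, inv_mul_le_iff₀ hn]
      nlinarith
  have hA : ∀ n : ℕ, dis n (Ap n) ≤ dis n
      {X | ¬ ∀ v : Fin n → ℝ, Real.sqrt 2 * ∑ i, ∑ j, X (i, j) * v i * v j
        ≤ (2 + e / 2) * Real.sqrt n * ∑ i, v i ^ 2} + dis n
      {X | ∃ i : Fin n, e / 2 * Real.sqrt n < Real.sqrt 2 * |X (i, i)|} := by
    intro n
    have h1 : dis n ((symT n) ⁻¹' (Ap n)) = dis n (Ap n) :=
      SYM_preimage (symT n) (symT_invol n) (symT_norm n) (Ap n)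
    rw [← h1]
    exact (measure_mono (hsub2 n)).trans (measure_union_le _ _)
  have hB : ∀ n : ℕ, dis n {g | -g ∈ Ap n} = dis n (Ap n) := fun n => SYM_neg_preimage (Ap n)
  have hfin : ∀ n : ℕ, dis n {g | ¬ ∀ v : Fin n → ℝ, |∑ i, ∑ j, sk 1 g i j * v i * v j|
        ≤ (2 + e) * ∑ i, v i ^ 2} ≤ (dis n
      {X | ¬ ∀ v : Fin n → ℝ, Real.sqrt 2 * ∑ i, ∑ j, X (i, j) * v i * v j
        ≤ (2 + e / 2) * Real.sqrt n * ∑ i, v i ^ 2} + dis n
      {X | ∃ i : Fin n, e / 2 * Real.sqrt n < Real.sqrt 2 * |X (i, i)|}) + (dis n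
      {X | ¬ ∀ v : Fin n → ℝ, Real.sqrt 2 * ∑ i, ∑ j, X (i, j) * v i * v j
        ≤ (2 + e / 2) * Real.sqrt n * ∑ i, v i ^ 2} + dis n
      {X | ∃ i : Fin n, e / 2 * Real.sqrt n < Real.sqrt 2 * |X (i, i)|}) := by
    intro n
    refine (measure_mono (hsub1 n)).trans ((measure_union_le _ _).trans ?_)
    rw [hB n]
    exact add_le_add (hA n) (hA n)
  have hlim := (hg.add hd).add (hg.add hd)
  simp only [add_zero] at hlim
  exact tendsto_of_tendsto_of_tendsto_of_le_of_le tendsto_const_nhds hlim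
    (fun _ => zero_le) hfin

end Vale.Agent.P150
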