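import Vale.Agent.Lib.P150.Nonempty

/-!
# P150: the distance to equilibrium is nonincreasing; all times after `tmix`
-/

namespace Vale.Agent.P150

open Finset Matrix

variable {n : ℕ}

theorem tvd_mono (hn : 0 < n) (J : Fin n → Fin n → ℝ) (h : Fin n → ℝ) (c s t : ℝ) (hs : 0 ≤ s)
    (hc : ∀ z, tvd J h t z ≤ c) (x : Cfg n) : tvd J h (s + t) x ≤ c := by
  unfold tvd at *
  have h1 : ∀ y, |semi J h (s + t) x y - gibbs J h y| ≤
      ∑ z, semi J h s x z * |semi J h t z y - gibbs J h y| := by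
    intro y
    have h2 : semi J h (s + t) x y - gibbs J h y =
        ∑ z, semi J h s x z * (semi J h t z y - gibbs J h y) := by
      simp only [mul_sub, sum_sub_distrib]
      rw [← sum_mul, Semi.semi_row_sum hn, one_mul, Semi.semi_add, Matrix.mul_apply]
    rw [h2]
    refine (abs_sum_le_sum_abs _ _).trans (le_of_eq (sum_congr rfl fun z _ => ?_))
    rw [abs_mul, abs_of_nonneg (Semi.semi_nonneg hn J h s hs x z)]
  calc (1 / 2) * ∑ y, |semi J h (s + t) x y - gibbs J h y|
      ≤ (1 / 2) * ∑ y, ∑ z, semi J h s x z * |semi J h t z y - gibbs J h y| :=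
        mul_le_mul_of_nonneg_left (sum_le_sum fun y _ => h1 y) (by norm_num)
    _ = ∑ z, semi J h s x z * ((1 / 2) * ∑ y, |semi J h t z y - gibbs J h y|) := by
        rw [sum_comm, mul_sum]
        refine sum_congr rfl fun z _ => ?_
        rw [← mul_sum]
        ring
    _ ≤ ∑ z, semi J h s x z * c :=
        sum_le_sum fun z _ => mul_le_mul_of_nonneg_left (hc z)
          (Semi.semi_nonneg hn J h s hs x z)
    _ = c := by rw [← sum_mul, Semi.semi_row_sum hn, one_mul]

/-- after the mixing time the distance stays below `1/4` -/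
theorem tvd_of_tmix_lt (hn : 0 < n) (J : Fin n → Fin n → ℝ) (h : Fin n → ℝ)
    (hs : ∀ i j, J i j = J j i) (hd : ∀ i, J i i = 0) (t : ℝ) (ht : tmix J h < t) (x : Cfg n) :
    tvd J h t x ≤ 1 / 4 := by
  obtain ⟨t0, ht0, ht1⟩ := mix_nonempty hn J h hs hd
  obtain ⟨r, ⟨_, hr1⟩, hrt⟩ := exists_lt_of_csInf_lt
    (s := {t : ℝ | 0 ≤ t ∧ ∀ x : Cfg n, tvd J h t x ≤ 1 / 4}) ⟨t0, ht0, ht1⟩ ht
  have h2 := tvd_mono hn J h (1 / 4) (t - r) r (by linarith) hr1 x
  rwa [sub_add_cancel] at h2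

end Vale.Agent.P150
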